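import Crest.Agent.R245.Defs

/-!
# Wirtinger calculus (task R245/Wirt)

Rules for `W s ξ f p = (Df ξ + s I Df (I ξ)) / 2`, and the jet of a potential.
Recipes are in the docstrings.  Everything is elementary `fderiv` calculus.
-/

set_option autoImplicit false
set_option linter.unusedSectionVars false

noncomputable section

namespace Crest.Agent.R245

open scoped ComplexConjugate ContDiff Topology
open Complex Set Filter

section Sm

variable {E F G : Type*} [NormedAddCommGroup E] [NormedSpace ℝ E] [NormedAddCommGroup F]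
  [NormedSpace ℝ F] [NormedAddCommGroup G] [NormedSpace ℝ G] {p : E}

theorem Sm.of_contDiffOn {f : E → F} {U : Set E} (hU : IsOpen U) (hf : ContDiffOn ℝ ∞ f U)
    (hp : p ∈ U) : Sm f p := by
  filter_upwards [hU.mem_nhds hp] with q hq using hf.contDiffAt (hU.mem_nhds hq)

theorem Sm.of_contDiff {f : E → F} (hf : ContDiff ℝ ∞ f) : Sm f p := by
  exact Eventually.of_forall fun _ => hf.contDiffAt

theorem Sm.contDiffAt {f : E → F} (h : Sm f p) : ContDiffAt ℝ ∞ f p := by
  exact Eventually.self_of_nhds h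

theorem Sm.differentiableAt {f : E → F} (h : Sm f p) : DifferentiableAt ℝ f p := by
  exact h.contDiffAt.differentiableAt (by simp)

theorem Sm.continuousAt {f : E → F} (h : Sm f p) : ContinuousAt f p := by
  exact h.contDiffAt.continuousAt

theorem Sm.eventually {f : E → F} (h : Sm f p) : ∀ᶠ q in 𝓝 p, Sm f q := by
  exact Eventually.eventually_nhds h

theorem Sm.congr {f g : E → F} (h : Sm f p) (hfg : f =ᶠ[𝓝 p] g) : Sm g p := by
  filter_upwards [h, hfg.eventuallyEq_nhds] with q h1 h2 using h1.congr_of_eventuallyEq h2.symm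

/-- An open set on which `f` is smooth. -/
theorem Sm.exists_open {f : E → F} (h : Sm f p) :
    ∃ U : Set E, IsOpen U ∧ p ∈ U ∧ ContDiffOn ℝ ∞ f U := by
  obtain ⟨U, hU, ho, hp⟩ := eventually_nhds_iff.1 h
  exact ⟨U, ho, hp, fun q hq => (hU q hq).contDiffWithinAt⟩

theorem Sm.const (c : F) : Sm (fun _ : E => c) p := by
  exact Eventually.of_forall fun _ => contDiffAt_const

theorem Sm.add {f g : E → F} (hf : Sm f p) (hg : Sm g p) : Sm (fun q => f q + g q) p := by
  filter_upwards [hf, hg] with q h1 h2 using h1.add h2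

theorem Sm.sub {f g : E → F} (hf : Sm f p) (hg : Sm g p) : Sm (fun q => f q - g q) p := by
  filter_upwards [hf, hg] with q h1 h2 using h1.sub h2

theorem Sm.neg {f : E → F} (hf : Sm f p) : Sm (fun q => -f q) p := by
  filter_upwards [hf] with q h1 using h1.neg

theorem Sm.mul {f g : E → ℂ} (hf : Sm f p) (hg : Sm g p) : Sm (fun q => f q * g q) p := by
  filter_upwards [hf, hg] with q h1 h2 using h1.mul h2

theorem Sm.rmul {f g : E → ℝ} (hf : Sm f p) (hg : Sm g p) : Sm (fun q => f q * g q) p := by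
  filter_upwards [hf, hg] with q h1 h2 using h1.mul h2

theorem Sm.sum {ι : Type*} {s : Finset ι} {f : ι → E → F} (hf : ∀ i ∈ s, Sm (f i) p) :
    Sm (fun q => ∑ i ∈ s, f i q) p := by
  filter_upwards [(eventually_all_finset s).2 hf] with q h using ContDiffAt.sum h

theorem Sm.comp {g : F → G} {f : E → F} (hg : Sm g (f p)) (hf : Sm f p) :
    Sm (fun q => g (f q)) p := by
  filter_upwards [hf, hf.continuousAt.eventually hg] with q h1 h2 using h2.comp q h1

theorem Sm.cx {f : E → ℝ} (hf : Sm f p) : Sm (cx f) p := by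
  filter_upwards [hf] with q h1 using Complex.ofRealCLM.contDiff.contDiffAt.comp q h1

theorem Sm.conj {f : E → ℂ} (hf : Sm f p) : Sm (fun q => conj (f q)) p := by
  filter_upwards [hf] with q h1 using Complex.conjCLE.contDiff.contDiffAt.comp q h1

theorem Sm.exp {f : E → ℝ} (hf : Sm f p) : Sm (fun q => Real.exp (f q)) p := by
  filter_upwards [hf] with q h1 using h1.exp

theorem Sm.log {f : E → ℝ} (hf : Sm f p) (h0 : f p ≠ 0) : Sm (fun q => Real.log (f q)) p := by
  filter_upwards [hf, hf.continuousAt.eventually_ne h0] with q h1 h2 using h1.log h2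

theorem Sm.inv {f : E → ℂ} (hf : Sm f p) (h0 : f p ≠ 0) : Sm (fun q => (f q)⁻¹) p := by
  filter_upwards [hf, hf.continuousAt.eventually_ne h0] with q h1 h2 using h1.inv h2

theorem Sm.wirt_fderiv {f : E → F} (hf : Sm f p) : Sm (fderiv ℝ f) p := by
  filter_upwards [hf] with q h1 using h1.fderiv_right (m := ∞) (by simp)

theorem Sm.wirt_fderiv_apply {f : E → F} (hf : Sm f p) (v : E) :
    Sm (fun q => fderiv ℝ f q v) p := by
  filter_upwards [hf.wirt_fderiv] with q h1 using h1.clm_apply contDiffAt_const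

theorem Sm.wirt_deriv {M : ℝ → F} {x : ℝ} (hM : Sm M x) : Sm (deriv M) x :=
  hM.wirt_fderiv_apply 1

end Sm

section W

variable {E E' : Type*} [NormedAddCommGroup E] [NormedSpace ℝ E] [NormedSpace ℂ E]
  [IsScalarTower ℝ ℂ E] [NormedAddCommGroup E'] [NormedSpace ℝ E'] [NormedSpace ℂ E']
  [IsScalarTower ℝ ℂ E'] {p : E} {s s' : ℝ} {ξ η : E} {f g : E → ℂ}

/-- Use `ContDiffAt.fderiv_right` (with `m = ∞`) at each nearby point, then `clm_apply`. -/
theorem Sm.W (hf : Sm f p) (s : ℝ) (ξ : E) : Sm (W s ξ f) p := by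
  filter_upwards [hf.wirt_fderiv_apply ξ, hf.wirt_fderiv_apply (I • ξ)] with q h1 h2
  exact (h1.add (contDiffAt_const.mul h2)).div_const 2

theorem W_congr (h : f =ᶠ[𝓝 p] g) : W s ξ f p = W s ξ g p := by
  rw [W, W, h.fderiv_eq]

theorem W_congr_ev (h : f =ᶠ[𝓝 p] g) : W s ξ f =ᶠ[𝓝 p] W s ξ g := by
  filter_upwards [h.eventuallyEq_nhds] with q hq using W_congr hq

@[simp] theorem W_const (c : ℂ) : W s ξ (fun _ : E => c) p = 0 := by
  simp [W]

theorem W_add (hf : DifferentiableAt ℝ f p) (hg : DifferentiableAt ℝ g p) :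
    W s ξ (fun q => f q + g q) p = W s ξ f p + W s ξ g p := by
  simp only [W, fderiv_fun_add hf hg, _root_.add_apply]
  ring

theorem W_sub (hf : DifferentiableAt ℝ f p) (hg : DifferentiableAt ℝ g p) :
    W s ξ (fun q => f q - g q) p = W s ξ f p - W s ξ g p := by
  simp only [W, fderiv_fun_sub hf hg, _root_.sub_apply]
  ring

theorem W_neg : W s ξ (fun q => -f q) p = -W s ξ f p := by
  simp only [W, fderiv_fun_neg, _root_.neg_apply]
  ring

theorem W_mul (hf : DifferentiableAt ℝ f p) (hg : DifferentiableAt ℝ g p) :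
    W s ξ (fun q => f q * g q) p = W s ξ f p * g p + f p * W s ξ g p := by
  simp only [W, fderiv_fun_mul hf hg, _root_.add_apply,
    _root_.smul_apply, smul_eq_mul]
  ring

theorem W_const_mul (c : ℂ) (hf : DifferentiableAt ℝ f p) :
    W s ξ (fun q => c * f q) p = c * W s ξ f p := by
  rw [W_mul (differentiableAt_const c) hf, W_const, zero_mul, zero_add]

theorem W_sum {ι : Type*} {t : Finset ι} {F : ι → E → ℂ}
    (hf : ∀ i ∈ t, DifferentiableAt ℝ (F i) p) :
    W s ξ (fun q => ∑ i ∈ t, F i q) p = ∑ i ∈ t, W s ξ (F i) p := by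
  simp only [W, fderiv_fun_sum hf, _root_.sum_apply]
  rw [Finset.mul_sum, ← Finset.sum_add_distrib, Finset.sum_div]

/-- No differentiability needed: `conj` is a continuous linear equivalence
(`ContinuousLinearEquiv.comp_fderiv` with `Complex.conjCLE`). -/
theorem W_conj : W s ξ (fun q => conj (f q)) p = conj (W (-s) ξ f p) := by
  have h : fderiv ℝ (fun q => conj (f q)) p =
      (Complex.conjCLE : ℂ →L[ℝ] ℂ).comp (fderiv ℝ f p) := Complex.conjCLE.comp_fderiv
  simp only [W, h, ContinuousLinearMap.comp_apply, ContinuousLinearEquiv.coe_coe, conjCLE_apply,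
    map_div₀, map_add, map_mul, conj_ofReal, conj_I, ofReal_neg, map_neg, map_ofNat]
  ring

theorem wirt_conj_cx {α : Type*} (Φ : α → ℝ) : (fun q => conj (cx Φ q)) = cx Φ :=
  funext fun _ => conj_ofReal _

theorem wirt_conj_W (s : ℝ) (ξ : E) (f : E → ℂ) :
    (fun q => conj (W s ξ f q)) = W (-s) ξ fun q => conj (f q) :=
  funext fun _ => by rw [W_conj, neg_neg]

theorem wirt_conj_D (ξ : E) (f : E → ℂ) :
    (fun q => conj (D ξ f q)) = Db ξ fun q => conj (f q) := by
  rw [wirt_conj_W, neg_neg]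

theorem wirt_conj_Db (ξ : E) (f : E → ℂ) :
    (fun q => conj (Db ξ f q)) = D ξ fun q => conj (f q) := wirt_conj_W 1 ξ f

theorem conj_D_cx (Φ : E → ℝ) : conj (D ξ (cx Φ) p) = Db ξ (cx Φ) p := by
  have h := congrFun (wirt_conj_D ξ (cx Φ)) p
  rwa [wirt_conj_cx] at h

theorem conj_Db_cx (Φ : E → ℝ) : conj (Db ξ (cx Φ) p) = D ξ (cx Φ) p := by
  have h := congrFun (wirt_conj_Db ξ (cx Φ)) p
  rwa [wirt_conj_cx] at h

theorem W_add_vec : W s (ξ + η) f p = W s ξ f p + W s η f p := by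
  simp only [W, smul_add, map_add]
  ring

theorem W_zero_vec : W s (0 : E) f p = 0 := by
  simp [W]

theorem wirt_clm_smul_vec (A : E →L[ℝ] ℂ) (t : ℂ) (ξ : E) :
    A (t • ξ) = t.re * A ξ + t.im * A (I • ξ) := by
  have h : t • ξ = t.re • ξ + t.im • (I • ξ) := by
    rw [← smul_assoc, ← smul_one_smul ℂ t.re ξ, ← add_smul]
    congr 1
    simp
  rw [h, map_add, map_smul, map_smul, real_smul, real_smul]

theorem wirt_W_smul_vec (t : ℂ) : W s (t • ξ) f p =
    (t.re * fderiv ℝ f p ξ + t.im * fderiv ℝ f p (I • ξ) +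
      s * I * (t.re * fderiv ℝ f p (I • ξ) - t.im * fderiv ℝ f p ξ)) / 2 := by
  rw [W, smul_smul, wirt_clm_smul_vec _ t, wirt_clm_smul_vec _ (I * t)]
  simp only [mul_re, I_re, I_im, mul_im, zero_mul, one_mul, zero_sub, zero_add, ofReal_neg]
  ring

/-- Write `t = t.re + t.im I`, `t • ξ = t.re • ξ + t.im • (I • ξ)` with real scalars. -/
theorem D_smul (t : ℂ) : D (t • ξ) f p = t * D ξ f p := by
  rw [D, D, wirt_W_smul_vec, W]
  conv_rhs => rw [← re_add_im t]
  push_cast
  linear_combination (t.im * fderiv ℝ f p (I • ξ) / 2 : ℂ) * I_mul_I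

theorem Db_smul (t : ℂ) : Db (t • ξ) f p = conj t * Db ξ f p := by
  rw [Db, Db, wirt_W_smul_vec, W]
  conv_rhs => rw [← re_add_im t]
  simp only [map_add, map_mul, conj_ofReal, conj_I]
  push_cast
  linear_combination (t.im * fderiv ℝ f p (I • ξ) / 2 : ℂ) * I_mul_I

theorem wirt_fderiv_W (hf : Sm f p) (v : E) : fderiv ℝ (W s η f) p v =
    (fderiv ℝ (fderiv ℝ f) p v η + s * I * fderiv ℝ (fderiv ℝ f) p v (I • η)) / 2 := by
  have h := hf.wirt_fderiv.differentiableAt.hasFDerivAt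
  have h1 := h.clm_apply (hasFDerivAt_const η p)
  have h2 := h.clm_apply (hasFDerivAt_const (I • η) p)
  have h3 := (h1.add (h2.const_mul ((s : ℂ) * I))).mul_const (2 : ℂ)⁻¹
  have e : W s η f = fun q =>
      (fderiv ℝ f q η + (s : ℂ) * I * fderiv ℝ f q (I • η)) * (2 : ℂ)⁻¹ :=
    funext fun q => by rw [W, div_eq_mul_inv]
  rw [e]
  erw [h3.fderiv]
  simp
  ring

/-- Symmetry of second derivatives (`ContDiffAt.isSymmSndFDerivAt`). -/
theorem W_comm (hf : Sm f p) : W s ξ (W s' η f) p = W s' η (W s ξ f) p := by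
  have h := hf.contDiffAt.isSymmSndFDerivAt
    (by rw [minSmoothness_of_isRCLikeNormedField]; exact WithTop.coe_le_coe.2 (le_top (a := (2 : ℕ∞))))
  rw [W, W, wirt_fderiv_W hf, wirt_fderiv_W hf, wirt_fderiv_W hf, wirt_fderiv_W hf, h η ξ, h η (I • ξ), h (I • η) ξ,
    h (I • η) (I • ξ)]
  ring

theorem W_comm_ev (hf : Sm f p) : W s ξ (W s' η f) =ᶠ[𝓝 p] W s' η (W s ξ f) := by
  filter_upwards [hf.eventually] with q hq using W_comm hq

theorem fderiv_eq_D_add_Db : fderiv ℝ f p ξ = D ξ f p + Db ξ f p := by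
  simp only [W]
  push_cast
  ring

theorem wirt_fderiv_cx {Φ : E → ℝ} (h : DifferentiableAt ℝ Φ p) (v : E) :
    fderiv ℝ (cx Φ) p v = (fderiv ℝ Φ p v : ℝ) := by
  have h1 : HasFDerivAt (cx Φ) (Complex.ofRealCLM.comp (fderiv ℝ Φ p)) p :=
    Complex.ofRealCLM.hasFDerivAt.comp p h.hasFDerivAt
  rw [h1.fderiv]
  rfl

theorem fderiv_real_eq {Φ : E → ℝ} (h : DifferentiableAt ℝ Φ p) :
    fderiv ℝ Φ p ξ = 2 * (D ξ (cx Φ) p).re := by
  simp only [W, wirt_fderiv_cx h]
  simp
  ring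

/-- Chain rule with a holomorphic outer function. -/
theorem W_comp_hol {G : ℂ → ℂ} {G' : ℂ} (hG : HasDerivAt G G' (f p))
    (hf : DifferentiableAt ℝ f p) : W s ξ (fun q => G (f q)) p = G' * W s ξ f p := by
  have h := (hG.hasFDerivAt.restrictScalars ℝ).comp p hf.hasFDerivAt
  have h' : ∀ v, fderiv ℝ (fun q => G (f q)) p v = G' * fderiv ℝ f p v := fun v => by
    erw [h.fderiv]
    simp [mul_comm]
  simp only [W, h']
  ring

/-- Chain rule with a real outer function. -/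
theorem W_comp_real {M : ℝ → ℝ} {M' : ℝ} {u : E → ℝ} (hM : HasDerivAt M M' (u p))
    (hu : DifferentiableAt ℝ u p) :
    W s ξ (cx fun q => M (u q)) p = (M' : ℂ) * W s ξ (cx u) p := by
  have h := hM.comp_hasFDerivAt p hu.hasFDerivAt
  have h' : ∀ v, fderiv ℝ (fun q => M (u q)) p v = M' * fderiv ℝ u p v := fun v => by
    erw [h.fderiv]
    simp
  have hd : DifferentiableAt ℝ (fun q => M (u q)) p := h.differentiableAt
  simp only [W, wirt_fderiv_cx hu, wirt_fderiv_cx hd, h']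
  push_cast
  ring

theorem wirt_W_hol {f' : E →L[ℂ] ℂ} (hf : HasFDerivAt f f' p) :
    W s ξ f p = (1 - s) / 2 * f' ξ := by
  rw [W, (hf.restrictScalars ℝ).fderiv]
  simp only [ContinuousLinearMap.coe_restrictScalars', map_smul, smul_eq_mul]
  linear_combination (s * f' ξ / 2 : ℂ) * I_mul_I

theorem D_hol {f' : E →L[ℂ] ℂ} (hf : HasFDerivAt f f' p) : D ξ f p = f' ξ := by
  rw [D, wirt_W_hol hf]
  push_cast
  ring

theorem Db_hol {f' : E →L[ℂ] ℂ} (hf : HasFDerivAt f f' p) : Db ξ f p = 0 := by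
  rw [Db, wirt_W_hol hf]
  simp

theorem D_antihol {f' : E →L[ℂ] ℂ} (hf : HasFDerivAt f f' p) :
    D ξ (fun q => conj (f q)) p = 0 := by
  rw [D, W_conj, neg_neg, wirt_W_hol hf]
  simp

theorem Db_antihol {f' : E →L[ℂ] ℂ} (hf : HasFDerivAt f f' p) :
    Db ξ (fun q => conj (f q)) p = conj (f' ξ) := by
  rw [Db, W_conj]
  exact congrArg _ (D_hol hf)

/-- Covariance under complex affine maps. -/
theorem W_affine (L : E' →L[ℂ] E) (b : E) {q : E'} {a : E'}
    (hf : DifferentiableAt ℝ f (b + L q)) :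
    W s a (fun x => f (b + L x)) q = W s (L a) f (b + L q) := by
  have h1 : HasFDerivAt (fun x => b + L x) (L.restrictScalars ℝ) q :=
    (L.restrictScalars ℝ).hasFDerivAt.const_add b
  have h := hf.hasFDerivAt.comp q h1
  have h' : ∀ v, fderiv ℝ (fun x => f (b + L x)) q v = fderiv ℝ f (b + L q) (L v) := fun v => by
    erw [h.fderiv]
    rfl
  simp only [W, h', map_smul]

theorem W_affine_ev (L : E' →L[ℂ] E) (b : E) {q : E'} {a : E'} (hf : Sm f (b + L q)) :
    W s a (fun x => f (b + L x)) =ᶠ[𝓝 q] fun x => W s (L a) f (b + L x) := by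
  have hc : ContinuousAt (fun x => b + L x) q := by fun_prop
  filter_upwards [hc.eventually hf.eventually] with x hx using W_affine L b hx.differentiableAt

theorem Sm.affine {F : Type*} [NormedAddCommGroup F] [NormedSpace ℝ F] {φ : E → F}
    (L : E' →L[ℂ] E) (b : E) {q : E'} (hf : Sm φ (b + L q)) : Sm (fun x => φ (b + L x)) q := by
  refine Sm.comp (f := fun x => b + L x) hf (Sm.of_contDiff ?_)
  exact contDiff_const.add (L.restrictScalars ℝ).contDiff

theorem wirt_W_add_ev {h : E → ℂ} (hf : Sm f p) (hg : Sm g p) (e : h =ᶠ[𝓝 p] fun q => f q + g q) :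
    W s ξ h =ᶠ[𝓝 p] fun q => W s ξ f q + W s ξ g q := by
  filter_upwards [hf.eventually, hg.eventually, W_congr_ev (s := s) (ξ := ξ) e] with q h1 h2 h3
  rw [h3, W_add h1.differentiableAt h2.differentiableAt]

theorem wirt_W_sub_ev {h : E → ℂ} (hf : Sm f p) (hg : Sm g p) (e : h =ᶠ[𝓝 p] fun q => f q - g q) :
    W s ξ h =ᶠ[𝓝 p] fun q => W s ξ f q - W s ξ g q := by
  filter_upwards [hf.eventually, hg.eventually, W_congr_ev (s := s) (ξ := ξ) e] with q h1 h2 h3
  rw [h3, W_sub h1.differentiableAt h2.differentiableAt]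

theorem wirt_W_const_mul_ev {h : E → ℂ} {c : ℂ} (hf : Sm f p) (e : h =ᶠ[𝓝 p] fun q => c * f q) :
    W s ξ h =ᶠ[𝓝 p] fun q => c * W s ξ f q := by
  filter_upwards [hf.eventually, W_congr_ev (s := s) (ξ := ξ) e] with q h1 h3
  rw [h3, W_const_mul c h1.differentiableAt]

theorem wirt_W_affine_ev' (L : E' →L[ℂ] E) (b : E) {q : E'} {a : E'} {h : E' → ℂ}
    (hf : Sm f (b + L q)) (e : h =ᶠ[𝓝 q] fun x => f (b + L x)) :
    W s a h =ᶠ[𝓝 q] fun x => W s (L a) f (b + L x) :=
  (W_congr_ev e).trans (W_affine_ev L b hf)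

variable {Φ Ψ : E → ℝ}

theorem jet_congr (h : Φ =ᶠ[𝓝 p] Ψ) : jet Φ p = jet Ψ p := by
  have h0 : cx Φ =ᶠ[𝓝 p] cx Ψ := h.mono fun q hq => congrArg ofReal hq
  ext
  · exact W_congr (W_congr_ev h0)
  · exact W_congr (W_congr_ev (W_congr_ev h0))
  · exact W_congr (W_congr_ev (W_congr_ev (W_congr_ev h0)))

theorem jet_add (hΦ : Sm Φ p) (hΨ : Sm Ψ p) :
    jet (fun q => Φ q + Ψ q) p = jet Φ p + jet Ψ p := by
  have h0 : cx (fun q => Φ q + Ψ q) =ᶠ[𝓝 p] fun q => cx Φ q + cx Ψ q :=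
    Eventually.of_forall fun q => ofReal_add _ _
  have a := hΦ.cx
  have b := hΨ.cx
  ext
  · exact (wirt_W_add_ev (a.W _ _) (b.W _ _) (wirt_W_add_ev a b h0)).self_of_nhds
  · exact (wirt_W_add_ev ((a.W _ _).W _ _) ((b.W _ _).W _ _)
      (wirt_W_add_ev (a.W _ _) (b.W _ _) (wirt_W_add_ev a b h0))).self_of_nhds
  · exact (wirt_W_add_ev (((a.W _ _).W _ _).W _ _) (((b.W _ _).W _ _).W _ _)
      (wirt_W_add_ev ((a.W _ _).W _ _) ((b.W _ _).W _ _)
      (wirt_W_add_ev (a.W _ _) (b.W _ _) (wirt_W_add_ev a b h0)))).self_of_nhds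

theorem jet_sub (hΦ : Sm Φ p) (hΨ : Sm Ψ p) :
    jet (fun q => Φ q - Ψ q) p = jet Φ p - jet Ψ p := by
  have h0 : cx (fun q => Φ q - Ψ q) =ᶠ[𝓝 p] fun q => cx Φ q - cx Ψ q :=
    Eventually.of_forall fun q => ofReal_sub _ _
  have a := hΦ.cx
  have b := hΨ.cx
  ext
  · exact (wirt_W_sub_ev (a.W _ _) (b.W _ _) (wirt_W_sub_ev a b h0)).self_of_nhds
  · exact (wirt_W_sub_ev ((a.W _ _).W _ _) ((b.W _ _).W _ _)
      (wirt_W_sub_ev (a.W _ _) (b.W _ _) (wirt_W_sub_ev a b h0))).self_of_nhds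
  · exact (wirt_W_sub_ev (((a.W _ _).W _ _).W _ _) (((b.W _ _).W _ _).W _ _)
      (wirt_W_sub_ev ((a.W _ _).W _ _) ((b.W _ _).W _ _)
      (wirt_W_sub_ev (a.W _ _) (b.W _ _) (wirt_W_sub_ev a b h0)))).self_of_nhds

theorem jet_const_mul (c : ℝ) (hΦ : Sm Φ p) : jet (fun q => c * Φ q) p = c • jet Φ p := by
  have h0 : cx (fun q => c * Φ q) =ᶠ[𝓝 p] fun q => (c : ℂ) * cx Φ q :=
    Eventually.of_forall fun q => ofReal_mul _ _
  have a := hΦ.cx
  ext
  · exact (wirt_W_const_mul_ev (a.W _ _) (wirt_W_const_mul_ev a h0)).self_of_nhds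
  · exact (wirt_W_const_mul_ev ((a.W _ _).W _ _)
      (wirt_W_const_mul_ev (a.W _ _) (wirt_W_const_mul_ev a h0))).self_of_nhds
  · exact (wirt_W_const_mul_ev (((a.W _ _).W _ _).W _ _) (wirt_W_const_mul_ev ((a.W _ _).W _ _)
      (wirt_W_const_mul_ev (a.W _ _) (wirt_W_const_mul_ev a h0)))).self_of_nhds

theorem jet_add_const (c : ℝ) : jet (fun q => Φ q + c) p = jet Φ p := by
  have h : ∀ θ : E, Db θ (cx fun q => Φ q + c) = Db θ (cx Φ) := fun θ => by
    have e : (cx fun q => Φ q + c) = fun q => cx Φ q + (c : ℂ) := funext fun q => ofReal_add _ _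
    funext q
    simp only [e, W, fderiv_add_const]
  simp only [jet, h]

theorem jet_affine (L : E' →L[ℂ] E) (b : E) {q : E'} (h : Sm Φ (b + L q)) :
    jet (fun x => Φ (b + L x)) q = (jet Φ (b + L q)).comap L := by
  have h0 : cx (fun x => Φ (b + L x)) =ᶠ[𝓝 q] fun x => cx Φ (b + L x) := EventuallyEq.rfl
  have a := h.cx
  ext
  · exact (wirt_W_affine_ev' L b (a.W _ _) (wirt_W_affine_ev' L b a h0)).self_of_nhds
  · exact (wirt_W_affine_ev' L b ((a.W _ _).W _ _)
      (wirt_W_affine_ev' L b (a.W _ _) (wirt_W_affine_ev' L b a h0))).self_of_nhds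
  · exact (wirt_W_affine_ev' L b (((a.W _ _).W _ _).W _ _) (wirt_W_affine_ev' L b ((a.W _ _).W _ _)
      (wirt_W_affine_ev' L b (a.W _ _) (wirt_W_affine_ev' L b a h0)))).self_of_nhds

/-- Linearity in the outer vector is `W_add_vec`, `D_smul`; symmetries by `W_comm` (and
`W_congr (W_comm_ev _)` under another derivative), conjugation by `W_conj`; linearity in an inner
vector: `W_congr` + `W_add`, `W_const_mul`. -/
theorem jet_good (h : Sm Φ p) : (jet Φ p).Good := by
  have a := h.cx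
  refine ⟨fun _ _ _ => W_add_vec, fun t _ _ => D_smul t, fun x y => ?_, fun _ _ _ _ => W_add_vec,
    fun t _ _ _ => D_smul t, fun x y z => W_comm (a.W _ _), fun x y z z' => ?_, fun t x y z => ?_,
    fun _ _ _ _ _ => W_add_vec, fun t _ _ _ _ => D_smul t,
    fun x y z u => W_comm ((a.W _ _).W _ _), fun x y z u => ?_⟩
  · have e := congrFun (wirt_conj_D x (Db y (cx Φ))) p
    rw [wirt_conj_Db, wirt_conj_cx] at e
    exact e.trans (W_comm a)
  · exact (wirt_W_add_ev ((a.W _ _).W _ _) ((a.W _ _).W _ _) (wirt_W_add_ev (a.W _ _) (a.W _ _)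
      (Eventually.of_forall fun _ => W_add_vec))).self_of_nhds
  · exact (wirt_W_const_mul_ev ((a.W _ _).W _ _) (wirt_W_const_mul_ev (a.W _ _)
      (Eventually.of_forall fun _ => Db_smul t))).self_of_nhds
  · have e := congrFun (wirt_conj_D x (D y (Db z (Db u (cx Φ))))) p
    rw [wirt_conj_D, wirt_conj_Db, wirt_conj_Db, wirt_conj_cx] at e
    refine e.trans ?_
    -- `Db x Db y D z D u = D z D u Db x Db y`
    have e1 : Db y (D z (D u (cx Φ))) =ᶠ[𝓝 p] D z (D u (Db y (cx Φ))) :=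
      (W_comm_ev (a.W _ _)).trans (W_congr_ev (W_comm_ev a))
    have e2 : Db x (D z (D u (Db y (cx Φ)))) =ᶠ[𝓝 p] D z (D u (Db x (Db y (cx Φ)))) :=
      (W_comm_ev ((a.W _ _).W _ _)).trans (W_congr_ev (W_comm_ev (a.W _ _)))
    exact (W_congr e1).trans e2.self_of_nhds

/-- Levi form of a composition with a real function:
`(M ∘ u)_{ξ ξbar} = M'' |u_ξ|² + M' u_{ξ ξbar}`. -/
theorem levi_comp {M : ℝ → ℝ} {u : E → ℝ} (hM : Sm M (u p)) (hu : Sm u p) :
    (jet (fun q => M (u q)) p).H ξ η =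
      ((deriv (deriv M) (u p) : ℝ) : ℂ) * D ξ (cx u) p * conj (D η (cx u) p) +
        ((deriv M (u p) : ℝ) : ℂ) * (jet u p).H ξ η := by
  have h1 : Db η (cx fun q => M (u q)) =ᶠ[𝓝 p]
      fun q => cx (fun q => deriv M (u q)) q * Db η (cx u) q := by
    filter_upwards [hu.eventually, hu.continuousAt.eventually hM.eventually] with q h1 h2
    exact W_comp_real h2.differentiableAt.hasDerivAt h1.differentiableAt
  have h2 : Sm (fun q => deriv M (u q)) p := hM.wirt_deriv.comp hu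
  show D ξ (Db η (cx fun q => M (u q))) p = _ * _ * _ + _ * D ξ (Db η (cx u)) p
  rw [D, W_congr h1, W_mul h2.cx.differentiableAt (hu.cx.W _ _).differentiableAt,
    W_comp_real hM.wirt_deriv.differentiableAt.hasDerivAt hu.differentiableAt, conj_D_cx]
  rfl

end W

end Crest.Agent.R245
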