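import Crest.Agent.R245.Defs

/-!
# Algebra of abstract jets (tasks R245/Alg)

Pure linear algebra.  `J.Good` = sesquilinearity/symmetry, `J.Pos` = positive definiteness.
-/

set_option autoImplicit false

noncomputable section

namespace Crest.Agent.R245

open scoped ComplexConjugate
open Complex

namespace Jet

variable {E E' : Type*} [AddCommGroup E] [Module ℂ E] [AddCommGroup E'] [Module ℂ E']
  {J K : Jet E}

namespace Good

theorem add (hJ : J.Good) (hK : K.Good) : (J + K).Good := by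
  constructor <;> intros <;> simp only [add_H, add_A, add_Q, map_add]
  · rw [hJ.H_add, hK.H_add]; ring
  · rw [hJ.H_smul, hK.H_smul]; ring
  · rw [hJ.H_conj, hK.H_conj]
  · rw [hJ.A_add, hK.A_add]; ring
  · rw [hJ.A_smul, hK.A_smul]; ring
  · rw [hJ.A_symm, hK.A_symm]
  · rw [hJ.A_add3, hK.A_add3]; ring
  · rw [hJ.A_smul3, hK.A_smul3]; ring
  · rw [hJ.Q_add, hK.Q_add]; ring
  · rw [hJ.Q_smul, hK.Q_smul]; ring
  · rw [hJ.Q_symm, hK.Q_symm]
  · rw [hJ.Q_conj, hK.Q_conj]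

theorem sub (hJ : J.Good) (hK : K.Good) : (J - K).Good := by
  constructor <;> intros <;> simp only [sub_H, sub_A, sub_Q, map_sub]
  · rw [hJ.H_add, hK.H_add]; ring
  · rw [hJ.H_smul, hK.H_smul]; ring
  · rw [hJ.H_conj, hK.H_conj]
  · rw [hJ.A_add, hK.A_add]; ring
  · rw [hJ.A_smul, hK.A_smul]; ring
  · rw [hJ.A_symm, hK.A_symm]
  · rw [hJ.A_add3, hK.A_add3]; ring
  · rw [hJ.A_smul3, hK.A_smul3]; ring
  · rw [hJ.Q_add, hK.Q_add]; ring
  · rw [hJ.Q_smul, hK.Q_smul]; ring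
  · rw [hJ.Q_symm, hK.Q_symm]
  · rw [hJ.Q_conj, hK.Q_conj]

theorem smul (hJ : J.Good) (s : ℝ) : (s • J).Good := by
  constructor <;> intros <;> simp only [smul_H, smul_A, smul_Q, map_mul, conj_ofReal]
  · rw [hJ.H_add]; ring
  · rw [hJ.H_smul]; ring
  · rw [hJ.H_conj]
  · rw [hJ.A_add]; ring
  · rw [hJ.A_smul]; ring
  · rw [hJ.A_symm]
  · rw [hJ.A_add3]; ring
  · rw [hJ.A_smul3]; ring
  · rw [hJ.Q_add]; ring
  · rw [hJ.Q_smul]; ring
  · rw [hJ.Q_symm]
  · rw [hJ.Q_conj]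

theorem comap (hJ : J.Good) (L : E' →ₗ[ℂ] E) : (J.comap L).Good := by
  constructor <;> intros <;> simp only [comap_H, comap_A, comap_Q, map_add, map_smul]
  · rw [hJ.H_add]
  · rw [hJ.H_smul]
  · rw [hJ.H_conj]
  · rw [hJ.A_add]
  · rw [hJ.A_smul]
  · rw [hJ.A_symm]
  · rw [hJ.A_add3]
  · rw [hJ.A_smul3]
  · rw [hJ.Q_add]
  · rw [hJ.Q_smul]
  · rw [hJ.Q_symm]
  · rw [hJ.Q_conj]

variable (h : J.Good)
include h

theorem H_add2 (a b b' : E) : J.H a (b + b') = J.H a b + J.H a b' := by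
  rw [← h.H_conj (b + b') a, h.H_add, map_add, h.H_conj, h.H_conj]
theorem H_smul2 (t : ℂ) (a b : E) : J.H a (t • b) = conj t * J.H a b := by
  rw [← h.H_conj (t • b) a, h.H_smul, map_mul, h.H_conj]
theorem H_zero (b : E) : J.H 0 b = 0 := by
  simpa using h.H_smul 0 0 b
theorem H_zero2 (a : E) : J.H a 0 = 0 := by
  simpa using h.H_smul2 0 a 0
theorem H_neg (a b : E) : J.H (-a) b = -J.H a b := by
  simpa using h.H_smul (-1) a b
theorem H_neg2 (a b : E) : J.H a (-b) = -J.H a b := by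
  simpa using h.H_smul2 (-1) a b
theorem H_sub (a a' b : E) : J.H (a - a') b = J.H a b - J.H a' b := by
  rw [sub_eq_add_neg, h.H_add, h.H_neg, sub_eq_add_neg]
theorem H_sub2 (a b b' : E) : J.H a (b - b') = J.H a b - J.H a b' := by
  rw [sub_eq_add_neg, h.H_add2, h.H_neg2, sub_eq_add_neg]
theorem H_im (a : E) : (J.H a a).im = 0 := by
  exact conj_eq_iff_im.mp (h.H_conj a a)
theorem H_re_comm (a b : E) : (J.H b a).re = (J.H a b).re := by
  rw [← h.H_conj a b, conj_re]
theorem H_im_comm (a b : E) : (J.H b a).im = -(J.H a b).im := by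
  rw [← h.H_conj a b, conj_im]
theorem A_add2 (a b b' c : E) : J.A a (b + b') c = J.A a b c + J.A a b' c := by
  rw [h.A_symm a (b + b'), h.A_add, h.A_symm b a, h.A_symm b' a]
theorem A_smul2 (t : ℂ) (a b c : E) : J.A a (t • b) c = t * J.A a b c := by
  rw [h.A_symm a (t • b), h.A_smul, h.A_symm b a]
theorem A_sub (a a' b c : E) : J.A (a - a') b c = J.A a b c - J.A a' b c := by
  have := h.A_add (a - a') a' b c
  rw [sub_add_cancel] at this
  rw [this]; ring
theorem A_sub2 (a b b' c : E) : J.A a (b - b') c = J.A a b c - J.A a b' c := by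
  have := h.A_add2 a (b - b') b' c
  rw [sub_add_cancel] at this
  rw [this]; ring
theorem A_sub3 (a b c c' : E) : J.A a b (c - c') = J.A a b c - J.A a b c' := by
  have := h.A_add3 a b (c - c') c'
  rw [sub_add_cancel] at this
  rw [this]; ring
theorem A_zero (b c : E) : J.A 0 b c = 0 := by
  simpa using h.A_smul 0 0 b c
theorem A_zero2 (a c : E) : J.A a 0 c = 0 := by
  simpa using h.A_smul2 0 a 0 c
theorem A_zero3 (a b : E) : J.A a b 0 = 0 := by
  simpa using h.A_smul3 0 a b 0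
theorem Q_add2 (a b b' c d : E) : J.Q a (b + b') c d = J.Q a b c d + J.Q a b' c d := by
  rw [h.Q_symm a (b + b'), h.Q_add, h.Q_symm b a, h.Q_symm b' a]
theorem Q_smul2 (t : ℂ) (a b c d : E) : J.Q a (t • b) c d = t * J.Q a b c d := by
  rw [h.Q_symm a (t • b), h.Q_smul, h.Q_symm b a]
theorem Q_symm' (a b c d : E) : J.Q a b c d = J.Q a b d c := by
  rw [← h.Q_conj c d a b, h.Q_symm c d, h.Q_conj]
theorem Q_add3 (a b c c' d : E) : J.Q a b (c + c') d = J.Q a b c d + J.Q a b c' d := by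
  rw [← h.Q_conj (c + c') d a b, h.Q_add, map_add, h.Q_conj, h.Q_conj]
theorem Q_smul3 (t : ℂ) (a b c d : E) : J.Q a b (t • c) d = conj t * J.Q a b c d := by
  rw [← h.Q_conj (t • c) d a b, h.Q_smul, map_mul, h.Q_conj]
theorem Q_add4 (a b c d d' : E) : J.Q a b c (d + d') = J.Q a b c d + J.Q a b c d' := by
  rw [h.Q_symm' a b c (d + d'), h.Q_add3, h.Q_symm' a b d c, h.Q_symm' a b d' c]
theorem Q_smul4 (t : ℂ) (a b c d : E) : J.Q a b c (t • d) = conj t * J.Q a b c d := by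
  rw [h.Q_symm' a b c (t • d), h.Q_smul3, h.Q_symm' a b d c]
theorem Q_zero (b c d : E) : J.Q 0 b c d = 0 := by
  simpa using h.Q_smul 0 0 b c d

/-- Cauchy–Schwarz for a positive semidefinite form (discriminant of `t ↦ Re H (a + t b) (a + t b)`;
`discrim_le_zero` after rotating `b`, or test with `t = -H a b / (Re H b b + ε)`). -/
theorem cauchy_schwarz (psd : ∀ a, 0 ≤ (J.H a a).re) (a b : E) :
    normSq (J.H a b) ≤ (J.H a a).re * (J.H b b).re := by
  set z := J.H a b with hz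
  have key : ∀ r : ℝ, 0 ≤ ((J.H b b).re * normSq z) * (r * r) + (2 * normSq z) * r +
      (J.H a a).re := by
    intro r
    have h1 := psd (a + ((r : ℂ) * z) • b)
    rw [h.H_add, h.H_add2, h.H_add2, h.H_smul, h.H_smul2, h.H_smul2, h.H_smul,
      ← h.H_conj a b, ← hz] at h1
    have hb := h.H_im b
    simp only [add_re, mul_re, mul_im, map_mul, conj_ofReal, ofReal_re, ofReal_im, conj_re,
      conj_im, hb] at h1
    rw [normSq_apply]
    nlinarith [h1]
  have hd := discrim_le_zero key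
  rw [discrim] at hd
  rcases eq_or_lt_of_le (normSq_nonneg z) with h0 | h0
  · rw [← h0]; exact mul_nonneg (psd a) (psd b)
  · nlinarith

theorem im_sq_le_Den (psd : ∀ a, 0 ≤ (J.H a a).re) (a b : E) : (J.H a b).im ^ 2 ≤ J.Den a b := by
  have := h.cauchy_schwarz psd a b
  rw [normSq_apply] at this
  unfold Den
  nlinarith

theorem Den_nonneg (psd : ∀ a, 0 ≤ (J.H a a).re) (a b : E) : 0 ≤ J.Den a b := by
  exact (sq_nonneg _).trans (h.im_sq_le_Den psd a b)

theorem Den_shear (X Y : E) (t : ℝ) : J.Den X (Y + (t : ℂ) • X) = J.Den X Y := by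
  unfold Den
  rw [h.H_add, h.H_add2, h.H_add2, h.H_add2, h.H_smul, h.H_smul2, h.H_smul2, h.H_smul2, h.H_smul]
  simp only [add_re, mul_re, mul_im, conj_ofReal, ofReal_re, ofReal_im, h.H_re_comm X Y, h.H_im X]
  ring

/-- If `Re K.H X X = 0` both sides vanish (Cauchy–Schwarz); otherwise shear `Y` to be `K`-orthogonal
to `X`: then `J.Den ≤ J(X)J(Y) ≤ K(X)K(Y) = K.Den`. -/
theorem Den_mono (hK : K.Good) (psd : ∀ a, 0 ≤ (J.H a a).re)
    (hle : ∀ a, (J.H a a).re ≤ (K.H a a).re) (X Y : E) : J.Den X Y ≤ K.Den X Y := by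
  have psdK : ∀ a, 0 ≤ (K.H a a).re := fun a => (psd a).trans (hle a)
  rcases eq_or_lt_of_le (psdK X) with h0 | h0
  · have hJ0 : (J.H X X).re = 0 := le_antisymm (h0 ▸ hle X) (psd X)
    have h1 := hK.Den_nonneg psdK X Y
    have : J.Den X Y ≤ 0 := by
      unfold Den
      rw [hJ0]
      nlinarith [sq_nonneg (J.H X Y).re]
    linarith
  · set t : ℝ := -(K.H X Y).re / (K.H X X).re with ht
    rw [← h.Den_shear X Y t, ← hK.Den_shear X Y t]
    set Z := Y + (t : ℂ) • X with hZ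
    have hKZ : (K.H X Z).re = 0 := by
      rw [hZ, hK.H_add2, hK.H_smul2]
      simp only [add_re, mul_re, conj_ofReal, ofReal_re, ofReal_im, zero_mul, sub_zero]
      rw [ht]
      field_simp
      ring
    unfold Den
    rw [hKZ]
    have h2 : (J.H X X).re * (J.H Z Z).re ≤ (K.H X X).re * (K.H Z Z).re :=
      mul_le_mul (hle X) (hle Z) (psd Z) (psdK X)
    nlinarith [sq_nonneg (J.H X Z).re]

/-- Uniqueness of representing vectors. -/
theorem eq_of_H (hp : J.Pos) {v v' : E} (hv : ∀ θ, J.H v θ = J.H v' θ) : v = v' := by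
  by_contra hne
  have h1 := hp (v - v') (sub_ne_zero.mpr hne)
  rw [h.H_sub, hv, sub_self] at h1
  simp at h1

/-- Riesz representation: the map `v ↦ (θ ↦ conj (H v θ))`, or `v ↦ H v ·` into
`E →ₗ⋆[ℂ] ℂ`, is injective, hence onto in finite dimension.  (One way: the complex-linear map
`θ ↦ (v ↦ H v θ)` is conjugate linear into the dual; compare real dimensions, or use a basis and
the invertible Gram matrix.) -/
theorem exists_rep [FiniteDimensional ℂ E] (hp : J.Pos) (f : E → ℂ)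
    (hadd : ∀ a b, f (a + b) = f a + f b) (hsmul : ∀ (t : ℂ) a, f (t • a) = conj t * f a) :
    ∃ v, ∀ θ, J.H v θ = f θ := by
  classical
  let b := Module.finBasis ℂ E
  -- conjugate-linear functionals agreeing on the basis agree
  have ext : ∀ (g g' : E → ℂ), (∀ a b, g (a + b) = g a + g b) →
      (∀ (t : ℂ) a, g (t • a) = conj t * g a) → (∀ a b, g' (a + b) = g' a + g' b) →
      (∀ (t : ℂ) a, g' (t • a) = conj t * g' a) → (∀ i, g (b i) = g' (b i)) →
      ∀ θ, g θ = g' θ := by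
    intro g g' ga gs ga' gs' hb θ
    let G : E →ₗ[ℂ] ℂ :=
      { toFun := fun x => conj (g x)
        map_add' := fun x y => by rw [ga, map_add]
        map_smul' := fun t x => by rw [gs, map_mul]; simp }
    let G' : E →ₗ[ℂ] ℂ :=
      { toFun := fun x => conj (g' x)
        map_add' := fun x y => by rw [ga', map_add]
        map_smul' := fun t x => by rw [gs', map_mul]; simp }
    have hG : G = G' := b.ext fun i => by
      show conj (g (b i)) = conj (g' (b i))
      rw [hb]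
    have : conj (g θ) = conj (g' θ) := LinearMap.congr_fun hG θ
    exact (starRingEnd ℂ).injective this
  let T : E →ₗ[ℂ] (Fin (Module.finrank ℂ E) → ℂ) :=
    { toFun := fun v i => J.H v (b i)
      map_add' := fun x y => by funext i; exact h.H_add x y (b i)
      map_smul' := fun t x => by funext i; simpa using h.H_smul t x (b i) }
  have hT : Function.Injective T := by
    intro v v' hvv
    apply h.eq_of_H hp
    exact ext (J.H v) (J.H v') (h.H_add2 v) (fun t a => h.H_smul2 t v a) (h.H_add2 v')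
      (fun t a => h.H_smul2 t v' a) (fun i => congrFun hvv i)
  have hS : Function.Surjective T :=
    (LinearMap.injective_iff_surjective_of_finrank_eq_finrank (by simp)).mp hT
  obtain ⟨v, hv⟩ := hS (fun i => f (b i))
  exact ⟨v, ext (J.H v) f (h.H_add2 v) (fun t a => h.H_smul2 t v a) hadd hsmul
    (fun i => congrFun hv i)⟩

theorem gam_eq (hp : J.Pos) {η ζ v : E} (hv : ∀ θ, J.H v θ = J.A η ζ θ) : J.gam η ζ = v := by
  have h1 : ∀ θ, J.H (J.gam η ζ) θ = J.A η ζ θ :=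
    Classical.epsilon_spec (p := fun v => ∀ θ, J.H v θ = J.A η ζ θ) ⟨v, hv⟩
  exact h.eq_of_H hp fun θ => by rw [h1, hv]

theorem gam_spec [FiniteDimensional ℂ E] (hp : J.Pos) (η ζ θ : E) :
    J.H (J.gam η ζ) θ = J.A η ζ θ := by
  obtain ⟨v, hv⟩ := h.exists_rep hp (J.A η ζ) (h.A_add3 η ζ) (fun t a => h.A_smul3 t η ζ a)
  rw [h.gam_eq hp hv, hv]

theorem gam_add [FiniteDimensional ℂ E] (hp : J.Pos) (a a' b : E) :
    J.gam (a + a') b = J.gam a b + J.gam a' b := by
  exact h.gam_eq hp fun θ => by rw [h.H_add, h.gam_spec hp, h.gam_spec hp, h.A_add]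

theorem gam_smul [FiniteDimensional ℂ E] (hp : J.Pos) (t : ℂ) (a b : E) :
    J.gam (t • a) b = t • J.gam a b := by
  exact h.gam_eq hp fun θ => by rw [h.H_smul, h.gam_spec hp, h.A_smul]

theorem gam_symm (a b : E) : J.gam a b = J.gam b a := by
  unfold gam
  congr 1
  funext v
  simp only [h.A_symm a b]

theorem N_shear [FiniteDimensional ℂ E] (hp : J.Pos) (X Y : E) (t : ℝ) :
    J.N X (Y + (t : ℂ) • X) = J.N X Y := by
  have ga2 : ∀ a b b' : E, J.gam a (b + b') = J.gam a b + J.gam a b' := fun a b b' => by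
    rw [h.gam_symm a, h.gam_add hp, h.gam_symm b, h.gam_symm b']
  have gs2 : ∀ (t : ℂ) (a b : E), J.gam a (t • b) = t • J.gam a b := fun t a b => by
    rw [h.gam_symm a, h.gam_smul hp, h.gam_symm b]
  have q1 : (J.Q X X X Y).re = (J.Q X Y X X).re := by rw [← h.Q_conj X Y X X, conj_re]
  have q2 : (J.H (J.gam X X) (J.gam X Y)).re = (J.H (J.gam X Y) (J.gam X X)).re :=
    h.H_re_comm _ _
  unfold N S
  simp only [h.Q_add, h.Q_add2, h.Q_add4, h.Q_smul, h.Q_smul2, h.Q_smul4, h.gam_add hp, ga2,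
    h.gam_smul hp, gs2, h.H_add, h.H_add2, h.H_smul, h.H_smul2, h.gam_symm Y X, h.Q_symm Y X,
    conj_ofReal, add_re, sub_re, re_ofReal_mul, q1, q2, mul_add]
  ring

theorem N_zero [FiniteDimensional ℂ E] (hp : J.Pos) (Y : E) : J.N 0 Y = 0 := by
  have g0 : ∀ b : E, J.gam 0 b = 0 := fun b => by simpa using h.gam_smul hp 0 0 b
  have q0 : J.Q Y Y 0 0 = 0 := by simpa using h.Q_smul3 0 Y Y 0 0
  unfold N S
  simp [g0, q0, h.Q_zero, h.H_zero, h.H_zero2]

theorem N_smul [FiniteDimensional ℂ E] (hp : J.Pos) {s : ℝ} (hs : 0 < s) (X Y : E) :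
    (s • J).N X Y = s * J.N X Y := by
  have hp' : (s • J).Pos := fun a ha => by
    simp only [smul_H, re_ofReal_mul]
    exact mul_pos hs (hp a ha)
  have hg : ∀ a b, (s • J).gam a b = J.gam a b := fun a b =>
    (h.smul s).gam_eq hp' fun θ => by simp only [smul_H, smul_A, h.gam_spec hp]
  unfold N S
  simp only [hg, smul_H, smul_Q, sub_re, re_ofReal_mul]
  ring

theorem N_comap [FiniteDimensional ℂ E] (hp : J.Pos) (L : E' →ₗ[ℂ] E)
    (hL : Function.Bijective L) (X Y : E') : (J.comap L).N X Y = J.N (L X) (L Y) := by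
  have hp' : (J.comap L).Pos := fun a ha => by
    simp only [comap_H]
    exact hp (L a) (fun h0 => ha (hL.1 (by rw [h0, map_zero])))
  have hg : ∀ a b, L ((J.comap L).gam a b) = J.gam (L a) (L b) := fun a b => by
    obtain ⟨v, hv⟩ := hL.2 (J.gam (L a) (L b))
    rw [(h.comap L).gam_eq hp' (v := v) fun θ => by
      simp only [comap_H, comap_A, hv, h.gam_spec hp], hv]
  unfold N S
  simp only [comap_H, comap_Q, hg]

end Good

theorem Den_smul (s : ℝ) (J : Jet E) (X Y : E) : (s • J).Den X Y = s ^ 2 * J.Den X Y := by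
  unfold Den
  simp only [smul_H, re_ofReal_mul]
  ring

theorem Den_comap (J : Jet E) (L : E' → E) (X Y : E') :
    (J.comap L).Den X Y = J.Den (L X) (L Y) := rfl

theorem Pos.psd (hp : J.Pos) (h : J.Good) (a : E) : 0 ≤ (J.H a a).re := by
  by_cases ha : a = 0
  · rw [ha, h.H_zero]; simp
  · exact (hp a ha).le

theorem Pos.smul (hp : J.Pos) {s : ℝ} (hs : 0 < s) : (s • J).Pos := by
  intro a ha
  simp only [smul_H, re_ofReal_mul]
  exact mul_pos hs (hp a ha)

theorem Pos.comap (hp : J.Pos) (L : E' →ₗ[ℂ] E) (hL : Function.Injective L) :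
    (J.comap L).Pos := by
  intro a ha
  simp only [comap_H]
  exact hp (L a) (fun h0 => ha (hL (by rw [h0, map_zero])))

theorem Bd.mono {ν : E → ℝ} {M M' : ℝ} (h : J.Bd ν M) (hν : ∀ a, 0 ≤ ν a) (hM : M ≤ M') :
    J.Bd ν M' := by
  refine ⟨fun a b => (h.H a b).trans ?_, fun a b c => (h.A a b c).trans ?_,
    fun a b c d => (h.Q a b c d).trans ?_⟩
  · exact mul_le_mul_of_nonneg_right hM (mul_nonneg (hν a) (hν b))
  · exact mul_le_mul_of_nonneg_right hM (mul_nonneg (mul_nonneg (hν a) (hν b)) (hν c))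
  · exact mul_le_mul_of_nonneg_right hM
      (mul_nonneg (mul_nonneg (mul_nonneg (hν a) (hν b)) (hν c)) (hν d))

theorem Bd.add {ν : E → ℝ} {M M' : ℝ} (h : J.Bd ν M) (h' : K.Bd ν M') :
    (J + K).Bd ν (M + M') := by
  refine ⟨fun a b => ?_, fun a b c => ?_, fun a b c d => ?_⟩
  · rw [add_H, add_mul]; exact (norm_add_le _ _).trans (add_le_add (h.H a b) (h'.H a b))
  · rw [add_A, add_mul]; exact (norm_add_le _ _).trans (add_le_add (h.A a b c) (h'.A a b c))
  · rw [add_Q, add_mul]; exact (norm_add_le _ _).trans (add_le_add (h.Q a b c d) (h'.Q a b c d))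

theorem Bd.smul {ν : E → ℝ} {M : ℝ} (h : J.Bd ν M) {s : ℝ} (hs : 0 ≤ s) :
    (s • J).Bd ν (s * M) := by
  have hn : ‖(s : ℂ)‖ = s := by rw [norm_real, Real.norm_of_nonneg hs]
  refine ⟨fun a b => ?_, fun a b c => ?_, fun a b c d => ?_⟩
  · rw [smul_H, norm_mul, hn, mul_assoc]; exact mul_le_mul_of_nonneg_left (h.H a b) hs
  · rw [smul_A, norm_mul, hn, mul_assoc]; exact mul_le_mul_of_nonneg_left (h.A a b c) hs
  · rw [smul_Q, norm_mul, hn, mul_assoc]; exact mul_le_mul_of_nonneg_left (h.Q a b c d) hs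

end Jet

theorem tJet_good : tJet.Good := by
  constructor <;> intros <;>
    simp only [tJet, Prod.fst_add, Prod.snd_add, Prod.smul_fst, Prod.smul_snd, smul_eq_mul,
      map_add, map_mul, map_neg, conj_conj, map_ofNat] <;> ring

theorem tJet_re (a : V) : (tJet.H a a).re = normSq a.1 + normSq a.2 := by
  simp only [tJet, mul_conj, add_re, ofReal_re]

theorem tJet_low (a : V) : ‖a‖ ^ 2 ≤ (tJet.H a a).re := by
  rw [tJet_re, normSq_eq_norm_sq, normSq_eq_norm_sq, Prod.norm_def]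
  rcases le_total ‖a.1‖ ‖a.2‖ with h | h
  · rw [max_eq_right h]; nlinarith [sq_nonneg ‖a.1‖]
  · rw [max_eq_left h]; nlinarith [sq_nonneg ‖a.2‖]

theorem tJet_pos : tJet.Pos := by
  intro a ha
  exact lt_of_lt_of_le (pow_pos (norm_pos_iff.mpr ha) 2) (tJet_low a)

theorem tJet_bd : tJet.Bd (fun a => ‖a‖) 16 := by
  have h1 : ∀ a : V, ‖a.1‖ ≤ ‖a‖ := fun a => norm_fst_le a
  have h2 : ∀ a : V, ‖a.2‖ ≤ ‖a‖ := fun a => norm_snd_le a
  have c1 : ∀ a : V, ‖conj a.1‖ ≤ ‖a‖ := fun a => by rw [norm_conj]; exact h1 a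
  have c2 : ∀ a : V, ‖conj a.2‖ ≤ ‖a‖ := fun a => by rw [norm_conj]; exact h2 a
  have n2 : ‖(2 : ℂ)‖ ≤ 2 := by simp
  have n6 : ‖(6 : ℂ)‖ ≤ 6 := by simp
  have mul : ∀ {x y : ℂ} {p q : ℝ}, ‖x‖ ≤ p → ‖y‖ ≤ q → ‖x * y‖ ≤ p * q := fun hx hy => by
    rw [norm_mul]; exact mul_le_mul hx hy (norm_nonneg _) ((norm_nonneg _).trans hx)
  have add : ∀ {x y : ℂ} {p q : ℝ}, ‖x‖ ≤ p → ‖y‖ ≤ q → ‖x + y‖ ≤ p + q := fun hx hy =>
    (norm_add_le _ _).trans (add_le_add hx hy)
  refine ⟨fun a b => ?_, fun a b c => ?_, fun a b c d => ?_⟩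
  · refine (add (mul (h1 a) (c1 b)) (mul (h2 a) (c2 b))).trans ?_
    have := mul_nonneg (norm_nonneg a) (norm_nonneg b)
    nlinarith
  · show ‖-(2 * a.1 * b.1 * conj c.1 + a.1 * b.2 * conj c.2 + a.2 * b.1 * conj c.2)‖ ≤ _
    rw [norm_neg]
    refine (add (add (mul (mul (mul n2 (h1 a)) (h1 b)) (c1 c)) (mul (mul (h1 a) (h2 b)) (c2 c)))
      (mul (mul (h2 a) (h1 b)) (c2 c))).trans ?_
    have := mul_nonneg (mul_nonneg (norm_nonneg a) (norm_nonneg b)) (norm_nonneg c)
    nlinarith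
  · refine (add (add (mul (mul (mul (mul n6 (h1 a)) (h1 b)) (c1 c)) (c1 d))
      (mul n2 (mul (add (mul (h1 a) (h2 b)) (mul (h2 a) (h1 b)))
        (add (mul (c1 c) (c2 d)) (mul (c2 c) (c1 d))))))
      (mul (mul (mul (mul n2 (h2 a)) (h2 b)) (c2 c)) (c2 d))).trans ?_
    apply le_of_eq
    ring

/-- `gam a b = (-2 a₁ b₁, -(a₁ b₂ + a₂ b₁))`, `S(a,b;c,d) = H(a,c)H(b,d) + H(a,d)H(b,c)`. -/
theorem tJet_N (X Y : V) : -tJet.N X Y = tJet.Den X Y + 3 * (tJet.H X Y).im ^ 2 := by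
  have hg : ∀ a b : V, tJet.gam a b = (-2 * a.1 * b.1, -(a.1 * b.2 + a.2 * b.1)) := fun a b =>
    tJet_good.gam_eq tJet_pos fun θ => by simp only [tJet]; ring
  have hS : ∀ a b c d : V, tJet.S a b c d =
      tJet.H a c * tJet.H b d + tJet.H a d * tJet.H b c := fun a b c d => by
    unfold Jet.S
    rw [hg, hg]
    simp only [tJet, map_add, map_mul, map_neg, map_ofNat]
    ring
  unfold Jet.N Jet.Den
  rw [hS, hS]
  simp only [add_re, mul_re, tJet_good.H_re_comm X Y, tJet_good.H_im_comm X Y, tJet_good.H_im]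
  ring

end Crest.Agent.R245
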