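import Crest.Agent.R245.Alg

/-!
# Perturbation and size bounds for abstract jets (task R245/AlgPert)

`ν` is a size function with `κ ν² ≤ Re H`.  All three main lemmas are first proved with
`ν X ^ 2 * ν Y ^ 2` on the right; then one shears `Y ↦ Y + t X` (real `t`) so that
`Re H X Y = 0` (`N_shear`, `Den_shear`), where `κ² ν X² ν Y² ≤ Re H X X * Re H Y Y = Den`; the case
`X = 0` is trivial (`N_zero`).
-/

set_option autoImplicit false
set_option linter.unusedSectionVars false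
set_option linter.unusedVariables false

noncomputable section

namespace Crest.Agent.R245

open scoped ComplexConjugate
open Complex

namespace Jet

variable {E : Type*} [AddCommGroup E] [Module ℂ E] [FiniteDimensional ℂ E] {J J1 : Jet E}
  {ν : E → ℝ} {κ M ε : ℝ}

omit [FiniteDimensional ℂ E] in
/-- The shearing argument. -/
theorem shear_reduce (h : J.Good) (hp : J.Pos) (hκ : 0 < κ)
    (hlow : ∀ a, κ * ν a ^ 2 ≤ (J.H a a).re) {F : E → E → ℝ} {C : ℝ} (hC : 0 ≤ C)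
    (h0 : ∀ Y, F 0 Y ≤ 0) (hs : ∀ X Y (t : ℝ), F X (Y + (t : ℂ) • X) = F X Y)
    (hb : ∀ X Y, F X Y ≤ C * (ν X ^ 2 * ν Y ^ 2)) (X Y : E) : F X Y ≤ C / κ ^ 2 * J.Den X Y := by
  by_cases hX : X = 0
  · subst hX
    exact (h0 Y).trans (mul_nonneg (by positivity) (h.Den_nonneg (hp.psd h) _ _))
  have hpos := hp X hX
  obtain ⟨t, ht⟩ : ∃ t : ℝ, t = -(J.H X Y).re / (J.H X X).re := ⟨_, rfl⟩
  rw [← hs X Y t, ← h.Den_shear X Y t]
  have e : (J.H X (Y + (t : ℂ) • X)).re = 0 := by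
    rw [h.H_add2, h.H_smul2, conj_ofReal, add_re, re_ofReal_mul, ht]
    field_simp
    ring
  generalize Y + (t : ℂ) • X = Z at e
  have h1 : κ * ν X ^ 2 * (κ * ν Z ^ 2) ≤ J.Den X Z := by
    rw [Den, e]
    have := mul_le_mul (hlow X) (hlow Z) (by positivity) hpos.le
    linarith
  calc F X Z ≤ C * (ν X ^ 2 * ν Z ^ 2) := hb X Z
    _ = C / κ ^ 2 * (κ * ν X ^ 2 * (κ * ν Z ^ 2)) := by field_simp
    _ ≤ _ := by gcongr

omit [FiniteDimensional ℂ E] [AddCommGroup E] [Module ℂ E] in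
theorem abs_re_sub_le {F : E → E → E → E → ℂ} {C : ℝ}
    (hF : ∀ a b c d, ‖F a b c d‖ ≤ C * (ν a * ν b * ν c * ν d)) (X Y : E) :
    |(F Y Y X X).re - (F X Y X Y).re| ≤ 2 * C * (ν X ^ 2 * ν Y ^ 2) := by
  have h1 := (abs_re_le_norm _).trans (hF Y Y X X)
  have h2 := (abs_re_le_norm _).trans (hF X Y X Y)
  calc _ ≤ |(F Y Y X X).re| + |(F X Y X Y).re| := abs_sub _ _
    _ ≤ _ := add_le_add h1 h2
    _ = _ := by ring

/-- `κ ν(γ)² ≤ Re H γ γ = Re A a b γ ≤ M ν a ν b ν γ`. -/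
theorem gam_bound (h : J.Good) (hp : J.Pos) (hν : ∀ a, 0 ≤ ν a) (hκ : 0 < κ) (hM : 0 ≤ M)
    (hlow : ∀ a, κ * ν a ^ 2 ≤ (J.H a a).re)
    (hA : ∀ a b c, ‖J.A a b c‖ ≤ M * (ν a * ν b * ν c)) (a b : E) :
    ν (J.gam a b) ≤ M / κ * (ν a * ν b) := by
  have h1 := hlow (J.gam a b)
  rw [h.gam_spec hp] at h1
  have h2 := h1.trans ((re_le_norm _).trans (hA a b (J.gam a b)))
  have ha := hν a
  have hb := hν b
  rcases (hν (J.gam a b)).eq_or_lt with h0 | h0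
  · rw [← h0]; positivity
  · rw [div_mul_eq_mul_div, le_div_iff₀ hκ]
    refine le_of_mul_le_mul_right ?_ h0
    nlinarith

/-- `‖S‖ ≤ (M + M²/κ) ν⁴` because `H (gam a b) (gam c d) = A a b (gam c d)`. -/
theorem N_bound (h : J.Good) (hp : J.Pos) (hν : ∀ a, 0 ≤ ν a) (hκ : 0 < κ) (hκ1 : κ ≤ 1)
    (hM : 1 ≤ M) (hlow : ∀ a, κ * ν a ^ 2 ≤ (J.H a a).re) (hb : J.Bd ν M) (X Y : E) :
    |J.N X Y| ≤ 4 * M ^ 2 / κ ^ 3 * J.Den X Y := by
  have hM0 : 0 ≤ M := by linarith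
  have hS : ∀ a b c d, ‖J.S a b c d‖ ≤ 2 * M ^ 2 / κ * (ν a * ν b * ν c * ν d) := by
    intro a b c d
    have ha := hν a
    have hb' := hν b
    have hc := hν c
    have hd := hν d
    have h1 := gam_bound h hp hν hκ hM0 hlow hb.A c d
    have h2 : M ≤ M ^ 2 / κ := by
      rw [le_div_iff₀ hκ]; nlinarith
    rw [S, h.gam_spec hp]
    calc _ ≤ ‖J.Q a b c d‖ + ‖J.A a b (J.gam c d)‖ := norm_sub_le _ _
      _ ≤ M * (ν a * ν b * ν c * ν d) + M * (ν a * ν b * ν (J.gam c d)) :=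
          add_le_add (hb.Q a b c d) (hb.A a b _)
      _ ≤ M ^ 2 / κ * (ν a * ν b * ν c * ν d) + M * (ν a * ν b * (M / κ * (ν c * ν d))) := by
          gcongr
      _ = _ := by ring
  have := shear_reduce h hp hκ hlow (F := fun X Y => |J.N X Y|) (C := 2 * (2 * M ^ 2 / κ))
    (by positivity) (fun Y => by rw [h.N_zero hp, abs_zero]) (fun X Y t => by rw [h.N_shear hp])
    (fun X Y => abs_re_sub_le hS X Y) X Y
  refine this.trans (le_of_eq ?_)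
  field_simp
  ring

theorem pert_H (hν : ∀ a, 0 ≤ ν a) (hκ : 0 < κ) (hε : 0 ≤ ε)
    (hlow : ∀ a, κ * ν a ^ 2 ≤ (J.H a a).re) (hd : (J1 - J).Bd ν ε) (a : E) :
    (1 - ε / κ) * (J.H a a).re ≤ (J1.H a a).re ∧ (J1.H a a).re ≤ (1 + ε / κ) * (J.H a a).re := by
  have h1 := (abs_re_le_norm _).trans (hd.H a a)
  rw [sub_H, sub_re] at h1
  have h2 : ε * (ν a * ν a) ≤ ε / κ * (J.H a a).re :=
    calc _ = ε / κ * (κ * ν a ^ 2) := by field_simp
      _ ≤ _ := mul_le_mul_of_nonneg_left (hlow a) (by positivity)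
  obtain ⟨h3, h4⟩ := abs_le.1 (h1.trans h2)
  constructor <;> linarith

theorem pert_pos (hp : J.Pos) (hν : ∀ a, 0 ≤ ν a) (hκ : 0 < κ) (hε : 0 ≤ ε) (hεκ : ε < κ)
    (hlow : ∀ a, κ * ν a ^ 2 ≤ (J.H a a).re) (hd : (J1 - J).Bd ν ε) : J1.Pos := by
  intro a ha
  refine lt_of_lt_of_le (mul_pos ?_ (hp a ha)) (pert_H hν hκ hε hlow hd a).1
  rw [sub_pos, div_lt_one hκ]
  exact hεκ

/-- By `Den_mono` and `Den_smul`. -/
theorem pert_Den (h : J.Good) (h1 : J1.Good) (hν : ∀ a, 0 ≤ ν a) (hκ : 0 < κ) (hε : 0 ≤ ε)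
    (hεκ : ε ≤ κ) (hlow : ∀ a, κ * ν a ^ 2 ≤ (J.H a a).re) (hd : (J1 - J).Bd ν ε) (X Y : E) :
    (1 - ε / κ) ^ 2 * J.Den X Y ≤ J1.Den X Y ∧ J1.Den X Y ≤ (1 + ε / κ) ^ 2 * J.Den X Y := by
  have h0 : 0 ≤ 1 - ε / κ := by rw [sub_nonneg, div_le_one hκ]; exact hεκ
  have psd : ∀ a, 0 ≤ (1 - ε / κ) * (J.H a a).re := fun a =>
    mul_nonneg h0 (le_trans (by positivity) (hlow a))
  rw [← Den_smul, ← Den_smul]
  refine ⟨(h.smul _).Den_mono h1 (fun a => ?_) (fun a => ?_) X Y,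
    h1.Den_mono (h.smul _) (fun a => ?_) (fun a => ?_) X Y⟩
  · rw [smul_H, re_ofReal_mul]; exact psd a
  · rw [smul_H, re_ofReal_mul]; exact (pert_H hν hκ hε hlow hd a).1
  · exact (psd a).trans (pert_H hν hκ hε hlow hd a).1
  · rw [smul_H, re_ofReal_mul]; exact (pert_H hν hκ hε hlow hd a).2

/-- With `γ0 = J.gam a b`, `γ1 = J1.gam a b`, `γ0', γ1'` for `(c, d)` and `δ = J1 - J`:
`J1.H γ1 γ1' - J.H γ0 γ0' = δ.A a b γ1' - δ.H γ0 γ1' + conj (δ.A c d γ0)`, with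
`ν γ0 ≤ M/κ ν ν`, `ν γ1' ≤ 2 (M + ε)/κ ν ν ≤ 4 M/κ ν ν`; so `‖S1 - S0‖ ≤ 10 ε M²/κ² ν⁴`. -/
theorem pert_N (h : J.Good) (h1 : J1.Good) (hp : J.Pos) (hν : ∀ a, 0 ≤ ν a) (hκ : 0 < κ)
    (hκ1 : κ ≤ 1) (hM : 1 ≤ M) (hε : 0 ≤ ε) (hεκ : ε ≤ κ / 2)
    (hlow : ∀ a, κ * ν a ^ 2 ≤ (J.H a a).re)
    (hA : ∀ a b c, ‖J.A a b c‖ ≤ M * (ν a * ν b * ν c)) (hd : (J1 - J).Bd ν ε) (X Y : E) :
    |J1.N X Y - J.N X Y| ≤ 20 * ε * M ^ 2 / κ ^ 4 * J.Den X Y := by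
  have hM0 : 0 ≤ M := by linarith
  have hp1 : J1.Pos := pert_pos hp hν hκ hε (by linarith) hlow hd
  have hlow1 : ∀ a, κ / 2 * ν a ^ 2 ≤ (J1.H a a).re := by
    intro a
    refine le_trans ?_ (pert_H hν hκ hε hlow hd a).1
    have h2 : 1 / 2 ≤ 1 - ε / κ := by
      have : ε / κ ≤ 1 / 2 := by rw [div_le_iff₀ hκ]; linarith
      linarith
    calc _ = 1 / 2 * (κ * ν a ^ 2) := by ring
      _ ≤ _ := mul_le_mul h2 (hlow a) (by positivity) (by linarith)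
  have hA1 : ∀ a b c, ‖J1.A a b c‖ ≤ 2 * M * (ν a * ν b * ν c) := by
    intro a b c
    have ha := hν a
    have hb := hν b
    have hc := hν c
    have e : J1.A a b c = J.A a b c + (J1 - J).A a b c := by rw [sub_A]; ring
    have hεM : ε ≤ M := by linarith
    calc _ ≤ ‖J.A a b c‖ + ‖(J1 - J).A a b c‖ := e ▸ norm_add_le _ _
      _ ≤ M * (ν a * ν b * ν c) + ε * (ν a * ν b * ν c) := add_le_add (hA a b c) (hd.A a b c)
      _ ≤ M * (ν a * ν b * ν c) + M * (ν a * ν b * ν c) := by gcongr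
      _ = _ := by ring
  obtain ⟨r, hr⟩ : ∃ r, r = M / κ := ⟨_, rfl⟩
  have hr1 : 1 ≤ r := by rw [hr, one_le_div hκ]; linarith
  have g0 : ∀ a b, ν (J.gam a b) ≤ r * (ν a * ν b) := fun a b =>
    hr ▸ gam_bound h hp hν hκ hM0 hlow hA a b
  have g1 : ∀ a b, ν (J1.gam a b) ≤ 4 * r * (ν a * ν b) := fun a b => by
    refine (gam_bound h1 hp1 hν (by positivity) (by positivity) hlow1 hA1 a b).trans (le_of_eq ?_)
    rw [hr]; field_simp; ring
  have hS : ∀ a b c d, ‖J1.S a b c d - J.S a b c d‖ ≤ 10 * ε * r ^ 2 * (ν a * ν b * ν c * ν d) := by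
    intro a b c d
    have ha := hν a
    have hb := hν b
    have hc := hν c
    have hd' := hν d
    have e : J1.S a b c d - J.S a b c d = (J1 - J).Q a b c d - (J1 - J).A a b (J1.gam c d) +
        (J1 - J).H (J.gam a b) (J1.gam c d) - conj ((J1 - J).A c d (J.gam a b)) := by
      rw [S, S, sub_Q, sub_A, sub_H, sub_A, map_sub, ← h1.gam_spec hp1 c d, ← h.gam_spec hp c d,
        h1.H_conj, h.H_conj, ← h.gam_spec hp a b (J1.gam c d), ← h1.gam_spec hp1 a b]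
      ring
    have b1 := hd.Q a b c d
    have b2 : ‖(J1 - J).A a b (J1.gam c d)‖ ≤ ε * (ν a * ν b * (4 * r * (ν c * ν d))) :=
      (hd.A a b _).trans (by gcongr; exact g1 c d)
    have b3 : ‖(J1 - J).H (J.gam a b) (J1.gam c d)‖ ≤
        ε * (r * (ν a * ν b) * (4 * r * (ν c * ν d))) :=
      (hd.H _ _).trans (mul_le_mul_of_nonneg_left
        (mul_le_mul (g0 a b) (g1 c d) (hν _) (by positivity)) hε)
    have b4 : ‖conj ((J1 - J).A c d (J.gam a b))‖ ≤ ε * (ν c * ν d * (r * (ν a * ν b))) := by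
      rw [norm_conj]
      exact (hd.A c d _).trans (by gcongr; exact g0 a b)
    have hP : 0 ≤ ε * (ν a * ν b * ν c * ν d) := by positivity
    rw [e]
    calc _ ≤ _ := (norm_sub_le _ _).trans (add_le_add ((norm_add_le _ _).trans
          (add_le_add ((norm_sub_le _ _).trans (add_le_add b1 b2)) b3)) b4)
      _ = (1 + 5 * r + 4 * r ^ 2) * (ε * (ν a * ν b * ν c * ν d)) := by ring
      _ ≤ 10 * r ^ 2 * (ε * (ν a * ν b * ν c * ν d)) := by gcongr; nlinarith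
      _ = _ := by ring
  have := shear_reduce h hp hκ hlow (F := fun X Y => |J1.N X Y - J.N X Y|)
    (C := 2 * (10 * ε * r ^ 2)) (by positivity)
    (fun Y => by rw [h.N_zero hp, h1.N_zero hp1, sub_zero, abs_zero])
    (fun X Y t => by rw [h.N_shear hp, h1.N_shear hp1])
    (fun X Y => by
      refine le_trans (le_of_eq ?_) (abs_re_sub_le hS X Y)
      rw [N, N, sub_re, sub_re]
      congr 1
      ring) X Y
  refine this.trans (le_of_eq ?_)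
  rw [hr]
  field_simp
  ring

/-- The antisymmetrisation of a bounded real-bilinear function is bounded by `√Den`. -/
theorem antisymm_bound (h : J.Good) (hp : J.Pos) (hν : ∀ a, 0 ≤ ν a) (hκ : 0 < κ)
    (hlow : ∀ a, κ * ν a ^ 2 ≤ (J.H a a).re) (f : E → E → ℂ)
    (hf1 : ∀ (t : ℝ) a a' b, f (a + (t : ℂ) • a') b = f a b + t * f a' b)
    (hf2 : ∀ (t : ℝ) a b b', f a (b + (t : ℂ) • b') = f a b + t * f a b')
    (hf : ∀ a b, ‖f a b‖ ≤ M * (ν a * ν b)) (X Y : E) :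
    κ ^ 2 * ‖f X Y - f Y X‖ ^ 2 ≤ 4 * M ^ 2 * J.Den X Y := by
  have z1 : ∀ b, f 0 b = 0 := fun b => by simpa using hf1 1 0 0 b
  have z2 : ∀ b, f b 0 = 0 := fun b => by simpa using hf2 1 b 0 0
  have := shear_reduce h hp hκ hlow (F := fun X Y => ‖f X Y - f Y X‖ ^ 2) (C := 4 * M ^ 2)
    (by positivity) (fun Y => by simp [z1, z2])
    (fun X Y t => by rw [hf1, hf2, add_sub_add_right_eq_sub])
    (fun X Y => by
      have h1 := (norm_sub_le _ _).trans (add_le_add (hf X Y) (hf Y X))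
      calc _ ≤ (M * (ν X * ν Y) + M * (ν Y * ν X)) ^ 2 := by gcongr
        _ = _ := by ring) X Y
  calc _ ≤ κ ^ 2 * (4 * M ^ 2 / κ ^ 2 * J.Den X Y) := by gcongr
    _ = _ := by field_simp

end Jet

end Crest.Agent.R245
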