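import Crest.Agent.R245.Wirt

/-!
# Bounds for nested Wirtinger derivatives, calculus of `JB` (task R245/WirtBd)
-/

set_option autoImplicit false

noncomputable section

namespace Crest.Agent.R245

open scoped ComplexConjugate ContDiff Topology
open Complex Set Filter

section W

variable {E : Type*} [NormedAddCommGroup E] [NormedSpace ℝ E] [NormedSpace ℂ E]
  [IsScalarTower ℝ ℂ E] {p : E} {f : E → ℂ}

/-- Key step.  `W s a f = L ∘ fderiv ℝ f` for the continuous linear map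
`L : (E →L[ℝ] ℂ) →L[ℝ] ℂ`, `L T = (T a + s I T (I a)) / 2` of norm `≤ ‖a‖`; use
`ContinuousLinearMap.norm_iteratedFDeriv(Within)_comp_left` (on an open set from `Sm.exists_open`,
`iteratedFDerivWithin_of_isOpen`) and `norm_iteratedFDeriv_fderiv`. -/
theorem norm_iteratedFDeriv_W (hf : Sm f p) {s : ℝ} (hs : |s| ≤ 1) (a : E) (k : ℕ) :
    ‖iteratedFDeriv ℝ k (W s a f) p‖ ≤ ‖iteratedFDeriv ℝ (k + 1) f p‖ * ‖a‖ := by
  let L : (E →L[ℝ] ℂ) →L[ℝ] ℂ :=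
    (1 / 2 : ℂ) • (ContinuousLinearMap.apply ℝ ℂ a +
      ((s : ℂ) * I) • ContinuousLinearMap.apply ℝ ℂ (I • a))
  have hL : ∀ T : E →L[ℝ] ℂ, L T = (T a + (s : ℂ) * I * T (I • a)) / 2 := by
    intro T
    simp only [L, ContinuousLinearMap.smul_apply, ContinuousLinearMap.add_apply,
      ContinuousLinearMap.apply_apply, smul_eq_mul]
    ring
  have hW : W s a f = L ∘ fderiv ℝ f := by
    funext q
    simp only [W, Function.comp_apply, hL]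
  have hn : ‖L‖ ≤ ‖a‖ := by
    refine ContinuousLinearMap.opNorm_le_bound _ (norm_nonneg _) fun T => ?_
    rw [hL]
    have h1 : ‖T a‖ ≤ ‖T‖ * ‖a‖ := T.le_opNorm a
    have h2 : ‖T (I • a)‖ ≤ ‖T‖ * ‖a‖ := by
      have := T.le_opNorm (I • a)
      rwa [norm_smul, Complex.norm_I, one_mul] at this
    have h3 : ‖(s : ℂ) * I * T (I • a)‖ ≤ ‖T‖ * ‖a‖ := by
      rw [norm_mul, norm_mul, Complex.norm_I, mul_one, Complex.norm_real, Real.norm_eq_abs]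
      calc |s| * ‖T (I • a)‖ ≤ 1 * (‖T‖ * ‖a‖) := by gcongr
        _ = _ := one_mul _
    have h4 := norm_add_le (T a) ((s : ℂ) * I * T (I • a))
    rw [norm_div, Complex.norm_ofNat]
    linarith [mul_comm ‖T‖ ‖a‖]
  have hc : ContDiffAt ℝ k (fderiv ℝ f) p :=
    hf.contDiffAt.fderiv_right (by exact_mod_cast le_top)
  rw [hW]
  calc _ ≤ ‖L‖ * ‖iteratedFDeriv ℝ k (fderiv ℝ f) p‖ := L.norm_iteratedFDeriv_comp_left hc le_rfl
    _ ≤ ‖a‖ * ‖iteratedFDeriv ℝ (k + 1) f p‖ := by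
      rw [norm_iteratedFDeriv_fderiv]; gcongr
    _ = _ := mul_comm _ _

theorem norm_W1 (hf : Sm f p) {s : ℝ} (hs : |s| ≤ 1) (a : E) :
    ‖W s a f p‖ ≤ ‖iteratedFDeriv ℝ 1 f p‖ * ‖a‖ := by
  have := norm_iteratedFDeriv_W hf hs a 0
  rwa [norm_iteratedFDeriv_zero] at this

theorem norm_W2 (hf : Sm f p) {s1 s2 : ℝ} (h1 : |s1| ≤ 1) (h2 : |s2| ≤ 1) (a b : E) :
    ‖W s1 a (W s2 b f) p‖ ≤ ‖iteratedFDeriv ℝ 2 f p‖ * (‖a‖ * ‖b‖) := by
  calc _ ≤ ‖iteratedFDeriv ℝ 1 (W s2 b f) p‖ * ‖a‖ := norm_W1 (hf.W s2 b) h1 a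
    _ ≤ ‖iteratedFDeriv ℝ 2 f p‖ * ‖b‖ * ‖a‖ := by
      gcongr; exact norm_iteratedFDeriv_W hf h2 b 1
    _ = _ := by ring

theorem norm_W3 (hf : Sm f p) {s1 s2 s3 : ℝ} (h1 : |s1| ≤ 1) (h2 : |s2| ≤ 1) (h3 : |s3| ≤ 1)
    (a b c : E) :
    ‖W s1 a (W s2 b (W s3 c f)) p‖ ≤ ‖iteratedFDeriv ℝ 3 f p‖ * (‖a‖ * ‖b‖ * ‖c‖) := by
  calc _ ≤ ‖iteratedFDeriv ℝ 2 (W s3 c f) p‖ * (‖a‖ * ‖b‖) := norm_W2 (hf.W s3 c) h1 h2 a b
    _ ≤ ‖iteratedFDeriv ℝ 3 f p‖ * ‖c‖ * (‖a‖ * ‖b‖) := by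
      gcongr; exact norm_iteratedFDeriv_W hf h3 c 2
    _ = _ := by ring

theorem norm_W4 (hf : Sm f p) {s1 s2 s3 s4 : ℝ} (h1 : |s1| ≤ 1) (h2 : |s2| ≤ 1) (h3 : |s3| ≤ 1)
    (h4 : |s4| ≤ 1) (a b c d : E) :
    ‖W s1 a (W s2 b (W s3 c (W s4 d f))) p‖ ≤
      ‖iteratedFDeriv ℝ 4 f p‖ * (‖a‖ * ‖b‖ * ‖c‖ * ‖d‖) := by
  calc _ ≤ ‖iteratedFDeriv ℝ 3 (W s4 d f) p‖ * (‖a‖ * ‖b‖ * ‖c‖) :=
        norm_W3 (hf.W s4 d) h1 h2 h3 a b c
    _ ≤ ‖iteratedFDeriv ℝ 4 f p‖ * ‖d‖ * (‖a‖ * ‖b‖ * ‖c‖) := by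
      gcongr; exact norm_iteratedFDeriv_W hf h4 d 3
    _ = _ := by ring

/-- `LinearIsometry.norm_iteratedFDeriv(Within)_comp_left` with `Complex.ofRealLI`. -/
theorem norm_iteratedFDeriv_cx {Φ : E → ℝ} (h : Sm Φ p) (k : ℕ) :
    ‖iteratedFDeriv ℝ k (cx Φ) p‖ = ‖iteratedFDeriv ℝ k Φ p‖ := by
  exact Complex.ofRealLI.norm_iteratedFDeriv_comp_left h.contDiffAt (by exact_mod_cast le_top)

theorem JB.jet_bd {Φ : E → ℝ} {K : ℝ} (h : JB Φ K) (hs : Sm Φ 0) :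
    (jet Φ 0).Bd (fun a => ‖a‖) K := by
  have m1 : |(-1 : ℝ)| ≤ 1 := by simp
  have p1 : |(1 : ℝ)| ≤ 1 := by simp
  refine ⟨fun a b => ?_, fun a b c => ?_, fun a b c d => ?_⟩
  · refine (norm_W2 hs.cx m1 p1 a b).trans ?_
    rw [norm_iteratedFDeriv_cx hs]
    gcongr
    exact h 2 (by norm_num) (by norm_num)
  · refine (norm_W3 hs.cx m1 m1 p1 a b c).trans ?_
    rw [norm_iteratedFDeriv_cx hs]
    gcongr
    exact h 3 (by norm_num) (by norm_num)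
  · refine (norm_W4 hs.cx m1 m1 p1 p1 a b c d).trans ?_
    rw [norm_iteratedFDeriv_cx hs]
    gcongr
    exact h 4 (by norm_num) (by norm_num)

theorem JB.W1 {Φ : E → ℝ} {K : ℝ} (h : JB Φ K) (hs : Sm Φ 0) {s : ℝ} (h1 : |s| ≤ 1) (a : E) :
    ‖W s a (cx Φ) 0‖ ≤ K * ‖a‖ := by
  refine (norm_W1 hs.cx h1 a).trans ?_
  rw [norm_iteratedFDeriv_cx hs]
  gcongr
  exact h 1 (by norm_num) (by norm_num)

theorem JB.W2 {Φ : E → ℝ} {K : ℝ} (h : JB Φ K) (hs : Sm Φ 0) {s1 s2 : ℝ} (h1 : |s1| ≤ 1)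
    (h2 : |s2| ≤ 1) (a b : E) : ‖W s1 a (W s2 b (cx Φ)) 0‖ ≤ K * (‖a‖ * ‖b‖) := by
  refine (norm_W2 hs.cx h1 h2 a b).trans ?_
  rw [norm_iteratedFDeriv_cx hs]
  gcongr
  exact h 2 (by norm_num) (by norm_num)

theorem JB.W3 {Φ : E → ℝ} {K : ℝ} (h : JB Φ K) (hs : Sm Φ 0) {s1 s2 s3 : ℝ} (h1 : |s1| ≤ 1)
    (h2 : |s2| ≤ 1) (h3 : |s3| ≤ 1) (a b c : E) :
    ‖W s1 a (W s2 b (W s3 c (cx Φ))) 0‖ ≤ K * (‖a‖ * ‖b‖ * ‖c‖) := by
  refine (norm_W3 hs.cx h1 h2 h3 a b c).trans ?_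
  rw [norm_iteratedFDeriv_cx hs]
  gcongr
  exact h 3 (by norm_num) (by norm_num)

theorem JB.W4 {Φ : E → ℝ} {K : ℝ} (h : JB Φ K) (hs : Sm Φ 0) {s1 s2 s3 s4 : ℝ} (h1 : |s1| ≤ 1)
    (h2 : |s2| ≤ 1) (h3 : |s3| ≤ 1) (h4 : |s4| ≤ 1) (a b c d : E) :
    ‖W s1 a (W s2 b (W s3 c (W s4 d (cx Φ)))) 0‖ ≤ K * (‖a‖ * ‖b‖ * ‖c‖ * ‖d‖) := by
  refine (norm_W4 hs.cx h1 h2 h3 h4 a b c d).trans ?_
  rw [norm_iteratedFDeriv_cx hs]
  gcongr
  exact h 4 (by norm_num) (by norm_num)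

end W

section JB

variable {E F : Type*} [NormedAddCommGroup E] [NormedSpace ℝ E] [NormedAddCommGroup F]
  [NormedSpace ℝ F] {f g : E → ℝ} {K K' : ℝ}

theorem JB.nonneg (h : JB f K) : 0 ≤ K := by
  exact (norm_nonneg _).trans (h 1 le_rfl (by norm_num))

theorem JB.mono (h : JB f K) (hK : K ≤ K') : JB f K' := by
  exact fun i h1 h4 => (h i h1 h4).trans hK

theorem JB.congr (h : JB f K) (hfg : f =ᶠ[𝓝 0] g) : JB g K := by
  intro i h1 h4
  rw [← (hfg.iteratedFDeriv ℝ i).eq_of_nhds]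
  exact h i h1 h4

theorem JB.const (c : ℝ) : JB (fun _ : E => c) 0 := by
  intro i h1 _
  rw [iteratedFDeriv_const_of_ne (by omega)]
  simp

theorem JB.add (hf : JB f K) (hg : JB g K') (sf : Sm f 0) (sg : Sm g 0) :
    JB (fun u => f u + g u) (K + K') := by
  intro i h1 h4
  rw [fun_iteratedFDeriv_add_apply (sf.contDiffAt.of_le (by exact_mod_cast le_top))
    (sg.contDiffAt.of_le (by exact_mod_cast le_top))]
  exact (norm_add_le _ _).trans (add_le_add (hf i h1 h4) (hg i h1 h4))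

theorem JB.sub (hf : JB f K) (hg : JB g K') (sf : Sm f 0) (sg : Sm g 0) :
    JB (fun u => f u - g u) (K + K') := by
  intro i h1 h4
  rw [fun_iteratedFDeriv_sub_apply (sf.contDiffAt.of_le (by exact_mod_cast le_top))
    (sg.contDiffAt.of_le (by exact_mod_cast le_top))]
  exact (norm_sub_le _ _).trans (add_le_add (hf i h1 h4) (hg i h1 h4))

theorem JB.add_const (hf : JB f K) (sf : Sm f 0) (c : ℝ) : JB (fun u => f u + c) K := by
  simpa using hf.add (JB.const c) sf (Sm.const c)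

theorem JB.const_mul (hf : JB f K) (sf : Sm f 0) (c : ℝ) : JB (fun u => c * f u) (|c| * K) := by
  intro i h1 h4
  have := iteratedFDeriv_const_smul_apply' (𝕜 := ℝ) (a := c) (i := i)
    (sf.contDiffAt.of_le (by exact_mod_cast le_top))
  simp only [smul_eq_mul] at this
  rw [this, norm_smul, Real.norm_eq_abs]
  gcongr
  exact hf i h1 h4

theorem JB.sum {ι : Type*} {t : Finset ι} {F : ι → E → ℝ} {Ks : ι → ℝ}
    (hf : ∀ i ∈ t, JB (F i) (Ks i)) (sf : ∀ i ∈ t, Sm (F i) 0) :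
    JB (fun u => ∑ i ∈ t, F i u) (∑ i ∈ t, Ks i) := by
  intro i h1 h4
  rw [iteratedFDeriv_fun_sum_apply
    (fun j hj => (sf j hj).contDiffAt.of_le (by exact_mod_cast le_top))]
  exact (norm_sum_le _ _).trans (Finset.sum_le_sum fun j hj => hf j hj i h1 h4)

theorem exists_JB (f : E → ℝ) : ∃ K, 1 ≤ K ∧ JB f K := by
  refine ⟨1 + ∑ i ∈ Finset.range 5, ‖iteratedFDeriv ℝ i f 0‖, ?_, fun i _ h4 => ?_⟩
  · have : 0 ≤ ∑ i ∈ Finset.range 5, ‖iteratedFDeriv ℝ i f 0‖ :=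
      Finset.sum_nonneg fun _ _ => norm_nonneg _
    linarith
  · have := Finset.single_le_sum (f := fun i => ‖iteratedFDeriv ℝ i f 0‖)
      (fun _ _ => norm_nonneg _) (Finset.mem_range.2 (show i < 5 by omega))
    linarith

/-- Faà di Bruno bound without the zeroth derivative of `M`: apply
`norm_iteratedFDerivWithin_comp_le` to `M - M (u p)` on suitable open sets. -/
theorem norm_iteratedFDeriv_comp_le' {M : ℝ → ℝ} {u : E → ℝ} {p : E} (hM : Sm M (u p))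
    (hu : Sm u p) {C Dd : ℝ} {k : ℕ} (hk : 1 ≤ k)
    (hC : ∀ i, 1 ≤ i → i ≤ k → |iteratedDeriv i M (u p)| ≤ C)
    (hD : ∀ i, 1 ≤ i → i ≤ k → ‖iteratedFDeriv ℝ i u p‖ ≤ Dd ^ i) :
    ‖iteratedFDeriv ℝ k (fun q => M (u q)) p‖ ≤ k.factorial * C * Dd ^ k := by
  obtain ⟨U, hU, hpU, hMU⟩ := hM.exists_open
  obtain ⟨V, hV, hpV, huV⟩ := hu.exists_open
  have hC0 : 0 ≤ C := (abs_nonneg _).trans (hC 1 le_rfl hk)
  set S : Set E := V ∩ u ⁻¹' U with hS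
  have hSo : IsOpen S := huV.continuousOn.isOpen_inter_preimage hV hU
  have hpS : p ∈ S := ⟨hpV, hpU⟩
  set c : ℝ := M (u p) with hc
  have hg : ContDiffOn ℝ ∞ (fun x => -c + M x) U := contDiffOn_const.add hMU
  have key := norm_iteratedFDerivWithin_comp_le (n := k) (C := C) (D := Dd) hg
    (huV.mono (inter_subset_left : S ⊆ V)) (by exact_mod_cast le_top) hU.uniqueDiffOn
    hSo.uniqueDiffOn (fun x hx => hx.2) hpS ?_ ?_
  · rw [iteratedFDerivWithin_of_isOpen k hSo hpS] at key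
    have e : iteratedFDeriv ℝ k ((fun x => -c + M x) ∘ u) p =
        iteratedFDeriv ℝ k (fun q => M (u q)) p := by
      have := fun_iteratedFDeriv_add_apply (𝕜 := ℝ) (i := k) (x := p) (f := fun _ : E => -c)
        (g := fun q => M (u q)) contDiffAt_const
        ((hM.comp hu).contDiffAt.of_le (by exact_mod_cast le_top))
      rw [iteratedFDeriv_const_of_ne (by omega)] at this
      simpa [Function.comp_def] using this
    rwa [e] at key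
  · intro i hi
    rw [iteratedFDerivWithin_of_isOpen i hU hpU, norm_iteratedFDeriv_eq_norm_iteratedDeriv]
    rcases Nat.eq_zero_or_pos i with rfl | h0
    · simp [hc, hC0]
    · rw [iteratedDeriv_const_add h0]
      exact hC i h0 hi
  · intro i h1 hi
    rw [iteratedFDerivWithin_of_isOpen i hSo hpS]
    exact hD i h1 hi

theorem JB.comp_small {M : ℝ → ℝ} {u : E → ℝ} (hM : Sm M (u 0)) (hu : Sm u 0) {C Dd : ℝ}
    (hC : ∀ i, 1 ≤ i → i ≤ 4 → |iteratedDeriv i M (u 0)| ≤ C) (h0 : 0 ≤ Dd) (h1 : Dd ≤ 1)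
    (hD : JB u (Dd ^ 4)) : JB (fun q => M (u q)) (24 * C * Dd) := by
  intro k hk h4
  have hC0 : 0 ≤ C := (abs_nonneg _).trans (hC 1 le_rfl (by norm_num))
  refine (norm_iteratedFDeriv_comp_le' hM hu (C := C) (Dd := Dd) hk
    (fun i h1 hi => hC i h1 (hi.trans h4)) (fun i h1 hi => ?_)).trans ?_
  · exact (hD i h1 (hi.trans h4)).trans (pow_le_pow_of_le_one h0 ‹_› (hi.trans h4))
  · have e1 : (k.factorial : ℝ) ≤ 24 := by
      exact_mod_cast (Nat.factorial_le h4).trans_eq (by decide)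
    have e2 : Dd ^ k ≤ Dd := by
      simpa using pow_le_pow_of_le_one h0 h1 hk
    gcongr

theorem JB.comp_big {M : ℝ → ℝ} {u : E → ℝ} (hM : Sm M (u 0)) (hu : Sm u 0) {C Dd : ℝ}
    (hC : ∀ i, 1 ≤ i → i ≤ 4 → |iteratedDeriv i M (u 0)| ≤ C) (h1 : 1 ≤ Dd)
    (hD : JB u Dd) : JB (fun q => M (u q)) (24 * C * Dd ^ 4) := by
  intro k hk h4
  have hC0 : 0 ≤ C := (abs_nonneg _).trans (hC 1 le_rfl (by norm_num))
  refine (norm_iteratedFDeriv_comp_le' hM hu (C := C) (Dd := Dd) hk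
    (fun i h1 hi => hC i h1 (hi.trans h4)) (fun i hi1 hi => ?_)).trans ?_
  · refine (hD i hi1 (hi.trans h4)).trans ?_
    simpa using pow_le_pow_right₀ h1 hi1
  · have e1 : (k.factorial : ℝ) ≤ 24 := by
      exact_mod_cast (Nat.factorial_le h4).trans_eq (by decide)
    have e2 : Dd ^ k ≤ Dd ^ 4 := pow_le_pow_right₀ h1 h4
    have e3 : 0 ≤ Dd := by linarith
    gcongr

/-- Composition with a real affine map (`ContinuousLinearMap.iteratedFDeriv(Within)_comp_right`,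
`iteratedFDeriv_comp_add_left`, `ContinuousMultilinearMap.norm_compContinuousLinearMap_le`). -/
theorem norm_iteratedFDeriv_affine {B : F → ℝ} (L : E →L[ℝ] F) (b : F) (hB : Sm B b) (k : ℕ) :
    ‖iteratedFDeriv ℝ k (fun u => B (b + L u)) 0‖ ≤ ‖iteratedFDeriv ℝ k B b‖ * ‖L‖ ^ k := by
  have hs : Sm (fun v => B (b + v)) (L 0) := by
    refine Sm.comp (g := B) (f := fun v => b + v) (by simpa using hB) ?_
    exact Sm.of_contDiff (contDiff_const.add contDiff_id)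
  obtain ⟨U, hU, hpU, hBU⟩ := hs.exists_open
  have hU' : IsOpen (L ⁻¹' U) := hU.preimage L.continuous
  have key := L.iteratedFDerivWithin_comp_right hBU hU.uniqueDiffOn hU'.uniqueDiffOn hpU
    (i := k) (by exact_mod_cast le_top)
  rw [iteratedFDerivWithin_of_isOpen k hU' hpU, iteratedFDerivWithin_of_isOpen k hU hpU,
    iteratedFDeriv_comp_add_left] at key
  have e : (fun u => B (b + L u)) = (fun v => B (b + v)) ∘ L := rfl
  rw [e, key]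
  refine (ContinuousMultilinearMap.norm_compContinuousLinearMap_le _ _).trans_eq ?_
  simp

end JB

end Crest.Agent.R245
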