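import Crest.Agent.R245.TJet
import Crest.Agent.R245.WirtBd

/-!
# The wells of one scale (task R245/Base)

`2 Re (ell a z) = yy z + |z.2 - a|²`, so on `H2` the term of `a = lat d k` vanishes unless
`‖z.2 - a‖ < 2 √d`; lattice points are `5 √d` apart, so at most one term is active.
-/

set_option autoImplicit false

noncomputable section

namespace Crest.Agent.R245

open scoped ComplexConjugate ContDiff Topology
open Complex Set Filter

variable {B : ℂ → ℝ} {Dp CB d : ℝ}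

theorem two_re_ell (a : ℂ) (z : V) : 2 * (ell a z).re = yy z + normSq (z.2 - a) := by
  simp only [ell, yy, normSq_apply, add_re, sub_re, mul_re, conj_re, conj_im, sub_im, div_ofNat_re,
    ofReal_re]
  ring

theorem norm_lat (hd : 0 < d) (k : ℤ × ℤ) :
    ‖lat d k‖ = 5 * √d * ‖(k.1 : ℂ) + (k.2 : ℂ) * I‖ := by
  have hs : 0 < √d := Real.sqrt_pos.mpr hd
  rw [lat, norm_mul, norm_real, Real.norm_of_nonneg (by positivity)]

theorem lat_sub (d : ℝ) (k k' : ℤ × ℤ) : lat d k - lat d k' = lat d (k - k') := by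
  simp only [lat, Prod.fst_sub, Prod.snd_sub]
  push_cast
  ring

theorem abs_fst_le (k : ℤ × ℤ) : |(k.1 : ℝ)| ≤ ‖(k.1 : ℂ) + (k.2 : ℂ) * I‖ := by
  simpa using abs_re_le_norm ((k.1 : ℂ) + (k.2 : ℂ) * I)

theorem abs_snd_le (k : ℤ × ℤ) : |(k.2 : ℝ)| ≤ ‖(k.1 : ℂ) + (k.2 : ℂ) * I‖ := by
  simpa using abs_im_le_norm ((k.1 : ℂ) + (k.2 : ℂ) * I)

theorem mem_latS (hd : 0 < d) (k : ℤ × ℤ) : k ∈ latS d ↔ ‖lat d k‖ ≤ 1 / 2 := by
  have hs : 0 < √d := Real.sqrt_pos.mpr hd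
  unfold latS
  rw [Finset.mem_filter]
  refine ⟨fun h => h.2, fun h => ⟨?_, h⟩⟩
  rw [norm_lat hd] at h
  have h1 : ‖(k.1 : ℂ) + (k.2 : ℂ) * I‖ ≤ 1 / √d := by
    rw [le_div_iff₀ hs]
    nlinarith [norm_nonneg ((k.1 : ℂ) + (k.2 : ℂ) * I)]
  have h2 : (1 / √d : ℝ) ≤ (⌈1 / √d⌉ : ℤ) := Int.le_ceil _
  have key : ∀ m : ℤ, |(m : ℝ)| ≤ 1 / √d → m ∈ Finset.Icc (-⌈1 / √d⌉) ⌈1 / √d⌉ := by
    intro m hm
    have h3 : |m| ≤ ⌈1 / √d⌉ := by exact_mod_cast (show ((|m| : ℤ) : ℝ) ≤ (⌈1 / √d⌉ : ℤ) by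
      rw [Int.cast_abs]; exact hm.trans h2)
    exact Finset.mem_Icc.mpr (abs_le.mp h3)
  exact Finset.mem_product.mpr ⟨key _ ((abs_fst_le k).trans h1), key _ ((abs_snd_le k).trans h1)⟩

theorem lat_sep (hd : 0 < d) {k k' : ℤ × ℤ} (h : k ≠ k') : 5 * √d ≤ ‖lat d k - lat d k'‖ := by
  have hs : 0 < √d := Real.sqrt_pos.mpr hd
  rw [lat_sub, norm_lat hd]
  have h0 : k - k' ≠ 0 := sub_ne_zero.mpr h
  generalize k - k' = m at h0
  have h1 : 1 ≤ ‖(m.1 : ℂ) + (m.2 : ℂ) * I‖ := by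
    by_cases h2 : m.1 = 0
    · have h3 : m.2 ≠ 0 := fun h3 => h0 (Prod.ext h2 h3)
      refine le_trans ?_ (abs_snd_le m)
      exact_mod_cast Int.one_le_abs h3
    · refine le_trans ?_ (abs_fst_le m)
      exact_mod_cast Int.one_le_abs h2
  nlinarith

/-- Round the real and imaginary parts (`round`, `abs_sub_round`): distance `≤ 5 √d / √2`. -/
theorem lat_near (hd : 0 < d) (c : ℂ) : ∃ k, ‖lat d k - c‖ ≤ 4 * √d := by
  have hs : 0 < √d := Real.sqrt_pos.mpr hd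
  have key : ∀ x : ℝ, (5 * √d * (round (x / (5 * √d)) : ℤ) - x) ^ 2 ≤ (5 * √d / 2) ^ 2 := by
    intro x
    have h1 := abs_sub_round (x / (5 * √d))
    have h2 : 5 * √d * (round (x / (5 * √d)) : ℤ) - x =
        -(5 * √d) * (x / (5 * √d) - round (x / (5 * √d))) := by
      field_simp
      ring
    rw [h2, mul_pow, neg_sq, ← sq_abs (x / (5 * √d) - _)]
    have h3 : |x / (5 * √d) - round (x / (5 * √d))| ^ 2 ≤ (1 / 2) ^ 2 :=
      pow_le_pow_left₀ (abs_nonneg _) h1 2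
    nlinarith [sq_nonneg (5 * √d)]
  refine ⟨(round (c.re / (5 * √d)), round (c.im / (5 * √d))), ?_⟩
  refine abs_le_of_sq_le_sq' ?_ (by positivity) |>.2
  rw [← normSq_eq_norm_sq, normSq_apply]
  have h1 := key c.re
  have h2 := key c.im
  simp only [lat, sub_re, sub_im, re_ofReal_mul, im_ofReal_mul, add_re, add_im, intCast_re,
    intCast_im, mul_re, mul_im, I_re, I_im, mul_zero, mul_one, sub_zero, add_zero, zero_add,
    ofReal_re, ofReal_im, zero_mul]
  nlinarith [sq_nonneg √d]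

theorem re_ell_div (hd : 0 < d) (a : ℂ) (z : V) :
    (ell a z / d).re = (yy z + normSq (z.2 - a)) / (2 * d) := by
  rw [div_ofReal_re, ← two_re_ell]
  field_simp

theorem term_zero (hB : IsWell B Dp CB) (hd : 0 < d) {a : ℂ} {z : V}
    (h : 4 * d ≤ yy z + normSq (z.2 - a)) : B (ell a z / d) = 0 := by
  apply hB.zero
  rw [re_ell_div hd, le_div_iff₀ (by positivity)]
  linarith

theorem Wd_zero_of_le (hB : IsWell B Dp CB) (hd : 0 < d) {z : V} (h : 4 * d ≤ yy z) :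
    Wd B d z = 0 := by
  exact Finset.sum_eq_zero fun k _ => term_zero hB hd (by linarith [normSq_nonneg (z.2 - lat d k)])

theorem term_zero' (hB : IsWell B Dp CB) (hd : 0 < d) {a : ℂ} {z : V} (hz : z ∈ H2)
    (h : 2 * √d ≤ ‖z.2 - a‖) : B (ell a z / d) = 0 := by
  apply term_zero hB hd
  have hy : 0 < yy z := hz
  have hs : 0 ≤ √d := Real.sqrt_nonneg d
  have h1 : (2 * √d) ^ 2 ≤ ‖z.2 - a‖ ^ 2 := pow_le_pow_left₀ (by positivity) h 2
  rw [mul_pow, Real.sq_sqrt hd.le] at h1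
  rw [normSq_eq_norm_sq]
  linarith

theorem re_ell_nonneg (hd : 0 < d) (a : ℂ) {z : V} (hz : z ∈ H2) : 0 ≤ (ell a z / d).re := by
  have hy : 0 < yy z := hz
  rw [re_ell_div hd]
  have := normSq_nonneg (z.2 - a)
  positivity

theorem Wd_zero_of_far (hB : IsWell B Dp CB) (hd : 0 < d) {z : V} (hz : z ∈ H2)
    (h : 1 / 2 + 2 * √d ≤ ‖z.2‖) : Wd B d z = 0 := by
  refine Finset.sum_eq_zero fun k hk => term_zero' hB hd hz ?_
  have h1 := (mem_latS hd k).mp hk
  have h2 := norm_sub_norm_le z.2 (lat d k)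
  linarith

theorem Wd_zero_of_forall (hB : IsWell B Dp CB) (hd : 0 < d) {z : V}
    (h : ∀ k ∈ latS d, 4 * d ≤ yy z + normSq (z.2 - lat d k)) : Wd B d z = 0 := by
  exact Finset.sum_eq_zero fun k hk => term_zero hB hd (h k hk)

theorem Wd_eq_single (hB : IsWell B Dp CB) (hd : 0 < d) {z : V} (hz : z ∈ H2) {k : ℤ × ℤ}
    (hk : k ∈ latS d) (h : ‖z.2 - lat d k‖ ≤ 3 * √d) : Wd B d z = B (ell (lat d k) z / d) := by
  refine Finset.sum_eq_single_of_mem k hk fun k' _ hne => term_zero' hB hd hz ?_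
  have h1 := lat_sep hd hne
  have h2 : ‖lat d k' - lat d k‖ ≤ ‖z.2 - lat d k'‖ + ‖z.2 - lat d k‖ := by
    have : lat d k' - lat d k = (z.2 - lat d k) - (z.2 - lat d k') := by ring
    rw [this, add_comm]
    exact norm_sub_le _ _
  linarith

theorem Wd_cases (hB : IsWell B Dp CB) (hd : 0 < d) {z : V} (hz : z ∈ H2) :
    Wd B d z = 0 ∨ ∃ ζ : ℂ, 0 ≤ ζ.re ∧ Wd B d z = B ζ := by
  have hs : 0 ≤ √d := Real.sqrt_nonneg d
  by_cases h : ∃ k ∈ latS d, ‖z.2 - lat d k‖ ≤ 3 * √d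
  · obtain ⟨k, hk, h⟩ := h
    exact Or.inr ⟨_, re_ell_nonneg hd _ hz, Wd_eq_single hB hd hz hk h⟩
  · push Not at h
    exact Or.inl (Finset.sum_eq_zero fun k hk => term_zero' hB hd hz (by linarith [h k hk]))

theorem Wd_le (hB : IsWell B Dp CB) (hd : 0 < d) {z : V} (hz : z ∈ H2) : Wd B d z ≤ 30 := by
  rcases Wd_cases hB hd hz with h | ⟨ζ, h1, h⟩
  · rw [h]; norm_num
  · rw [h]; exact hB.le ζ h1

theorem abs_Wd_le (hB : IsWell B Dp CB) (hd : 0 < d) {z : V} (hz : z ∈ H2) :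
    |Wd B d z| ≤ CB := by
  rcases Wd_cases hB hd hz with h | ⟨ζ, h1, h⟩
  · rw [h, abs_zero]; linarith [hB.one_le]
  · rw [h]
    have := hB.bd 0 (by norm_num) ζ h1
    rwa [norm_iteratedFDeriv_zero, Real.norm_eq_abs] at this

theorem well_lip (hB : IsWell B Dp CB) {ζ ζ' : ℂ} (h : 0 ≤ ζ.re) (h' : 0 ≤ ζ'.re) :
    |B ζ' - B ζ| ≤ CB * ‖ζ' - ζ‖ := by
  have hc : Convex ℝ {w : ℂ | 0 ≤ w.re} := convex_halfSpace_re_ge 0
  have := hc.norm_image_sub_le_of_norm_fderiv_le (𝕜 := ℝ) (f := B) (C := CB)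
    (fun x _ => hB.smooth.differentiable (by simp) x)
    (fun x hx => by rw [← norm_iteratedFDeriv_one]; exact hB.bd 1 (by norm_num) x hx) h h'
  rwa [Real.norm_eq_abs] at this

/-- `B` is `CB`-Lipschitz on the convex set `Re ≥ 0` (`Convex.norm_image_sub_le_of_norm_fderiv_le`,
`norm_iteratedFDeriv_one`).  At most two terms are active at `z` or `z'`; for these
`‖z.2 - a‖ ≤ 3 √d` and
`ell a z' - ell a z = (z'.1 - z.1 - conj z.2 (z'.2 - z.2)) + conj (z.2 - a) (z'.2 - z.2)`. -/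
theorem Wd_lip (hB : IsWell B Dp CB) (hd : 0 < d) {z z' : V} (hz : z ∈ H2) (hz' : z' ∈ H2)
    {ρ : ℝ} (hρ : ρ ≤ √d) (h2 : ‖z'.2 - z.2‖ ≤ ρ)
    (h1 : ‖z'.1 - z.1 - conj z.2 * (z'.2 - z.2)‖ ≤ ρ ^ 2) :
    |Wd B d z' - Wd B d z| ≤ 8 * CB * ρ / √d := by
  have hs : 0 < √d := Real.sqrt_pos.mpr hd
  have hρ0 : 0 ≤ ρ := (norm_nonneg _).trans h2
  have hCB : 0 ≤ CB := by linarith [hB.one_le]
  have main : ∀ k ∈ latS d, ‖z.2 - lat d k‖ ≤ 3 * √d → ‖z'.2 - lat d k‖ ≤ 3 * √d →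
      |Wd B d z' - Wd B d z| ≤ 8 * CB * ρ / √d := by
    intro k hk hk1 hk2
    rw [Wd_eq_single hB hd hz hk hk1, Wd_eq_single hB hd hz' hk hk2]
    refine (well_lip hB (re_ell_nonneg hd _ hz) (re_ell_nonneg hd _ hz')).trans ?_
    set a := lat d k
    have e : ell a z' / d - ell a z / d =
        ((z'.1 - z.1 - conj z.2 * (z'.2 - z.2)) + conj (z.2 - a) * (z'.2 - z.2)) / d := by
      simp only [ell, map_sub]
      ring
    have h3 : ‖conj (z.2 - a) * (z'.2 - z.2)‖ ≤ 3 * √d * ρ := by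
      rw [norm_mul, norm_conj]
      exact mul_le_mul hk1 h2 (norm_nonneg _) (by positivity)
    have h4 : ‖ell a z' / d - ell a z / d‖ ≤ 4 * ρ / √d := by
      rw [e, norm_div, norm_real, Real.norm_of_nonneg hd.le, div_le_div_iff₀ hd hs]
      have h5 := (norm_add_le _ _).trans (add_le_add h1 h3)
      have h6 : ρ ^ 2 ≤ √d * ρ := by nlinarith
      calc _ ≤ (4 * √d * ρ) * √d := mul_le_mul_of_nonneg_right (by linarith) hs.le
        _ = 4 * ρ * (√d * √d) := by ring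
        _ = 4 * ρ * d := by rw [Real.mul_self_sqrt hd.le]
    calc CB * ‖ell a z' / d - ell a z / d‖ ≤ CB * (4 * ρ / √d) :=
          mul_le_mul_of_nonneg_left h4 hCB
      _ = 4 * (CB * ρ / √d) := by ring
      _ ≤ 8 * (CB * ρ / √d) := by
          have : 0 ≤ CB * ρ / √d := by positivity
          linarith
      _ = _ := by ring
  by_cases c1 : ∃ k ∈ latS d, ‖z.2 - lat d k‖ ≤ 2 * √d
  · obtain ⟨k, hk, h⟩ := c1
    refine main k hk (by linarith) ?_
    have : z'.2 - lat d k = (z'.2 - z.2) + (z.2 - lat d k) := by ring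
    rw [this]
    linarith [norm_add_le (z'.2 - z.2) (z.2 - lat d k)]
  by_cases c2 : ∃ k ∈ latS d, ‖z'.2 - lat d k‖ ≤ 2 * √d
  · obtain ⟨k, hk, h⟩ := c2
    refine main k hk ?_ (by linarith)
    have : z.2 - lat d k = (z'.2 - lat d k) - (z'.2 - z.2) := by ring
    rw [this]
    linarith [norm_sub_le (z'.2 - lat d k) (z'.2 - z.2)]
  push Not at c1 c2
  have e1 : Wd B d z = 0 := Finset.sum_eq_zero fun k hk => term_zero' hB hd hz (c1 k hk).le
  have e2 : Wd B d z' = 0 := Finset.sum_eq_zero fun k hk => term_zero' hB hd hz' (c2 k hk).le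
  rw [e1, e2, sub_zero, abs_zero]
  positivity

theorem contDiff_term (hB : IsWell B Dp CB) (d : ℝ) (a : ℂ) :
    ContDiff ℝ ∞ fun z : V => B (ell a z / d) := by
  refine hB.smooth.comp ?_
  unfold ell
  exact ((contDiff_fst.sub (contDiff_const.mul contDiff_snd)).add contDiff_const).div_const _

theorem contDiff_Wd (hB : IsWell B Dp CB) (d : ℝ) : ContDiff ℝ ∞ (Wd B d) := by
  exact ContDiff.sum fun k _ => contDiff_term hB d (lat d k)

theorem term_psh (hB : IsWell B Dp CB) (d : ℝ) (a : ℂ) (z ξ : V) :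
    0 ≤ ((jet (fun z : V => B (ell a z / d)) z).H ξ ξ).re := by
  let L : V →L[ℂ] ℂ := (d : ℂ)⁻¹ • (ContinuousLinearMap.fst ℂ ℂ ℂ -
    conj a • ContinuousLinearMap.snd ℂ ℂ ℂ)
  let b : ℂ := (normSq a : ℂ) / 2 / d
  have e : (fun z : V => B (ell a z / d)) = fun z => B (b + L z) := by
    funext w
    congr 1
    simp only [L, b, ell, ContinuousLinearMap.smul_apply, ContinuousLinearMap.sub_apply,
      ContinuousLinearMap.coe_fst', ContinuousLinearMap.coe_snd', smul_eq_mul]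
    ring
  have hs : Sm B (b + L z) := Sm.of_contDiff hB.smooth
  rw [e, jet_affine L b hs, Jet.comap_H]
  have hg := jet_good hs
  have h1 : (jet B (b + L z)).H (L ξ) (L ξ) =
      (normSq (L ξ) : ℂ) * (jet B (b + L z)).H 1 1 := by
    have h2 : ∀ w : ℂ, (jet B (b + L z)).H (L ξ) w = L ξ * (jet B (b + L z)).H 1 w := fun w => by
      simpa using hg.H_smul (L ξ) 1 w
    have h3 : (jet B (b + L z)).H 1 (L ξ) = conj (L ξ) * (jet B (b + L z)).H 1 1 := by
      rw [← hg.H_conj (L ξ) 1, h2, map_mul, hg.H_conj]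
    rw [h2, h3, ← mul_assoc, mul_conj]
  rw [h1, re_ofReal_mul]
  exact mul_nonneg (normSq_nonneg _) (hB.psh _)

/-- Each term is `B ∘ (affine holomorphic)`: `jet_affine`, `H (t • 1) (t • 1) = |t|² H 1 1`
(`jet_good`). -/
theorem Wd_psh (hB : IsWell B Dp CB) (d : ℝ) (z ξ : V) : 0 ≤ ((jet (Wd B d) z).H ξ ξ).re := by
  have key : ∀ t : Finset (ℤ × ℤ),
      0 ≤ ((jet (fun z : V => ∑ k ∈ t, B (ell (lat d k) z / d)) z).H ξ ξ).re := by
    intro t
    induction t using Finset.induction_on with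
    | empty =>
      have e : Db ξ (cx fun _ : V => (0 : ℝ)) = fun _ => 0 := by
        funext q
        exact W_const (c := ((0 : ℝ) : ℂ))
      simp only [Finset.sum_empty, jet, e, W_const, zero_re, le_refl]
    | insert k t hk ih =>
      simp only [Finset.sum_insert hk]
      rw [jet_add (Sm.of_contDiff (contDiff_term hB d _))
        (Sm.of_contDiff (ContDiff.sum fun k _ => contDiff_term hB d (lat d k))), Jet.add_H, add_re]
      exact add_nonneg (term_psh hB d _ z ξ) ih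
  exact key (latS d)

/-- In normalised coordinates the term of `a` is `B (ell a z / d + L u)` with
`L u = (y u.1 + √y conj (z.2 - a) u.2) / d`.  Terms with `‖z.2 - a‖ > 2 √d` vanish near `0`; at most
one has `‖z.2 - a‖ ≤ 2 √d`, and for it `‖L‖ ≤ y/d + 2 √(y/d) ≤ 4 √(y/d) ≤ 8`
(`norm_iteratedFDeriv_affine`). -/
theorem Wd_JB (hB : IsWell B Dp CB) (hd : 0 < d) {z : V} (hz : z ∈ H2) (hy : yy z ≤ 4 * d) :
    JB (nz (Wd B d) z) (2048 * CB * √(yy z / d)) := by
  have hs : 0 < √d := Real.sqrt_pos.mpr hd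
  have hCB : 0 ≤ CB := by linarith [hB.one_le]
  have hy0 : 0 < yy z := hz
  have hH : ∀ᶠ w in 𝓝 z, w ∈ H2 := isOpen_H2.mem_nhds hz
  by_cases c1 : ∃ k ∈ latS d, ‖z.2 - lat d k‖ ≤ 2 * √d
  · obtain ⟨k, hk, h⟩ := c1
    set a := lat d k with ha
    have hc : ContinuousAt (fun w : V => ‖w.2 - a‖) z := by fun_prop
    have hev : Wd B d =ᶠ[𝓝 z] fun w => B (ell a w / d) := by
      filter_upwards [hH, hc.eventually (gt_mem_nhds (show ‖z.2 - a‖ < 3 * √d by linarith))]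
        with w hw1 hw2
      exact Wd_eq_single hB hd hw1 hk hw2.le
    refine JB.congr ?_ (nz_congr hev).symm
    let L : V →L[ℂ] ℂ := (d : ℂ)⁻¹ • (((yy z : ℝ) : ℂ) • ContinuousLinearMap.fst ℂ ℂ ℂ +
      (((√(yy z) : ℝ) : ℂ) * conj (z.2 - a)) • ContinuousLinearMap.snd ℂ ℂ ℂ)
    have hL : ∀ u : V, L u = (d : ℂ)⁻¹ * (((yy z : ℝ) : ℂ) * u.1 +
        (((√(yy z) : ℝ) : ℂ) * conj (z.2 - a)) * u.2) := fun u => rfl
    have e : nz (fun w => B (ell a w / d)) z =
        fun u => B (ell a z / d + (L.restrictScalars ℝ) u) := by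
      funext u
      simp only [nz, ContinuousLinearMap.coe_restrictScalars', hL]
      congr 1
      simp only [ell, LL_apply, Prod.fst_add, Prod.snd_add, map_sub]
      ring
    set σ := √(yy z / d) with hσ
    have hσ0 : 0 ≤ σ := Real.sqrt_nonneg _
    have hσsq : σ ^ 2 = yy z / d := Real.sq_sqrt (by positivity)
    have hσ2 : σ ≤ 2 := by
      refine abs_le_of_sq_le_sq' ?_ (by norm_num) |>.2
      rw [hσsq, div_le_iff₀ hd]
      linarith
    have hσm : √(yy z) = σ * √d := by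
      rw [hσ, Real.sqrt_div hy0.le]
      field_simp
    have hn : ‖L.restrictScalars ℝ‖ ≤ 4 * σ := by
      refine ContinuousLinearMap.opNorm_le_bound _ (by positivity) fun u => ?_
      rw [ContinuousLinearMap.coe_restrictScalars', hL, norm_mul, norm_inv, norm_real,
        Real.norm_of_nonneg hd.le]
      have h1 : ‖((yy z : ℝ) : ℂ) * u.1‖ ≤ yy z * ‖u‖ := by
        rw [norm_mul, norm_real, Real.norm_of_nonneg hy0.le]
        exact mul_le_mul_of_nonneg_left (norm_fst_le u) hy0.le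
      have h2 : ‖(((√(yy z) : ℝ) : ℂ) * conj (z.2 - a)) * u.2‖ ≤ (σ * √d * (2 * √d)) * ‖u‖ := by
        rw [norm_mul, norm_mul, norm_real, Real.norm_of_nonneg (Real.sqrt_nonneg _), norm_conj,
          hσm]
        exact mul_le_mul (mul_le_mul_of_nonneg_left h (by positivity)) (norm_snd_le u)
          (norm_nonneg _) (by positivity)
      have h3 : σ * √d * (2 * √d) = 2 * σ * d := by
        calc _ = 2 * σ * (√d * √d) := by ring
          _ = _ := by rw [Real.mul_self_sqrt hd.le]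
      have h4 : yy z = σ ^ 2 * d := by rw [hσsq]; field_simp
      rw [h3] at h2
      have h5 := (norm_add_le _ _).trans (add_le_add h1 h2)
      rw [inv_mul_le_iff₀ hd]
      refine h5.trans ?_
      have h6 : σ ^ 2 ≤ 2 * σ := by nlinarith
      have h7 : 0 ≤ d * ‖u‖ := by positivity
      calc yy z * ‖u‖ + 2 * σ * d * ‖u‖ = (σ ^ 2 + 2 * σ) * (d * ‖u‖) := by rw [h4]; ring
        _ ≤ (4 * σ) * (d * ‖u‖) := mul_le_mul_of_nonneg_right (by linarith) h7
        _ = _ := by ring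
    rw [e]
    intro i h1 h4
    refine (norm_iteratedFDeriv_affine _ _ (Sm.of_contDiff hB.smooth) i).trans ?_
    have h5 := hB.bd i h4 _ (re_ell_nonneg hd a hz)
    have h6 : ‖L.restrictScalars ℝ‖ ^ i ≤ 2048 * σ := by
      obtain ⟨j, rfl⟩ := Nat.exists_eq_add_of_le' h1
      have h7 : ‖L.restrictScalars ℝ‖ ^ j ≤ 8 ^ j :=
        pow_le_pow_left₀ (norm_nonneg _) (by linarith) j
      have h8 : (8 : ℝ) ^ j ≤ 8 ^ 3 := pow_le_pow_right₀ (by norm_num) (by omega)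
      rw [pow_succ]
      calc _ ≤ 8 ^ 3 * (4 * σ) := mul_le_mul (h7.trans h8) hn (norm_nonneg _) (by norm_num)
        _ = _ := by ring
    calc _ ≤ CB * (2048 * σ) := mul_le_mul h5 h6 (by positivity) hCB
      _ = _ := by ring
  · push Not at c1
    have hev : Wd B d =ᶠ[𝓝 z] fun _ => 0 := by
      have h1 : ∀ᶠ w in 𝓝 z, ∀ k ∈ latS d, 2 * √d < ‖w.2 - lat d k‖ := by
        refine (eventually_all_finset _).2 fun k hk => ?_
        have hc : ContinuousAt (fun w : V => ‖w.2 - lat d k‖) z := by fun_prop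
        exact hc.eventually (lt_mem_nhds (c1 k hk))
      filter_upwards [hH, h1] with w hw1 hw2
      exact Finset.sum_eq_zero fun k hk => term_zero' hB hd hw1 (hw2 k hk).le
    refine JB.congr ?_ (nz_congr hev).symm
    exact (JB.const (0 : ℝ)).mono (by positivity)

end Crest.Agent.R245
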