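import Crest.Agent.R245.WirtBd

/-!
# The cut-off `Mc` and the weight `β` (task R245/Beta)
-/

set_option autoImplicit false

noncomputable section

namespace Crest.Agent.R245

open scoped ComplexConjugate ContDiff Topology
open Complex Set Filter

theorem beta_cont : Continuous fun s : ℝ => Real.smoothTransition ((s + 1) / 2) :=
  Real.smoothTransition.continuous.comp (by fun_prop)

theorem hasDerivAt_Mc (x : ℝ) : HasDerivAt Mc (Real.smoothTransition ((x + 1) / 2)) x := by
  exact (beta_cont.integral_hasStrictDerivAt (-1) x).hasDerivAt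

theorem deriv_Mc : deriv Mc = fun x => Real.smoothTransition ((x + 1) / 2) := by
  funext x
  exact (hasDerivAt_Mc x).deriv

/-- `contDiff_infty_iff_deriv`. -/
theorem contDiff_Mc : ContDiff ℝ ∞ Mc := by
  rw [contDiff_infty_iff_deriv, deriv_Mc]
  exact ⟨fun x => (hasDerivAt_Mc x).differentiableAt,
    Real.smoothTransition.contDiff.comp ((contDiff_id.add contDiff_const).div_const 2)⟩

theorem Mc_zero {x : ℝ} (hx : x ≤ -1) : Mc x = 0 := by
  rw [Mc, intervalIntegral.integral_congr (g := fun _ => (0 : ℝ)), intervalIntegral.integral_zero]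
  intro s hs
  rw [uIcc_of_ge hx] at hs
  exact Real.smoothTransition.zero_of_nonpos (by linarith [hs.2])

theorem Mc_lin {x : ℝ} (hx : 1 ≤ x) : Mc x = x + (Mc 1 - 1) := by
  have h1 : ∫ s in (1 : ℝ)..x, Real.smoothTransition ((s + 1) / 2) = x - 1 := by
    rw [intervalIntegral.integral_congr (g := fun _ => (1 : ℝ)), intervalIntegral.integral_const,
      smul_eq_mul, mul_one]
    intro s hs
    rw [uIcc_of_le hx] at hs
    exact Real.smoothTransition.one_of_one_le (by linarith [hs.1])
  have h2 := intervalIntegral.integral_add_adjacent_intervals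
    (beta_cont.intervalIntegrable (μ := MeasureTheory.volume) (-1) 1)
    (beta_cont.intervalIntegrable 1 x)
  simp only [Mc]
  linarith

theorem Mc_nonneg (x : ℝ) : 0 ≤ Mc x := by
  rcases le_total x (-1) with h | h
  · exact (Mc_zero h).ge
  · exact intervalIntegral.integral_nonneg h fun s _ => Real.smoothTransition.nonneg _

theorem Mc_mono : Monotone Mc := by
  exact monotone_of_hasDerivAt_nonneg hasDerivAt_Mc fun x => Real.smoothTransition.nonneg _

/-- The slope is at most `1`. -/
theorem Mc_le_add {x L : ℝ} (hL : 0 ≤ L) : Mc (x + L) ≤ Mc x + L := by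
  have h : Monotone fun x => x - Mc x :=
    monotone_of_hasDerivAt_nonneg (fun x => (hasDerivAt_id x).sub (hasDerivAt_Mc x))
      fun x => sub_nonneg.2 (Real.smoothTransition.le_one _)
  have := h (le_add_of_nonneg_right hL : x ≤ x + L)
  simp only at this
  linarith

theorem Mc_one_le : Mc 1 ≤ 2 := by
  have := Mc_le_add (x := -1) (L := 2) (by norm_num)
  rw [Mc_zero (le_refl (-1 : ℝ))] at this
  norm_num at this
  exact this

theorem deriv_Mc_nonneg (x : ℝ) : 0 ≤ deriv Mc x := by
  exact Mc_mono.deriv_nonneg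

/-- `Real.smoothTransition.monotone`, `Monotone.deriv_nonneg`. -/
theorem deriv2_Mc_nonneg (x : ℝ) : 0 ≤ deriv (deriv Mc) x := by
  rw [deriv_Mc]
  exact Monotone.deriv_nonneg fun a b hab => Real.smoothTransition.monotone (by linarith)

/-- The derivatives of order `≥ 2` vanish outside `[-1, 1]` and are continuous. -/
theorem exists_Mc_bound : ∃ CM : ℝ, 1 ≤ CM ∧ ∀ i : ℕ, 1 ≤ i → i ≤ 4 → ∀ x,
    |iteratedDeriv i Mc x| ≤ CM := by
  have hc : Continuous fun x => ∑ i ∈ Finset.range 5, |iteratedDeriv i Mc x| :=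
    continuous_finsetSum _ fun i _ =>
      (contDiff_Mc.continuous_iteratedDeriv i (by exact_mod_cast le_top)).abs
  obtain ⟨M, hM⟩ := (isCompact_Icc (a := (-1 : ℝ)) (b := 1)).exists_bound_of_continuousOn
    hc.continuousOn
  refine ⟨max 1 M, le_max_left _ _, fun i hi hi4 x => ?_⟩
  obtain ⟨j, rfl⟩ := Nat.exists_eq_add_of_le' hi
  by_cases hx : x ∈ Icc (-1 : ℝ) 1
  · refine le_trans ?_ ((le_abs_self _).trans ((hM x hx).trans (le_max_right _ _)))
    exact Finset.single_le_sum (f := fun i => |iteratedDeriv i Mc x|) (fun i _ => abs_nonneg _)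
      (Finset.mem_range.2 (by omega))
  · refine le_trans ?_ (le_max_left _ _)
    rw [iteratedDeriv_succ', deriv_Mc]
    rcases not_and_or.1 hx with h | h
    · have : (fun x : ℝ => Real.smoothTransition ((x + 1) / 2)) =ᶠ[𝓝 x] fun _ => (0 : ℝ) := by
        filter_upwards [gt_mem_nhds (not_le.1 h)] with y hy
        exact Real.smoothTransition.zero_of_nonpos (by linarith)
      rw [this.iteratedDeriv_eq, iteratedDeriv_const]
      split_ifs <;> simp
    · have : (fun x : ℝ => Real.smoothTransition ((x + 1) / 2)) =ᶠ[𝓝 x] fun _ => (1 : ℝ) := by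
        filter_upwards [lt_mem_nhds (not_le.1 h)] with y hy
        exact Real.smoothTransition.one_of_one_le (by linarith)
      rw [this.iteratedDeriv_eq, iteratedDeriv_const]
      split_ifs <;> simp

/-- Take `θ s = δ2 * Mc (s - T0 - 1)`, `β = (1 + θ) ^ (-(1/20))`, so `β ^ 20 = (1 + θ)⁻¹`, and
`e s = ∫ T0..s (1 - β)`.  Derivatives: `norm_iteratedFDeriv_comp_le'` with outer function
`x ↦ x ^ (-(1/20))` at `1 + θ ≥ 1` (`|i`-th derivative`| ≤ 24 (1+θ)⁻¹`, `Real.iter_deriv_rpow_const`
or `iteratedDeriv` by hand) and `δ2 = Dd⁴ / CM` with `Dd ≤ 1`, `24 * 24 * Dd ≤ δ1`, `δ2 L ≤ 1`.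
`exp_le`: `1 + θ s ≤ 2 + (s - T0) ≤ 16 exp ((s - T0)/8)`, choose `T0 ≥ 0` with
`16 exp (-T0/8) ≤ δ1`.  `nsum`, `prim`: `β s ≥ (1 + θ s)⁻¹ ≥ 1 / (2 + |s - T0|)`
(harmonic series; `s - e s = T0 + ∫ β ≥ log (…)`, or compare derivatives). -/
theorem exists_beta {δ1 L : ℝ} (hδ : 0 < δ1) (hL : 0 < L) : ∃ (β e : ℝ → ℝ) (T0 : ℝ),
    IsBeta β e δ1 L T0 := by
  obtain ⟨CM, hCM, hb⟩ := exists_Mc_bound
  set Dd : ℝ := min 1 (min (δ1 / 24) (1 / L)) with hDd
  have hD0 : 0 < Dd := by positivity
  have hD1 : Dd ≤ 1 := min_le_left _ _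
  have hD2 : Dd ≤ δ1 / 24 := (min_le_right _ _).trans (min_le_left _ _)
  have hD3 : Dd * L ≤ 1 :=
    (le_div_iff₀ hL).1 ((min_le_right _ _).trans (min_le_right _ _))
  have hDp : ∀ i : ℕ, 1 ≤ i → Dd ^ i ≤ Dd := fun i hi => pow_le_of_le_one hD0.le hD1 (by omega)
  set δ2 : ℝ := Dd ^ 4 / CM with hδ2
  have h20 : 0 < δ2 := by positivity
  have h2D : δ2 ≤ Dd := (div_le_self (by positivity) hCM).trans (hDp 4 (by norm_num))
  have h21 : δ2 ≤ 1 := h2D.trans hD1
  set T0 : ℝ := max 0 (8 * Real.log (8 / δ1)) with hT0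
  set u : ℝ → ℝ := fun s => 1 + δ2 * Mc (s - (T0 + 1)) with hu
  have hu1 : ∀ s, 1 ≤ u s := fun s =>
    le_add_of_nonneg_right (mul_nonneg h20.le (Mc_nonneg _))
  have hu0 : ∀ s, 0 < u s := fun s => zero_lt_one.trans_le (hu1 s)
  have huc : ContDiff ℝ ∞ u :=
    contDiff_const.add (contDiff_const.mul (contDiff_Mc.comp (contDiff_id.sub contDiff_const)))
  have hum : Monotone u := fun a b hab => by
    simp only [hu]
    have := Mc_mono (sub_le_sub_right hab (T0 + 1))
    gcongr
  have hut : ∀ s, s ≤ T0 → u s = 1 := fun s hs => by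
    simp only [hu]
    rw [Mc_zero (by linarith), mul_zero, add_zero]
  have hul : ∀ s, T0 ≤ s → u s ≤ 1 + (s - T0) := fun s hs => by
    have h1 := Mc_le_add (x := -1) (sub_nonneg.2 hs)
    rw [Mc_zero (le_refl (-1 : ℝ)), zero_add, show -1 + (s - T0) = s - (T0 + 1) by ring] at h1
    have h2 := Mc_nonneg (s - (T0 + 1))
    simp only [hu]
    nlinarith
  set β : ℝ → ℝ := fun s => u s ^ (-(1 / 20) : ℝ) with hβ
  have hβc : ContDiff ℝ ∞ β := huc.rpow_const_of_ne fun s => (hu0 s).ne'
  have hβ0 : ∀ s, 0 < β s := fun s => Real.rpow_pos_of_pos (hu0 s) _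
  have hβ1 : ∀ s, β s ≤ 1 := fun s => Real.rpow_le_one_of_one_le_of_nonpos (hu1 s) (by norm_num)
  have hβ20 : ∀ s, β s ^ 20 = (u s)⁻¹ := fun s => by
    simp only [hβ]
    rw [← Real.rpow_natCast, ← Real.rpow_mul (hu0 s).le, ← Real.rpow_neg_one]
    norm_num
  have hβl : ∀ s, (u s)⁻¹ ≤ β s := fun s => by
    rw [← hβ20]; exact pow_le_of_le_one (hβ0 s).le (hβ1 s) (by norm_num)
  have hec : Continuous fun s => 1 - β s := continuous_const.sub hβc.continuous
  have he : ∀ s, HasDerivAt (fun s => ∫ x in T0..s, (1 - β x)) (1 - β s) s := fun s =>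
    (hec.integral_hasStrictDerivAt T0 s).hasDerivAt
  refine ⟨β, fun s => ∫ x in T0..s, (1 - β x), T0, hβc, he, hβ0, hβ1, fun a b hab => ?_,
    le_max_left _ _, fun s hs => ?_, fun k hk hk4 s => ?_, fun s hs => ?_, fun s => ?_, ?_,
    fun s hs => ?_, ?_⟩
  · exact Real.rpow_le_rpow_of_nonpos (hu0 a) (hum hab) (by norm_num)
  · have h1 : ∀ s, s ≤ T0 → β s = 1 := fun s hs => by
      simp only [hβ]; rw [hut s hs, Real.one_rpow]
    refine ⟨h1 s hs, ?_⟩
    rw [intervalIntegral.integral_congr (g := fun _ => (0 : ℝ)), intervalIntegral.integral_zero]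
    intro x hx
    rw [uIcc_of_ge hs] at hx
    simp only [h1 x hx.2, sub_self]
  · have h1 := norm_iteratedFDeriv_comp_le' (M := fun x : ℝ => x ^ (-(1 / 20) : ℝ)) (u := u) (p := s)
      (C := (u s)⁻¹) (Dd := Dd) (k := k) ?_ (Eventually.of_forall fun q => huc.contDiffAt) hk
      ?_ ?_
    · rw [norm_iteratedFDeriv_eq_norm_iteratedDeriv, Real.norm_eq_abs] at h1
      refine h1.trans ?_
      rw [hβ20]
      have h2 : (k.factorial : ℝ) ≤ 24 := by
        exact_mod_cast (Nat.factorial_le hk4 : k.factorial ≤ Nat.factorial 4)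
      have h3 := (hDp k hk).trans hD2
      have h4 := inv_pos.2 (hu0 s)
      calc (k.factorial : ℝ) * (u s)⁻¹ * Dd ^ k ≤ 24 * (u s)⁻¹ * (δ1 / 24) := by gcongr
        _ = _ := by ring
    · filter_upwards [lt_mem_nhds (hu0 s)] with q hq
      exact Real.contDiffAt_rpow_const_of_ne hq.ne'
    · intro i hi hik
      rw [iteratedDeriv_eq_iterate, Real.iter_deriv_rpow_const, abs_mul,
        abs_of_pos (Real.rpow_pos_of_pos (hu0 s) _)]
      have h2 : |(descPochhammer ℝ i).eval (-(1 / 20) : ℝ)| ≤ 1 := by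
        have : i ≤ 4 := hik.trans hk4
        interval_cases i <;> simp [descPochhammer_succ_eval] <;> norm_num
      have h3 : u s ^ ((-(1 / 20) : ℝ) - i) ≤ (u s)⁻¹ := by
        rw [← Real.rpow_neg_one]
        refine Real.rpow_le_rpow_of_exponent_le (hu1 s) ?_
        have : (1 : ℝ) ≤ i := by exact_mod_cast hi
        linarith
      exact (mul_le_mul h2 h3 (Real.rpow_pos_of_pos (hu0 s) _).le zero_le_one).trans_eq (one_mul _)
    · intro i hi hik
      rw [norm_iteratedFDeriv_eq_norm_iteratedDeriv, Real.norm_eq_abs]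
      simp only [hu]
      rw [iteratedDeriv_const_add hi, iteratedDeriv_const_mul_field, iteratedDeriv_comp_sub_const,
        abs_mul, abs_of_pos h20]
      calc δ2 * |iteratedDeriv i Mc (s - (T0 + 1))| ≤ δ2 * CM :=
            mul_le_mul_of_nonneg_left (hb i hi (hik.trans hk4) _) h20.le
        _ = Dd ^ 4 := by rw [hδ2]; field_simp
        _ ≤ Dd ^ i := pow_le_pow_of_le_one hD0.le hD1 (hik.trans hk4)
  · rw [hβ20, ← div_eq_mul_inv, le_div_iff₀ (hu0 s)]
    have h1 := Real.add_one_le_exp ((s - T0) / 8)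
    have h2 : u s ≤ 8 * Real.exp ((s - T0) / 8) := by linarith [hul s hs]
    have h3 : Real.exp (-T0 / 8) ≤ δ1 / 8 := by
      have : -T0 / 8 ≤ Real.log (δ1 / 8) := by
        have h4 : 8 * Real.log (8 / δ1) ≤ T0 := le_max_right _ _
        rw [← inv_div, Real.log_inv] at h4
        linarith
      exact (Real.exp_le_exp.2 this).trans_eq (Real.exp_log (by positivity))
    calc Real.exp (-s / 8) * u s ≤ Real.exp (-s / 8) * (8 * Real.exp ((s - T0) / 8)) := by gcongr
      _ = 8 * Real.exp (-T0 / 8) := by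
          rw [mul_left_comm, ← Real.exp_add]; congr 2; ring
      _ ≤ δ1 := by linarith
  · have h1 : u (s + L) ≤ 2 * u s := by
      have h2 := Mc_le_add (x := s - (T0 + 1)) hL.le
      rw [show s - (T0 + 1) + L = s + L - (T0 + 1) by ring] at h2
      have h3 := hu1 s
      have h4 : δ2 * L ≤ 1 := (mul_le_mul_of_nonneg_right h2D hL.le).trans hD3
      have h5 := mul_le_mul_of_nonneg_left h2 h20.le
      simp only [hu] at h3 ⊢
      nlinarith
    refine le_of_pow_le_pow_left₀ (n := 20) (by norm_num) (by linarith [hβ0 (s + L)]) ?_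
    rw [mul_pow, hβ20, hβ20, ← div_eq_mul_inv, inv_eq_one_div, div_le_div_iff₀ (hu0 s) (hu0 _)]
    nlinarith [hu0 s]
  · refine (tendsto_rpow_neg_atTop (by norm_num : (0 : ℝ) < 1 / 20)).comp ?_
    refine tendsto_atTop_add_const_left _ _ (Tendsto.const_mul_atTop h20 ?_)
    have h1 : Tendsto Mc atTop atTop :=
      (tendsto_atTop_add_const_right _ (Mc 1 - 1) tendsto_id).congr'
        ((eventually_ge_atTop 1).mono fun x hx => (Mc_lin hx).symm)
    exact h1.comp (tendsto_atTop_add_const_right _ (-(T0 + 1)) tendsto_id)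
  · have hA : 0 < 1 + |s - T0| + L := by positivity
    refine Real.not_summable_natCast_inv ((summable_nat_add_iff 1).1 ?_)
    refine Summable.of_nonneg_of_le (fun j => by positivity) (fun j => ?_)
      (hs.mul_left (1 + |s - T0| + L))
    have hj : (0 : ℝ) ≤ j := Nat.cast_nonneg j
    have h1 : u (s + j * L) ≤ (1 + |s - T0| + L) * ((j + 1 : ℕ) : ℝ) := by
      have h2 : u (s + j * L) ≤ 1 + |s - T0| + j * L := by
        have := le_abs_self (s - T0)
        have h0 := abs_nonneg (s - T0)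
        have h3 : 0 ≤ j * L := by positivity
        rcases le_total (s + j * L) T0 with h | h
        · rw [hut _ h]; linarith
        · linarith [hul _ h]
      push_cast
      nlinarith [abs_nonneg (s - T0)]
    refine le_trans ?_ (mul_le_mul_of_nonneg_left (hβl _) hA.le)
    rw [← div_eq_mul_inv, inv_eq_one_div, div_le_div_iff₀ (by positivity) (hu0 _)]
    linarith
  · have hd : ∀ s, T0 ≤ s → HasDerivAt
        (fun s => s - (∫ x in T0..s, (1 - β x)) - Real.log (1 + (s - T0)))
        (1 - (1 - β s) - 1 / (1 + (s - T0))) s := fun s hs =>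
      ((hasDerivAt_id s).sub (he s)).sub
        ((((hasDerivAt_id s).sub_const T0).const_add 1).log (by simp only [id]; linarith))
    have hm : MonotoneOn (fun s => s - (∫ x in T0..s, (1 - β x)) - Real.log (1 + (s - T0)))
        (Ici T0) := by
      refine monotoneOn_of_hasDerivWithinAt_nonneg (convex_Ici T0)
        (fun s hs => (hd s hs).continuousAt.continuousWithinAt)
        (fun s hs => (hd s (interior_subset hs)).hasDerivWithinAt) fun s hs => ?_
      have hs' : T0 ≤ s := interior_subset hs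
      have h1 : 1 / (1 + (s - T0)) ≤ (u s)⁻¹ := by
        rw [one_div]; exact inv_anti₀ (hu0 s) (hul s hs')
      linarith [hβl s]
    have h1 : Tendsto (fun s => T0 + Real.log (1 + (s - T0))) atTop atTop :=
      tendsto_atTop_add_const_left _ _ (Real.tendsto_log_atTop.comp
        (tendsto_atTop_add_const_left _ _ (tendsto_atTop_add_const_right _ (-T0) tendsto_id)))
    refine tendsto_atTop_mono' _ ?_ h1
    filter_upwards [eventually_ge_atTop T0] with s hs
    have := hm (self_mem_Ici) hs hs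
    simp only [intervalIntegral.integral_same, sub_self, add_zero, Real.log_one] at this
    linarith

end Crest.Agent.R245
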