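import Crest.Agent.R245.Wirt
import Crest.Agent.R245.Alg

/-!
# Completeness, and topology of `Diffeo` sets (task R245/Complete)
-/

set_option autoImplicit false

noncomputable section

namespace Crest.Agent.R245

open scoped ComplexConjugate ContDiff Topology
open Complex Set Filter Crest.GeometryTopology

section Diffeo

variable {E : Type*} [NormedAddCommGroup E] [NormedSpace ℝ E] {U : Set E}

theorem Diffeo.isConnected (h : Diffeo U) : IsConnected U := by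
  obtain ⟨Φ, Ψ, hΦ, -, rfl, -⟩ := h
  exact isConnected_range hΦ.continuous

/-- `U` is homeomorphic to `E`. -/
theorem Diffeo.contractibleSpace (h : Diffeo U) : ContractibleSpace U := by
  obtain ⟨Φ, Ψ, hΦ, hΨ, hU, hinv⟩ := h
  let e : U ≃ₜ E :=
    { toFun := fun p => Ψ p
      invFun := fun x => ⟨Φ x, hU ▸ Set.mem_range_self x⟩
      left_inv := fun p => Subtype.ext (by
        obtain ⟨x, hx⟩ : (p : E) ∈ Set.range Φ := hU ▸ p.2
        simp only [← hx, hinv])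
      right_inv := hinv
      continuous_toFun := hΨ.continuousOn.domRestrict
      continuous_invFun := hΦ.continuous.subtype_mk _ }
  exact e.contractibleSpace

/-- Any two points are joined by a `C¹` curve: the image of a segment. -/
theorem Diffeo.exists_curve (h : Diffeo U) {p q : E} (hp : p ∈ U) (hq : q ∈ U) :
    ∃ γ : ℝ → E, ContDiff ℝ 1 γ ∧ γ 0 = p ∧ γ 1 = q ∧ ∀ t ∈ Icc (0 : ℝ) 1, γ t ∈ U := by
  obtain ⟨Φ, Ψ, hΦ, -, rfl, -⟩ := h
  obtain ⟨x, rfl⟩ := hp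
  obtain ⟨y, rfl⟩ := hq
  refine ⟨fun t => Φ (x + t • (y - x)), (hΦ.of_le (by exact_mod_cast le_top)).comp (by fun_prop),
    by simp, by simp, fun t _ => Set.mem_range_self _⟩

end Diffeo

variable {n : ℕ} {U : Set (Fin n → ℂ)}

theorem riem_nonneg (g : HermitianMetricOn n U) {p : Fin n → ℂ} (hp : p ∈ U) (X : Fin n → ℂ) :
    0 ≤ g.riem p X X := by
  by_cases hX : X = 0
  · simp [hX, HermitianMetricOn.riem, HermitianMetricOn.herm]
  · exact (g.posDef p hp X hX).le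

theorem length_nonneg (g : HermitianMetricOn n U) (γ : ℝ → (Fin n → ℂ)) : 0 ≤ g.length γ :=
  intervalIntegral.integral_nonneg zero_le_one fun _ _ => Real.sqrt_nonneg _

theorem continuousOn_speed (g : HermitianMetricOn n U) {γ : ℝ → (Fin n → ℂ)} (hγ : ContDiff ℝ 1 γ)
    (hγU : ∀ t ∈ Icc (0 : ℝ) 1, γ t ∈ U) :
    ContinuousOn (fun t => √(g.riem (γ t) (deriv γ t) (deriv γ t))) (Icc 0 1) := by
  have hd : Continuous (deriv γ) := hγ.continuous_deriv le_rfl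
  have hh : ∀ i j, ContinuousOn (fun t => g.h i j (γ t)) (Icc 0 1) := fun i j =>
    (g.smooth i j).continuousOn.comp hγ.continuous.continuousOn hγU
  unfold HermitianMetricOn.riem HermitianMetricOn.herm
  refine Real.continuous_sqrt.comp_continuousOn (Complex.continuous_re.comp_continuousOn ?_)
  refine continuousOn_finsetSum _ fun i _ => continuousOn_finsetSum _ fun j _ => ?_
  exact ((hh i j).mul ((continuous_apply i).comp hd).continuousOn).mul
    (Complex.continuous_conj.comp ((continuous_apply j).comp hd)).continuousOn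

theorem exists_curve_lt (hd : Diffeo U) (g : HermitianMetricOn n U) {p q : Fin n → ℂ} (hp : p ∈ U)
    (hq : q ∈ U) {ε : ℝ} (h : g.dist p q < ε) :
    ∃ γ : ℝ → (Fin n → ℂ), ContDiff ℝ 1 γ ∧ γ 0 = p ∧ γ 1 = q ∧ (∀ t ∈ Icc (0 : ℝ) 1, γ t ∈ U) ∧
      g.length γ < ε := by
  obtain ⟨γ₀, h1, h2, h3, h4⟩ := hd.exists_curve hp hq
  obtain ⟨ℓ, ⟨γ, a1, a2, a3, a4, rfl⟩, hl⟩ :=
    exists_lt_of_csInf_lt (by exact ⟨g.length γ₀, γ₀, h1, h2, h3, h4, rfl⟩) h
  exact ⟨γ, a1, a2, a3, a4, hl⟩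

/-- The logarithmic size function. -/
def lsz (p : Fin n → ℂ) : ℝ := Real.log (1 + ∑ i, ‖p i‖ ^ 2)

theorem norm_sq_le_sum (p : Fin n → ℂ) : ‖p‖ ^ 2 ≤ ∑ i, ‖p i‖ ^ 2 := by
  have h0 : 0 ≤ ∑ i, ‖p i‖ ^ 2 := by positivity
  rw [← Real.le_sqrt (norm_nonneg _) h0, pi_norm_le_iff_of_nonneg (Real.sqrt_nonneg _)]
  intro i
  rw [Real.le_sqrt (norm_nonneg _) h0]
  exact Finset.single_le_sum (f := fun i => ‖p i‖ ^ 2) (fun _ _ => by positivity) (Finset.mem_univ i)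

theorem one_add_le_exp_lsz (p : Fin n → ℂ) : 1 + ‖p‖ ^ 2 ≤ Real.exp (lsz p) := by
  rw [lsz, Real.exp_log (by positivity)]
  linarith [norm_sq_le_sum p]

theorem contDiff_lsz : ContDiff ℝ 1 (lsz (n := n)) := by
  refine ContDiff.log (contDiff_const.add (ContDiff.sum fun i _ => ?_)) fun p => by positivity
  exact (contDiff_apply ℝ ℂ i).norm_sq ℝ

theorem fderiv_lsz_sq_le (p ξ : Fin n → ℂ) :
    (fderiv ℝ lsz p ξ) ^ 2 * (1 + ‖p‖ ^ 2) ≤ 4 * n ^ 2 * ‖ξ‖ ^ 2 := by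
  have h1 : ∀ i : Fin n, HasFDerivAt (fun q : Fin n → ℂ => ‖q i‖ ^ 2)
      (2 • (innerSL ℝ (p i)).comp (ContinuousLinearMap.proj (R := ℝ) (φ := fun _ => ℂ) i)) p :=
    fun i => (hasFDerivAt_apply i p).norm_sq
  have h2 := ((HasFDerivAt.fun_sum (u := Finset.univ) fun i _ => h1 i).const_add 1).log
    (by positivity)
  have h3 : fderiv ℝ lsz p ξ = (1 + ∑ i, ‖p i‖ ^ 2)⁻¹ * ∑ i, 2 * inner ℝ (p i) (ξ i) := by
    rw [show (lsz : (Fin n → ℂ) → ℝ) = fun q => Real.log (1 + ∑ i, ‖q i‖ ^ 2) from rfl, h2.fderiv]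
    simp [-Complex.inner]
  have h4 : |∑ i, 2 * inner ℝ (p i) (ξ i)| ≤ n * (2 * (‖p‖ * ‖ξ‖)) := by
    refine (Finset.abs_sum_le_sum_abs _ _).trans ((Finset.sum_le_card_nsmul _ _
      (2 * (‖p‖ * ‖ξ‖)) fun i _ => ?_).trans (by simp))
    rw [abs_mul, abs_two]
    have := abs_real_inner_le_norm (p i) (ξ i)
    have := mul_le_mul (norm_le_pi_norm p i) (norm_le_pi_norm ξ i) (norm_nonneg _) (norm_nonneg _)
    linarith
  have h5 := norm_sq_le_sum p
  set s := ∑ i, ‖p i‖ ^ 2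
  set b := ∑ i, 2 * inner ℝ (p i) (ξ i)
  have h6 : b ^ 2 ≤ (n * (2 * (‖p‖ * ‖ξ‖))) ^ 2 := by
    rw [← sq_abs b]; gcongr
  have hs : 0 < 1 + s := by nlinarith [sq_nonneg ‖p‖]
  rw [h3, mul_pow, inv_pow, mul_assoc, inv_mul_le_iff₀ (by positivity)]
  calc b ^ 2 * (1 + ‖p‖ ^ 2) ≤ (n * (2 * (‖p‖ * ‖ξ‖))) ^ 2 * (1 + s) := by gcongr
    _ = ‖p‖ ^ 2 * (1 + s) * (4 * n ^ 2 * ‖ξ‖ ^ 2) := by ring
    _ ≤ (1 + s) * (1 + s) * (4 * n ^ 2 * ‖ξ‖ ^ 2) := by gcongr; linarith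
    _ = _ := by ring

/-- A function whose differential is bounded by `√K` times the metric along a curve varies by at
most `√K` times the length.  (The integrand of `length` is continuous on `[0,1]`; use
`intervalIntegral.integral_deriv_eq_sub'`/`integral_eq_sub_of_hasDerivAt` and monotonicity.) -/
theorem abs_sub_le_length (hU : IsOpen U) (g : HermitianMetricOn n U) {ρ : (Fin n → ℂ) → ℝ}
    (hρ : ContDiffOn ℝ 1 ρ U) {γ : ℝ → (Fin n → ℂ)} (hγ : ContDiff ℝ 1 γ)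
    (hγU : ∀ t ∈ Icc (0 : ℝ) 1, γ t ∈ U) {K : ℝ} (hK : 0 ≤ K)
    (hb : ∀ t ∈ Icc (0 : ℝ) 1, ∀ ξ, (fderiv ℝ ρ (γ t) ξ) ^ 2 ≤ K * g.riem (γ t) ξ ξ)
    {t : ℝ} (ht : t ∈ Icc (0 : ℝ) 1) : |ρ (γ t) - ρ (γ 0)| ≤ √K * g.length γ := by
  have hsub : uIcc 0 t ⊆ Icc 0 1 := by
    rw [uIcc_of_le ht.1]; exact Icc_subset_Icc_right ht.2
  have hd : Continuous (deriv γ) := hγ.continuous_deriv le_rfl
  have hder : ∀ s ∈ uIcc 0 t, HasDerivAt (fun s => ρ (γ s)) (fderiv ℝ ρ (γ s) (deriv γ s)) s :=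
    fun s hs => (((hρ.contDiffAt (hU.mem_nhds (hγU s (hsub hs)))).differentiableAt
      one_ne_zero).hasFDerivAt).comp_hasDerivAt s (hγ.differentiable one_ne_zero s).hasDerivAt
  have hc : ContinuousOn (fun s => fderiv ℝ ρ (γ s) (deriv γ s)) (Icc 0 1) :=
    ((hρ.continuousOn_fderiv_of_isOpen hU le_rfl).comp hγ.continuous.continuousOn hγU).clm_apply
      hd.continuousOn
  have hw := (continuousOn_speed g hγ hγU).const_mul √K
  have hi := (hc.mono hsub).intervalIntegrable (μ := MeasureTheory.volume)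
  rw [← intervalIntegral.integral_eq_sub_of_hasDerivAt hder hi, HermitianMetricOn.length,
    ← intervalIntegral.integral_const_mul]
  refine (intervalIntegral.abs_integral_le_integral_abs ht.1).trans
    ((intervalIntegral.integral_mono_on ht.1 hi.abs (hw.mono hsub).intervalIntegrable
      fun s hs => ?_).trans (intervalIntegral.integral_mono_interval le_rfl ht.1 ht.2
        (Filter.Eventually.of_forall fun s => by positivity)
        (hw.intervalIntegrable_of_Icc zero_le_one)))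
  rw [← Real.sqrt_mul hK]
  exact Real.abs_le_sqrt (hb s ⟨hs.1, hs.2.trans ht.2⟩ _)

/-- Recipe.  Lengths are `≥ 0` and curves exist (`Diffeo.exists_curve`), so `dist p q < ε` gives a
curve of length `< ε` (`exists_lt_of_csInf_lt`).  Take `N` for `ε = 1`.  Along curves of length
`< 1` from `u N`, and then from `u m` (`m ≥ N`): `Φ ≤ L := Φ (u N) + 2 √K` (`grad`); then by `low`
the function `log (1 + ∑ i, normSq (p i))` has bounded differential, so `‖p‖ ≤ R` along these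
curves; then the real and imaginary parts of the coordinates have bounded differential, so `u` is
Cauchy in `ℂⁿ`; the limit lies in the closed set `{p ∈ U | Φ p ≤ L}`. -/
theorem complete_of_good {Φ : (Fin n → ℂ) → ℝ} {a K : ℝ} (hg : Good U Φ a K) (hd : Diffeo U)
    (g : HermitianMetricOn n U) (hr : ∀ p ∈ U, ∀ X, g.riem p X X = ((jet Φ p).H X X).re) :
    g.IsComplete := by
  intro u hu hC
  have hΦ : ContDiffOn ℝ 1 Φ U := hg.smooth.of_le (by exact_mod_cast le_top)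
  set K₀ := max K 0 with hK₀
  have hgrad : ∀ p ∈ U, ∀ ξ, (fderiv ℝ Φ p ξ) ^ 2 ≤ K₀ * g.riem p ξ ξ := fun p hp ξ =>
    (hg.grad p hp ξ).trans (by
      rw [← hr p hp]; exact mul_le_mul_of_nonneg_right (le_max_left _ _) (riem_nonneg g hp ξ))
  have hΦγ : ∀ γ : ℝ → (Fin n → ℂ), ContDiff ℝ 1 γ → (∀ t ∈ Icc (0 : ℝ) 1, γ t ∈ U) →
      g.length γ < 1 → ∀ t ∈ Icc (0 : ℝ) 1, Φ (γ t) ≤ Φ (γ 0) + √K₀ := by
    intro γ h1 h2 h3 t ht
    have := (abs_le.1 (abs_sub_le_length hg.isOpen g hΦ h1 h2 (le_max_right K 0)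
      (fun t ht => hgrad _ (h2 t ht)) ht)).2
    nlinarith [Real.sqrt_nonneg K₀]
  obtain ⟨N, hN⟩ := hC 1 one_pos
  set L := Φ (u N) + 2 * √K₀ with hL
  obtain ⟨c, hc, hlow⟩ := hg.low L
  set K₁ : ℝ := 4 * n ^ 2 / c with hK₁
  have hργ : ∀ γ : ℝ → (Fin n → ℂ), ContDiff ℝ 1 γ → (∀ t ∈ Icc (0 : ℝ) 1, γ t ∈ U) →
      g.length γ < 1 → (∀ t ∈ Icc (0 : ℝ) 1, Φ (γ t) ≤ L) →
      ∀ t ∈ Icc (0 : ℝ) 1, lsz (γ t) ≤ lsz (γ 0) + √K₁ := by
    intro γ h1 h2 h3 h4 t ht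
    have := (abs_le.1 (abs_sub_le_length hg.isOpen g contDiff_lsz.contDiffOn h1 h2
      (K := K₁) (by positivity) (fun s hs ξ => ?_) ht)).2
    · nlinarith [Real.sqrt_nonneg K₁]
    have e1 := hlow _ (h2 s hs) (h4 s hs) ξ
    have e2 := fderiv_lsz_sq_le (γ s) ξ
    rw [← hr _ (h2 s hs)] at e1
    refine le_of_mul_le_mul_right (e2.trans ?_) (show 0 < 1 + ‖γ s‖ ^ 2 by positivity)
    rw [hK₁, mul_assoc (_ / _), div_mul_eq_mul_div, le_div_iff₀ hc, mul_assoc _ _ c, mul_comm _ c]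
    gcongr
  have h01 : (1 : ℝ) ∈ Icc (0 : ℝ) 1 := ⟨zero_le_one, le_rfl⟩
  have hs0 := Real.sqrt_nonneg K₀
  have hm : ∀ m, N ≤ m → Φ (u m) ≤ Φ (u N) + √K₀ ∧ lsz (u m) ≤ lsz (u N) + √K₁ := by
    intro m hNm
    obtain ⟨γ, h1, h2, h3, h4, h5⟩ := exists_curve_lt hd g (hu N) (hu m) (hN N m le_rfl hNm)
    have a1 := hΦγ γ h1 h4 h5
    have a2 := hργ γ h1 h4 h5 (fun t ht => by have := a1 t ht; rw [h2] at this; linarith) 1 h01
    have a3 := a1 1 h01
    rw [h2, h3] at a2 a3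
    exact ⟨a3, a2⟩
  set K₂ : ℝ := Real.exp (lsz (u N) + 2 * √K₁) / c with hK₂
  have hcau : ∀ ε, ε ≤ 1 → ∀ m k, N ≤ m → g.dist (u m) (u k) < ε → ‖u k - u m‖ ≤ √K₂ * ε := by
    intro ε hε m k hNm hmk
    obtain ⟨γ, h1, h2, h3, h4, h5⟩ := exists_curve_lt hd g (hu m) (hu k) hmk
    have a1 : ∀ t ∈ Icc (0 : ℝ) 1, Φ (γ t) ≤ L := fun t ht => by
      have := hΦγ γ h1 h4 (h5.trans_le hε) t ht
      rw [h2] at this; linarith [(hm m hNm).1]
    have a2 := hργ γ h1 h4 (h5.trans_le hε) a1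
    obtain ⟨ℓ, hℓ, hℓ'⟩ := exists_dual_vector'' ℝ (u k - u m)
    have a3 := (abs_le.1 (abs_sub_le_length hg.isOpen g ℓ.contDiff.contDiffOn h1 h4
      (K := K₂) (by positivity) (fun s hs ξ => ?_) h01)).2
    · rw [h2, h3, ← map_sub, hℓ'] at a3
      exact a3.trans (mul_le_mul_of_nonneg_left h5.le (Real.sqrt_nonneg _))
    have e1 := hlow _ (h4 s hs) (a1 s hs) ξ
    rw [← hr _ (h4 s hs)] at e1
    have e2 : 1 + ‖γ s‖ ^ 2 ≤ Real.exp (lsz (u N) + 2 * √K₁) :=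
      (one_add_le_exp_lsz _).trans (Real.exp_le_exp.2 (by
        have := a2 s hs; rw [h2] at this; linarith [(hm m hNm).2]))
    have e3 : (ℓ ξ) ^ 2 ≤ ‖ξ‖ ^ 2 := by
      rw [← sq_abs]
      have := (ℓ.le_opNorm ξ).trans (mul_le_of_le_one_left (norm_nonneg _) hℓ)
      gcongr
      exact this
    rw [ℓ.fderiv, hK₂, div_mul_eq_mul_div, le_div_iff₀ hc]
    nlinarith [riem_nonneg g (h4 s hs) ξ]
  have hcs : CauchySeq u := by
    refine Metric.cauchySeq_iff'.2 fun ε hε => ?_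
    obtain ⟨M, hM⟩ := hC (min 1 (ε / (√K₂ + 1))) (by positivity)
    refine ⟨max M N, fun k hk => ?_⟩
    have := hcau _ (min_le_left _ _) (max M N) k (le_max_right _ _)
      (hM _ _ (le_max_left _ _) ((le_max_left _ _).trans hk))
    rw [dist_eq_norm]
    refine this.trans_lt ((mul_le_mul_of_nonneg_left (min_le_right _ _)
      (Real.sqrt_nonneg _)).trans_lt ?_)
    rw [← mul_div_assoc, div_lt_iff₀ (by positivity)]
    nlinarith
  obtain ⟨q, hq⟩ := cauchySeq_tendsto_of_complete hcs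
  refine ⟨q, ((hg.closed L).mem_of_tendsto hq ?_).1, hq⟩
  filter_upwards [eventually_ge_atTop N] with m hNm
  exact ⟨hu m, by linarith [(hm m hNm).1]⟩

end Crest.Agent.R245
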