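import Crest.Agent.R245.Wirt
import Crest.Agent.R245.Alg

/-!
# The Kähler metric of a potential and its curvature (task R245/Curv)

For a potential `Φ` put `h i j p = (jet Φ p).H (e i) (e j)`.  Recipe for the curvature at `p ∈ U`
(write `J q = jet Φ q`, `f = cx Φ`):

* `herm q X Y = (J q).H X Y` for `q ∈ U` (expand `X = ∑ X i • e i`, `jet_good`).
* `fderiv (fun q => (J q).H Y Z) p X = (J p).A X Y Z + conj ((J p).A X Z Y)`
  (`fderiv_eq_D_add_Db`, `W_comm`, `W_conj`), so the Koszul functional is `Z ↦ Re (A X Y Z)` and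
  `raise` of it is the vector `v` with `H v θ = A X Y θ` for all `θ`
  (the matrix `h j i` is invertible because `H` is positive definite: `Matrix.mul_nonsing_inv`);
  hence `christoffel q X Y = (J q).gam X Y` on `U` (`gam_eq`).
* `q ↦ christoffel q Y Z` is differentiable at `p`: near `p` it is
  `(M q)⁻¹ *ᵥ (fun i => (J q).A Y Z (e i))`, and `M⁻¹ = (det M)⁻¹ • adjugate M` (`Matrix.inv_def`).
* Differentiate `(J q).H (γ q) θ = (J q).A Y Z θ` (write the left side as `∑ i, γ q i * (J q).H (e i) θ`)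
  along `X`:  `H (∂_X γ) θ + A X γ θ + conj (A X θ γ) = Q3 X Y Z θ + Q Y Z X θ`, where
  `Q3 X Y Z θ = D X (D Y (D Z (Db θ f))) p` is symmetric in `X, Y`.  Therefore
  `H (R(X,Y)Z) θ = S Y Z X θ - S X Z Y θ`, and `riem (R X Y Y) X = N X Y`.
-/

set_option autoImplicit false

noncomputable section

namespace Crest.Agent.R245

open scoped ComplexConjugate ContDiff Topology
open Complex Set Filter Crest.GeometryTopology

namespace Curv

variable {n : ℕ}

theorem expand (X : Fin n → ℂ) : X = ∑ i, X i • stdVec i := pi_eq_sum_univ' X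

theorem lin_expand {F : (Fin n → ℂ) → ℂ} (hadd : ∀ a b, F (a + b) = F a + F b)
    (hsmul : ∀ (t : ℂ) a, F (t • a) = t * F a) (X : Fin n → ℂ) :
    F X = ∑ i, X i * F (stdVec i) := by
  let L : (Fin n → ℂ) →ₗ[ℂ] ℂ := ⟨⟨F, hadd⟩, hsmul⟩
  have : L X = ∑ i, X i * L (stdVec i) := by
    conv_lhs => rw [expand X]
    simp only [map_sum, map_smul, smul_eq_mul]
  exact this

theorem anti_expand {F : (Fin n → ℂ) → ℂ} (hadd : ∀ a b, F (a + b) = F a + F b)
    (hsmul : ∀ (t : ℂ) a, F (t • a) = conj t * F a) (X : Fin n → ℂ) :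
    F X = ∑ i, conj (X i) * F (stdVec i) := by
  have := lin_expand (F := fun a => conj (F a)) (fun a b => by rw [hadd, map_add])
    (fun t a => by rw [hsmul, map_mul, conj_conj]) X
  have h2 := congrArg conj this
  simpa only [conj_conj, map_sum, map_mul] using h2

variable {J : Jet (Fin n → ℂ)}

theorem H_left (h : J.Good) (X θ : Fin n → ℂ) : J.H X θ = ∑ i, X i * J.H (stdVec i) θ :=
  lin_expand (F := fun a => J.H a θ) (fun a b => h.H_add a b θ) (fun t a => h.H_smul t a θ) X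

theorem H_right (h : J.Good) (X θ : Fin n → ℂ) : J.H X θ = ∑ i, conj (θ i) * J.H X (stdVec i) :=
  anti_expand (F := fun a => J.H X a) (h.H_add2 X) (fun t a => h.H_smul2 t X a) θ

theorem A_mid (h : J.Good) (X Y θ : Fin n → ℂ) : J.A X Y θ = ∑ i, Y i * J.A X (stdVec i) θ :=
  lin_expand (F := fun a => J.A X a θ) (fun a b => h.A_add2 X a b θ)
    (fun t a => h.A_smul2 t X a θ) Y

theorem A_right (h : J.Good) (X Y θ : Fin n → ℂ) :
    J.A X Y θ = ∑ i, conj (θ i) * J.A X Y (stdVec i) :=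
  anti_expand (F := fun a => J.A X Y a) (h.A_add3 X Y) (fun t a => h.A_smul3 t X Y a) θ

theorem H_both (h : J.Good) (X Y : Fin n → ℂ) :
    ∑ i, ∑ j, J.H (stdVec i) (stdVec j) * X i * conj (Y j) = J.H X Y := by
  rw [H_left h]
  refine Finset.sum_congr rfl fun i _ => ?_
  rw [H_right h (stdVec i) Y, Finset.mul_sum]
  exact Finset.sum_congr rfl fun j _ => by ring

/-- the transposed Gram matrix -/
def gram (J : Jet (Fin n → ℂ)) : Matrix (Fin n) (Fin n) ℂ :=
  Matrix.of fun i j => J.H (stdVec j) (stdVec i)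

theorem gram_mulVec (h : J.Good) (v : Fin n → ℂ) (i : Fin n) :
    (gram J).mulVec v i = J.H v (stdVec i) := by
  rw [H_left h]
  simp only [gram, Matrix.mulVec, dotProduct, Matrix.of_apply]
  exact Finset.sum_congr rfl fun j _ => mul_comm _ _

theorem gram_det (h : J.Good) (hp : J.Pos) : IsUnit (gram J).det := by
  rw [← Matrix.isUnit_iff_isUnit_det, ← Matrix.mulVec_injective_iff_isUnit]
  intro v v' hv
  refine h.eq_of_H hp fun θ => ?_
  rw [H_right h v, H_right h v']
  refine Finset.sum_congr rfl fun i _ => ?_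
  rw [← gram_mulVec h, ← gram_mulVec h, hv]

theorem gam_eq_inv (h : J.Good) (hp : J.Pos) (X Y : Fin n → ℂ) :
    J.gam X Y = (gram J)⁻¹.mulVec fun i => J.A X Y (stdVec i) := by
  refine h.gam_eq hp fun θ => ?_
  rw [H_right h, A_right h]
  refine Finset.sum_congr rfl fun i _ => ?_
  rw [← gram_mulVec h, Matrix.mulVec_mulVec, Matrix.mul_nonsing_inv _ (gram_det h hp),
    Matrix.one_mulVec]

theorem diff_det {E : Type*} [NormedAddCommGroup E] [NormedSpace ℝ E]
    {M : E → Matrix (Fin n) (Fin n) ℂ} {p : E}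
    (h : ∀ i j, DifferentiableAt ℝ (fun q => M q i j) p) :
    DifferentiableAt ℝ (fun q => (M q).det) p := by
  simp only [Matrix.det_apply']
  refine DifferentiableAt.fun_sum fun σ _ => DifferentiableAt.const_mul ?_ _
  exact (HasFDerivAt.finsetProd fun i _ => (h (σ i) i).hasFDerivAt).differentiableAt

theorem diff_inv_mulVec {E : Type*} [NormedAddCommGroup E] [NormedSpace ℝ E]
    {M : E → Matrix (Fin n) (Fin n) ℂ} {c : E → Fin n → ℂ} {p : E}
    (h : ∀ i j, DifferentiableAt ℝ (fun q => M q i j) p) (h0 : (M p).det ≠ 0)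
    (hc : ∀ i, DifferentiableAt ℝ (fun q => c q i) p) :
    DifferentiableAt ℝ (fun q => (M q)⁻¹.mulVec (c q)) p := by
  refine differentiableAt_pi.2 fun i => ?_
  simp only [Matrix.mulVec, dotProduct, Matrix.inv_def, Ring.inverse_eq_inv', Matrix.smul_apply,
    smul_eq_mul, Matrix.adjugate_apply]
  refine DifferentiableAt.fun_sum fun j _ => DifferentiableAt.mul (DifferentiableAt.mul ?_ ?_) (hc j)
  · exact (diff_det h).inv h0
  · refine diff_det fun a b => ?_
    simp only [Matrix.updateRow_apply]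
    split_ifs
    · exact differentiableAt_const _
    · exact h a b

variable {Φ : (Fin n → ℂ) → ℝ} {p : Fin n → ℂ}

theorem smH (h : Sm Φ p) (Y Z : Fin n → ℂ) : Sm (fun q => (jet Φ q).H Y Z) p :=
  (h.cx.W 1 Z).W (-1) Y

theorem smA (h : Sm Φ p) (X Y Z : Fin n → ℂ) : Sm (fun q => (jet Φ q).A X Y Z) p :=
  ((h.cx.W 1 Z).W (-1) Y).W (-1) X

theorem fderiv_H (h : Sm Φ p) (X Y Z : Fin n → ℂ) :
    fderiv ℝ (fun q => (jet Φ q).H Y Z) p X =
      (jet Φ p).A X Y Z + conj ((jet Φ p).A X Z Y) := by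
  rw [fderiv_eq_D_add_Db]
  congr 1
  have e : (fun q => (jet Φ q).H Y Z) =ᶠ[𝓝 p] fun q => conj ((jet Φ q).H Z Y) := by
    filter_upwards [h.eventually] with q hq
    exact ((jet_good hq).H_conj Z Y).symm
  exact (W_congr e).trans W_conj

/-- the holomorphic fourth-order term -/
def Q3 (Φ : (Fin n → ℂ) → ℝ) (p X Y Z θ : Fin n → ℂ) : ℂ := D X (D Y (D Z (Db θ (cx Φ)))) p

theorem Q3_symm (h : Sm Φ p) (X Y Z θ : Fin n → ℂ) : Q3 Φ p X Y Z θ = Q3 Φ p Y X Z θ :=
  W_comm ((h.cx.W 1 θ).W (-1) Z)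

theorem fderiv_A (h : Sm Φ p) (X Y Z θ : Fin n → ℂ) :
    fderiv ℝ (fun q => (jet Φ q).A Y Z θ) p X = Q3 Φ p X Y Z θ + (jet Φ p).Q Y Z X θ := by
  rw [fderiv_eq_D_add_Db]
  congr 1
  exact (W_comm ((h.cx.W 1 θ).W (-1) Z)).trans (W_congr (W_comm_ev (h.cx.W 1 θ)))

theorem diff_gam (h : Sm Φ p) (hp : ∀ᶠ q in 𝓝 p, (jet Φ q).Pos) (Y Z : Fin n → ℂ) :
    DifferentiableAt ℝ (fun q => (jet Φ q).gam Y Z) p := by
  have e : (fun q => (jet Φ q).gam Y Z) =ᶠ[𝓝 p]
      fun q => (gram (jet Φ q))⁻¹.mulVec fun i => (jet Φ q).A Y Z (stdVec i) := by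
    filter_upwards [h.eventually, hp] with q hq hq'
    exact gam_eq_inv (jet_good hq) hq' Y Z
  refine DifferentiableAt.congr_of_eventuallyEq ?_ e
  exact diff_inv_mulVec (fun i j => (smH h _ _).differentiableAt)
    (gram_det (jet_good h) hp.self_of_nhds).ne_zero fun i => (smA h _ _ _).differentiableAt

theorem H_fderiv_gam (h : Sm Φ p) (hp : ∀ᶠ q in 𝓝 p, (jet Φ q).Pos) (X Y Z θ : Fin n → ℂ) :
    (jet Φ p).H (fderiv ℝ (fun q => (jet Φ q).gam Y Z) p X) θ +
      (jet Φ p).H ((jet Φ p).gam X ((jet Φ p).gam Y Z)) θ =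
      Q3 Φ p X Y Z θ + (jet Φ p).S Y Z X θ := by
  have hJ := jet_good h
  have hP := hp.self_of_nhds
  have hγ := diff_gam h hp Y Z
  have e : (fun q => ∑ i, (jet Φ q).gam Y Z i * (jet Φ q).H (stdVec i) θ) =ᶠ[𝓝 p]
      fun q => (jet Φ q).A Y Z θ := by
    filter_upwards [h.eventually, hp] with q hq hq'
    rw [← H_left (jet_good hq), (jet_good hq).gam_spec hq']
  have e2 := congrArg (fun T : (Fin n → ℂ) →L[ℝ] ℂ => T X) e.fderiv_eq
  simp only [fderiv_A h] at e2
  have hi : ∀ i, DifferentiableAt ℝ (fun q => (jet Φ q).gam Y Z i) p :=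
    fun i => differentiableAt_pi.1 hγ i
  rw [fderiv_fun_sum fun i _ => (hi i).fun_mul (smH h _ _).differentiableAt,
    _root_.sum_apply] at e2
  have e3 : ∀ i, fderiv ℝ (fun q => (jet Φ q).gam Y Z i * (jet Φ q).H (stdVec i) θ) p X =
      fderiv ℝ (fun q => (jet Φ q).gam Y Z) p X i * (jet Φ p).H (stdVec i) θ +
        ((jet Φ p).gam Y Z i * (jet Φ p).A X (stdVec i) θ +
          conj (conj ((jet Φ p).gam Y Z i) * (jet Φ p).A X θ (stdVec i))) := by
    intro i
    rw [fderiv_fun_mul (hi i) (smH h _ _).differentiableAt, _root_.add_apply,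
      _root_.smul_apply, _root_.smul_apply, fderiv_H h,
      fderiv_apply hγ i]
    simp only [smul_eq_mul, ContinuousLinearMap.comp_apply, ContinuousLinearMap.proj_apply,
      map_mul, conj_conj]
    ring
  simp only [e3, Finset.sum_add_distrib] at e2
  rw [← H_left hJ, ← A_mid hJ, ← map_sum, ← A_right hJ, ← hJ.gam_spec hP X θ, hJ.H_conj] at e2
  rw [hJ.gam_spec hP X, Jet.S]
  linear_combination e2

end Curv

open Curv in
theorem exists_metric {n : ℕ} {U : Set (Fin n → ℂ)} (hU : IsOpen U) {Φ : (Fin n → ℂ) → ℝ}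
    (hs : ContDiffOn ℝ ∞ Φ U) (hp : ∀ p ∈ U, (jet Φ p).Pos) :
    ∃ g : HermitianMetricOn n U, g.IsKahler ∧ ∀ p ∈ U, ∀ X Y,
      g.riem p X Y = ((jet Φ p).H X Y).re ∧
      g.sectional p X Y = (jet Φ p).N X Y / (jet Φ p).Den X Y := by
  have hS : ∀ p ∈ U, Sm Φ p := fun p hp => Sm.of_contDiffOn hU hs hp
  let g : HermitianMetricOn n U :=
    { h := fun i j p => (jet Φ p).H (stdVec i) (stdVec j)
      hermitian := fun p hp i j => ((jet_good (hS p hp)).H_conj _ _).symm
      posDef := fun p hpU X hX => by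
        rw [H_both (jet_good (hS p hpU))]; exact hp p hpU X hX
      smooth := fun i j p hpU => (smH (hS p hpU) _ _).contDiffAt.contDiffWithinAt }
  have hriem : ∀ p ∈ U, ∀ X Y, g.riem p X Y = ((jet Φ p).H X Y).re := fun p hpU X Y =>
    congrArg Complex.re (H_both (jet_good (hS p hpU)) X Y)
  have hd : ∀ p ∈ U, ∀ X Y Z, g.dRiem p X Y Z =
      ((jet Φ p).A X Y Z).re + ((jet Φ p).A X Z Y).re := by
    intro p hpU X Y Z
    have e : (fun q => g.riem q Y Z) =ᶠ[𝓝 p] fun q => reCLM ((jet Φ q).H Y Z) := by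
      filter_upwards [hU.mem_nhds hpU] with q hq
      exact hriem q hq Y Z
    have h1 := (reCLM.hasFDerivAt.comp p
      (smH (hS p hpU) Y Z).differentiableAt.hasFDerivAt).fderiv
    unfold HermitianMetricOn.dRiem
    rw [e.fderiv_eq]
    refine (congrArg (fun T : (Fin n → ℂ) →L[ℝ] ℝ => T X) h1).trans ?_
    simp only [ContinuousLinearMap.comp_apply, fderiv_H (hS p hpU), reCLM_apply, add_re, conj_re]
  have hΓ : ∀ p ∈ U, ∀ X Y, g.christoffel p X Y = (jet Φ p).gam X Y := by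
    intro p hpU X Y
    have hJ := jet_good (hS p hpU)
    have hK : ∀ Z, (g.dRiem p X Y Z + g.dRiem p Y X Z - g.dRiem p Z X Y) / 2 =
        ((jet Φ p).A X Y Z).re := by
      intro Z
      rw [hd p hpU, hd p hpU, hd p hpU, hJ.A_symm Y X Z, hJ.A_symm Z X Y, hJ.A_symm Z Y X]
      ring
    rw [gam_eq_inv hJ (hp p hpU)]
    unfold HermitianMetricOn.christoffel HermitianMetricOn.raise
    simp only [hK]
    congr 1
    funext i
    rw [hJ.A_smul3]
    apply Complex.ext <;> simp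
  refine ⟨g, fun p hpU i j k => ?_, fun p hpU X Y => ⟨hriem p hpU X Y, ?_⟩⟩
  · have e : ∀ a b c : Fin n, wirtingerDeriv (g.h a b) c p =
        (jet Φ p).A (stdVec c) (stdVec a) (stdVec b) := by
      intro a b c
      show _ = W (-1) (stdVec c) (g.h a b) p
      unfold wirtingerDeriv W
      push_cast
      ring
    rw [e, e, (jet_good (hS p hpU)).A_symm]
  · have hJ := jet_good (hS p hpU)
    have hev : ∀ᶠ q in 𝓝 p, (jet Φ q).Pos := by
      filter_upwards [hU.mem_nhds hpU] with q hq using hp q hq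
    have hf : ∀ A B : Fin n → ℂ, fderiv ℝ (fun q => g.christoffel q A B) p =
        fderiv ℝ (fun q => (jet Φ q).gam A B) p := by
      intro A B
      refine EventuallyEq.fderiv_eq ?_
      filter_upwards [hU.mem_nhds hpU] with q hq using hΓ q hq A B
    have h1 := H_fderiv_gam (hS p hpU) hev X Y Y X
    have h2 := H_fderiv_gam (hS p hpU) hev Y X Y X
    rw [Q3_symm (hS p hpU) Y X] at h2
    have h3 : (jet Φ p).S X Y Y X = (jet Φ p).S X Y X Y := by
      rw [Jet.S, Jet.S, hJ.Q_symm', hJ.gam_symm Y X]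
    have hR : (jet Φ p).H (g.curvature p X Y Y) X = (jet Φ p).S Y Y X X - (jet Φ p).S X Y X Y := by
      unfold HermitianMetricOn.curvature
      rw [hf, hf, hΓ p hpU, hΓ p hpU, hΓ p hpU, hΓ p hpU, hJ.H_sub, hJ.H_add, hJ.H_sub, ← h3]
      linear_combination h1 - h2
    unfold HermitianMetricOn.sectional
    rw [hriem p hpU, hriem p hpU, hriem p hpU, hriem p hpU, hR, sub_re]
    rfl

end Crest.Agent.R245
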