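import Crest.Agent.R245.Beta

/-!
# Existence of the well profile (task R245/Well)

Let `h ζ = exp (1 - 2ζ) - 1`, `g ζ = log (|h ζ|² + ε²) + 21 - 12 Re ζ` with `0 < ε ≤ 1/10` and
`log ε² + 17 ≤ -Dp`.  Put `B ζ = if Re ζ < 5/4 then g ζ + (Mc 1 - 1) else Mc (g ζ)`.
* For `1 ≤ Re ζ`: `|exp (1 - 2ζ)| ≤ e⁻¹ ≤ 1/2`, so `1/4 ≤ |h|² + ε² ≤ 5/2` and the logarithm lies in
  `[-2, 1]`.  Hence for `1 ≤ Re ζ ≤ 3/2`, `g ≥ 1` and both formulas agree (`Mc_lin`): `B` equals
  `g + const` on `Re ζ < 3/2` and `Mc ∘ g` on `Re ζ > 1`; so it is smooth.  For `Re ζ ≥ 2`,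
  `g ≤ -1` and `B = 0` (`Mc_zero`).
* For `Re ζ ≥ 0`: `|h| ≤ e + 1 ≤ 4`, `log 17 ≤ 3`, so `g ≤ 24`, `B ≤ 25` (`Mc_mono`, `Mc_lin`, `Mc_one_le`).
* Levi form: `D 1 (Db 1 log (h conj h + ε²)) = ε² |h'|² / (|h|² + ε²)² ≥ 0` (`levi_comp` with
  `M = log`, `u = |h|² + ε²`, `D u = h' conj h`, `D (Db u) = |h'|²`), the linear part contributes `0`;
  `levi_comp` with `M = Mc` (`deriv_Mc_nonneg`, `deriv2_Mc_nonneg`).
* Derivative bounds: `B (ζ + π i) = B ζ`, so `iteratedFDeriv ℝ i B` is `π i`-periodic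
  (`iteratedFDeriv_comp_add_right`), continuous, bounded on the compact set
  `[0, 2] × [0, π]` and zero for `Re ζ > 2`.
-/

set_option autoImplicit false

noncomputable section

namespace Crest.Agent.R245

open scoped ComplexConjugate ContDiff Topology
open Complex Set Filter

/-- the holomorphic function vanishing at the well centres -/
def wellH (ζ : ℂ) : ℂ := Complex.exp (1 - 2 * ζ) - 1

/-- its derivative -/
def wellH' (ζ : ℂ) : ℂ := -2 * Complex.exp (1 - 2 * ζ)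

def wellU (e : ℝ) (ζ : ℂ) : ℝ := normSq (wellH ζ) + e

def wellG (e : ℝ) (ζ : ℂ) : ℝ := Real.log (wellU e ζ) + (21 - 12 * ζ.re)

def wellB (e : ℝ) (ζ : ℂ) : ℝ :=
  if ζ.re < 5 / 4 then wellG e ζ + (Mc 1 - 1) else Mc (wellG e ζ)

theorem well_hasDerivAt_exp (ζ : ℂ) :
    HasDerivAt (fun ζ : ℂ => Complex.exp (1 - 2 * ζ)) (wellH' ζ) ζ := by
  have h := (((hasDerivAt_id' ζ).const_mul (2 : ℂ)).const_sub 1).cexp
  refine h.congr_deriv ?_
  rw [wellH']
  ring

theorem well_hasDerivAt_H (ζ : ℂ) : HasDerivAt wellH (wellH' ζ) ζ :=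
  (well_hasDerivAt_exp ζ).sub_const 1

theorem well_hasDerivAt_H' (ζ : ℂ) : HasDerivAt wellH' (-2 * wellH' ζ) ζ :=
  (well_hasDerivAt_exp ζ).const_mul (-2)

theorem well_contDiff_H : ContDiff ℝ ∞ wellH := by
  have h : ContDiff ℂ ∞ wellH := by
    unfold wellH
    exact (Complex.contDiff_exp.comp (contDiff_const.sub (contDiff_const.mul contDiff_id))).sub
      contDiff_const
  exact h.restrict_scalars ℝ

theorem well_contDiff_U (e : ℝ) : ContDiff ℝ ∞ (wellU e) := by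
  have h1 : ContDiff ℝ ∞ fun ζ => (wellH ζ).re := Complex.reCLM.contDiff.comp well_contDiff_H
  have h2 : ContDiff ℝ ∞ fun ζ => (wellH ζ).im := Complex.imCLM.contDiff.comp well_contDiff_H
  have e1 : wellU e = fun ζ => (wellH ζ).re * (wellH ζ).re + (wellH ζ).im * (wellH ζ).im + e :=
    funext fun ζ => by rw [wellU, normSq_apply]
  rw [e1]
  exact ((h1.mul h1).add (h2.mul h2)).add contDiff_const

theorem well_U_pos {e : ℝ} (he : 0 < e) (ζ : ℂ) : 0 < wellU e ζ :=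
  add_pos_of_nonneg_of_pos (normSq_nonneg _) he

theorem well_contDiff_lin : ContDiff ℝ ∞ fun ζ : ℂ => 21 - 12 * ζ.re :=
  contDiff_const.sub (contDiff_const.mul Complex.reCLM.contDiff)

theorem well_contDiff_G {e : ℝ} (he : 0 < e) : ContDiff ℝ ∞ (wellG e) :=
  ((well_contDiff_U e).log fun ζ => (well_U_pos he ζ).ne').add well_contDiff_lin

theorem well_norm_exp (ζ : ℂ) : ‖Complex.exp (1 - 2 * ζ)‖ = Real.exp (1 - 2 * ζ.re) := by
  rw [Complex.norm_exp]
  simp

theorem well_U_bounds {e : ℝ} (he : 0 < e) (he1 : e ≤ 1 / 4) {ζ : ℂ} (h : 1 ≤ ζ.re) :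
    1 / 4 ≤ wellU e ζ ∧ wellU e ζ ≤ 5 / 2 := by
  have h1 : ‖Complex.exp (1 - 2 * ζ)‖ ≤ 1 / 2 := by
    rw [well_norm_exp]
    refine (Real.exp_le_exp.2 (by linarith : 1 - 2 * ζ.re ≤ -1)).trans ?_
    rw [Real.exp_neg, one_div]
    exact inv_anti₀ (by norm_num) (by linarith [Real.add_one_le_exp (1 : ℝ)])
  have h2 : ‖wellH ζ‖ ≤ 3 / 2 := by
    refine (norm_sub_le _ _).trans ?_
    rw [norm_one]
    linarith
  have h3 : 1 / 2 ≤ ‖wellH ζ‖ := by
    have := norm_sub_norm_le (1 : ℂ) (Complex.exp (1 - 2 * ζ))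
    rw [norm_sub_rev, norm_one] at this
    unfold wellH
    linarith
  rw [wellU, Complex.normSq_eq_norm_sq]
  constructor <;> nlinarith

theorem well_G_ge {e : ℝ} (he : 0 < e) (he1 : e ≤ 1 / 4) {ζ : ℂ} (h : 1 ≤ ζ.re)
    (h' : ζ.re ≤ 3 / 2) : 1 ≤ wellG e ζ := by
  have h1 := Real.log_le_log (by norm_num) (well_U_bounds he he1 h).1
  have h2 : Real.log (1 / 4) = -(2 * Real.log 2) := by
    rw [one_div, Real.log_inv, show (4 : ℝ) = 2 ^ 2 by norm_num, Real.log_pow]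
    norm_num
  have h3 := Real.log_le_sub_one_of_pos (show (0 : ℝ) < 2 by norm_num)
  unfold wellG
  linarith

theorem well_G_le {e : ℝ} (he : 0 < e) (he1 : e ≤ 1 / 4) {ζ : ℂ} (h : 2 ≤ ζ.re) :
    wellG e ζ ≤ -1 := by
  have h1 := Real.log_le_sub_one_of_pos (well_U_pos he ζ)
  have h2 := (well_U_bounds he he1 (by linarith : 1 ≤ ζ.re)).2
  unfold wellG
  linarith

theorem well_G_le' {e : ℝ} (he : 0 < e) (he1 : e ≤ 1 / 4) {ζ : ℂ} (h : 0 ≤ ζ.re) :
    wellG e ζ ≤ 26 := by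
  have h1 : ‖Complex.exp (1 - 2 * ζ)‖ ≤ 3 := by
    rw [well_norm_exp]
    exact (Real.exp_le_exp.2 (by linarith : 1 - 2 * ζ.re ≤ 1)).trans Real.exp_one_lt_three.le
  have h2 : ‖wellH ζ‖ ≤ 4 := by
    refine (norm_sub_le _ _).trans ?_
    rw [norm_one]
    linarith
  have h3 : wellU e ζ ≤ 2 ^ 5 := by
    rw [wellU, Complex.normSq_eq_norm_sq]
    nlinarith [norm_nonneg (wellH ζ)]
  have h4 := Real.log_le_log (well_U_pos he ζ) h3
  rw [Real.log_pow] at h4
  have h5 := Real.log_le_sub_one_of_pos (show (0 : ℝ) < 2 by norm_num)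
  push_cast at h4
  unfold wellG
  linarith

theorem well_B_left {e : ℝ} (he : 0 < e) (he1 : e ≤ 1 / 4) {ζ : ℂ} (h : ζ.re < 3 / 2) :
    wellB e =ᶠ[𝓝 ζ] fun q => wellG e q + (Mc 1 - 1) := by
  filter_upwards [Complex.continuous_re.continuousAt.eventually_lt continuousAt_const h] with q hq
  unfold wellB
  split_ifs with h1
  · rfl
  · exact Mc_lin (well_G_ge he he1 (by linarith) hq.le)

theorem well_B_right {e : ℝ} (he : 0 < e) (he1 : e ≤ 1 / 4) {ζ : ℂ} (h : 1 < ζ.re) :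
    wellB e =ᶠ[𝓝 ζ] fun q => Mc (wellG e q) := by
  filter_upwards [continuousAt_const.eventually_lt Complex.continuous_re.continuousAt h] with q hq
  unfold wellB
  split_ifs with h1
  · exact (Mc_lin (well_G_ge he he1 hq.le (by linarith))).symm
  · rfl

theorem well_contDiff_B {e : ℝ} (he : 0 < e) (he1 : e ≤ 1 / 4) : ContDiff ℝ ∞ (wellB e) := by
  refine contDiff_iff_contDiffAt.2 fun ζ => ?_
  rcases lt_or_ge ζ.re (3 / 2) with h | h
  · exact ((well_contDiff_G he).add contDiff_const).contDiffAt.congr_of_eventuallyEq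
      (well_B_left he he1 h)
  · exact (contDiff_Mc.comp (well_contDiff_G he)).contDiffAt.congr_of_eventuallyEq
      (well_B_right he he1 (by linarith))

theorem well_B_zero {e : ℝ} (he : 0 < e) (he1 : e ≤ 1 / 4) {ζ : ℂ} (h : 2 ≤ ζ.re) :
    wellB e ζ = 0 := by
  rw [wellB, if_neg (by linarith), Mc_zero (well_G_le he he1 h)]

theorem well_cx_U (e : ℝ) : cx (wellU e) = fun q => wellH q * conj (wellH q) + (e : ℂ) := by
  funext q
  rw [cx, wellU, Complex.mul_conj]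
  push_cast
  rfl

theorem well_diff_H (ζ : ℂ) : DifferentiableAt ℝ wellH ζ :=
  (Sm.of_contDiff well_contDiff_H).differentiableAt

theorem well_diff_conj_H (ζ : ℂ) : DifferentiableAt ℝ (fun q => conj (wellH q)) ζ :=
  (Sm.of_contDiff well_contDiff_H).conj.differentiableAt

theorem well_D_U (e : ℝ) (ζ : ℂ) : D 1 (cx (wellU e)) ζ = wellH' ζ * conj (wellH ζ) := by
  rw [well_cx_U, D, W_add ((well_diff_H ζ).fun_mul (well_diff_conj_H ζ)) (differentiableAt_const _),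
    W_const, W_mul (well_diff_H ζ) (well_diff_conj_H ζ)]
  have h1 := D_hol (ξ := (1 : ℂ)) (well_hasDerivAt_H ζ).hasFDerivAt
  have h2 := D_antihol (ξ := (1 : ℂ)) (well_hasDerivAt_H ζ).hasFDerivAt
  rw [D] at h1 h2
  rw [h1, h2]
  simp

theorem well_Db_U (e : ℝ) : Db 1 (cx (wellU e)) = fun ζ => wellH ζ * conj (wellH' ζ) := by
  funext ζ
  rw [← conj_D_cx, well_D_U, map_mul, Complex.conj_conj, mul_comm]

theorem well_levi_U (e : ℝ) (ζ : ℂ) : (jet (wellU e) ζ).H 1 1 = wellH' ζ * conj (wellH' ζ) := by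
  show D 1 (Db 1 (cx (wellU e))) ζ = _
  have hd : DifferentiableAt ℝ (fun q => conj (wellH' q)) ζ :=
    Complex.conjCLE.differentiableAt.comp ζ
      ((well_hasDerivAt_H' ζ).differentiableAt.restrictScalars ℝ)
  rw [well_Db_U, D, W_mul (well_diff_H ζ) hd]
  have h1 := D_hol (ξ := (1 : ℂ)) (well_hasDerivAt_H ζ).hasFDerivAt
  have h2 := D_antihol (ξ := (1 : ℂ)) (well_hasDerivAt_H' ζ).hasFDerivAt
  rw [D] at h1 h2
  rw [h1, h2]
  simp

theorem well_levi_lin (ζ : ℂ) : (jet (fun q : ℂ => 21 - 12 * q.re) ζ).H 1 1 = 0 := by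
  show D 1 (Db 1 (cx fun q : ℂ => 21 - 12 * q.re)) ζ = 0
  have h : ∀ q : ℂ, HasFDerivAt (cx fun q : ℂ => 21 - 12 * q.re)
      (Complex.ofRealCLM.comp (-((12 : ℝ) • Complex.reCLM))) q := fun q =>
    Complex.ofRealCLM.hasFDerivAt.comp q
      ((Complex.reCLM.hasFDerivAt.const_mul (12 : ℝ)).const_sub 21)
  have e : Db 1 (cx fun q : ℂ => 21 - 12 * q.re) =
      fun _ => Db 1 (cx fun q : ℂ => 21 - 12 * q.re) 0 := by
    funext q
    simp only [W, (h _).fderiv]
  rw [e, D, W_const]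

theorem well_levi_G {e : ℝ} (he : 0 < e) (ζ : ℂ) : 0 ≤ ((jet (wellG e) ζ).H 1 1).re := by
  have hU : Sm (wellU e) ζ := Sm.of_contDiff (well_contDiff_U e)
  have hpos := well_U_pos he ζ
  have hlog : Sm Real.log (wellU e ζ) := (Sm.of_contDiff contDiff_id).log hpos.ne'
  have h1 : jet (wellG e) ζ = jet (fun q => Real.log (wellU e q)) ζ +
      jet (fun q : ℂ => 21 - 12 * q.re) ζ :=
    jet_add (hU.log hpos.ne') (Sm.of_contDiff well_contDiff_lin)
  rw [h1, Jet.add_H, well_levi_lin, add_zero, levi_comp hlog hU, well_D_U, well_levi_U,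
    Real.deriv_log', deriv_inv, mul_assoc, Complex.mul_conj, Complex.mul_conj, ← ofReal_mul,
    ← ofReal_mul, ← ofReal_add, ofReal_re, map_mul, normSq_conj]
  have e1 : -(wellU e ζ ^ 2)⁻¹ * (normSq (wellH' ζ) * normSq (wellH ζ)) +
      (wellU e ζ)⁻¹ * normSq (wellH' ζ) = normSq (wellH' ζ) * e / wellU e ζ ^ 2 := by
    have : normSq (wellH ζ) = wellU e ζ - e := by rw [wellU]; ring
    rw [this]
    field_simp
    ring
  rw [e1]
  exact div_nonneg (mul_nonneg (normSq_nonneg _) he.le) (sq_nonneg _)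

theorem well_levi_B {e : ℝ} (he : 0 < e) (he1 : e ≤ 1 / 4) (ζ : ℂ) :
    0 ≤ ((jet (wellB e) ζ).H 1 1).re := by
  rcases lt_or_ge ζ.re (3 / 2) with h | h
  · rw [jet_congr (well_B_left he he1 h), jet_add_const]
    exact well_levi_G he ζ
  · rw [jet_congr (well_B_right he he1 (by linarith)),
      levi_comp (Sm.of_contDiff contDiff_Mc) (Sm.of_contDiff (well_contDiff_G he)), mul_assoc,
      Complex.mul_conj, ← ofReal_mul, add_re, ofReal_re, re_ofReal_mul]
    exact add_nonneg (mul_nonneg (deriv2_Mc_nonneg _) (normSq_nonneg _))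
      (mul_nonneg (deriv_Mc_nonneg _) (well_levi_G he ζ))

theorem well_H_shift (ζ : ℂ) (k : ℤ) : wellH (ζ + k * Real.pi * I) = wellH ζ := by
  unfold wellH
  rw [show 1 - 2 * (ζ + k * Real.pi * I) = 1 - 2 * ζ + (-k : ℤ) * (2 * Real.pi * I) by
    push_cast; ring, Complex.exp_add, Complex.exp_int_mul_two_pi_mul_I, mul_one]

theorem well_B_shift (e : ℝ) (ζ : ℂ) (k : ℤ) : wellB e (ζ + k * Real.pi * I) = wellB e ζ := by
  have h : (ζ + k * Real.pi * I).re = ζ.re := by simp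
  simp only [wellB, wellG, wellU, well_H_shift, h]

theorem well_bd {e : ℝ} (he : 0 < e) (he1 : e ≤ 1 / 4) : ∃ CB : ℝ, 1 ≤ CB ∧
    ∀ i : ℕ, i ≤ 4 → ∀ ζ : ℂ, 0 ≤ ζ.re → ‖iteratedFDeriv ℝ i (wellB e) ζ‖ ≤ CB := by
  have hc : Continuous fun ζ => ∑ i ∈ Finset.range 5, ‖iteratedFDeriv ℝ i (wellB e) ζ‖ :=
    continuous_finset_sum _ fun i _ =>
      ((well_contDiff_B he he1).continuous_iteratedFDeriv (by exact_mod_cast le_top)).norm
  obtain ⟨C, hC⟩ := (isCompact_closedBall (0 : ℂ) 6).exists_bound_of_continuousOn hc.continuousOn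
  refine ⟨max 1 C, le_max_left _ _, fun i hi ζ hζ => ?_⟩
  rcases lt_or_ge 2 ζ.re with h | h
  · have h0 : wellB e =ᶠ[𝓝 ζ] fun _ => 0 := by
      filter_upwards [continuousAt_const.eventually_lt Complex.continuous_re.continuousAt h]
        with q hq using well_B_zero he he1 hq.le
    rw [(h0.iteratedFDeriv ℝ i).self_of_nhds, iteratedFDeriv_zero_fun]
    simp
  · set k : ℤ := -⌊ζ.im / Real.pi⌋ with hk
    have e1 : iteratedFDeriv ℝ i (wellB e) ζ =
        iteratedFDeriv ℝ i (wellB e) (ζ + k * Real.pi * I) := by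
      rw [← iteratedFDeriv_comp_add_right]
      simp only [well_B_shift]
    have hπ := Real.pi_pos
    have h1 := Int.floor_le (ζ.im / Real.pi)
    have h2 := Int.lt_floor_add_one (ζ.im / Real.pi)
    rw [le_div_iff₀ hπ] at h1
    rw [div_lt_iff₀ hπ] at h2
    have hmem : ζ + k * Real.pi * I ∈ Metric.closedBall (0 : ℂ) 6 := by
      rw [mem_closedBall_zero_iff]
      refine (Complex.norm_le_abs_re_add_abs_im _).trans ?_
      have r1 : (ζ + k * Real.pi * I).re = ζ.re := by simp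
      have r2 : (ζ + k * Real.pi * I).im = ζ.im - ⌊ζ.im / Real.pi⌋ * Real.pi := by
        simp [hk]; ring
      rw [r1, r2, abs_of_nonneg hζ, abs_of_nonneg (by linarith)]
      linarith [Real.pi_le_four]
    have h3 := hC _ hmem
    rw [Real.norm_of_nonneg (Finset.sum_nonneg fun _ _ => norm_nonneg _)] at h3
    rw [e1]
    refine le_trans ?_ (h3.trans (le_max_right _ _))
    exact Finset.single_le_sum (f := fun i => ‖iteratedFDeriv ℝ i (wellB e) _‖)
      (fun _ _ => norm_nonneg _) (Finset.mem_range.2 (by omega))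

theorem exists_well (Dp : ℝ) : ∃ (B : ℂ → ℝ) (CB : ℝ), IsWell B Dp CB := by
  set e : ℝ := min (1 / 4) (Real.exp (-Dp - 17)) with hedef
  have he : 0 < e := lt_min (by norm_num) (Real.exp_pos _)
  have he1 : e ≤ 1 / 4 := min_le_left _ _
  have he2 : Real.log e ≤ -Dp - 17 := by
    rw [Real.log_le_iff_le_exp he]
    exact min_le_right _ _
  obtain ⟨CB, h1, h2⟩ := well_bd he he1
  have hM := Mc_one_le
  refine ⟨wellB e, CB, well_contDiff_B he he1, fun ζ h => well_B_zero he he1 h, fun ζ h => ?_,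
    fun k => ?_, well_levi_B he he1, h1, h2⟩
  · have h3 := well_G_le' he he1 h
    unfold wellB
    split_ifs
    · linarith
    · have h4 := Mc_mono h3
      rw [Mc_lin (x := 26) (by norm_num)] at h4
      linarith
  · have h3 : (1 / 2 : ℂ).re = 1 / 2 := by simp
    have h4 : wellH (1 / 2) = 0 := by simp [wellH]
    rw [well_B_shift, wellB, h3, if_pos (by norm_num), wellG, wellU, h3, h4, map_zero, zero_add]
    linarith

end Crest.Agent.R245
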