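import Crest.Agent.R245.NonEx
import Crest.Agent.R245.Well

/-!
# The data for S0378 (task R245/Data78)

Take `Dp = 10⁶`, `B, CB` from `exists_well`, `lam = (1000 CB)⁻²`, `d0 = 1/40000`, `al = 1`,
`Cb = 4 log (200 / lam)`, `A = 2 Cb`, `C1 = 20000 A CB`; `P0 = tt`, `c = 1/K0`, `ph = tt + Om`,
`β = 1`, `C = C1` at every point (`nz_tt`, `JB.const`, `JB.congr`, `Om_JB`, `Om_psh_nz`).
Non-existence: `nonex` with `φbg = 4 tt`, `b = 1/(A (Dp + 30))`, `v = ‖J‖ ^ (2 b)`
(`discHol_rpow`), `j1 = 0`; the slab is non-empty (`slab_nhds`).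
-/

set_option autoImplicit false

noncomputable section

namespace Crest.Agent.R245

open scoped ComplexConjugate ContDiff Topology
open Complex Set Filter

theorem data78 : ∃ C1 : ℝ, 0 ≤ C1 ∧ ∀ K0 δ0 : ℝ, 1 ≤ K0 → 0 < δ0 → ∃ d : HData,
    d.Adm C1 K0 δ0 ∧ d.Proper ∧ (∃ c0 : ℝ, 0 < c0 ∧ ∀ z, d.c z = c0) ∧
    ∀ (J : V → ℂ) (C : ℝ), DifferentiableOn ℂ J H2 →
      (∀ z ∈ H2, ‖J z‖ ^ 2 ≤ C * Real.exp (d.ph z + 3 * tt z)) → ∃ z ∈ H2, J z = 0 := by
  obtain ⟨B, CB, hB⟩ := exists_well 1000000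
  have hCB : 1 ≤ CB := hB.one_le
  obtain ⟨lam, hlam⟩ : ∃ lam : ℝ, lam = ((1000 * CB)⁻¹) ^ 2 := ⟨_, rfl⟩
  have hl0 : 0 < lam := by rw [hlam]; positivity
  have hls : √lam = (1000 * CB)⁻¹ := by rw [hlam, Real.sqrt_sq (by positivity)]
  have hl1 : lam ≤ 1 := by
    rw [hlam]
    exact pow_le_one₀ (by positivity) (inv_le_one_of_one_le₀ (by linarith))
  obtain ⟨Cb, hCb⟩ : ∃ Cb : ℝ, Cb = 4 * Real.log (200 / lam) := ⟨_, rfl⟩
  have hCb0 : 0 < Cb := by
    rw [hCb]
    exact mul_pos four_pos (Real.log_pos ((one_lt_div hl0).2 (by linarith)))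
  let P : WP := ⟨B, lam, 1 / 40000, 2 * Cb, fun _ => 1⟩
  have hP : P.OK 1000000 CB :=
    { well := hB
      lam_pos := hl0
      lam_le := by
        change 1000 * CB * √lam ≤ 1
        rw [hls, mul_inv_cancel₀ (by positivity)]
      d0_pos := by change (0 : ℝ) < 1 / 40000; norm_num
      d0_le := le_rfl
      A_pos := by change 0 < 2 * Cb; positivity
      al_pos := fun _ => one_pos
      al_le := fun _ => le_rfl
      al_two := fun _ => by change (1 : ℝ) ≤ 2 * 1; norm_num }
  have hC1 : 0 ≤ 20000 * (2 * Cb) * CB := by positivity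
  refine ⟨20000 * (2 * Cb) * CB, hC1, fun K0 δ0 hK hδ => ?_⟩
  have hc0 : 0 < 1 / K0 := by positivity
  refine ⟨⟨tt, fun _ => 1 / K0, fun z => tt z + P.Om z⟩,
    ⟨contDiffOn_tt, contDiffOn_const, contDiffOn_tt.add hP.contDiffOn_Om, fun z hz => ?_⟩,
    ⟨fun L => ⟨Real.exp (-L), Real.exp_pos _, fun z hz h => ?_⟩, fun y0 hy0 => ?_⟩,
    ⟨1 / K0, hc0, fun _ => rfl⟩, fun J C hJ hJb => ?_⟩
  · have e1 : (fun u => nz (fun z => tt z + P.Om z) z u - nz tt z u) = nz P.Om z :=
      funext fun u => add_sub_cancel_left _ _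
    have e0 : 0 ≤ δ0 * (1 / K0) ^ 10 := by positivity
    refine ⟨1, 20000 * (2 * Cb) * CB, sm_nz contDiffOn_tt hz, Sm.const _,
      sm_nz (contDiffOn_tt.add hP.contDiffOn_Om) hz, hc0, (div_le_one (by linarith)).2 hK, le_rfl,
      hC1, le_rfl, Or.inr (le_of_eq (mul_one_div_cancel (by linarith))), ?_,
      (JB.const (1 / K0)).mono e0, ?_, ?_⟩
    · refine ((JB.const (tt z)).congr ?_).mono e0
      filter_upwards [nz_tt hz] with u hu
      change tt z = nz tt z u - 1 * t0 u
      rw [hu]; ring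
    · change JB (fun u => nz (fun z => tt z + P.Om z) z u - nz tt z u) _
      rw [e1]
      rcases hP.Om_JB hz with h | ⟨m, -, -, -, h⟩
      · exact h.mono (by positivity)
      · exact h
    · intro ξ
      change 0 ≤ ((jet (fun u => nz (fun z => tt z + P.Om z) z u - nz tt z u) 0).H ξ ξ).re
      rw [e1]
      exact hP.Om_psh_nz hz ξ
  · have h1 : -Real.log (yy z) ≤ L := h
    rw [← Real.exp_log (show 0 < yy z from hz)]
    exact Real.exp_le_exp.2 (by linarith)
  · obtain ⟨C, hC⟩ := hP.Om_lower hy0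
    refine ⟨max C (Real.log K0), fun z hz => ⟨?_, ?_⟩⟩
    · change _ ≤ 1 / K0
      rw [one_div, ← Real.exp_log (show 0 < K0 by linarith), ← Real.exp_neg, Real.log_exp]
      exact Real.exp_le_exp.2 (neg_le_neg (le_max_right _ _))
    · change _ ≤ tt z + P.Om z
      linarith [hC z hz, le_max_left C (Real.log K0)]
  · by_contra hne
    push Not at hne
    have hR : R1 ⊆ H2 := fun z hz => hz.1
    obtain ⟨b, hb⟩ : ∃ b : ℝ, b = 1 / (2 * Cb * (1000000 + 30)) := ⟨_, rfl⟩
    have hb0 : 0 < b := by rw [hb]; positivity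
    have key := hP.nonex le_rfl (φbg := fun z => 4 * tt z) (v := fun z => ‖J z‖ ^ (2 * b))
      (Cb := Cb) (b := b) (C := max C 0 ^ b) (j1 := 0) hb0 le_rfl
      (by
        intro j _ p hp q hq _
        have h1 := hP.δ_pos j
        have h2 : P.δ (j + 1) = P.δ j * lam := hP.δ_succ j
        have h3 : 0 < yy p := lt_of_lt_of_le (by positivity) hp.1
        have h4 : P.δ j * lam / 2 ≤ yy q := h2 ▸ hq.1
        have h5 : 0 < yy q := lt_of_lt_of_le (by positivity) h4
        have h6 : yy p / yy q ≤ 200 / lam := by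
          rw [div_le_div_iff₀ h5 hl0]
          nlinarith [hp.2.1]
        have h7 := Real.log_le_log (by positivity) h6
        rw [Real.log_div h3.ne' h5.ne'] at h7
        change 4 * -Real.log (yy q) - 4 * -Real.log (yy p) ≤ Cb * 1
        linarith)
      (by
        intro j _
        change b * 1 * (2 * Cb) * (1000000 + 30) ≤ 1
        rw [hb]
        field_simp
        exact le_rfl)
      (by
        change ¬ Summable fun _ : ℕ => (1 : ℝ)
        rw [summable_const_iff]
        exact one_ne_zero)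
      (fun z _ => by positivity) (discHol_rpow isOpen_H2 hR hJ hne (2 * b))
      (by
        intro z hz
        have h1 : ‖J z‖ ^ 2 ≤ max C 0 * Real.exp (4 * tt z + P.Om z) := by
          have := hJb z (hR hz)
          change _ ≤ C * Real.exp (tt z + P.Om z + 3 * tt z) at this
          rw [show tt z + P.Om z + 3 * tt z = 4 * tt z + P.Om z by ring] at this
          exact this.trans (mul_le_mul_of_nonneg_right (le_max_left _ _) (Real.exp_pos _).le)
        have h2 := Real.rpow_le_rpow (by positivity) h1 hb0.le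
        rw [Real.mul_rpow (le_max_right _ _) (Real.exp_pos _).le, ← Real.exp_mul, mul_comm _ b,
          ← Real.rpow_two, ← Real.rpow_mul (norm_nonneg _)] at h2
        exact h2)
    obtain ⟨z, hz, hs⟩ := hP.slab_nhds 0
    have h1 := key z (mem_of_mem_nhds hs)
    exact (Real.rpow_pos_of_pos (norm_pos_iff.2 (hne z (hR hz))) _).ne' h1

end Crest.Agent.R245
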