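import Crest.Agent.R245.TJet
import Crest.Agent.R245.Beta

/-!
# The background potential for S0379 (task R245/Data79a)

`TT z = log ((1 - |z.2|²)² / yy z)`; `Pb = tt - e (TT)`, `cb = β (TT)²` on `‖z.2‖ < 1`.
Near a point of `H2` with `‖z.2‖ ≥ 1`, or with `TT z < T0`, one has `Pb = tt`, `cb = 1`
(for `‖z.2‖ = 1`: nearby points with `‖·‖ < 1` have `(1 - |z.2|²)² / yy ≤ 1`, so `TT ≤ 0 ≤ T0`).
-/

set_option autoImplicit false

noncomputable section

namespace Crest.Agent.R245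

open scoped ComplexConjugate ContDiff Topology
open Complex Set Filter

def TT (z : V) : ℝ := tt z + 2 * Real.log (1 - normSq z.2)

open Classical in
/-- The weight at a point. -/
def bz (β : ℝ → ℝ) (z : V) : ℝ := if ‖z.2‖ < 1 then β (TT z) else 1

open Classical in
/-- The background potential. -/
def Pb (e : ℝ → ℝ) (z : V) : ℝ := tt z - if ‖z.2‖ < 1 then e (TT z) else 0

variable {β e : ℝ → ℝ} {δ1 L T0 : ℝ}

theorem IsBeta.contDiff_e (h : IsBeta β e δ1 L T0) : ContDiff ℝ ∞ e := by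
  have hd : deriv e = fun s => 1 - β s := funext fun s => (h.he s).deriv
  rw [contDiff_infty_iff_deriv, hd]
  exact ⟨fun s => (h.he s).differentiableAt, contDiff_const.sub h.smooth⟩

theorem IsBeta.e_mono (h : IsBeta β e δ1 L T0) : Monotone e := by
  refine monotone_of_deriv_nonneg (fun s => (h.he s).differentiableAt) fun s => ?_
  rw [(h.he s).deriv]
  linarith [h.le_one s]

theorem IsBeta.e_nonneg (h : IsBeta β e δ1 L T0) (s : ℝ) : 0 ≤ e s := by
  rcases le_total s T0 with hs | hs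
  · rw [(h.triv s hs).2]
  · have := h.e_mono hs
    rwa [(h.triv T0 le_rfl).2] at this

/-- `s - e s` has derivative `β`, which is positive and antitone. -/
theorem IsBeta.prim_sub_le (h : IsBeta β e δ1 L T0) {s s' M : ℝ} (hM : 0 ≤ M) (hs : s' ≤ s + M) :
    (s' - e s') - (s - e s) ≤ β s * M := by
  have hd : ∀ x, HasDerivAt (fun x => x - e x) (β x) x := fun x => by
    have := (hasDerivAt_id x).sub (h.he x)
    rw [show (1 : ℝ) - (1 - β x) = β x by ring] at this
    exact this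
  have hb := h.pos s
  rcases lt_trichotomy s' s with hlt | heq | hgt
  · have hm : Monotone fun x => x - e x :=
      monotone_of_deriv_nonneg (fun x => (hd x).differentiableAt) fun x => by
        rw [(hd x).deriv]; exact (h.pos x).le
    have := hm hlt.le
    have h2 : 0 ≤ β s * M := by positivity
    simp only at this
    linarith
  · subst heq
    have h2 : 0 ≤ β s' * M := by positivity
    linarith
  · obtain ⟨c, hc, hcs⟩ := exists_hasDerivAt_eq_slope (fun x => x - e x) β hgt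
      (fun x _ => (hd x).continuousAt.continuousWithinAt) (fun x _ => hd x)
    have h1 : β c ≤ β s := h.anti hc.1.le
    have h2 : 0 < s' - s := by linarith
    rw [eq_div_iff h2.ne'] at hcs
    rw [← hcs]
    calc β c * (s' - s) ≤ β s * (s' - s) := by gcongr
      _ ≤ β s * M := by gcongr; linarith

theorem one_sub_normSq_pos {w : ℂ} (h : ‖w‖ < 1) : 0 < 1 - normSq w := by
  rw [Complex.normSq_eq_norm_sq]
  nlinarith [norm_nonneg w]

theorem TT_le {z : V} (h : ‖z.2‖ < 1) : TT z ≤ tt z := by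
  have h1 := one_sub_normSq_pos h
  have h2 : Real.log (1 - normSq z.2) ≤ 0 :=
    Real.log_nonpos h1.le (by linarith [normSq_nonneg z.2])
  unfold TT
  linarith

theorem le_TT {z : V} (h : ‖z.2‖ ≤ 3 / 5) : tt z - 1 ≤ TT z := by
  have h1 : (4 / 5 : ℝ) ^ 2 ≤ 1 - normSq z.2 := by
    rw [Complex.normSq_eq_norm_sq]
    nlinarith [norm_nonneg z.2]
  have h2 := Real.log_le_log (by norm_num) h1
  rw [Real.log_pow] at h2
  have h3 : 1 - (4 / 5 : ℝ)⁻¹ ≤ Real.log (4 / 5) := Real.one_sub_inv_le_log_of_pos (by norm_num)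
  unfold TT
  push_cast at h2
  norm_num at h3
  linarith

theorem IsBeta.bz_pos (h : IsBeta β e δ1 L T0) (z : V) : 0 < bz β z := by
  unfold bz
  split_ifs
  · exact h.pos _
  · exact one_pos

theorem IsBeta.bz_le_one (h : IsBeta β e δ1 L T0) (z : V) : bz β z ≤ 1 := by
  unfold bz
  split_ifs
  · exact h.le_one _
  · exact le_rfl

theorem IsBeta.triv_of (h : IsBeta β e δ1 L T0) {z : V} (hz : ‖z.2‖ < 1 → TT z ≤ T0) :
    Pb e z = tt z ∧ bz β z = 1 := by
  unfold Pb bz
  split_ifs with hlt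
  · rw [(h.triv _ (hz hlt)).1, (h.triv _ (hz hlt)).2]
    simp
  · simp

theorem IsBeta.std (h : IsBeta β e δ1 L T0) {z : V} (hz : z ∈ H2)
    (h' : 1 < ‖z.2‖ ∨ 1 < z.1.re) : Pb e z = tt z ∧ bz β z = 1 := by
  refine h.triv_of fun hlt => ?_
  rcases h' with h' | h'
  · linarith
  · have h1 := one_sub_normSq_pos hlt
    have h2 : 1 ≤ yy z := by unfold yy; linarith
    have h3 : tt z ≤ 0 := by
      unfold tt
      linarith [Real.log_nonneg h2]
    linarith [TT_le hlt, h.T0_nonneg]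

theorem contDiff_normSq' : ContDiff ℝ ∞ fun w : ℂ => normSq w := by
  have : (fun w : ℂ => normSq w) = fun w : ℂ => w.re * w.re + w.im * w.im :=
    funext fun w => Complex.normSq_apply w
  rw [this]
  exact (Complex.reCLM.contDiff.mul Complex.reCLM.contDiff).add
    (Complex.imCLM.contDiff.mul Complex.imCLM.contDiff)

theorem sm_tt {z : V} (hz : z ∈ H2) : Sm tt z := Sm.of_contDiffOn isOpen_H2 contDiffOn_tt hz

theorem sm_TT {z : V} (hz : z ∈ H2) (h : ‖z.2‖ < 1) : Sm TT z := by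
  have h1 : Sm (fun q : V => 1 - normSq q.2) z :=
    Sm.of_contDiff (contDiff_const.sub (contDiff_normSq'.comp contDiff_snd))
  exact (sm_tt hz).add ((Sm.const 2).rmul (h1.log (one_sub_normSq_pos h).ne'))

theorem ev_lt_one {z : V} (h : ‖z.2‖ < 1) : ∀ᶠ q : V in 𝓝 z, ‖q.2‖ < 1 :=
  (continuous_snd.norm : Continuous fun q : V => ‖q.2‖).continuousAt.eventually (gt_mem_nhds h)

theorem Pb_ev (e : ℝ → ℝ) {z : V} (h : ‖z.2‖ < 1) :
    Pb e =ᶠ[𝓝 z] fun q => tt q - e (TT q) :=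
  (ev_lt_one h).mono fun q hq => by simp only [Pb, if_pos hq]

theorem bz_ev (β : ℝ → ℝ) {z : V} (h : ‖z.2‖ < 1) : bz β =ᶠ[𝓝 z] fun q => β (TT q) :=
  (ev_lt_one h).mono fun q hq => by simp only [bz, if_pos hq]

theorem IsBeta.triv_nhds (h : IsBeta β e δ1 L T0) {z : V} (hz : z ∈ H2)
    (h' : 1 ≤ ‖z.2‖ ∨ TT z < T0) : ∀ᶠ q in 𝓝 z, Pb e q = tt q ∧ bz β q = 1 := by
  suffices H : ∀ᶠ q in 𝓝 z, ‖q.2‖ < 1 → TT q ≤ T0 from H.mono fun q hq => h.triv_of hq
  rcases lt_trichotomy ‖z.2‖ 1 with hlt | heq | hgt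
  · have hT : TT z < T0 := h'.resolve_left (by linarith)
    exact ((sm_TT hz hlt).continuousAt.eventually (gt_mem_nhds hT)).mono fun q hq _ => hq.le
  · have hc : Continuous fun q : V => (1 - normSq q.2) ^ 2 - yy q :=
      ((continuous_const.sub (Complex.continuous_normSq.comp continuous_snd)).pow 2).sub
        contDiff_yy.continuous
    have h0 : (1 - normSq z.2) ^ 2 - yy z < 0 := by
      rw [Complex.normSq_eq_norm_sq, heq]
      have : 0 < yy z := hz
      linarith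
    refine (hc.continuousAt.eventually (gt_mem_nhds h0)).mono fun q hq hlt => ?_
    have h1 := one_sub_normSq_pos hlt
    have h2 := Real.log_le_log (by positivity) (show (1 - normSq q.2) ^ 2 ≤ yy q by linarith)
    rw [Real.log_pow] at h2
    unfold TT tt
    push_cast at h2
    linarith [h.T0_nonneg]
  · have hc : Continuous fun q : V => ‖q.2‖ := continuous_snd.norm
    exact (hc.continuousAt.eventually (lt_mem_nhds hgt)).mono fun q hq hlt => by linarith

theorem IsBeta.contDiffOn_Pb (h : IsBeta β e δ1 L T0) : ContDiffOn ℝ ∞ (Pb e) H2 := by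
  intro z hz
  refine ContDiffAt.contDiffWithinAt ?_
  rcases lt_or_ge ‖z.2‖ 1 with hlt | hge
  · exact (((sm_tt hz).sub (Sm.comp (Sm.of_contDiff h.contDiff_e) (sm_TT hz hlt))).congr
      (Pb_ev e hlt).symm).contDiffAt
  · exact ((sm_tt hz).congr
      ((h.triv_nhds hz (Or.inl hge)).mono fun q hq => hq.1.symm)).contDiffAt

theorem IsBeta.contDiffOn_bz (h : IsBeta β e δ1 L T0) : ContDiffOn ℝ ∞ (bz β) H2 := by
  intro z hz
  refine ContDiffAt.contDiffWithinAt ?_
  rcases lt_or_ge ‖z.2‖ 1 with hlt | hge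
  · exact ((Sm.comp (Sm.of_contDiff h.smooth) (sm_TT hz hlt)).congr
      (bz_ev β hlt).symm).contDiffAt
  · exact ((Sm.const (1 : ℝ)).congr
      ((h.triv_nhds hz (Or.inl hge)).mono fun q hq => hq.2.symm)).contDiffAt

/-- If `‖z.2‖ < 1` then `Pb z ≥ TT z - e (TT z)`, so `TT z ≤ T2` (`prim`), so
`tt z ≤ L' + e T2`. -/
theorem IsBeta.height (h : IsBeta β e δ1 L T0) (L' : ℝ) :
    ∃ y0 : ℝ, 0 < y0 ∧ ∀ z ∈ H2, Pb e z ≤ L' → y0 ≤ yy z := by
  obtain ⟨T2, hT2⟩ := eventually_atTop.1 (h.prim.eventually (eventually_gt_atTop L'))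
  refine ⟨Real.exp (-(L' + e T2)), Real.exp_pos _, fun z hz hP => ?_⟩
  have hy : 0 < yy z := hz
  have h1 : tt z ≤ L' + e T2 := by
    unfold Pb at hP
    split_ifs at hP with hlt
    · have h2 : TT z ≤ T2 := by
        by_contra hc
        have := hT2 (TT z) (not_le.1 hc).le
        linarith [TT_le hlt]
      linarith [h.e_mono h2]
    · linarith [h.e_nonneg T2]
  rw [← Real.le_log_iff_exp_le hy]
  unfold tt at h1
  linarith

theorem IsBeta.cmp (h : IsBeta β e δ1 L T0) {y0 : ℝ} (hy0 : 0 < y0) :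
    ∃ C : ℝ, ∀ z, y0 ≤ yy z → Real.exp (-C) ≤ bz β z ^ 2 ∧ tt z - C ≤ Pb e z := by
  set s0 := -Real.log y0 with hs0
  have hb := h.pos s0
  have hb1 := h.le_one s0
  have hl : Real.log (β s0 ^ 2) ≤ 0 := Real.log_nonpos (by positivity) (by nlinarith)
  have he0 := h.e_nonneg s0
  refine ⟨e s0 - Real.log (β s0 ^ 2), fun z hz => ?_⟩
  have h1 : tt z ≤ s0 := by
    unfold tt
    linarith [Real.log_le_log hy0 hz]
  have h2 : Real.exp (-(e s0 - Real.log (β s0 ^ 2))) ≤ β s0 ^ 2 := by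
    calc _ ≤ Real.exp (Real.log (β s0 ^ 2)) := Real.exp_le_exp.2 (by linarith)
      _ = _ := Real.exp_log (by positivity)
  unfold bz Pb
  split_ifs with hlt
  · have h3 : TT z ≤ s0 := (TT_le hlt).trans h1
    have h4 := h.anti h3
    have h5 := h.e_mono h3
    refine ⟨h2.trans (by gcongr), by linarith⟩
  · exact ⟨h2.trans (by nlinarith), by linarith⟩

theorem exists_normSq_bound : ∃ C : ℝ, 1 ≤ C ∧ ∀ b : ℂ, ‖b‖ ≤ 1 → ∀ i ≤ 4,
    ‖iteratedFDeriv ℝ i (fun w : ℂ => normSq w) b‖ ≤ C := by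
  have hc : Continuous fun b : ℂ =>
      ∑ i ∈ Finset.range 5, ‖iteratedFDeriv ℝ i (fun w : ℂ => normSq w) b‖ :=
    continuous_finsetSum _ fun i _ =>
      (contDiff_normSq'.continuous_iteratedFDeriv (by exact_mod_cast le_top)).norm
  obtain ⟨C, hC⟩ := (isCompact_closedBall (0 : ℂ) 1).bddAbove_image hc.continuousOn
  refine ⟨max 1 C, le_max_left _ _, fun b hb i hi => le_trans ?_ (le_max_right _ _)⟩
  refine le_trans ?_ (hC ⟨b, by simpa using hb, rfl⟩)
  exact Finset.single_le_sum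
    (f := fun i => ‖iteratedFDeriv ℝ i (fun w : ℂ => normSq w) b‖)
    (fun _ _ => norm_nonneg _) (Finset.mem_range.2 (show i < 5 by omega))

theorem exists_iteratedDeriv_bound (M : ℝ → ℝ) (x : ℝ) :
    ∃ C : ℝ, 1 ≤ C ∧ ∀ i ≤ 4, |iteratedDeriv i M x| ≤ C := by
  refine ⟨1 + ∑ i ∈ Finset.range 5, |iteratedDeriv i M x|, ?_, fun i h4 => ?_⟩
  · have : 0 ≤ ∑ i ∈ Finset.range 5, |iteratedDeriv i M x| :=
      Finset.sum_nonneg fun _ _ => abs_nonneg _
    linarith
  · have := Finset.single_le_sum (f := fun i => |iteratedDeriv i M x|)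
      (fun _ _ => abs_nonneg _) (Finset.mem_range.2 (show i < 5 by omega))
    linarith

/-- `nz TT z = t0 + hh + const` near `0`, where `hh u = 2 log (1 - q u)`,
`q u = (|z.2 + √y u.2|² - |z.2|²) / (1 - |z.2|²)`, `θ = √y / (1 - |z.2|²) = exp (-TT z / 2) ≤ 1`;
`q` is a real quadratic polynomial with `JB q (16 θ)`, say (`‖Dq‖ ≤ 2θ`, `‖D²q‖ ≤ 2 θ √y ≤ 2θ`).
If `16 θ ≤ 1` use `JB.comp_small` with `Dd = 2 exp (-TT z / 8)`, otherwise `JB.comp_big`
(then `exp (-TT z/8) ≥ 1/2`). -/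
theorem JB_TT : ∃ K : ℝ, 1 ≤ K ∧ ∀ z ∈ H2, ‖z.2‖ < 1 → 0 ≤ TT z →
    JB (fun u => nz TT z u - t0 u) (K * Real.exp (-TT z / 8)) := by
  obtain ⟨C1, hC1, hN⟩ := exists_normSq_bound
  obtain ⟨C0, hC0, hM⟩ := exists_iteratedDeriv_bound (fun x => 2 * Real.log (1 - x)) 0
  refine ⟨24 * C0 * C1 ^ 5, ?_, fun z hz hlt hT => ?_⟩
  · have : 1 ≤ C1 ^ 5 := one_le_pow₀ hC1
    nlinarith
  have hy : 0 < yy z := hz
  set a : ℝ := 1 - normSq z.2 with ha
  have ha0 : 0 < a := one_sub_normSq_pos hlt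
  have ha1 : a ≤ 1 := by linarith [normSq_nonneg z.2]
  set r : ℝ := √(yy z) with hr
  have hr0 : 0 < r := Real.sqrt_pos.2 hy
  set τ : ℝ := Real.exp (-TT z / 8) with hτ
  have hτ0 : 0 < τ := Real.exp_pos _
  have hτ1 : τ ≤ 1 := Real.exp_le_one_iff.2 (by linarith)
  have hτ4 : τ ^ 4 = r / a := by
    have e1 : τ ^ 4 = Real.exp (Real.log r - Real.log a) := by
      rw [hτ, ← Real.exp_nat_mul, hr, Real.log_sqrt hy.le]
      congr 1
      unfold TT tt
      push_cast
      ring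
    rw [e1, Real.exp_sub, Real.exp_log hr0, Real.exp_log ha0]
  have hra : r ≤ 1 := by
    have : r / a ≤ 1 := hτ4 ▸ pow_le_one₀ hτ0.le hτ1
    rw [div_le_one ha0] at this
    linarith
  -- the linear map
  let Lm : V →L[ℝ] ℂ := r • ContinuousLinearMap.snd ℝ ℂ ℂ
  have hLm : ∀ u : V, Lm u = (r : ℂ) * u.2 := fun u => by simp [Lm]
  have hLn : ‖Lm‖ ≤ r := by
    refine ContinuousLinearMap.opNorm_le_bound _ hr0.le fun u => ?_
    rw [hLm, norm_mul, Complex.norm_real, Real.norm_eq_abs, abs_of_pos hr0]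
    gcongr
    exact norm_snd_le u
  have sN : Sm (fun u : V => normSq (z.2 + Lm u)) 0 :=
    Sm.of_contDiff (contDiff_normSq'.comp (contDiff_const.add Lm.contDiff))
  have jN : JB (fun u : V => normSq (z.2 + Lm u)) (C1 * r) := by
    intro i h1 h4
    refine (norm_iteratedFDeriv_affine (B := fun w : ℂ => normSq w) Lm z.2
      (Sm.of_contDiff contDiff_normSq') i).trans ?_
    have e1 : ‖Lm‖ ^ i ≤ r := by
      calc ‖Lm‖ ^ i ≤ r ^ i := by gcongr
        _ ≤ r ^ 1 := pow_le_pow_of_le_one hr0.le hra h1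
        _ = r := pow_one r
    have e2 := hN z.2 hlt.le i h4
    gcongr
  let q : V → ℝ := fun u => a⁻¹ * normSq (z.2 + Lm u) + -(a⁻¹ * normSq z.2)
  have sq1 : Sm (fun u : V => a⁻¹ * normSq (z.2 + Lm u)) 0 := (Sm.const _).rmul sN
  have sq : Sm q 0 := sq1.add (Sm.const _)
  have q0 : q 0 = 0 := by simp [q]
  have jq : JB q (C1 * τ ^ 4) := by
    refine ((jN.const_mul sN a⁻¹).add_const sq1 _).mono (le_of_eq ?_)
    rw [hτ4, abs_of_pos (inv_pos.2 ha0)]
    ring
  have sM : Sm (fun x : ℝ => 2 * Real.log (1 - x)) (q 0) := by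
    rw [q0]
    exact (Sm.const 2).rmul (Sm.log (Sm.of_contDiff (contDiff_const.sub contDiff_id)) (by simp))
  have jM : JB (fun u => 2 * Real.log (1 - q u)) (24 * C0 * C1 ^ 5 * τ) := by
    have hM' : ∀ i, 1 ≤ i → i ≤ 4 →
        |iteratedDeriv i (fun x => 2 * Real.log (1 - x)) (q 0)| ≤ C0 := by
      rw [q0]; exact fun i _ h4 => hM i h4
    rcases le_total (C1 * τ) 1 with hs | hs
    · refine (JB.comp_small sM sq hM' (by positivity) hs (jq.mono ?_)).mono ?_
      · rw [mul_pow]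
        gcongr
        calc C1 = C1 ^ 1 := (pow_one _).symm
          _ ≤ C1 ^ 4 := pow_le_pow_right₀ hC1 (by norm_num)
      · have : C1 ≤ C1 ^ 5 := by
          calc C1 = C1 ^ 1 := (pow_one _).symm
            _ ≤ C1 ^ 5 := pow_le_pow_right₀ hC1 (by norm_num)
        calc 24 * C0 * (C1 * τ) ≤ 24 * C0 * (C1 ^ 5 * τ) := by gcongr
          _ = _ := by ring
    · refine (JB.comp_big sM sq hM' hC1 (jq.mono ?_)).mono ?_
      · calc C1 * τ ^ 4 ≤ C1 * 1 := by gcongr; exact pow_le_one₀ hτ0.le hτ1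
          _ = C1 := mul_one _
      · calc 24 * C0 * C1 ^ 4 = 24 * C0 * C1 ^ 4 * 1 := (mul_one _).symm
          _ ≤ 24 * C0 * C1 ^ 4 * (C1 * τ) := by gcongr
          _ = _ := by ring
  have sM2 : Sm (fun u => 2 * Real.log (1 - q u)) 0 :=
    Sm.comp (g := fun x : ℝ => 2 * Real.log (1 - x)) sM sq
  refine (jM.add_const sM2 (tt z + 2 * Real.log a)).congr ?_
  have ev1 : ∀ᶠ u in 𝓝 (0 : V), q u < 1 :=
    sq.continuousAt.eventually (gt_mem_nhds (by rw [q0]; exact one_pos))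
  filter_upwards [ev1, nz_tt hz] with u hu hu2
  have e1 : nz TT z u = nz tt z u + 2 * Real.log (1 - normSq (z.2 + Lm u)) := by
    simp only [nz, TT, hLm]
    rfl
  have e2 : 1 - normSq (z.2 + Lm u) = a * (1 - q u) := by
    simp only [q]
    field_simp
    rw [ha]
    ring
  rw [e1, hu2, e2, Real.log_mul ha0.ne' (by linarith)]
  ring

theorem IsBeta.δ_nonneg (h : IsBeta β e δ1 L T0) : 0 ≤ δ1 := by
  have h1 := (abs_nonneg _).trans (h.der 1 le_rfl (by norm_num) 0)
  have h2 : 0 < β 0 ^ 20 := pow_pos (h.pos 0) 20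
  exact nonneg_of_mul_nonneg_left h1 h2

theorem IsBeta.der_ee (h : IsBeta β e δ1 L T0) (s : ℝ) (i : ℕ) (h1 : 1 ≤ i) (h4 : i ≤ 4) :
    |iteratedDeriv i (fun x => e x - (1 - β s) * x) s| ≤ δ1 * β s ^ 20 := by
  obtain ⟨j, rfl⟩ : ∃ j, i = j + 1 := ⟨i - 1, by omega⟩
  have hd : deriv (fun x => e x - (1 - β s) * x) = fun x => β s - β x := by
    funext x
    have := ((h.he x).sub ((hasDerivAt_id x).const_mul (1 - β s))).deriv
    refine Eq.trans this ?_
    ring
  rw [iteratedDeriv_succ', hd]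
  rcases Nat.eq_zero_or_pos j with rfl | hj
  · have := h.δ_nonneg
    have := h.pos s
    simp only [iteratedDeriv_zero, sub_self, abs_zero]
    positivity
  · rw [iteratedDeriv_const_sub hj, iteratedDeriv_neg, abs_neg]
    exact h.der j hj (by omega) s

theorem IsBeta.der_sq (h : IsBeta β e δ1 L T0) (hδ : δ1 ≤ 1) (s : ℝ) (n : ℕ) (h1 : 1 ≤ n)
    (h4 : n ≤ 4) : |iteratedDeriv n (fun x => β x ^ 2) s| ≤ 16 * (δ1 * β s ^ 20) := by
  have hδ0 := h.δ_nonneg
  have hb := h.pos s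
  have hb1 := h.le_one s
  set η := δ1 * β s ^ 20 with hη
  have hη0 : 0 ≤ η := by positivity
  have hη1 : η ≤ 1 := by
    have : β s ^ 20 ≤ 1 := pow_le_one₀ hb.le hb1
    calc η ≤ 1 * 1 := by rw [hη]; gcongr
      _ = 1 := one_mul _
  have hone : ∀ i ≤ 4, |iteratedDeriv i β s| ≤ 1 := fun i hi => by
    rcases Nat.eq_zero_or_pos i with rfl | h0
    · rw [iteratedDeriv_zero, abs_of_pos hb]; exact hb1
    · exact (h.der i h0 hi s).trans hη1
  have e1 : (fun x => β x ^ 2) = β * β := by funext x; simp [sq]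
  have hc : ContDiffAt ℝ n β s := h.smooth.contDiffAt.of_le (by exact_mod_cast le_top)
  rw [e1, iteratedDeriv_mul hc hc]
  refine (Finset.abs_sum_le_sum_abs _ _).trans ?_
  calc _ ≤ ∑ i ∈ Finset.range (n + 1), (n.choose i : ℝ) * η := by
        refine Finset.sum_le_sum fun i hi => ?_
        have hi' : i ≤ n := by simpa [Nat.lt_succ_iff] using hi
        rw [mul_assoc, abs_mul, abs_mul, Nat.abs_cast]
        gcongr
        rcases Nat.eq_zero_or_pos i with rfl | h0
        · calc _ ≤ 1 * η := by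
                gcongr
                · exact hone 0 (by norm_num)
                · exact h.der _ (by omega) (by omega) s
            _ = η := one_mul _
        · calc _ ≤ η * 1 := by
                gcongr
                · exact h.der _ h0 (by omega) s
                · exact hone _ (by omega)
            _ = η := mul_one _
    _ = (2 ^ n : ℕ) * η := by
        rw [← Finset.sum_mul, ← Nat.sum_range_choose]
        push_cast
        rfl
    _ ≤ 16 * η := by
        gcongr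
        exact_mod_cast (Nat.pow_le_pow_right (by norm_num) h4).trans_eq (by norm_num)

/-- For `‖z.2‖ < 1`, `T0 ≤ TT z =: s`, `β0 = β s`: near `0`,
`nz Pb z - β0 t0 = const - (1 - β0) (nz TT z - t0) - ee (nz TT z)` with `ee x = e x - (1 - β0) x`,
`ee' s = 0`, `ee^{(k)} = -β^{(k-1)}`; `JB (nz TT z) K'` from `JB_TT` and `exists_JB t0`;
`JB.comp_big`; derivatives of `β²` by `iteratedDeriv` Leibniz or `norm_iteratedFDeriv_comp_le'`
/ `norm_iteratedFDeriv_mul_le`.  Otherwise `triv_nhds`, `nz_tt`. -/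
theorem JB_Pb : ∃ K : ℝ, 1 ≤ K ∧ ∀ (β e : ℝ → ℝ) (δ1 L T0 : ℝ), IsBeta β e δ1 L T0 → δ1 ≤ 1 →
    ∀ z ∈ H2, JB (fun u => nz (Pb e) z u - bz β z * t0 u) (K * δ1 * bz β z ^ 20) ∧
      JB (nz (fun q => bz β q ^ 2) z) (K * δ1 * bz β z ^ 20) := by
  obtain ⟨K1, hK1, hTT⟩ := JB_TT
  obtain ⟨K0, hK0, ht0⟩ := exists_JB t0
  set D : ℝ := K1 + K0 with hD
  have hD1 : 1 ≤ D := by linarith
  have hD4 : 1 ≤ D ^ 4 := one_le_pow₀ hD1
  refine ⟨K1 + 24 * 16 * D ^ 4, by nlinarith, fun β e δ1 L T0 h hδ z hz => ?_⟩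
  have hδ0 := h.δ_nonneg
  have hbz := h.bz_pos z
  by_cases hc : 1 ≤ ‖z.2‖ ∨ TT z < T0
  · have hev := h.triv_nhds hz hc
    have h1 : bz β z = 1 := hev.self_of_nhds.2
    have hK : 0 ≤ (K1 + 24 * 16 * D ^ 4) * δ1 * bz β z ^ 20 := by positivity
    refine ⟨((JB.const (tt z)).congr ?_).mono hK, ((JB.const 1).congr ?_).mono hK⟩
    · have e1 : nz (Pb e) z =ᶠ[𝓝 0] nz tt z := nz_congr (hev.mono fun q hq => hq.1)
      filter_upwards [e1, nz_tt hz] with u hu hu2
      rw [hu, hu2, h1]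
      ring
    · have e1 : nz (fun q => bz β q ^ 2) z =ᶠ[𝓝 0] nz (fun _ => 1) z :=
        nz_congr (hev.mono fun q hq => by simp only [hq.2, one_pow])
      exact e1.symm
  push Not at hc
  obtain ⟨hlt, hT⟩ := hc
  have hb : bz β z = β (TT z) := by simp only [bz, if_pos hlt]
  rw [hb] at hbz ⊢
  set s := TT z with hs
  set η := δ1 * β s ^ 20 with hη
  have hη0 : 0 ≤ η := by positivity
  have hs0 : 0 ≤ s := h.T0_nonneg.trans hT
  have j1 := hTT z hz hlt hs0
  have sw : Sm (nz TT z) 0 := by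
    refine Sm.comp (g := TT) (f := fun u => z + LL z u) (by simpa using sm_TT hz hlt) ?_
    exact Sm.of_contDiff (contDiff_const.add ((LL z).restrictScalars ℝ).contDiff)
  have w0 : nz TT z 0 = s := nz_zero _ _
  have s1 : Sm (fun u => nz TT z u - t0 u) 0 := sw.sub sm_t0
  have jw : JB (nz TT z) D := by
    refine ((j1.add ht0 s1 sm_t0).congr (Eventually.of_forall fun u => by simp)).mono ?_
    have : Real.exp (-s / 8) ≤ 1 := Real.exp_le_one_iff.2 (by linarith)
    have : K1 * Real.exp (-s / 8) ≤ K1 * 1 := by gcongr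
    linarith
  have j1' : JB (fun u => nz TT z u - t0 u) (K1 * η) :=
    j1.mono (by have := h.exp_le s hT; gcongr)
  constructor
  · have see : Sm (fun x => e x - (1 - β s) * x) (nz TT z 0) :=
      Sm.of_contDiff (h.contDiff_e.sub (contDiff_const.mul contDiff_id))
    have jee := JB.comp_big see sw (C := η) (by rw [w0]; exact h.der_ee s) hD1 jw
    have s2 : Sm (fun u => e (nz TT z u) - (1 - β s) * nz TT z u) 0 :=
      Sm.comp (g := fun x => e x - (1 - β s) * x) see sw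
    have s3 : Sm (fun u => -(1 - β s) * (nz TT z u - t0 u)) 0 := (Sm.const _).rmul s1
    have j3 := ((j1'.const_mul s1 (-(1 - β s))).sub jee s3 s2).add_const (s3.sub s2) (tt z)
    refine (j3.congr ?_).mono ?_
    · have e1 : nz (Pb e) z =ᶠ[𝓝 0] nz (fun q => tt q - e (TT q)) z := nz_congr (Pb_ev e hlt)
      filter_upwards [e1, nz_tt hz] with u hu hu2
      have e2 : nz (fun q => tt q - e (TT q)) z u = nz tt z u - e (nz TT z u) := rfl
      rw [hu, e2, hu2]
      ring
    · have e1 : |-(1 - β s)| ≤ 1 := by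
        rw [abs_le]
        constructor <;> linarith [h.le_one s]
      have e2 : |-(1 - β s)| * (K1 * η) ≤ 1 * (K1 * η) := by gcongr
      have e3 : 0 ≤ η * D ^ 4 := by positivity
      rw [mul_assoc (K1 + 24 * 16 * D ^ 4), ← hη]
      nlinarith
  · have sb : Sm (fun x => β x ^ 2) (nz TT z 0) := Sm.of_contDiff (h.smooth.pow 2)
    have jb := JB.comp_big sb sw (C := 16 * η) (by rw [w0]; exact h.der_sq hδ s) hD1 jw
    refine (jb.congr ?_).mono ?_
    · have e1 : nz (fun q => bz β q ^ 2) z =ᶠ[𝓝 0] nz (fun q => β (TT q) ^ 2) z :=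
        nz_congr ((bz_ev β hlt).mono fun q hq => by simp only [hq])
      exact e1.symm
    · have e3 : 0 ≤ K1 * η := by positivity
      rw [mul_assoc (K1 + 24 * 16 * D ^ 4), ← hη]
      nlinarith

end Crest.Agent.R245
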