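import Crest.Agent.R245.NonEx
import Crest.Agent.R245.Well
import Crest.Agent.R245.Data79a

/-!
# The data for S0379 (task R245/Data79)

Order of choices: `Dp = 10⁶`, `B, CB` (`exists_well`), `lam = (1000 CB)⁻²`, `L = -log lam ≥ 7`,
`Cb = 8 L + 34`, `A = 2 Cb`, `C1 = 20000 A CB`.  Given `K0, δ0`: `δ1 = min 1 (δ0 / K)` (`K` of `JB_Pb`),
`β, e, T0` from `exists_beta`; `T1 ≥ T0` with `K0 β T1 ≤ 1`; `d0 = min (1/40000) (exp (-T1 - 4))`;
`al j = β (-log (δ j)) = β (-log d0 + j L)`; `P0 = Pb e`, `c = bz β ^ 2`, `ph = Pb e + Om`.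
* `LocAdm` at `z` with `β = bz β z`; by `Om_JB` either `C = 0`, or `C = C1`, and then
  `TT z ≤ tt z ≤ -log δ (m+1)` gives `al (m+1) ≤ bz β z`, and `TT z ≥ tt z - 1 ≥ T1` gives
  `K0 c ≤ β`.
* Background increments for `nonex` (`φbg = Pb e`, on `‖z.2‖ ≤ 1/3`
  `Pb = (TT - e TT) - 2 log (1 - |z.2|²)`): `TT q ≤ TT p + 2 L`, `TT p ≥ -log (δ j) - L`, so by
  `prim_sub_le`, `two`, `anti` the first part is `≤ 2 L * 4 al (j+1)`; the second is
  `≤ 17 √(δ j) ≤ 17 al j ≤ 34 al (j+1)` by `exp_le` (`δ1 ≤ 1`, `β ≤ 1`).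
* `Kill`: `nonex` with `v = ‖a‖` (`discHol_norm`), `b = k`, `j1` with `al j` small for `j ≥ j1`
  (`lim`), then `slab_nhds` and `eq_zero_of_eventually_zero` on the convex set `R0`.
* small `c`: `z = (y/2, 0)`, `TT z = -log y → ∞`.
-/

set_option autoImplicit false

noncomputable section

namespace Crest.Agent.R245

open scoped ComplexConjugate ContDiff Topology
open Complex Set Filter

theorem d79_log100 : Real.log 100 ≤ 5 := by
  rw [Real.log_le_iff_le_exp (by norm_num), show (5 : ℝ) = (5 : ℕ) * 1 by norm_num,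
    Real.exp_nat_mul]
  calc (100 : ℝ) ≤ 2.7 ^ 5 := by norm_num
    _ ≤ Real.exp 1 ^ 5 := pow_le_pow_left₀ (by norm_num) (by linarith [Real.exp_one_gt_d9]) 5

theorem d79_L {lam : ℝ} (h0 : 0 < lam) (h : lam ≤ 1 / 1000000) : 7 ≤ -Real.log lam := by
  have h1 : Real.exp 7 ≤ 1000000 := by
    rw [show (7 : ℝ) = (7 : ℕ) * 1 by norm_num, Real.exp_nat_mul]
    calc Real.exp 1 ^ 7 ≤ 3 ^ 7 :=
          pow_le_pow_left₀ (Real.exp_pos 1).le (by linarith [Real.exp_one_lt_d9]) 7
      _ ≤ 1000000 := by norm_num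
  have h2 : Real.log lam ≤ -7 := by
    rw [Real.log_le_iff_le_exp h0, Real.exp_neg]
    refine h.trans ?_
    rw [one_div]
    exact inv_anti₀ (Real.exp_pos 7) h1
  linarith

theorem d79_log_sub {x y r : ℝ} (hx0 : 0 ≤ x) (hy0 : 0 ≤ y) (hx : x ≤ 1 / 3) (hy : y ≤ 1 / 3)
    (hr : 0 ≤ r) (h : y - x ≤ 11 * r) :
    2 * Real.log (1 - x ^ 2) - 2 * Real.log (1 - y ^ 2) ≤ 17 * r := by
  have hx2 : 0 < 1 - x ^ 2 := by nlinarith
  have hy2 : 8 / 9 ≤ 1 - y ^ 2 := by nlinarith
  have hy3 : 0 < 1 - y ^ 2 := by linarith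
  have h1 := Real.log_le_sub_one_of_pos (div_pos hx2 hy3)
  rw [Real.log_div hx2.ne' hy3.ne'] at h1
  have h2 : (1 - x ^ 2) / (1 - y ^ 2) ≤ 1 + 17 / 2 * r := by
    rw [div_le_iff₀ hy3]
    have h3 : (y - x) * (y + x) ≤ 11 * r * (2 / 3) :=
      (mul_le_mul_of_nonneg_right h (by linarith)).trans
        (mul_le_mul_of_nonneg_left (by linarith) (by linarith))
    nlinarith
  linarith

theorem d79_Pb {e : ℝ → ℝ} {z : V} (h : ‖z.2‖ < 1) :
    Pb e z = (TT z - e (TT z)) - 2 * Real.log (1 - ‖z.2‖ ^ 2) := by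
  rw [Pb, if_pos h, ← Complex.normSq_eq_norm_sq]
  simp only [TT]
  ring

/-- The background increments between consecutive slabs. -/
theorem d79_bg {β e : ℝ → ℝ} {δ1 L T0 : ℝ} (h : IsBeta β e δ1 L T0) (hδ1 : δ1 ≤ 1) (hL : 7 ≤ L)
    {P : WP} {Dp CB : ℝ} (hP : P.OK Dp CB) {j : ℕ} (hT : T0 ≤ -Real.log (P.δ j))
    (hs : -Real.log (P.δ (j + 1)) = -Real.log (P.δ j) + L) {p q : V} (hp : p ∈ P.slab j)
    (hq : q ∈ P.slab (j + 1)) (hpq : ‖q.2 - p.2‖ ≤ 11 * √(P.δ j)) :
    Pb e q - Pb e p ≤ (8 * L + 34) * β (-Real.log (P.δ (j + 1))) := by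
  obtain ⟨p1, p2, p3⟩ := hp
  obtain ⟨q1, q2, q3⟩ := hq
  have d1 := hP.δ_pos j
  have d2 := hP.δ_pos (j + 1)
  have r1 := Real.sqrt_nonneg (P.δ j)
  have r2 := Real.sqrt_nonneg (P.δ (j + 1))
  have p4 : ‖p.2‖ ≤ 1 / 3 := by linarith
  have q4 : ‖q.2‖ ≤ 1 / 3 := by linarith
  set s := -Real.log (P.δ j) with hsdef
  have t1 : TT q ≤ s + L + 1 := by
    have h1 := TT_le (z := q) (by linarith)
    have h2 := Real.log_le_log (half_pos d2) q1
    rw [Real.log_div d2.ne' (by norm_num)] at h2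
    have h3 := Real.log_le_sub_one_of_pos (show (0 : ℝ) < 2 by norm_num)
    simp only [tt] at h1
    linarith
  have t2 : s - 6 ≤ TT p := by
    have h1 := le_TT (z := p) (by linarith)
    have h2 := Real.log_le_log (by linarith) p2
    rw [Real.log_mul (by norm_num) d1.ne'] at h2
    have h3 := d79_log100
    simp only [tt] at h1
    linarith
  have b1 := h.prim_sub_le (s := TT p) (s' := TT q) (M := 2 * L) (by linarith) (by linarith)
  have b2 : β (TT p) ≤ 4 * β (s + L) := by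
    have h1 : β (TT p) ≤ β (s - L) := h.anti (by linarith)
    have h2 := h.two (s - L)
    rw [sub_add_cancel] at h2
    have h3 := h.two s
    linarith
  have b3 := d79_log_sub (norm_nonneg p.2) (norm_nonneg q.2) p4 q4 r1
    ((norm_sub_norm_le _ _).trans hpq)
  have b4 : √(P.δ j) ≤ β s := by
    have h1 := h.exp_le s hT
    have h2 : √(P.δ j) = Real.exp (-s / 2) := by
      rw [Real.sqrt_eq_iff_mul_self_eq d1.le (Real.exp_pos _).le, ← Real.exp_add, hsdef, neg_neg,
        add_halves, Real.exp_log d1]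
    have h3 : Real.exp (-s / 2) ≤ Real.exp (-s / 8) :=
      Real.exp_le_exp.2 (by linarith [h.T0_nonneg])
    have h4 : β s ^ 20 ≤ β s := pow_le_of_le_one (h.pos s).le (h.le_one s) (by norm_num)
    have h5 : δ1 * β s ^ 20 ≤ 1 * β s ^ 20 :=
      mul_le_mul_of_nonneg_right hδ1 (pow_nonneg (h.pos s).le _)
    linarith
  have b5 := h.two s
  have b6 : β (TT p) * (2 * L) ≤ 4 * β (s + L) * (2 * L) :=
    mul_le_mul_of_nonneg_right b2 (by linarith)
  rw [d79_Pb (z := q) (by linarith), d79_Pb (z := p) (by linarith), hs]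
  linarith

theorem data79 : ∃ C1 : ℝ, 0 ≤ C1 ∧ ∀ K0 δ0 : ℝ, 1 ≤ K0 → 0 < δ0 → ∃ d : HData,
    d.Adm C1 K0 δ0 ∧ d.Proper ∧ d.Std ∧ Kill d.ph ∧
    ∀ ε : ℝ, 0 < ε → ∃ z ∈ R0, 0 < d.c z ∧ d.c z < ε := by
  obtain ⟨B, CB, hB⟩ := exists_well 1000000
  obtain ⟨K, hK1, hK⟩ := JB_Pb
  have hCB := hB.one_le
  set lam : ℝ := (1000 * CB)⁻¹ ^ 2 with hlam
  have hlam0 : 0 < lam := by positivity
  have hsq : 1000 * CB * √lam ≤ 1 := by
    rw [hlam, Real.sqrt_sq (by positivity), mul_inv_cancel₀ (by positivity)]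
  have hlam1 : lam ≤ 1 / 1000000 := by
    have : (1000 * CB)⁻¹ ≤ 1000⁻¹ := inv_anti₀ (by norm_num) (by linarith)
    calc lam ≤ 1000⁻¹ ^ 2 := pow_le_pow_left₀ (by positivity) this 2
      _ = 1 / 1000000 := by norm_num
  set L := -Real.log lam with hLdef
  have hL : 7 ≤ L := d79_L hlam0 hlam1
  set A := 2 * (8 * L + 34) with hA
  have hA0 : 0 < A := by linarith
  refine ⟨20000 * A * CB, by positivity, fun K0 δ0 hK0 hδ0 => ?_⟩
  have hδ1 : 0 < min 1 (δ0 / K) := lt_min one_pos (by positivity)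
  have hKδ : K * min 1 (δ0 / K) ≤ δ0 := by
    have := mul_le_mul_of_nonneg_left (min_le_right 1 (δ0 / K)) (show 0 ≤ K by linarith)
    rwa [mul_div_cancel₀ _ (by linarith)] at this
  obtain ⟨β, e, T0, h⟩ := exists_beta hδ1 (show 0 < L by linarith)
  obtain ⟨T1, hT1, hT0⟩ :=
    ((h.lim.eventually (ge_mem_nhds (show 0 < 1 / K0 by positivity))).and
      (eventually_ge_atTop T0)).exists
  set d0 := min (1 / 40000) (Real.exp (-T1 - 4)) with hd0
  have hd00 : 0 < d0 := lt_min (by norm_num) (Real.exp_pos _)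
  have hd01 : T1 + 4 ≤ -Real.log d0 := by
    have := Real.log_le_log hd00 (min_le_right _ _)
    rw [Real.log_exp] at this
    linarith
  let P : WP := ⟨B, lam, d0, A, fun j => β (-Real.log d0 + j * L)⟩
  have hP : P.OK 1000000 CB := by
    refine ⟨hB, hlam0, hsq, hd00, min_le_left _ _, hA0, fun j => h.pos _, fun j => h.le_one _,
      fun j => ?_⟩
    have := h.two (-Real.log d0 + j * L)
    show β _ ≤ 2 * β _
    rw [Nat.cast_succ, add_mul, one_mul, ← add_assoc]
    exact this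
  have hlog : ∀ j : ℕ, -Real.log (P.δ j) = -Real.log d0 + j * L := fun j => by
    show -Real.log (d0 * lam ^ j) = _
    rw [Real.log_mul hd00.ne' (pow_pos hlam0 j).ne', Real.log_pow, hLdef]
    ring
  have hal : ∀ j, P.al j = β (-Real.log (P.δ j)) := fun j => by rw [hlog]
  have smc : ContDiffOn ℝ ∞ (fun q => bz β q ^ 2) H2 := h.contDiffOn_bz.pow 2
  have smph : ContDiffOn ℝ ∞ (fun z => Pb e z + P.Om z) H2 := h.contDiffOn_Pb.add hP.contDiffOn_Om
  refine ⟨⟨Pb e, fun q => bz β q ^ 2, fun z => Pb e z + P.Om z⟩,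
    ⟨h.contDiffOn_Pb, smc, smph, fun z hz => ?_⟩, ⟨h.height, fun y0 hy0 => ?_⟩, fun z hz h' => ?_,
    fun a k C hk ha hb => ?_, fun ε hε => ?_⟩
  · have hb0 := h.bz_pos z
    have hb1 := h.bz_le_one z
    obtain ⟨j1, j2⟩ := hK β e _ L T0 h (min_le_left _ _) z hz
    have hle : K * min 1 (δ0 / K) * bz β z ^ 20 ≤ δ0 * (bz β z ^ 2) ^ 10 := by
      rw [← pow_mul]
      exact mul_le_mul_of_nonneg_right hKδ (by positivity)
    have hc : nz (fun q => bz β q ^ 2) z 0 = bz β z ^ 2 := nz_zero _ z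
    have hom : (fun u => nz (fun z => Pb e z + P.Om z) z u - nz (Pb e) z u) = nz P.Om z := by
      funext u
      simp only [nz, add_sub_cancel_left]
    have key : ∀ C : ℝ, 0 ≤ C → C ≤ 20000 * A * CB → (C = 0 ∨ K0 * bz β z ^ 2 ≤ bz β z) →
        JB (nz P.Om z) (C * bz β z) → HData.LocAdm
          (HData.nz ⟨Pb e, fun q => bz β q ^ 2, fun z => Pb e z + P.Om z⟩ z)
          (20000 * A * CB) K0 δ0 (bz β z) C := by
      intro C h1 h2 h3 h4
      refine ⟨sm_nz h.contDiffOn_Pb hz, sm_nz smc hz, sm_nz smph hz, ?_, ?_, hb1, h1, h2, ?_, ?_, ?_,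
        ?_, ?_⟩ <;> simp only [HData.nz, hc, hom]
      · positivity
      · nlinarith
      · exact h3
      · exact j1.mono hle
      · exact j2.mono hle
      · exact h4
      · exact hP.Om_psh_nz hz
    rcases hP.Om_JB hz with h0 | ⟨m, m1, m2, m3, m4⟩
    · exact ⟨_, 0, key 0 le_rfl (by positivity) (Or.inl rfl) (by rwa [zero_mul])⟩
    · have hbz : bz β z = β (TT z) := if_pos (by linarith)
      have hy : 0 < yy z := hz
      refine ⟨_, _, key _ (by positivity) le_rfl (Or.inr ?_) (m4.mono ?_)⟩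
      · have t1 := le_TT m3
        have t2 := Real.log_le_log hy m2
        have t3 := Real.log_le_sub_one_of_pos (show (0 : ℝ) < 4 by norm_num)
        rw [Real.log_mul (by norm_num) hP.d0_pos.ne'] at t2
        have t4 : Real.log P.d0 = Real.log d0 := rfl
        simp only [tt] at t1
        have t5 : bz β z ≤ 1 / K0 := hbz ▸ (h.anti (by linarith)).trans hT1
        rw [le_div_iff₀ (by linarith)] at t5
        nlinarith
      · have t1 := TT_le (z := z) (by linarith)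
        have t2 := Real.log_le_log (hP.δ_pos _) m1
        simp only [tt] at t1
        rw [hal, hbz]
        exact mul_le_mul_of_nonneg_left (h.anti (by linarith)) (by positivity)
  · obtain ⟨C1, h1⟩ := h.cmp hy0
    obtain ⟨C2, h2⟩ := hP.Om_lower hy0
    refine ⟨C1 + |C2|, fun z hz => ⟨?_, ?_⟩⟩
    · exact (Real.exp_le_exp.2 (by linarith [abs_nonneg C2])).trans (h1 z hz).1
    · show _ ≤ Pb e z + P.Om z
      linarith [(h1 z hz).2, h2 z hz, le_abs_self C2]
  · obtain ⟨h1, h2⟩ := h.std hz h'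
    have h3 : P.Om z = 0 := by
      refine hP.Om_zero hz ?_
      by_cases hz2 : 11 / 20 ≤ ‖z.2‖
      · exact Or.inl hz2
      · have h4 : 1 < z.1.re := h'.resolve_left (by linarith)
        have h5 := hP.d0_le
        have h6 := norm_nonneg z.2
        right
        rw [yy, Complex.normSq_eq_norm_sq]
        nlinarith
    refine ⟨h1, ?_, ?_⟩
    · show bz β z ^ 2 = 1
      rw [h2, one_pow]
    · show Pb e z + P.Om z = tt z
      rw [h1, h3, add_zero]
  · have hlim : Tendsto (fun j : ℕ => k * P.al j * P.A * (1000000 + 30)) atTop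
        (𝓝 (k * 0 * P.A * (1000000 + 30))) := by
      refine (((h.lim.comp ?_).const_mul k).mul_const _).mul_const _
      exact tendsto_atTop_add_const_left _ _
        (tendsto_natCast_atTop_atTop.atTop_mul_const (by linarith))
    obtain ⟨j1, hj1⟩ := eventually_atTop.1
      (hlim.eventually (ge_mem_nhds (by rw [mul_zero, zero_mul, zero_mul]; exact one_pos)))
    have hz := hP.nonex le_rfl (φbg := Pb e) (v := fun z => ‖a z‖) (Cb := 8 * L + 34) (C := C)
      (j1 := j1) hk le_rfl (fun j _ p hp q hq hpq => by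
        rw [hal]
        refine d79_bg h (min_le_left _ _) hL hP ?_ ?_ hp hq hpq
        · rw [hlog]
          have : 0 ≤ (j : ℝ) * L := by positivity
          linarith
        · rw [hlog, hlog]; push_cast; ring) hj1 (h.nsum _) (fun z _ => norm_nonneg _)
      (discHol_norm isOpen_R0 R1_subset_R0 ha) fun z hz => hb z (R1_subset_R0 hz)
    obtain ⟨z, hz1, hz2⟩ := hP.slab_nhds j1
    refine eq_zero_of_eventually_zero isOpen_R0 convex_R0.isPreconnected ha (R1_subset_R0 hz1) ?_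
    filter_upwards [hz2] with q hq
    exact norm_eq_zero.1 (hz q hq)
  · obtain ⟨s, hs1, hs2⟩ :=
      ((h.lim.eventually (gt_mem_nhds hε)).and (eventually_ge_atTop 0)).exists
    have hy : yy (((Real.exp (-s) / 2 : ℝ) : ℂ), 0) = Real.exp (-s) := by
      simp only [yy, ofReal_re, map_zero]; ring
    have he1 : Real.exp (-s) ≤ 1 := Real.exp_le_one_iff.2 (by linarith)
    have hbz : bz β (((Real.exp (-s) / 2 : ℝ) : ℂ), 0) = β s := by
      rw [bz, if_pos (by simp), TT, tt, hy]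
      simp
    refine ⟨(((Real.exp (-s) / 2 : ℝ) : ℂ), 0), ⟨?_, by simp, ?_⟩, ?_, ?_⟩
    · show 0 < yy _
      rw [hy]; exact Real.exp_pos _
    · show Real.exp (-s) / 2 < 2
      linarith
    · exact pow_pos (h.bz_pos _) 2
    · show bz β _ ^ 2 < ε
      rw [hbz]
      nlinarith [h.pos s, h.le_one s]

end Crest.Agent.R245
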