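import Crest.Prelude.Def_KahlerDomain

/-!
# Row 245 (S0378, S0379): definitions

Overview of the proof: see `R245/Blueprint.lean`.
-/

set_option autoImplicit false

noncomputable section

namespace Crest.Agent.R245

open scoped ComplexConjugate ContDiff Topology
open Complex Set Filter

/-! ## Wirtinger calculus along vectors -/

section Wirt

variable {E : Type*} [NormedAddCommGroup E] [NormedSpace ℝ E] [NormedSpace ℂ E]

/-- `W (-1) ξ f` is the holomorphic derivative of `f` along `ξ`, `W 1 ξ f` the antiholomorphic one. -/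
def W (s : ℝ) (ξ : E) (f : E → ℂ) (p : E) : ℂ :=
  (fderiv ℝ f p ξ + (s : ℂ) * I * fderiv ℝ f p (I • ξ)) / 2

/-- Holomorphic derivative along `ξ` (complex linear in `ξ`). -/
abbrev D (ξ : E) (f : E → ℂ) : E → ℂ := W (-1) ξ f

/-- Antiholomorphic derivative along `ξ` (conjugate linear in `ξ`). -/
abbrev Db (ξ : E) (f : E → ℂ) : E → ℂ := W 1 ξ f

/-- A real function viewed as a complex function. -/
def cx {α : Type*} (f : α → ℝ) : α → ℂ := fun q => (f q : ℂ)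

end Wirt

/-- `f` is smooth in a neighbourhood of `p`. -/
def Sm {E F : Type*} [NormedAddCommGroup E] [NormedSpace ℝ E] [NormedAddCommGroup F]
    [NormedSpace ℝ F] (f : E → F) (p : E) : Prop :=
  ∀ᶠ q in 𝓝 p, ContDiffAt ℝ ∞ f q

/-- The derivatives of orders `1, …, 4` of `f` at `0` are bounded by `K`. -/
def JB {E : Type*} [NormedAddCommGroup E] [NormedSpace ℝ E] (f : E → ℝ) (K : ℝ) : Prop :=
  ∀ i : ℕ, 1 ≤ i → i ≤ 4 → ‖iteratedFDeriv ℝ i f 0‖ ≤ K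

/-! ## Abstract jets of Kähler potentials -/

/-- The mixed derivatives `Φ_{ξ θbar}`, `Φ_{η ζ θbar}`, `Φ_{η ζ ξbar θbar}` of a potential at a point. -/
@[ext]
structure Jet (E : Type*) where
  H : E → E → ℂ
  A : E → E → E → ℂ
  Q : E → E → E → E → ℂ

namespace Jet

variable {E E' : Type*}

instance : Add (Jet E) :=
  ⟨fun J K => ⟨fun a b => J.H a b + K.H a b, fun a b c => J.A a b c + K.A a b c,
    fun a b c d => J.Q a b c d + K.Q a b c d⟩⟩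

instance : Sub (Jet E) :=
  ⟨fun J K => ⟨fun a b => J.H a b - K.H a b, fun a b c => J.A a b c - K.A a b c,
    fun a b c d => J.Q a b c d - K.Q a b c d⟩⟩

instance : SMul ℝ (Jet E) :=
  ⟨fun s J => ⟨fun a b => s * J.H a b, fun a b c => s * J.A a b c,
    fun a b c d => s * J.Q a b c d⟩⟩

@[simp] theorem add_H (J K : Jet E) (a b : E) : (J + K).H a b = J.H a b + K.H a b := rfl
@[simp] theorem add_A (J K : Jet E) (a b c : E) : (J + K).A a b c = J.A a b c + K.A a b c := rfl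
@[simp] theorem add_Q (J K : Jet E) (a b c d : E) :
    (J + K).Q a b c d = J.Q a b c d + K.Q a b c d := rfl
@[simp] theorem sub_H (J K : Jet E) (a b : E) : (J - K).H a b = J.H a b - K.H a b := rfl
@[simp] theorem sub_A (J K : Jet E) (a b c : E) : (J - K).A a b c = J.A a b c - K.A a b c := rfl
@[simp] theorem sub_Q (J K : Jet E) (a b c d : E) :
    (J - K).Q a b c d = J.Q a b c d - K.Q a b c d := rfl
@[simp] theorem smul_H (s : ℝ) (J : Jet E) (a b : E) : (s • J).H a b = s * J.H a b := rfl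
@[simp] theorem smul_A (s : ℝ) (J : Jet E) (a b c : E) : (s • J).A a b c = s * J.A a b c := rfl
@[simp] theorem smul_Q (s : ℝ) (J : Jet E) (a b c d : E) :
    (s • J).Q a b c d = s * J.Q a b c d := rfl

/-- Pull-back of a jet along a map of vectors. -/
def comap (J : Jet E) (L : E' → E) : Jet E' :=
  ⟨fun a b => J.H (L a) (L b), fun a b c => J.A (L a) (L b) (L c),
    fun a b c d => J.Q (L a) (L b) (L c) (L d)⟩

@[simp] theorem comap_H (J : Jet E) (L : E' → E) (a b : E') :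
    (J.comap L).H a b = J.H (L a) (L b) := rfl
@[simp] theorem comap_A (J : Jet E) (L : E' → E) (a b c : E') :
    (J.comap L).A a b c = J.A (L a) (L b) (L c) := rfl
@[simp] theorem comap_Q (J : Jet E) (L : E' → E) (a b c d : E') :
    (J.comap L).Q a b c d = J.Q (L a) (L b) (L c) (L d) := rfl

/-- All three forms are bounded by `K` times the product of the sizes `ν`. -/
structure Bd (J : Jet E) (ν : E → ℝ) (K : ℝ) : Prop where
  H : ∀ a b, ‖J.H a b‖ ≤ K * (ν a * ν b)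
  A : ∀ a b c, ‖J.A a b c‖ ≤ K * (ν a * ν b * ν c)
  Q : ∀ a b c d, ‖J.Q a b c d‖ ≤ K * (ν a * ν b * ν c * ν d)

/-- The Gram determinant of the real part of `H`. -/
def Den (J : Jet E) (X Y : E) : ℝ := (J.H X X).re * (J.H Y Y).re - (J.H X Y).re ^ 2

variable [AddCommGroup E] [Module ℂ E]

/-- Linearity and symmetry properties of a jet. -/
structure Good (J : Jet E) : Prop where
  H_add : ∀ a a' b, J.H (a + a') b = J.H a b + J.H a' b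
  H_smul : ∀ (t : ℂ) a b, J.H (t • a) b = t * J.H a b
  H_conj : ∀ a b, conj (J.H a b) = J.H b a
  A_add : ∀ a a' b c, J.A (a + a') b c = J.A a b c + J.A a' b c
  A_smul : ∀ (t : ℂ) a b c, J.A (t • a) b c = t * J.A a b c
  A_symm : ∀ a b c, J.A a b c = J.A b a c
  A_add3 : ∀ a b c c', J.A a b (c + c') = J.A a b c + J.A a b c'
  A_smul3 : ∀ (t : ℂ) a b c, J.A a b (t • c) = conj t * J.A a b c
  Q_add : ∀ a a' b c d, J.Q (a + a') b c d = J.Q a b c d + J.Q a' b c d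
  Q_smul : ∀ (t : ℂ) a b c d, J.Q (t • a) b c d = t * J.Q a b c d
  Q_symm : ∀ a b c d, J.Q a b c d = J.Q b a c d
  Q_conj : ∀ a b c d, conj (J.Q a b c d) = J.Q c d a b

/-- `H` is positive definite. -/
def Pos (J : Jet E) : Prop := ∀ a, a ≠ 0 → 0 < (J.H a a).re

/-- The Christoffel vector: `H (gam η ζ) θ = A η ζ θ` for all `θ`. -/
def gam (J : Jet E) (η ζ : E) : E :=
  Classical.epsilon fun v => ∀ θ, J.H v θ = J.A η ζ θ

/-- Minus the Kähler curvature tensor. -/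
def S (J : Jet E) (η ζ ξ θ : E) : ℂ := J.Q η ζ ξ θ - J.H (J.gam η ζ) (J.gam ξ θ)

/-- The numerator `g (R(X,Y)Y, X)` of the sectional curvature. -/
def N (J : Jet E) (X Y : E) : ℝ := (J.S Y Y X X).re - (J.S X Y X Y).re

end Jet

section Pot

variable {E : Type*} [NormedAddCommGroup E] [NormedSpace ℝ E] [NormedSpace ℂ E]

/-- The jet of a real potential at a point. -/
def jet (Φ : E → ℝ) (p : E) : Jet E where
  H ξ θ := D ξ (Db θ (cx Φ)) p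
  A η ζ θ := D η (D ζ (Db θ (cx Φ))) p
  Q η ζ ξ θ := D η (D ζ (Db ξ (Db θ (cx Φ)))) p

/-- A potential of a complete Kähler metric with curvature at most `-a`. -/
structure Good (U : Set E) (Φ : E → ℝ) (a K : ℝ) : Prop where
  isOpen : IsOpen U
  smooth : ContDiffOn ℝ ∞ Φ U
  pos : ∀ p ∈ U, (jet Φ p).Pos
  curv : ∀ p ∈ U, ∀ X Y, a * (jet Φ p).Den X Y ≤ -(jet Φ p).N X Y
  grad : ∀ p ∈ U, ∀ ξ, (fderiv ℝ Φ p ξ) ^ 2 ≤ K * ((jet Φ p).H ξ ξ).re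
  low : ∀ L : ℝ, ∃ c : ℝ, 0 < c ∧ ∀ p ∈ U, Φ p ≤ L → ∀ ξ : E,
    c * ‖ξ‖ ^ 2 ≤ ((jet Φ p).H ξ ξ).re * (1 + ‖p‖ ^ 2)
  closed : ∀ L : ℝ, IsClosed {p | p ∈ U ∧ Φ p ≤ L}

end Pot

/-- `U` is diffeomorphic to the whole space. -/
def Diffeo {E : Type*} [NormedAddCommGroup E] [NormedSpace ℝ E] (U : Set E) : Prop :=
  ∃ Φ Ψ : E → E, ContDiff ℝ ∞ Φ ∧ ContDiffOn ℝ ∞ Ψ U ∧ Set.range Φ = U ∧ ∀ x, Ψ (Φ x) = x

/-! ## The base: the Siegel domain in `ℂ²` -/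

/-- The base space (sup norm). -/
abbrev V := ℂ × ℂ

/-- The total space (sup norm). -/
abbrev T := V × ℂ

/-- Height function of the Siegel domain. -/
def yy (z : V) : ℝ := 2 * z.1.re - normSq z.2

/-- The Siegel domain in `ℂ²`. -/
def H2 : Set V := {z | 0 < yy z}

/-- The standard potential on `H2`. -/
def tt (z : V) : ℝ := -Real.log (yy z)

/-- The standard potential in normalised coordinates. -/
def t0 (u : V) : ℝ := -Real.log (1 + yy u)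

/-- Normalising linear map at `z`: `yy (z + LL z u) = yy z * (1 + yy u)`. -/
def LL (z : V) : V →L[ℂ] V :=
  (((yy z : ℝ) : ℂ) • ContinuousLinearMap.fst ℂ ℂ ℂ +
      (((√(yy z) : ℝ) : ℂ) * conj z.2) • ContinuousLinearMap.snd ℂ ℂ ℂ).prod
    (((√(yy z) : ℝ) : ℂ) • ContinuousLinearMap.snd ℂ ℂ ℂ)

theorem LL_apply (z u : V) : LL z u =
    (((yy z : ℝ) : ℂ) * u.1 + (((√(yy z) : ℝ) : ℂ) * conj z.2) * u.2,
      ((√(yy z) : ℝ) : ℂ) * u.2) := rfl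

/-- A function in normalised coordinates centred at `z`. -/
def nz (f : V → ℝ) (z : V) : V → ℝ := fun u => f (z + LL z u)

/-- The jet of `t0` at `0`. -/
def tJet : Jet V where
  H a b := a.1 * conj b.1 + a.2 * conj b.2
  A a b c := -(2 * a.1 * b.1 * conj c.1 + a.1 * b.2 * conj c.2 + a.2 * b.1 * conj c.2)
  Q a b c d := 6 * a.1 * b.1 * conj c.1 * conj d.1 +
    2 * ((a.1 * b.2 + a.2 * b.1) * (conj c.1 * conj d.2 + conj c.2 * conj d.1)) +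
    2 * a.2 * b.2 * conj c.2 * conj d.2

/-! ## Hartogs domains -/

/-- Data of a Hartogs domain with its potential. -/
structure HData where
  P0 : V → ℝ
  c : V → ℝ
  ph : V → ℝ

/-- The fibre potential `-log (1 - |w|² e^φ)`. -/
def FF (φ : V → ℝ) (p : T) : ℝ := -Real.log (1 - normSq p.2 * Real.exp (φ p.1))

namespace HData

/-- The data in normalised coordinates at `z`. -/
def nz (d : HData) (z : V) : HData := ⟨R245.nz d.P0 z, R245.nz d.c z, R245.nz d.ph z⟩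

/-- The Hartogs domain. -/
def U (d : HData) : Set T := {p | p.1 ∈ H2 ∧ normSq p.2 * Real.exp (d.ph p.1) < 1}

/-- The potential. -/
def Phi (d : HData) (p : T) : ℝ := d.P0 p.1 + d.c p.1 * FF d.ph p

/-- Admissibility of normalised data at the origin. -/
structure LocAdm (d : HData) (C1 K0 δ0 β C : ℝ) : Prop where
  smP : Sm d.P0 0
  smc : Sm d.c 0
  smph : Sm d.ph 0
  c_pos : 0 < d.c 0
  c_le : d.c 0 ≤ β
  β_le : β ≤ 1
  C_nonneg : 0 ≤ C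
  C_le : C ≤ C1
  alt : C = 0 ∨ K0 * d.c 0 ≤ β
  jP : JB (fun u => d.P0 u - β * t0 u) (δ0 * d.c 0 ^ 10)
  jc : JB d.c (δ0 * d.c 0 ^ 10)
  jph : JB (fun u => d.ph u - d.P0 u) (C * β)
  psh : ∀ ξ, 0 ≤ ((jet (fun u => d.ph u - d.P0 u) 0).H ξ ξ).re

/-- Admissible data on `H2`. -/
structure Adm (d : HData) (C1 K0 δ0 : ℝ) : Prop where
  smP : ContDiffOn ℝ ∞ d.P0 H2
  smc : ContDiffOn ℝ ∞ d.c H2
  smph : ContDiffOn ℝ ∞ d.ph H2
  loc : ∀ z ∈ H2, ∃ β C, (d.nz z).LocAdm C1 K0 δ0 β C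

/-- Properness of the potential. -/
structure Proper (d : HData) : Prop where
  height : ∀ L : ℝ, ∃ y0 : ℝ, 0 < y0 ∧ ∀ z ∈ H2, d.P0 z ≤ L → y0 ≤ yy z
  cmp : ∀ y0 : ℝ, 0 < y0 → ∃ C : ℝ, ∀ z, y0 ≤ yy z → Real.exp (-C) ≤ d.c z ∧ tt z - C ≤ d.ph z

/-- The data are the standard ones (complex hyperbolic space) outside a cylinder. -/
def Std (d : HData) : Prop :=
  ∀ z ∈ H2, (1 < ‖z.2‖ ∨ 1 < z.1.re) → d.P0 z = tt z ∧ d.c z = 1 ∧ d.ph z = tt z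

end HData

/-- The part of `H2` under the gluing cylinder. -/
def R0 : Set V := {z | z ∈ H2 ∧ ‖z.2‖ < 2 ∧ z.1.re < 2}

/-- No non-zero holomorphic function on `R0` is dominated by a positive power of `e^φ`. -/
def Kill (φ : V → ℝ) : Prop :=
  ∀ (a : V → ℂ) (k C : ℝ), 0 < k → DifferentiableOn ℂ a R0 →
    (∀ z ∈ R0, ‖a z‖ ≤ C * Real.exp (k * φ z)) → ∀ z ∈ R0, a z = 0

/-- The Siegel domain in `ℂ³`. -/
def H3 : Set T := {p | normSq p.2 < yy p.1}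

/-! ## Algebraic data at a point `(0, w)` of a Hartogs domain -/

/-- `J0`, `Jp` are the jets of `P0` and `φ`, `f1 = Dφ`, `f2 = DDφ`, `ψ = e^φ` at the base point. -/
structure HP where
  J0 : Jet V
  Jp : Jet V
  f1 : V → ℂ
  f2 : V → V → ℂ
  c : ℝ
  ψ : ℝ
  w : ℂ

namespace HP

variable (p : HP)

def m : ℝ := 1 / (1 - normSq p.w * p.ψ)
def n : ℝ := normSq p.w * p.ψ * p.m
def x : ℝ := p.c * p.n
def Θ : ℝ := p.c * p.n * p.m
def ρ : ℝ := √(p.c * p.ψ) * p.m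
def κ : ℂ := p.ρ * p.w
def Λ (X : T) : ℂ := X.2 + p.w * p.f1 X.1
def r (X : T) : ℂ := p.ρ * p.Λ X
def L (X Y : T) : ℂ :=
  2 * p.m * p.ψ * conj p.w * p.Λ X * p.Λ Y + p.f1 Y.1 * p.Λ X + p.f1 X.1 * p.Λ Y +
    p.w * (p.f2 X.1 Y.1 - p.f1 X.1 * p.f1 Y.1)
def ℓ (X Y : T) : ℂ := p.ρ * p.L X Y

/-- The value of the fibre potential. -/
def F0 : ℝ := -Real.log (1 - normSq p.w * p.ψ)

/-- `D X F`. -/
def F1 (X : T) : ℂ := p.m * p.ψ * conj p.w * p.Λ X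

/-- `D X (D Y F)`. -/
def F2 (X Y : T) : ℂ :=
  (p.m * p.ψ * conj p.w) ^ 2 * p.Λ X * p.Λ Y +
    p.m * p.ψ * conj p.w * (p.f1 Y.1 * p.Λ X + p.f1 X.1 * p.Λ Y) +
    p.n * (p.f2 X.1 Y.1 - p.f1 X.1 * p.f1 Y.1)

/-- The jet of the fibre potential. -/
def FJ : Jet T where
  H X Y := p.n * p.Jp.H X.1 Y.1 + p.m ^ 2 * p.ψ * p.Λ X * conj (p.Λ Y)
  A X Y Z := p.n * p.Jp.A X.1 Y.1 Z.1 +
    p.m ^ 2 * p.ψ * conj p.w * (p.Λ Y * p.Jp.H X.1 Z.1 + p.Λ X * p.Jp.H Y.1 Z.1) +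
    p.m ^ 2 * p.ψ * p.L X Y * conj (p.Λ Z)
  Q X Y Z U := p.n * p.Jp.Q X.1 Y.1 Z.1 U.1 +
    p.m ^ 2 * p.ψ * p.w * (p.Jp.A X.1 Y.1 Z.1 * conj (p.Λ U) + p.Jp.A X.1 Y.1 U.1 * conj (p.Λ Z)) +
    p.m ^ 2 * p.ψ * conj p.w *
      (conj (p.Jp.A Z.1 U.1 X.1) * p.Λ Y + conj (p.Jp.A Z.1 U.1 Y.1) * p.Λ X) +
    p.n * p.m * (p.Jp.H X.1 Z.1 * p.Jp.H Y.1 U.1 + p.Jp.H X.1 U.1 * p.Jp.H Y.1 Z.1) +
    p.m ^ 2 * p.ψ * p.L X Y * conj (p.L Z U) +
    (1 + 2 * p.n) * p.m ^ 2 * p.ψ *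
      (p.Jp.H X.1 Z.1 * p.Λ Y * conj (p.Λ U) + p.Jp.H X.1 U.1 * p.Λ Y * conj (p.Λ Z) +
        p.Jp.H Y.1 Z.1 * p.Λ X * conj (p.Λ U) + p.Jp.H Y.1 U.1 * p.Λ X * conj (p.Λ Z)) +
    2 * p.m ^ 4 * p.ψ ^ 2 * p.Λ X * p.Λ Y * conj (p.Λ Z) * conj (p.Λ U)

/-- The jet of `P0 + c F` with constant `c`. -/
def J : Jet T := p.J0.comap Prod.fst + p.c • p.FJ

/-- The base jet `J0 + x Jp`. -/
def G : Jet V := p.J0 + p.x • p.Jp

/-- Size function adapted to the metric. -/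
def μ (X : T) : ℝ := √(1 + p.x) * ‖X.1‖ + ‖p.r X‖

/-- Hypotheses on the algebraic data. -/
structure OK (C1 K0 β C : ℝ) : Prop where
  g0 : p.J0.Good
  gp : p.Jp.Good
  gJ : p.J.Good
  f1_add : ∀ a b, p.f1 (a + b) = p.f1 a + p.f1 b
  f1_smul : ∀ (t : ℂ) a, p.f1 (t • a) = t * p.f1 a
  c_pos : 0 < p.c
  c_le : p.c ≤ β
  β_le : β ≤ 1
  ψ_pos : 0 < p.ψ
  s_lt : normSq p.w * p.ψ < 1
  C_nonneg : 0 ≤ C
  C_le : C ≤ C1
  alt : C = 0 ∨ K0 * p.c ≤ β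
  b0 : (p.J0 - β • tJet).Bd (fun a => ‖a‖) (β / 100000)
  bp : (p.Jp - p.J0).Bd (fun a => ‖a‖) (C * β)
  psh : ∀ a, (p.J0.H a a).re ≤ (p.Jp.H a a).re
  b1 : ∀ a, ‖p.f1 a‖ ≤ (2 + C) * ‖a‖
  b2 : ∀ a b, ‖p.f2 a b‖ ≤ (2 + C) * (‖a‖ * ‖b‖)

end HP

/-- The algebraic data of functions `P0`, `φ` at the point `(z, w)`. -/
def hpOf (P0 φ : V → ℝ) (c : ℝ) (z : V) (w : ℂ) : HP where
  J0 := jet P0 z
  Jp := jet φ z
  f1 a := D a (cx φ) z
  f2 a b := D a (D b (cx φ)) z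
  c := c
  ψ := Real.exp (φ z)
  w := w

/-! ## Wells -/

/-- The profile of a well. -/
structure IsWell (B : ℂ → ℝ) (Dp CB : ℝ) : Prop where
  smooth : ContDiff ℝ ∞ B
  zero : ∀ ζ : ℂ, 2 ≤ ζ.re → B ζ = 0
  le : ∀ ζ : ℂ, 0 ≤ ζ.re → B ζ ≤ 30
  deep : ∀ k : ℤ, B (1 / 2 + k * Real.pi * I) ≤ -Dp
  psh : ∀ ζ : ℂ, 0 ≤ ((jet B ζ).H 1 1).re
  one_le : 1 ≤ CB
  bd : ∀ i : ℕ, i ≤ 4 → ∀ ζ : ℂ, 0 ≤ ζ.re → ‖iteratedFDeriv ℝ i B ζ‖ ≤ CB

/-- Affine holomorphic function with `2 Re (ell a z) = yy z + |z.2 - a|²`. -/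
def ell (a : ℂ) (z : V) : ℂ := z.1 - conj a * z.2 + (normSq a : ℂ) / 2

/-- Lattice of well centres at scale `d`. -/
def lat (d : ℝ) (k : ℤ × ℤ) : ℂ := ((5 * √d : ℝ) : ℂ) * ((k.1 : ℂ) + (k.2 : ℂ) * I)

/-- Indices of the lattice points of norm at most `1/2`. -/
def latS (d : ℝ) : Finset (ℤ × ℤ) := by
  classical
  exact (Finset.Icc (-⌈1 / √d⌉) ⌈1 / √d⌉ ×ˢ Finset.Icc (-⌈1 / √d⌉) ⌈1 / √d⌉).filter
    fun k => ‖lat d k‖ ≤ 1 / 2

/-- The wells of scale `d`. -/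
def Wd (B : ℂ → ℝ) (d : ℝ) (z : V) : ℝ := ∑ k ∈ latS d, B (ell (lat d k) z / d)

/-- Parameters of the system of wells. -/
structure WP where
  B : ℂ → ℝ
  lam : ℝ
  d0 : ℝ
  A : ℝ
  al : ℕ → ℝ

namespace WP

variable (P : WP)

/-- The scales. -/
def δ (j : ℕ) : ℝ := P.d0 * P.lam ^ j

/-- The sum of all wells. -/
def Om (z : V) : ℝ := P.A * ∑' j, P.al j * Wd P.B (P.δ j) z

structure OK (Dp CB : ℝ) : Prop where
  well : IsWell P.B Dp CB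
  lam_pos : 0 < P.lam
  lam_le : 1000 * CB * √P.lam ≤ 1
  d0_pos : 0 < P.d0
  d0_le : P.d0 ≤ 1 / 40000
  A_pos : 0 < P.A
  al_pos : ∀ j, 0 < P.al j
  al_le : ∀ j, P.al j ≤ 1
  al_two : ∀ j, P.al j ≤ 2 * P.al (j + 1)

/-- The slab of level `j`. -/
def slab (j : ℕ) : Set V :=
  {z | P.δ j / 2 ≤ yy z ∧ yy z ≤ 100 * P.δ j ∧ ‖z.2‖ ≤ 1 / 3 - 15 * √(P.δ j)}

end WP

/-- The region in which the non-existence lemma works. -/
def R1 : Set V := {z | 0 < yy z ∧ yy z < 1 ∧ ‖z.2‖ < 1 / 2}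

/-- On every affine disc in `R`, `v` is the modulus of a holomorphic function. -/
def DiscHol (v : V → ℝ) (R : Set V) : Prop :=
  ∀ (z e : V) (ρ : ℝ), 0 < ρ → (∀ ζ : ℂ, ‖ζ‖ < ρ → z + ζ • e ∈ R) →
    ∃ f : ℂ → ℂ, DifferentiableOn ℂ f (Metric.ball 0 ρ) ∧ ∀ ζ : ℂ, ‖ζ‖ < ρ → ‖f ζ‖ = v (z + ζ • e)

/-- Smooth convex cut-off: `0` for `x ≤ -1`, slope `1` for `x ≥ 1`. -/
def Mc (x : ℝ) : ℝ := ∫ s in (-1 : ℝ)..x, Real.smoothTransition ((s + 1) / 2)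

/-- The slowly decaying weight of S0379 and the primitive `e` of `1 - β`. -/
structure IsBeta (β e : ℝ → ℝ) (δ1 L T0 : ℝ) : Prop where
  smooth : ContDiff ℝ ∞ β
  he : ∀ s, HasDerivAt e (1 - β s) s
  pos : ∀ s, 0 < β s
  le_one : ∀ s, β s ≤ 1
  anti : Antitone β
  T0_nonneg : 0 ≤ T0
  triv : ∀ s, s ≤ T0 → β s = 1 ∧ e s = 0
  der : ∀ i : ℕ, 1 ≤ i → i ≤ 4 → ∀ s, |iteratedDeriv i β s| ≤ δ1 * β s ^ 20
  exp_le : ∀ s, T0 ≤ s → Real.exp (-s / 8) ≤ δ1 * β s ^ 20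
  two : ∀ s, β s ≤ 2 * β (s + L)
  lim : Tendsto β atTop (𝓝 0)
  nsum : ∀ s, ¬ Summable fun j : ℕ => β (s + j * L)
  prim : Tendsto (fun s => s - e s) atTop atTop

end Crest.Agent.R245
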