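import Crest.Agent.R245.GlueDefs

/-!
# The glued domain is diffeomorphic to `ℂ³` (task R245/GlueDiffeo)

`R p = gg (idx p) (Rm ph (hh (idx p) p))`, `R' p = gg (idx p) (Rinv ph (hh (idx p) p))`, and
`diffeo_of_H3`.  `Rm`, `Rinv` keep the base point, hence membership in `Oc`, and are the identity
at points outside `Kc` with base in `H2` (`std_ph`); so `idx (R p) = idx p` (`idx_cases`, `idx_eq`).
Smoothness at `p`: by `local_chart`, near `p` (within `H3`, resp. `GU d`; both open)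
`R = gg i ∘ Rm ∘ hh i`.
-/

set_option autoImplicit false

noncomputable section

namespace Crest.Agent.R245

open scoped ComplexConjugate ContDiff Topology
open Complex Set Filter

/-- A fibre map transported by the chart used at the point. -/
def glueMap (F : T → T) (p : T) : T := gg (idx p) (F (hh (idx p) p))

/-- Fibre maps that are the identity outside the cylinder. -/
structure FibreMap (F : T → T) : Prop where
  base : ∀ q, (F q).1 = q.1
  std : ∀ q, q ∉ Kc → q.1 ∈ H2 → F q = q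
  smooth : ∀ q, q.1 ∈ H2 → ContDiffAt ℝ ∞ F q

theorem FibreMap.idx_glueMap {F : T → T} (hF : FibreMap F) {p : T} (hp : (hh (idx p) p).1 ∈ H2) :
    idx (glueMap F p) = idx p := by
  by_cases h : hh (idx p) p ∈ Oc
  · apply idx_eq
    rw [glueMap, hh_gg]
    simpa only [Oc, mem_ofPred_eq, hF.base] using h
  · rw [glueMap, hF.std _ (fun hK => h (Kc_subset hK)) hp, gg_hh]

theorem FibreMap.hh_glueMap {F : T → T} (hF : FibreMap F) {p : T} (hp : (hh (idx p) p).1 ∈ H2) :
    hh (idx (glueMap F p)) (glueMap F p) = F (hh (idx p) p) := by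
  rw [hF.idx_glueMap hp, glueMap, hh_gg]

theorem FibreMap.glueMap_glueMap {F F' : T → T} (hF : FibreMap F) (h : ∀ q, F' (F q) = q) {p : T}
    (hp : (hh (idx p) p).1 ∈ H2) : glueMap F' (glueMap F p) = p := by
  rw [glueMap, hF.hh_glueMap hp, hF.idx_glueMap hp, h, gg_hh]

theorem FibreMap.contDiffOn_glueMap {F : T → T} (hF : FibreMap F) {W : Set T} (hW : IsOpen W)
    (h1 : ∀ q ∈ W, (hh (idx q) q).1 ∈ H2) (h2 : ∀ q ∈ W, hh (idx q) q ∉ Kc → q ∈ H3) :
    ContDiffOn ℝ ∞ (glueMap F) W := by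
  intro p hp
  obtain ⟨i, hi⟩ := local_chart p
  have hb : (hh i p).1 ∈ H2 := by
    rcases hi.self_of_nhds with h | h
    · exact h ▸ h1 p hp
    · exact H3_base ((hh_mem_H3 i p).2 (h2 p hp h.1))
  have hc : ContDiffAt ℝ ∞ (fun q => gg i (F (hh i q))) p :=
    (contDiff_gg i).contDiffAt.comp p ((hF.smooth _ hb).comp p (contDiff_hh i).contDiffAt)
  refine (hc.congr_of_eventuallyEq ?_).contDiffWithinAt
  filter_upwards [hi, hW.mem_nhds hp] with q hq hqW
  rcases hq with h | h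
  · rw [glueMap, h]
  · rw [glueMap, hF.std _ h.1 (h1 q hqW), gg_hh,
      hF.std _ h.2 (H3_base ((hh_mem_H3 i q).2 (h2 q hqW h.1))), gg_hh]

theorem glue_diffeo {d : HData} (hs : d.Std) (hph : ContDiffOn ℝ ∞ d.ph H2)
    (hU : IsOpen (GU d)) : Diffeo (GU d) := by
  have hR : FibreMap (Rm d.ph) :=
    ⟨fun _ => rfl, fun q h1 h2 => by simp [Rm, std_ph hs h1 h2], fun q h => contDiffAt_Rm hph h⟩
  have hR' : FibreMap (Rinv d.ph) :=
    ⟨fun _ => rfl, fun q h1 h2 => by simp [Rinv, std_ph hs h1 h2], fun q h => contDiffAt_Rinv hph h⟩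
  have b1 : ∀ q ∈ H3, (hh (idx q) q).1 ∈ H2 := fun q hq => H3_base ((hh_mem_H3 _ q).2 hq)
  have b2 : ∀ q ∈ GU d, (hh (idx q) q).1 ∈ H2 := fun q hq => hq.1
  refine diffeo_of_H3 (R := glueMap (Rm d.ph)) (R' := glueMap (Rinv d.ph))
    (hR.contDiffOn_glueMap isOpen_H3 b1 fun q hq _ => hq)
    (hR'.contDiffOn_glueMap hU b2 fun q hq h => (hh_mem_H3 _ q).1 ((std_mem hs h).1 hq))
    (fun p hp => ?_) (fun p hp => ?_)
    (fun p hp => hR.glueMap_glueMap (Rinv_Rm _) (b1 p hp))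
    (fun p hp => hR'.glueMap_glueMap (Rm_Rinv _) (b2 p hp))
  · show hh (idx (glueMap _ p)) (glueMap _ p) ∈ d.U
    rw [hR.hh_glueMap (b1 p hp)]
    exact Rm_mem d ((hh_mem_H3 _ p).2 hp)
  · rw [← hh_mem_H3 (idx (glueMap _ p)), hR'.hh_glueMap (b2 p hp)]
    exact Rinv_mem d hp

end Crest.Agent.R245
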