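import Crest.Agent.R245.Defs

/-!
# Several complex variables (task R245/SCV)
-/

set_option autoImplicit false

noncomputable section

namespace Crest.Agent.R245

open scoped ComplexConjugate ContDiff Topology
open Complex Set Filter Metric

variable {E F : Type*} [NormedAddCommGroup E] [NormedSpace ℂ E] [NormedAddCommGroup F]
  [NormedSpace ℂ F] [CompleteSpace F]

/-- Restriction of a holomorphic function to an affine disc. -/
theorem differentiableOn_line {f : E → F} {U : Set E} (hU : IsOpen U) (hf : DifferentiableOn ℂ f U)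
    (z e : E) {ρ : ℝ} (h : ∀ ζ : ℂ, ‖ζ‖ < ρ → z + ζ • e ∈ U) :
    DifferentiableOn ℂ (fun ζ : ℂ => f (z + ζ • e)) (ball 0 ρ) := by
  have _ := hU
  exact hf.comp (by fun_prop) (fun ζ hζ => h ζ (mem_ball_zero_iff.1 hζ))

/-- Cauchy estimate along a disc (`Complex.norm_deriv_le_of_forall_mem_sphere_norm_le` on the disc
of radius `ρ / 2`). -/
theorem norm_fderiv_apply_le {f : E → F} {U : Set E} (hU : IsOpen U) (hf : DifferentiableOn ℂ f U)
    {z e : E} {ρ M : ℝ} (hρ : 0 < ρ) (h : ∀ ζ : ℂ, ‖ζ‖ < ρ → z + ζ • e ∈ U)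
    (hM : ∀ ζ : ℂ, ‖ζ‖ < ρ → ‖f (z + ζ • e)‖ ≤ M) : ‖fderiv ℂ f z e‖ ≤ 2 * M / ρ := by
  have hz : z ∈ U := by simpa using h 0 (by simpa using hρ)
  have hd := differentiableOn_line hU hf z e h
  have h1 : HasDerivAt (fun ζ : ℂ => z + ζ • e) e 0 := by
    simpa using ((hasDerivAt_id (0 : ℂ)).smul_const e).const_add z
  have h2 : HasFDerivAt f (fderiv ℂ f z) (z + (0 : ℂ) • e) := by
    simpa using (hf.differentiableAt (hU.mem_nhds hz)).hasFDerivAt
  have h3 : HasDerivAt (fun ζ : ℂ => f (z + ζ • e)) (fderiv ℂ f z e) 0 :=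
    h2.comp_hasDerivAt (0 : ℂ) h1
  rw [← h3.deriv]
  refine norm_deriv_le_div_of_mapsTo_ball hd (fun ζ hζ => ?_) hρ
  rw [mem_closedBall, dist_eq_norm]
  have a1 := hM ζ (mem_ball_zero_iff.1 hζ)
  have a2 := hM 0 (by simpa using hρ)
  exact (norm_sub_le _ _).trans (by linarith)

omit [CompleteSpace F] in
theorem norm_fderiv_le_ball {f : E → F} {c : E} {R M : ℝ} (hR : 0 < R)
    (hd : DifferentiableOn ℂ f (ball c R)) (hM : ∀ w ∈ ball c R, ‖f w‖ ≤ M) :
    ‖fderiv ℂ f c‖ ≤ 2 * M / R := by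
  refine norm_fderiv_le_div_of_mapsTo_ball hd (fun w hw => ?_) hR
  rw [mem_closedBall, dist_eq_norm]
  have a1 := hM w hw
  have a2 := hM c (mem_ball_self hR)
  exact (norm_sub_le _ _).trans (by linarith)

omit [CompleteSpace F] in
/-- second order Schwarz estimate -/
theorem taylor_two {f : E → F} {c z : E} {R M : ℝ} (hd : DifferentiableOn ℂ f (ball c R))
    (hM : ∀ w ∈ ball c R, ‖f w‖ ≤ M) (hz : z ∈ ball c R) :
    ‖f z - f c - fderiv ℂ f c (z - c)‖ ≤ 4 * M * (dist z c / R) ^ 2 := by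
  have hR : 0 < R := nonempty_ball.1 ⟨z, hz⟩
  have hL := norm_fderiv_le_ball hR hd hM
  have hM0 : 0 ≤ M := (norm_nonneg _).trans (hM z hz)
  set H : E → F := fun w => f w - fderiv ℂ f c (w - c) with hH
  have hHe : ∀ w, H w - H c = f w - f c - fderiv ℂ f c (w - c) := fun w => by
    simp only [hH, sub_self, map_zero, sub_zero]
    abel
  have hHd : DifferentiableOn ℂ H (ball c R) := hd.sub (by fun_prop)
  have hmaps : MapsTo H (ball c R) (closedBall (H c) (4 * M)) := by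
    intro w hw
    rw [mem_closedBall, dist_eq_norm, hHe]
    have a1 := hM w hw
    have a2 := hM c (mem_ball_self hR)
    have a3 : ‖w - c‖ ≤ R := by rw [← dist_eq_norm]; exact (mem_ball.1 hw).le
    have a4 : ‖fderiv ℂ f c (w - c)‖ ≤ 2 * M := by
      calc ‖fderiv ℂ f c (w - c)‖ ≤ ‖fderiv ℂ f c‖ * ‖w - c‖ := (fderiv ℂ f c).le_opNorm _
        _ ≤ 2 * M / R * R := by gcongr
        _ = 2 * M := by field_simp
    have a5 := norm_sub_le (f w - f c) (fderiv ℂ f c (w - c))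
    have a6 := norm_sub_le (f w) (f c)
    linarith
  have hn : (fun w => H w - H c) =o[𝓝 c] (fun w => ‖w - c‖ ^ 1) := by
    simp only [hHe, pow_one]
    exact (hd.differentiableAt (ball_mem_nhds c hR)).hasFDerivAt.isLittleO.norm_right
  have := dist_le_mul_div_pow_of_mapsTo_ball_of_isLittleO (n := 1) hHd hmaps hn hz
  rwa [dist_eq_norm, hHe] at this

/-- Weierstrass theorem on uniform limits -/
theorem differentiableAt_of_unif {G : ℕ → E → F} {g : E → F} {z : E} {R B : ℝ} {ε : ℕ → ℝ}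
    (hR : 0 < R) (hd : ∀ n, DifferentiableOn ℂ (G n) (ball z R)) (hε : Tendsto ε atTop (𝓝 0))
    (hb : ∀ n, ∀ q ∈ ball z R, ‖G n q - g q‖ ≤ ε n) (hB : ∀ q ∈ ball z R, ‖g q‖ ≤ B) :
    DifferentiableAt ℂ g z := by
  have hz := mem_ball_self (x := z) hR
  have hlim : ∀ q ∈ ball z R, Tendsto (fun n => G n q) atTop (𝓝 (g q)) := fun q hq =>
    tendsto_iff_norm_sub_tendsto_zero.2
      (squeeze_zero (fun _ => norm_nonneg _) (fun n => hb n q hq) hε)
  have hC : CauchySeq fun n => fderiv ℂ (G n) z := by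
    rw [cauchySeq_iff_tendsto_dist_atTop_0]
    have h1 : Tendsto (fun p : ℕ × ℕ => 2 * (ε p.1 + ε p.2) / R) atTop (𝓝 0) := by
      rw [← prod_atTop_atTop_eq]
      have a1 : Tendsto (fun p : ℕ × ℕ => ε p.1) (atTop ×ˢ atTop) (𝓝 0) := hε.comp tendsto_fst
      have a2 : Tendsto (fun p : ℕ × ℕ => ε p.2) (atTop ×ˢ atTop) (𝓝 0) := hε.comp tendsto_snd
      simpa using ((a1.add a2).const_mul 2).div_const R
    refine squeeze_zero (fun _ => dist_nonneg) (fun p => ?_) h1
    rw [dist_eq_norm, ← fderiv_sub ((hd _).differentiableAt (ball_mem_nhds z hR))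
      ((hd _).differentiableAt (ball_mem_nhds z hR))]
    refine norm_fderiv_le_ball hR ((hd _).sub (hd _)) fun w hw => ?_
    have e : (G p.1 - G p.2) w = (G p.1 w - g w) - (G p.2 w - g w) := by
      simp only [Pi.sub_apply]
      abel
    rw [e]
    exact (norm_sub_le _ _).trans (add_le_add (hb _ w hw) (hb _ w hw))
  obtain ⟨L, hL⟩ := cauchySeq_tendsto_of_complete hC
  have hest : ∀ q ∈ ball z R, ‖g q - g z - L (q - z)‖ ≤ 4 * B / R ^ 2 * ‖‖q - z‖ ^ 2‖ := by
    intro q hq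
    have a1 : Tendsto (fun n => fderiv ℂ (G n) z (q - z)) atTop (𝓝 (L (q - z))) :=
      ((ContinuousLinearMap.apply ℂ F (q - z)).continuous.tendsto L).comp hL
    have a2 := (((hlim q hq).sub (hlim z hz)).sub a1).norm
    have a3 : Tendsto (fun n => 4 * (B + ε n) * (dist q z / R) ^ 2) atTop
        (𝓝 (4 * (B + 0) * (dist q z / R) ^ 2)) :=
      ((hε.const_add B).const_mul 4).mul_const _
    have a4 := le_of_tendsto_of_tendsto' a2 a3 fun n => taylor_two (hd n) (fun w hw => by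
      have e : G n w = g w + (G n w - g w) := by abel
      rw [e]
      exact (norm_add_le _ _).trans (add_le_add (hB w hw) (hb n w hw))) hq
    refine a4.trans (le_of_eq ?_)
    rw [dist_eq_norm, Real.norm_of_nonneg (by positivity)]
    field_simp
    ring
  refine HasFDerivAt.differentiableAt (f' := L) (hasFDerivAt_iff_isLittleO.2 ?_)
  refine Asymptotics.IsBigO.trans_isLittleO (Asymptotics.IsBigO.of_bound (4 * B / R ^ 2) ?_)
    (Asymptotics.isLittleO_pow_sub_sub z (m := 2) one_lt_two)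
  filter_upwards [ball_mem_nhds z hR] with q hq using hest q hq

/-- A directional derivative of a holomorphic function is holomorphic.  Recipe: near `z ∈ U` take
a ball `B(z, 4r) ⊆ U` on which `‖f‖ ≤ M` (continuity).  The difference quotients
`G n q = (f (q + h n • e) - f q) / h n` (`h n → 0`) are holomorphic on `B(z, 3r)` and converge
uniformly there to `fderiv f q e` (one-variable second-order Cauchy/Schwarz estimate on the discs
`ζ ↦ f (q + ζ e)`); by `norm_fderiv_apply_le` their derivatives are uniformly Cauchy on `B(z, r)`;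
conclude with `hasFDerivAt_of_tendstoUniformlyOn` (or `..._of_tendstoLocallyUniformlyOn`).
Alternative: Cauchy integral and differentiation under the integral sign. -/
theorem differentiableOn_fderiv_apply {f : E → F} {U : Set E} (hU : IsOpen U)
    (hf : DifferentiableOn ℂ f U) (e : E) : DifferentiableOn ℂ (fun q => fderiv ℂ f q e) U := by
  intro z hz
  refine DifferentiableAt.differentiableWithinAt ?_
  have hc : ContinuousAt f z := (hf.differentiableAt (hU.mem_nhds hz)).continuousAt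
  have h1 : ∀ᶠ w in 𝓝 z, w ∈ U ∧ ‖f w‖ ≤ ‖f z‖ + 1 := by
    refine Filter.Eventually.and (hU.mem_nhds hz) ?_
    exact hc.norm.eventually (ge_mem_nhds (lt_add_one _))
  obtain ⟨R2, hR2, hB⟩ := Metric.eventually_nhds_iff_ball.1 h1
  set M : ℝ := ‖f z‖ + 1 with hMdef
  have hM0 : 0 ≤ M := by positivity
  set R : ℝ := R2 / 2 with hR
  have hR0 : 0 < R := by positivity
  have hsub : ∀ q ∈ ball z R, ball q R ⊆ ball z R2 := fun q hq =>
    ball_subset_ball' (by have := mem_ball.1 hq; linarith)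
  have hdq : ∀ q ∈ ball z R, DifferentiableOn ℂ f (ball q R) := fun q hq =>
    hf.mono fun w hw => (hB w (hsub q hq hw)).1
  have hMq : ∀ q ∈ ball z R, ∀ w ∈ ball q R, ‖f w‖ ≤ M := fun q hq w hw =>
    (hB w (hsub q hq hw)).2
  set t : ℕ → ℝ := fun n => R / (‖e‖ + 1) * (1 / ((n : ℝ) + 1)) with ht
  have ht0 : ∀ n, 0 < t n := fun n => by positivity
  have hte : ∀ n, t n * ‖e‖ < R := by
    intro n
    have a1 : 1 / ((n : ℝ) + 1) ≤ 1 := by
      rw [div_le_one (by positivity)]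
      linarith [Nat.cast_nonneg (α := ℝ) n]
    have a2 : t n ≤ R / (‖e‖ + 1) := mul_le_of_le_one_right (by positivity) a1
    calc t n * ‖e‖ ≤ R / (‖e‖ + 1) * ‖e‖ := by gcongr
      _ < R / (‖e‖ + 1) * (‖e‖ + 1) := by gcongr; linarith
      _ = R := by field_simp
  have hmem : ∀ n q, q + ((t n : ℝ) : ℂ) • e ∈ ball q R := by
    intro n q
    rw [mem_ball, dist_eq_norm, add_sub_cancel_left, norm_smul, Complex.norm_real,
      Real.norm_of_nonneg (ht0 n).le]
    exact hte n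
  refine differentiableAt_of_unif (R := R) (B := 2 * M / R * ‖e‖)
    (G := fun n q => (((t n : ℝ) : ℂ))⁻¹ • (f (q + ((t n : ℝ) : ℂ) • e) - f q))
    (ε := fun n => 4 * M * ‖e‖ ^ 2 / R ^ 2 * t n) hR0 (fun n => ?_) ?_ (fun n q hq => ?_)
    (fun q hq => ?_)
  · refine DifferentiableOn.const_smul (DifferentiableOn.sub ?_ (hdq z (mem_ball_self hR0))) _
    exact hf.comp (by fun_prop) fun q hq => (hB _ (hsub q hq (hmem n q))).1
  · have := (tendsto_one_div_add_atTop_nhds_zero_nat.const_mul (R / (‖e‖ + 1))).const_mul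
      (4 * M * ‖e‖ ^ 2 / R ^ 2)
    simpa [ht] using this
  · have a1 := taylor_two (hdq q hq) (hMq q hq) (hmem n q)
    have htn : ((t n : ℝ) : ℂ) ≠ 0 := by exact_mod_cast (ht0 n).ne'
    have a2 : (((t n : ℝ) : ℂ))⁻¹ • (f (q + ((t n : ℝ) : ℂ) • e) - f q) - fderiv ℂ f q e =
        (((t n : ℝ) : ℂ))⁻¹ • (f (q + ((t n : ℝ) : ℂ) • e) - f q -
          fderiv ℂ f q (q + ((t n : ℝ) : ℂ) • e - q)) := by
      rw [add_sub_cancel_left, map_smul, smul_sub (((t n : ℝ) : ℂ))⁻¹ (_ - _), smul_smul,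
        inv_mul_cancel₀ htn, one_smul]
    rw [a2, norm_smul, norm_inv, Complex.norm_real, Real.norm_of_nonneg (ht0 n).le]
    rw [dist_eq_norm, add_sub_cancel_left, norm_smul, Complex.norm_real,
      Real.norm_of_nonneg (ht0 n).le] at a1
    rw [add_sub_cancel_left]
    have := ht0 n
    calc (t n)⁻¹ * ‖f (q + ((t n : ℝ) : ℂ) • e) - f q - fderiv ℂ f q (((t n : ℝ) : ℂ) • e)‖
        ≤ (t n)⁻¹ * (4 * M * (t n * ‖e‖ / R) ^ 2) := by gcongr
      _ = 4 * M * ‖e‖ ^ 2 / R ^ 2 * t n := by field_simp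
  · exact ((fderiv ℂ f q).le_opNorm e).trans
      (mul_le_mul_of_nonneg_right (norm_fderiv_le_ball hR0 (hdq q hq) (hMq q hq)) (norm_nonneg _))

/-- Identity theorem: the set of points near which `f` vanishes is open and closed in `U`
(restrict to complex lines inside a ball; `AnalyticOnNhd.eqOn_zero_of_preconnected_of_eventuallyEq_zero`). -/
theorem eq_zero_of_eventually_zero {f : E → F} {U : Set E} (hU : IsOpen U) (hc : IsPreconnected U)
    (hf : DifferentiableOn ℂ f U) {z : E} (hz : z ∈ U) (h0 : f =ᶠ[𝓝 z] 0) : ∀ q ∈ U, f q = 0 := by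
  have hS : IsOpen {q : E | f =ᶠ[𝓝 q] 0} := isOpen_setOfPred_eventually_nhds
  have key : U ⊆ {q : E | f =ᶠ[𝓝 q] 0} := by
    refine hc.subset_of_closure_inter_subset hS ⟨z, hz, h0⟩ ?_
    rintro x ⟨hx, hxU⟩
    obtain ⟨R, hR, hRU⟩ := Metric.isOpen_iff.1 hU x hxU
    obtain ⟨y, hy, hxy⟩ := Metric.mem_closure_iff.1 hx (R / 4) (by positivity)
    have hy' : f =ᶠ[𝓝 y] 0 := hy
    change ∀ᶠ w in 𝓝 x, f w = (0 : E → F) w
    filter_upwards [ball_mem_nhds x (show 0 < R / 4 by positivity)] with w hw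
    have hwy : ‖w - y‖ < R / 2 := by
      have := dist_triangle w x y
      rw [← dist_eq_norm]
      have := mem_ball.1 hw
      linarith
    have hd := differentiableOn_line hU hf y (w - y) (ρ := 3 / 2) (fun ζ hζ => hRU (by
      rw [mem_ball, dist_eq_norm]
      have e1 : y + ζ • (w - y) - x = ζ • (w - y) + (y - x) := by abel
      have e2 : ‖y - x‖ < R / 4 := by rw [← dist_eq_norm, dist_comm]; exact hxy
      have e3 : ‖ζ‖ * ‖w - y‖ ≤ 3 / 2 * (R / 2) := by gcongr
      rw [e1]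
      refine (norm_add_le _ _).trans_lt ?_
      rw [norm_smul]
      linarith))
    have hev : (fun ζ : ℂ => f (y + ζ • (w - y))) =ᶠ[𝓝 0] 0 := by
      have hcont : Tendsto (fun ζ : ℂ => y + ζ • (w - y)) (𝓝 0) (𝓝 y) := by
        have : Continuous fun ζ : ℂ => y + ζ • (w - y) := by fun_prop
        simpa using this.tendsto 0
      exact hcont.eventually hy'
    have := (hd.analyticOnNhd isOpen_ball).eqOn_zero_of_preconnected_of_eventuallyEq_zero
      (convex_ball (0 : ℂ) (3 / 2)).isPreconnected (mem_ball_self (by norm_num)) hev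
      (show (1 : ℂ) ∈ ball 0 (3 / 2) by rw [mem_ball_zero_iff, norm_one]; norm_num)
    simpa using this
  intro q hq
  exact (key hq).self_of_nhds

/-- Harnack inequality for `B - ‖f‖`.  Rotate so that `f 0 = ‖f 0‖`, put `h = B + ε - f`
(`Re h > 0`), `g = (h - h 0) / (h + h 0)` maps the disc to the unit disc with `g 0 = 0`; Schwarz
(`Complex.dist_le_div_mul_dist_of_mapsTo_ball` or `norm_le_...`) gives `‖g ζ‖ ≤ σ`, hence
`Re (h ζ) ≤ ‖h ζ‖ ≤ h 0 (1+σ)/(1-σ)`; let `ε → 0`. -/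
theorem harnack {f : ℂ → ℂ} {ρ B σ : ℝ} (hρ : 0 < ρ) (hf : DifferentiableOn ℂ f (ball 0 ρ))
    (hB : ∀ ζ : ℂ, ‖ζ‖ < ρ → ‖f ζ‖ ≤ B) (hσ0 : 0 ≤ σ) (hσ : σ < 1) {ζ : ℂ} (hζ : ‖ζ‖ ≤ σ * ρ) :
    B - ‖f ζ‖ ≤ (1 + σ) / (1 - σ) * (B - ‖f 0‖) := by
  obtain ⟨c, hc1, hc⟩ := Complex.exists_norm_eq_mul_self (f 0)
  have h1σ : 0 < 1 - σ := by linarith
  have hK : 0 < (1 + σ) / (1 - σ) := by positivity
  have hζρ : ‖ζ‖ < ρ := hζ.trans_lt (by nlinarith)
  have main : ∀ ε : ℝ, 0 < ε → B + ε - ‖f ζ‖ ≤ (1 + σ) / (1 - σ) * (B + ε - ‖f 0‖) := by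
    intro ε hε
    set a : ℝ := B + ε - ‖f 0‖ with ha
    have ha0 : 0 < a := by
      have := hB 0 (by simpa using hρ)
      linarith
    set h : ℂ → ℂ := fun w => ((B + ε : ℝ) : ℂ) - c * f w with hh
    have hre : ∀ w, B + ε - ‖f w‖ ≤ (h w).re := by
      intro w
      have : (c * f w).re ≤ ‖f w‖ := by
        refine (Complex.re_le_norm _).trans ?_
        rw [norm_mul, hc1, one_mul]
      simp only [hh, Complex.sub_re, Complex.ofReal_re]
      linarith
    have hpos : ∀ w, ‖w‖ < ρ → 0 < (h w).re := fun w hw => by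
      have := hre w
      have := hB w hw
      linarith
    have hne : ∀ w, ‖w‖ < ρ → h w + a ≠ 0 := fun w hw h0 => by
      have h1 := congrArg Complex.re h0
      have := hpos w hw
      simp only [Complex.add_re, Complex.ofReal_re, Complex.zero_re] at h1
      linarith
    have h0 : h 0 = a := by
      simp only [hh, ha, ← hc]
      push_cast
      ring
    have hhd : DifferentiableOn ℂ h (ball 0 ρ) := (hf.const_mul c).const_sub _
    have hgd : DifferentiableOn ℂ (fun w => (h w - a) / (h w + a)) (ball 0 ρ) :=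
      (hhd.sub_const _).div (hhd.add_const _) fun w hw => hne w (mem_ball_zero_iff.1 hw)
    have hmaps : MapsTo (fun w => (h w - a) / (h w + a)) (ball 0 ρ)
        (closedBall ((fun w => (h w - a) / (h w + a)) 0) 1) := by
      intro w hw
      have hw' := mem_ball_zero_iff.1 hw
      simp only [h0, sub_self, zero_div, mem_closedBall, dist_zero_right, norm_div]
      rw [div_le_one (norm_pos_iff.2 (hne w hw'))]
      refine (sq_le_sq₀ (norm_nonneg _) (norm_nonneg _)).1 ?_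
      rw [Complex.sq_norm, Complex.sq_norm, Complex.normSq_apply, Complex.normSq_apply]
      simp only [Complex.sub_re, Complex.add_re, Complex.sub_im, Complex.add_im,
        Complex.ofReal_re, Complex.ofReal_im]
      nlinarith [hpos w hw']
    have hS := dist_le_div_mul_dist_of_mapsTo_ball hgd hmaps (mem_ball_zero_iff.2 hζρ)
    simp only [h0, sub_self, zero_div, dist_zero_right, norm_div] at hS
    have hS' : ‖h ζ - a‖ ≤ σ * ‖h ζ + a‖ := by
      rw [← div_le_iff₀ (norm_pos_iff.2 (hne ζ hζρ))]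
      refine hS.trans ?_
      rw [one_div, inv_mul_le_iff₀ hρ]
      linarith
    have hna : ‖(a : ℂ)‖ = a := by rw [Complex.norm_real, Real.norm_of_nonneg ha0.le]
    have b1 : ‖h ζ‖ - a ≤ ‖h ζ - a‖ := by
      have := norm_sub_norm_le (h ζ) (a : ℂ)
      rwa [hna] at this
    have b2 : ‖h ζ + a‖ ≤ ‖h ζ‖ + a := by
      have := norm_add_le (h ζ) (a : ℂ)
      rwa [hna] at this
    have b3 : ‖h ζ‖ * (1 - σ) ≤ (1 + σ) * a := by nlinarith
    have b4 : ‖h ζ‖ ≤ (1 + σ) / (1 - σ) * a := by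
      rw [div_mul_eq_mul_div, le_div_iff₀ h1σ]
      exact b3
    exact ((hre ζ).trans (Complex.re_le_norm _)).trans b4
  refine le_of_forall_pos_le_add fun δ hδ => ?_
  have h2 := main (δ / ((1 + σ) / (1 - σ))) (by positivity)
  have h3 : (1 + σ) / (1 - σ) * (δ / ((1 + σ) / (1 - σ))) = δ := mul_div_cancel₀ _ hK.ne'
  have h4 : 0 < δ / ((1 + σ) / (1 - σ)) := by positivity
  have h5 : (1 + σ) / (1 - σ) * (B + δ / ((1 + σ) / (1 - σ)) - ‖f 0‖) =
      (1 + σ) / (1 - σ) * (B - ‖f 0‖) + (1 + σ) / (1 - σ) * (δ / ((1 + σ) / (1 - σ))) := by ring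
  linarith

/-- Maximum principle on a closed disc. -/
theorem exists_sphere_ge {f : ℂ → ℂ} {ρ r : ℝ} (hr : 0 < r) (hrρ : r < ρ)
    (hf : DifferentiableOn ℂ f (ball 0 ρ)) {ζ : ℂ} (hζ : ‖ζ‖ ≤ r) :
    ∃ ζ' : ℂ, ‖ζ'‖ = r ∧ ‖f ζ‖ ≤ ‖f ζ'‖ := by
  have hd : DiffContOnCl ℂ f (ball 0 r) := by
    refine DifferentiableOn.diffContOnCl (hf.mono ?_)
    rw [closure_ball _ hr.ne']
    exact closedBall_subset_ball hrρ
  obtain ⟨w, hw, hmax⟩ := exists_mem_frontier_isMaxOn_norm isBounded_ball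
    (nonempty_ball.2 hr) hd
  rw [frontier_ball _ hr.ne'] at hw
  rw [closure_ball _ hr.ne'] at hmax
  exact ⟨w, by simpa using hw, hmax (mem_closedBall_zero_iff.2 hζ)⟩

/-- Real powers of the modulus of a zero-free holomorphic function on a disc: take a primitive `g`
of `f' / f` on the disc (`DifferentiableOn.isExactOn_ball` or similar), then `f e^{-g}` is constant. -/
theorem exists_rpow_modulus {f : ℂ → ℂ} {ρ : ℝ} (hρ : 0 < ρ) (hf : DifferentiableOn ℂ f (ball 0 ρ))
    (h0 : ∀ ζ : ℂ, ‖ζ‖ < ρ → f ζ ≠ 0) (b : ℝ) :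
    ∃ g : ℂ → ℂ, DifferentiableOn ℂ g (ball 0 ρ) ∧ ∀ ζ : ℂ, ‖ζ‖ < ρ → ‖g ζ‖ = ‖f ζ‖ ^ b := by
  have h0' : ∀ w ∈ ball (0 : ℂ) ρ, f w ≠ 0 := fun w hw => h0 w (mem_ball_zero_iff.1 hw)
  have hq : DifferentiableOn ℂ (fun w => deriv f w / f w) (ball 0 ρ) :=
    (hf.deriv isOpen_ball).div hf h0'
  obtain ⟨g, hg0, hg⟩ := hq.isExactOn_ball.with_val_at 0 (Complex.log (f 0))
  have hgd : DifferentiableOn ℂ g (ball 0 ρ) := fun w hw =>
    (hg w hw).differentiableAt.differentiableWithinAt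
  have hk : ∀ w ∈ ball (0 : ℂ) ρ, HasDerivAt (fun w => f w * Complex.exp (-g w)) 0 w := by
    intro w hw
    have a1 := (hf.differentiableAt (isOpen_ball.mem_nhds hw)).hasDerivAt
    have a2 : HasDerivAt (fun w => f w * Complex.exp (-g w))
        (deriv f w * Complex.exp (-g w) + f w * (Complex.exp (-g w) * -(deriv f w / f w))) w :=
      a1.mul (hg w hw).neg.cexp
    have := h0' w hw
    have a3 : deriv f w * Complex.exp (-g w) +
        f w * (Complex.exp (-g w) * -(deriv f w / f w)) = 0 := by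
      field_simp
      ring
    rwa [a3] at a2
  have hconst : ∀ w ∈ ball (0 : ℂ) ρ, f w * Complex.exp (-g w) = 1 := by
    intro w hw
    have := isOpen_ball.is_const_of_deriv_eq_zero (convex_ball (0 : ℂ) ρ).isPreconnected
      (fun w hw => (hk w hw).differentiableAt.differentiableWithinAt)
      (fun w hw => (hk w hw).deriv) hw (mem_ball_self hρ)
    rw [this, hg0, Complex.exp_neg, Complex.exp_log (h0' 0 (mem_ball_self hρ)),
      mul_inv_cancel₀ (h0' 0 (mem_ball_self hρ))]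
  refine ⟨fun w => Complex.exp (b * g w), (hgd.const_mul _).cexp, fun ζ hζ => ?_⟩
  have a1 := hconst ζ (mem_ball_zero_iff.2 hζ)
  rw [Complex.exp_neg, mul_inv_eq_one₀ (Complex.exp_ne_zero _)] at a1
  rw [a1, Complex.norm_exp, Complex.norm_exp, ← Real.exp_mul, Complex.re_ofReal_mul, mul_comm]

theorem discHol_norm {a : V → ℂ} {U R : Set V} (hU : IsOpen U) (hR : R ⊆ U)
    (ha : DifferentiableOn ℂ a U) : DiscHol (fun z => ‖a z‖) R := by
  intro z e ρ _ h
  exact ⟨fun ζ => a (z + ζ • e), differentiableOn_line hU ha z e fun ζ hζ => hR (h ζ hζ),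
    fun _ _ => rfl⟩

theorem discHol_rpow {a : V → ℂ} {U R : Set V} (hU : IsOpen U) (hR : R ⊆ U)
    (ha : DifferentiableOn ℂ a U) (h0 : ∀ z ∈ U, a z ≠ 0) (b : ℝ) :
    DiscHol (fun z => ‖a z‖ ^ b) R := by
  intro z e ρ hρ h
  exact exists_rpow_modulus hρ (differentiableOn_line hU ha z e fun ζ hζ => hR (h ζ hζ))
    (fun ζ hζ => h0 _ (hR (h ζ hζ))) b

end Crest.Agent.R245
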