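import Crest.Agent.R245.GlueDefs
import Crest.Agent.R245.SCV
import Crest.Agent.R245.Complete

/-!
# Bounded holomorphic functions on the glued domain are constant (task R245/GlueKill)
-/

set_option autoImplicit false

noncomputable section

namespace Crest.Agent.R245

open scoped ComplexConjugate ContDiff Topology
open Complex Set Filter

theorem kill_isOpen {d : HData} (hph : ContDiffOn ℝ ∞ d.ph H2) : IsOpen (d.U ∩ Oc) := by
  refine IsOpen.inter ?_ isOpen_Oc
  have h2 : IsOpen (Prod.fst ⁻¹' H2 : Set T) := by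
    have : Continuous fun p : T => yy p.1 := by
      unfold yy
      fun_prop
    exact isOpen_lt continuous_const this
  have hc : ContinuousOn (fun p : T => normSq p.2 * Real.exp (d.ph p.1)) (Prod.fst ⁻¹' H2) :=
    (Complex.continuous_normSq.comp continuous_snd).continuousOn.mul
      (Real.continuous_exp.comp_continuousOn
        (hph.continuousOn.comp continuous_fst.continuousOn fun _ h => h))
  exact hc.isOpen_inter_preimage h2 (isOpen_Iio (a := (1 : ℝ)))

theorem kill_mem {d : HData} {z : V} {w : ℂ} :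
    (z, w) ∈ d.U ∩ Oc ↔ z ∈ R0 ∧ ‖w‖ < Real.exp (-d.ph z / 2) := by
  have e : normSq w * Real.exp (d.ph z) < 1 ↔ ‖w‖ < Real.exp (-d.ph z / 2) := by
    rw [← sq_lt_sq₀ (norm_nonneg _) (Real.exp_pos _).le, Complex.sq_norm, ← Real.exp_nat_mul,
      show ((2 : ℕ) : ℝ) * (-d.ph z / 2) = -d.ph z by push_cast; ring, Real.exp_neg,
      ← lt_div_iff₀ (Real.exp_pos _), one_div]
  constructor
  · rintro ⟨⟨h1, h2⟩, h3, h4⟩
    exact ⟨⟨h1, h3, (abs_lt.1 h4).2⟩, e.1 h2⟩
  · rintro ⟨⟨h1, h2, h3⟩, h4⟩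
    refine ⟨⟨h1, e.2 h4⟩, h2, abs_lt.2 ⟨?_, h3⟩⟩
    have h5 : 0 < 2 * z.1.re - normSq z.2 := h1
    have := normSq_nonneg z.2
    change -2 < z.1.re
    linarith

/-- `d.U ∩ Oc = {(z, w) | z ∈ R0, |w|² e^{ph z} < 1}`.  Let `f_0 = f`,
`f_{k+1} q = fderiv ℂ f_k q (0, 1)`: holomorphic on the open set `d.U ∩ Oc`
(`differentiableOn_fderiv_apply`), and `f_k (z, w) = iteratedDeriv k (f (z, ·)) w`.  Cauchy's
estimate on the circle of radius `e^{-ph z/2}/2`
(`Complex.norm_iteratedDeriv_le_of_forall_mem_sphere_norm_le`) bounds `a_k z = f_k (z, 0)` by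
`k! 2^k M exp (k/2 * ph z)`, so `a_k = 0` on `R0` for `k ≥ 1`; hence `f (z, ·)` is constant on its
disc (Taylor series `Complex.hasSum_taylorSeries_on_ball`, or the identity theorem). -/
theorem kill_fibre {d : HData} (hph : ContDiffOn ℝ ∞ d.ph H2) (hk : Kill d.ph) {f : T → ℂ}
    (hf : DifferentiableOn ℂ f (d.U ∩ Oc)) {M : ℝ} (hM : ∀ q ∈ d.U ∩ Oc, ‖f q‖ ≤ M) :
    ∀ q ∈ d.U ∩ Oc, fderiv ℂ f q (0, 1) = 0 := by
  have hO := kill_isOpen hph
  let Fk : ℕ → T → ℂ := fun k => (fun (g : T → ℂ) q => fderiv ℂ g q (0, 1))^[k] f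
  have hs : ∀ k, Fk (k + 1) = fun q => fderiv ℂ (Fk k) q (0, 1) := fun k =>
    Function.iterate_succ_apply' _ _ _
  have hd : ∀ k, DifferentiableOn ℂ (Fk k) (d.U ∩ Oc) := by
    intro k
    induction k with
    | zero => exact hf
    | succ k ih => rw [hs]; exact differentiableOn_fderiv_apply hO ih _
  have hmem : ∀ z ∈ R0, ∀ w ∈ Metric.ball (0 : ℂ) (Real.exp (-d.ph z / 2)), (z, w) ∈ d.U ∩ Oc :=
    fun z hz w hw => kill_mem.2 ⟨hz, mem_ball_zero_iff.1 hw⟩
  have hit : ∀ z ∈ R0, ∀ k, ∀ w ∈ Metric.ball (0 : ℂ) (Real.exp (-d.ph z / 2)),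
      iteratedDeriv k (fun w => f (z, w)) w = Fk k (z, w) := by
    intro z hz k
    induction k with
    | zero => intro w _; rfl
    | succ k ih =>
      intro w hw
      have h1 : iteratedDeriv k (fun w => f (z, w)) =ᶠ[𝓝 w] fun w => Fk k (z, w) := by
        filter_upwards [Metric.isOpen_ball.mem_nhds hw] with w' hw' using ih w' hw'
      have h2 : HasDerivAt (fun w : ℂ => ((z, w) : T)) (0, 1) w :=
        (hasDerivAt_const w z).prodMk (hasDerivAt_id w)
      have h3 := ((hd k).differentiableAt (hO.mem_nhds (hmem z hz w hw))).hasFDerivAt.comp_hasDerivAt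
        w h2
      rw [iteratedDeriv_succ, h1.deriv_eq, hs]
      exact h3.deriv
  have hg : ∀ z ∈ R0, DifferentiableOn ℂ (fun w => f (z, w))
      (Metric.ball (0 : ℂ) (Real.exp (-d.ph z / 2))) := fun z hz =>
    hf.comp (by fun_prop) (hmem z hz)
  have hzero : ∀ k, 0 < k → ∀ z ∈ R0, Fk k (z, 0) = 0 := by
    intro k hk0
    refine hk (fun z => Fk k (z, 0)) (k / 2) (k.factorial * M * 2 ^ k) (by positivity)
      ((hd k).comp (by fun_prop) fun z hz => hmem z hz 0 (Metric.mem_ball_self (Real.exp_pos _)))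
      fun z hz => ?_
    have hr := Real.exp_pos (-d.ph z / 2)
    have hsub : Metric.closedBall (0 : ℂ) (Real.exp (-d.ph z / 2) / 2) ⊆
        Metric.ball 0 (Real.exp (-d.ph z / 2)) := Metric.closedBall_subset_ball (by linarith)
    have hdc : DiffContOnCl ℂ (fun w => f (z, w)) (Metric.ball 0 (Real.exp (-d.ph z / 2) / 2)) := by
      refine DifferentiableOn.diffContOnCl ((hg z hz).mono ?_)
      rw [closure_ball _ (by positivity)]
      exact hsub
    have h1 := Complex.norm_iteratedDeriv_le_of_forall_mem_sphere_norm_le k (by positivity) hdc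
      (C := M) fun w hw => hM _ (hmem z hz w (hsub (Metric.sphere_subset_closedBall hw)))
    rw [hit z hz k 0 (Metric.mem_ball_self hr)] at h1
    refine h1.trans (le_of_eq ?_)
    rw [div_pow, ← Real.exp_nat_mul, show (k : ℝ) * (-d.ph z / 2) = -(k / 2 * d.ph z) by ring,
      Real.exp_neg]
    field_simp
  rintro ⟨z, w⟩ hq
  obtain ⟨hz, hw⟩ := kill_mem.1 hq
  have hr := Real.exp_pos (-d.ph z / 2)
  have ha := ((hg z hz).analyticOnNhd Metric.isOpen_ball).deriv
  have htop : analyticOrderAt (deriv fun w => f (z, w)) 0 = ⊤ := by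
    refine ENat.eq_top_iff_forall_ge.2 fun n => ?_
    refine (natCast_le_analyticOrderAt_iff_iteratedDeriv_eq_zero
      (ha 0 (Metric.mem_ball_self hr))).2 fun i _ => ?_
    rw [← iteratedDeriv_succ', hit z hz _ 0 (Metric.mem_ball_self hr)]
    exact hzero _ (Nat.succ_pos i) z hz
  have h1 := ha.eqOn_zero_of_preconnected_of_eventuallyEq_zero
    (convex_ball (0 : ℂ) _).isPreconnected (Metric.mem_ball_self hr)
    (analyticOrderAt_eq_top.1 htop) (mem_ball_zero_iff.2 hw)
  have h2 := hit z hz 1 w (mem_ball_zero_iff.2 hw)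
  rw [iteratedDeriv_one, h1] at h2
  exact h2.symm

/-- Apply `kill_fibre` to `f ∘ gg i`: `fderiv f p ((LI i).symm (0, 1)) = 0` on the non-empty open
set `gg i '' (d.U ∩ Oc)` (it contains `gg i ((1, 0), 0)`), hence on `GU d`
(`eq_zero_of_eventually_zero`).  The three directions `((0,0),1)`, `((0,1),0)`, `((10,1),0)` span
`T`, so `fderiv ℂ f = 0` on the connected open set (`IsOpen.is_const_of_fderiv_eq_zero`). -/
theorem glue_kill {d : HData} (hph : ContDiffOn ℝ ∞ d.ph H2) (hk : Kill d.ph)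
    (hU : IsOpen (GU d)) (hc : IsPreconnected (GU d)) {f : T → ℂ}
    (hf : DifferentiableOn ℂ f (GU d)) {M : ℝ} (hM : ∀ q ∈ GU d, ‖f q‖ ≤ M) :
    ∀ p ∈ GU d, ∀ q ∈ GU d, f p = f q := by
  have hO := kill_isOpen hph
  have hmap : ∀ i, ∀ q ∈ d.U ∩ Oc, gg i q ∈ GU d := fun i q hq =>
    (mem_GU_of_Oc (i := i) (by rw [hh_gg]; exact hq.2)).2 (by rw [hh_gg]; exact hq.1)
  have hgd : ∀ i q, HasFDerivAt (gg i) ((LI i).symm : T →L[ℂ] T) q := fun i q => by
    have := (LI i).symm.hasFDerivAt.comp q ((hasFDerivAt_id q).sub_const (bb i))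
    exact this
  have key : ∀ i, ∀ p ∈ GU d, fderiv ℂ f p ((LI i).symm (0, 1)) = 0 := by
    intro i
    have h1 := kill_fibre hph hk (f := f ∘ gg i)
      (hf.comp (fun q _ => (hgd i q).differentiableAt.differentiableWithinAt) (hmap i))
      (M := M) fun q hq => hM _ (hmap i q hq)
    have h0 : (((1, 0), 0) : T) ∈ d.U ∩ Oc :=
      kill_mem.2 ⟨⟨by simp [H2, yy], by simp, by simp⟩, by simpa using Real.exp_pos _⟩
    refine eq_zero_of_eventually_zero hU hc (differentiableOn_fderiv_apply hU hf _)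
      (hmap i _ h0) ?_
    have h2 : ∀ᶠ p in 𝓝 (gg i ((1, 0), 0)), hh i p ∈ d.U ∩ Oc :=
      (contDiff_hh i).continuous.continuousAt.eventually (hO.mem_nhds (by rwa [hh_gg]))
    filter_upwards [h2] with p hp
    have h3 := h1 _ hp
    rw [((hf.differentiableAt (hU.mem_nhds (hmap i _ hp))).hasFDerivAt.comp _ (hgd i _)).fderiv,
      gg_hh] at h3
    exact h3
  intro p hp q hq
  refine hU.is_const_of_fderiv_eq_zero hc hf (fun x hx => ?_) hp hq
  refine ContinuousLinearMap.ext fun v => ?_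
  have e : v = v.2 • (LI 0).symm (0, 1) + (v.1.2 - v.1.1 / 10) • (LI 1).symm (0, 1) +
      (v.1.1 / 10) • (LI 2).symm (0, 1) := by
    change v = v.2 • ((0, 1) : T) + (v.1.2 - v.1.1 / 10) • (swapL 0 10).symm (0, 1) +
      (v.1.1 / 10) • (swapL 10 20).symm (0, 1)
    rw [swapL_symm_apply, swapL_symm_apply]
    ext <;> simp
  rw [e, map_add, map_add, map_smul, map_smul, map_smul, key 0 x hx, key 1 x hx, key 2 x hx]
  simp

end Crest.Agent.R245
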