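import Crest.Agent.R245.Wirt

/-!
# The base `H2`: elementary facts and the jet of `t0` (task R245/TJet)

For the jet: as complex functions `Y u = u.1 + conj u.1 - u.2 conj u.2 = yy u`,
`m0 = (1 + Y)⁻¹`, `D a Y = a.1 - a.2 conj u.2`, `Db a Y = conj a.1 - u.2 conj a.2`,
`W t0 = -m0 W Y`, `W m0 = -m0² W Y`; compute the nested derivatives at a general point near `0`
and evaluate at `0`.
-/

set_option autoImplicit false

noncomputable section

namespace Crest.Agent.R245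

open scoped ComplexConjugate ContDiff Topology
open Complex Set Filter

theorem tjet_yy_eq (z : V) : yy z = 2 * z.1.re - (z.2.re * z.2.re + z.2.im * z.2.im) := rfl

theorem tjet_yy_eq' (z : V) : yy z = 2 * z.1.re - ‖z.2‖ ^ 2 := by
  rw [yy, Complex.normSq_eq_norm_sq]

theorem contDiff_yy : ContDiff ℝ ∞ yy := by
  have h1 : ContDiff ℝ ∞ fun z : V => z.1.re := Complex.reCLM.contDiff.comp contDiff_fst
  have h2 : ContDiff ℝ ∞ fun z : V => z.2.re := Complex.reCLM.contDiff.comp contDiff_snd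
  have h3 : ContDiff ℝ ∞ fun z : V => z.2.im := Complex.imCLM.contDiff.comp contDiff_snd
  exact (contDiff_const.mul h1).sub ((h2.mul h2).add (h3.mul h3))

theorem isOpen_H2 : IsOpen H2 := by
  exact isOpen_lt continuous_const contDiff_yy.continuous

theorem convex_H2 : Convex ℝ H2 := by
  intro x hx y hy a b ha hb hab
  simp only [H2, mem_ofPred_eq, tjet_yy_eq] at hx hy ⊢
  obtain rfl : b = 1 - a := by linarith
  simp only [Prod.fst_add, Prod.snd_add, Prod.smul_fst, Prod.smul_snd, add_re, add_im, real_smul,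
    re_ofReal_mul, im_ofReal_mul]
  have h1 := mul_nonneg (mul_nonneg ha hb) (sq_nonneg (x.2.re - y.2.re))
  have h2 := mul_nonneg (mul_nonneg ha hb) (sq_nonneg (x.2.im - y.2.im))
  rcases ha.eq_or_lt with rfl | ha'
  · simpa using hy
  · have h3 := mul_pos ha' hx
    have h4 := mul_nonneg hb hy.le
    nlinarith

theorem isOpen_R0 : IsOpen R0 := by
  have h1 : IsOpen {z : V | ‖z.2‖ < 2} := isOpen_lt (by fun_prop) continuous_const
  have h2 : IsOpen {z : V | z.1.re < 2} := isOpen_lt (by fun_prop) continuous_const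
  exact isOpen_H2.inter (h1.inter h2)

theorem convex_R0 : Convex ℝ R0 := by
  have h1 : Convex ℝ {z : V | ‖z.2‖ < 2} := by
    have := (convex_ball (0 : ℂ) 2).linear_preimage (LinearMap.snd ℝ ℂ ℂ)
    have e : {z : V | ‖z.2‖ < 2} = LinearMap.snd ℝ ℂ ℂ ⁻¹' Metric.ball 0 2 := by
      ext z
      simp
    rw [e]
    exact this
  have h2 : Convex ℝ {z : V | z.1.re < 2} :=
    convex_halfSpace_lt (f := fun z : V => z.1.re)
      ⟨fun x y => by simp, fun c x => by simp⟩ 2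
  exact convex_H2.inter (h1.inter h2)

theorem R1_subset_R0 : R1 ⊆ R0 := by
  rintro z ⟨h0, h1, h2⟩
  refine ⟨h0, by linarith, ?_⟩
  rw [tjet_yy_eq'] at h1
  nlinarith [norm_nonneg z.2]

theorem contDiffOn_tt : ContDiffOn ℝ ∞ tt H2 := by
  exact (contDiff_yy.contDiffOn.log fun z hz => (ne_of_gt hz)).neg

theorem yy_nz {z : V} (hz : z ∈ H2) (u : V) : yy (z + LL z u) = yy z * (1 + yy u) := by
  have hs : √(yy z) * √(yy z) = yy z := Real.mul_self_sqrt (le_of_lt hz)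
  have hy := tjet_yy_eq z
  rw [tjet_yy_eq (z + LL z u), tjet_yy_eq u, LL_apply]
  generalize √(yy z) = s at hs ⊢
  generalize yy z = y at hs hy ⊢
  simp only [Prod.fst_add, Prod.snd_add, add_re, add_im, mul_re, mul_im, ofReal_re, ofReal_im,
    conj_re, conj_im]
  subst hs
  linear_combination -hy

theorem LL_bijective {z : V} (hz : z ∈ H2) : Function.Bijective (LL z) := by
  have hy : ((yy z : ℝ) : ℂ) ≠ 0 := ofReal_ne_zero.mpr (ne_of_gt hz)
  have hs : ((√(yy z) : ℝ) : ℂ) ≠ 0 := ofReal_ne_zero.mpr (Real.sqrt_pos.mpr hz).ne'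
  refine ⟨fun u v h => ?_, fun w => ⟨((w.1 - conj z.2 * w.2) / (yy z : ℝ), w.2 / (√(yy z) : ℝ)), ?_⟩⟩
  · rw [LL_apply, LL_apply, Prod.mk.injEq] at h
    have h2 : u.2 = v.2 := mul_left_cancel₀ hs h.2
    have h1 := h.1
    rw [h2, add_left_inj] at h1
    exact Prod.ext (mul_left_cancel₀ hy h1) h2
  · rw [LL_apply]
    refine Prod.ext ?_ ?_
    · simp only
      field_simp
      ring
    · simp only
      field_simp

theorem tjet_yy_le (z : V) : yy z ≤ 2 * ‖z‖ - ‖z.2‖ ^ 2 := by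
  rw [tjet_yy_eq']
  have h1 : z.1.re ≤ ‖z.1‖ := Complex.re_le_norm _
  have h2 : ‖z.1‖ ≤ ‖z‖ := norm_fst_le z
  linarith

theorem norm_LL_le {z : V} (hz : z ∈ H2) (u : V) : ‖LL z u‖ ≤ 4 * (1 + ‖z‖) * ‖u‖ := by
  have hy : 0 < yy z := hz
  have hs : √(yy z) * √(yy z) = yy z := Real.mul_self_sqrt hy.le
  have hs0 : 0 ≤ √(yy z) := Real.sqrt_nonneg _
  have h1 := tjet_yy_le z
  have hu1 : ‖u.1‖ ≤ ‖u‖ := norm_fst_le u
  have hu2 : ‖u.2‖ ≤ ‖u‖ := norm_snd_le u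
  have hz0 := norm_nonneg z
  have hz2 := norm_nonneg z.2
  have hu0 := norm_nonneg u
  have ha : √(yy z) * ‖z.2‖ ≤ ‖z‖ := by nlinarith [sq_nonneg (√(yy z) - ‖z.2‖)]
  have hb : √(yy z) ≤ 1 + ‖z‖ := by nlinarith [sq_nonneg (√(yy z) - 1), sq_nonneg ‖z.2‖]
  have hc : yy z ≤ 2 * ‖z‖ := by nlinarith [sq_nonneg ‖z.2‖]
  rw [LL_apply, Prod.norm_def]
  refine max_le ((norm_add_le _ _).trans ?_) ?_
  · simp only [norm_mul, norm_real, Real.norm_eq_abs, abs_of_pos hy, abs_of_nonneg hs0, norm_conj]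
    have e1 : yy z * ‖u.1‖ ≤ 2 * ‖z‖ * ‖u‖ := mul_le_mul hc hu1 (norm_nonneg _) (by positivity)
    have e2 : √(yy z) * ‖z.2‖ * ‖u.2‖ ≤ ‖z‖ * ‖u‖ := mul_le_mul ha hu2 (norm_nonneg _) hz0
    nlinarith [mul_nonneg hz0 hu0]
  · simp only [norm_mul, norm_real, Real.norm_eq_abs, abs_of_nonneg hs0]
    have e1 : √(yy z) * ‖u.2‖ ≤ (1 + ‖z‖) * ‖u‖ :=
      mul_le_mul hb hu2 (norm_nonneg _) (by positivity)
    nlinarith [mul_nonneg hz0 hu0]

theorem yy_le (z : V) : yy z ≤ 2 * ‖z‖ := by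
  nlinarith [tjet_yy_le z, sq_nonneg ‖z.2‖]

theorem nz_zero (f : V → ℝ) (z : V) : nz f z 0 = f z := by
  simp [nz]

theorem sm_nz {f : V → ℝ} (hf : ContDiffOn ℝ ∞ f H2) {z : V} (hz : z ∈ H2) : Sm (nz f z) 0 := by
  refine Sm.affine (LL z) z (Sm.of_contDiffOn isOpen_H2 hf ?_)
  simpa using hz

theorem nz_congr {f g : V → ℝ} {z : V} (h : f =ᶠ[𝓝 z] g) : nz f z =ᶠ[𝓝 0] nz g z := by
  have hc : Tendsto (fun u => z + LL z u) (𝓝 0) (𝓝 z) := by
    have : ContinuousAt (fun u => z + LL z u) 0 := by fun_prop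
    simpa [ContinuousAt] using this
  exact hc.eventually h

theorem tjet_ev : ∀ᶠ u in 𝓝 (0 : V), 0 < 1 + yy u := by
  have h : ContinuousAt (fun u => 1 + yy u) (0 : V) :=
    (continuous_const.add contDiff_yy.continuous).continuousAt
  exact h.eventually (lt_mem_nhds (by simp [yy]))

theorem nz_tt {z : V} (hz : z ∈ H2) : nz tt z =ᶠ[𝓝 0] fun u => t0 u + tt z := by
  filter_upwards [tjet_ev] with u hu
  rw [nz, tt, yy_nz hz, Real.log_mul (ne_of_gt hz) hu.ne', t0, tt]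
  ring

theorem jet_nz {f : V → ℝ} {z : V} (hf : Sm f z) : jet (nz f z) 0 = (jet f z).comap (LL z) := by
  have h : Sm f (z + LL z 0) := by simpa using hf
  have := jet_affine (LL z) z h
  rw [map_zero, add_zero] at this
  exact this

theorem sm_t0 : Sm t0 0 := by
  exact ((Sm.of_contDiff (contDiff_const.add contDiff_yy)).log (by simp [yy])).neg

/-- `f` is differentiable at `p` with Wirtinger derivative `v`. -/
def TjW (s : ℝ) (ξ : V) (f : V → ℂ) (p : V) (v : ℂ) : Prop :=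
  DifferentiableAt ℝ f p ∧ W s ξ f p = v

section TjW

variable {s : ℝ} {ξ p : V} {f g : V → ℂ} {v w : ℂ}

theorem TjW.const (c : ℂ) : TjW s ξ (fun _ => c) p 0 := ⟨differentiableAt_const c, W_const c⟩

theorem TjW.add (hf : TjW s ξ f p v) (hg : TjW s ξ g p w) :
    TjW s ξ (fun q => f q + g q) p (v + w) :=
  ⟨hf.1.add hg.1, by rw [W_add hf.1 hg.1, hf.2, hg.2]⟩

theorem TjW.sub (hf : TjW s ξ f p v) (hg : TjW s ξ g p w) :
    TjW s ξ (fun q => f q - g q) p (v - w) :=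
  ⟨hf.1.sub hg.1, by rw [W_sub hf.1 hg.1, hf.2, hg.2]⟩

theorem TjW.neg (hf : TjW s ξ f p v) : TjW s ξ (fun q => -f q) p (-v) :=
  ⟨hf.1.neg, by rw [W_neg, hf.2]⟩

theorem TjW.mul (hf : TjW s ξ f p v) (hg : TjW s ξ g p w) :
    TjW s ξ (fun q => f q * g q) p (v * g p + f p * w) :=
  ⟨hf.1.mul hg.1, by rw [W_mul hf.1 hg.1, hf.2, hg.2]⟩

theorem TjW.conj (hf : TjW (-s) ξ f p v) : TjW s ξ (fun q => conj (f q)) p (conj v) :=
  ⟨Complex.conjCLE.differentiableAt.comp p hf.1, by rw [W_conj, hf.2]⟩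

theorem TjW.fst : TjW s ξ (fun q => q.1) p ((1 - s) / 2 * ξ.1) :=
  ⟨differentiableAt_fst, wirt_W_hol (f' := ContinuousLinearMap.fst ℂ ℂ ℂ) hasFDerivAt_fst⟩

theorem TjW.snd : TjW s ξ (fun q => q.2) p ((1 - s) / 2 * ξ.2) :=
  ⟨differentiableAt_snd, wirt_W_hol (f' := ContinuousLinearMap.snd ℂ ℂ ℂ) hasFDerivAt_snd⟩

theorem TjW.of_eq (hf : TjW s ξ f p v) (h : v = w) : TjW s ξ f p w := h ▸ hf

end TjW

/-- `(1 + yy)⁻¹`. -/
def tjm (u : V) : ℂ := (1 + cx yy u)⁻¹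

/-- `D a yy`. -/
def tjP (a u : V) : ℂ := a.1 - a.2 * conj u.2

/-- `Db a yy`. -/
def tjQ (a u : V) : ℂ := conj a.1 - u.2 * conj a.2

theorem tjet_cx_yy : cx yy = fun u : V => u.1 + conj u.1 - u.2 * conj u.2 := by
  funext u
  rw [cx, yy, Complex.add_conj, Complex.mul_conj]
  push_cast
  ring

theorem tjW_yy (s : ℝ) (ξ p : V) :
    TjW s ξ (cx yy) p ((1 - s) / 2 * tjP ξ p + (1 + s) / 2 * tjQ ξ p) := by
  rw [tjet_cx_yy]
  refine ((TjW.fst.add TjW.fst.conj).sub (TjW.snd.mul TjW.snd.conj)).of_eq ?_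
  simp only [tjP, tjQ, map_mul, map_div₀, map_sub, map_one, map_ofNat, conj_ofReal, ofReal_neg,
    map_neg]
  ring

theorem tjW_P (ξ a p : V) : TjW (-1) ξ (tjP a) p 0 := by
  refine ((TjW.const _).sub ((TjW.const _).mul TjW.snd.conj)).of_eq ?_
  simp

theorem tjW_Q (ξ a p : V) : TjW (-1) ξ (tjQ a) p (-(ξ.2 * conj a.2)) := by
  refine ((TjW.const _).sub (TjW.snd.mul (TjW.const _))).of_eq ?_
  simp

theorem tjW_Q' (ξ a p : V) : TjW 1 ξ (tjQ a) p 0 := by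
  refine ((TjW.const _).sub (TjW.snd.mul (TjW.const _))).of_eq ?_
  simp

theorem tjet_ne {p : V} (hp : 0 < 1 + yy p) : 1 + cx yy p ≠ 0 := by
  have : (1 + cx yy p) = ((1 + yy p : ℝ) : ℂ) := by simp [cx]
  rw [this]
  exact ofReal_ne_zero.mpr hp.ne'

theorem tjW_m (s : ℝ) (ξ : V) {p : V} (hp : 0 < 1 + yy p) :
    TjW s ξ tjm p (-(tjm p ^ 2 * ((1 - s) / 2 * tjP ξ p + (1 + s) / 2 * tjQ ξ p))) := by
  have h := (TjW.const (s := s) (ξ := ξ) (p := p) 1).add (tjW_yy s ξ p)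
  have h0 := tjet_ne hp
  refine ⟨h.1.inv h0, ?_⟩
  have e := W_comp_hol (s := s) (ξ := ξ) (f := fun q => 1 + cx yy q) (hasDerivAt_inv h0) h.1
  rw [h.2] at e
  refine e.trans ?_
  rw [tjm, inv_pow]
  ring

theorem tjW_m1 (ξ : V) {p : V} (hp : 0 < 1 + yy p) :
    TjW (-1) ξ tjm p (-(tjm p ^ 2 * tjP ξ p)) :=
  (tjW_m (-1) ξ hp).of_eq (by push_cast; ring)

theorem tjW_m2 (ξ : V) {p : V} (hp : 0 < 1 + yy p) :
    TjW 1 ξ tjm p (-(tjm p ^ 2 * tjQ ξ p)) :=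
  (tjW_m 1 ξ hp).of_eq (by push_cast; ring)

theorem tjet_W_t0 (s : ℝ) (ξ : V) {p : V} (hp : 0 < 1 + yy p) :
    W s ξ (cx t0) p = -(tjm p * ((1 - s) / 2 * tjP ξ p + (1 + s) / 2 * tjQ ξ p)) := by
  have hM : HasDerivAt (fun x : ℝ => -Real.log (1 + x)) (-(1 + yy p)⁻¹) (yy p) := by
    have := (((hasDerivAt_id (yy p)).const_add 1).log hp.ne').fun_neg
    simpa using this
  have e := W_comp_real (s := s) (ξ := ξ) (u := yy) hM
    (contDiff_yy.differentiable (by simp)).differentiableAt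
  rw [(tjW_yy s ξ p).2] at e
  refine e.trans ?_
  simp only [tjm, cx]
  push_cast
  ring

theorem tjet_D1 (a : V) : D a (cx t0) =ᶠ[𝓝 0] fun u => -(tjm u * tjP a u) := by
  filter_upwards [tjet_ev] with u hu
  rw [D, tjet_W_t0 _ _ hu]
  push_cast
  ring

theorem tjet_Db1 (a : V) : Db a (cx t0) =ᶠ[𝓝 0] fun u => -(tjm u * tjQ a u) := by
  filter_upwards [tjet_ev] with u hu
  rw [Db, tjet_W_t0 _ _ hu]
  push_cast
  ring

theorem tjet_step {s : ℝ} {ξ : V} {f g h : V → ℂ} (e : f =ᶠ[𝓝 0] g)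
    (hg : ∀ u, 0 < 1 + yy u → TjW s ξ g u (h u)) : W s ξ f =ᶠ[𝓝 0] h := by
  filter_upwards [W_congr_ev (s := s) (ξ := ξ) e, tjet_ev] with u h1 h2
  rw [h1, (hg u h2).2]

@[simp] theorem tjm_zero : tjm 0 = 1 := by simp [tjm, cx, yy]

@[simp] theorem tjP_zero (a : V) : tjP a 0 = a.1 := by simp [tjP]

@[simp] theorem tjQ_zero (a : V) : tjQ a 0 = conj a.1 := by simp [tjQ]

theorem tjet_H (a b : V) : D a (Db b (cx t0)) =ᶠ[𝓝 0]
    fun u => tjm u * tjm u * tjP a u * tjQ b u + tjm u * (a.2 * conj b.2) :=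
  tjet_step (tjet_Db1 b) fun u hu =>
    ((tjW_m1 a hu).mul (tjW_Q a b u)).neg.of_eq (by ring)

theorem tjet_bb (c d : V) : Db c (Db d (cx t0)) =ᶠ[𝓝 0]
    fun u => tjm u * tjm u * tjQ c u * tjQ d u :=
  tjet_step (tjet_Db1 d) fun u hu =>
    ((tjW_m2 c hu).mul (tjW_Q' c d u)).neg.of_eq (by ring)

theorem tjet_bbd (b c d : V) : D b (Db c (Db d (cx t0))) =ᶠ[𝓝 0]
    fun u => -(2 * (tjm u * tjm u * tjm u * tjP b u * tjQ c u * tjQ d u) +
      tjm u * tjm u * (b.2 * conj c.2 * tjQ d u + tjQ c u * (b.2 * conj d.2))) :=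
  tjet_step (tjet_bb c d) fun u hu =>
    ((((tjW_m1 b hu).mul (tjW_m1 b hu)).mul (tjW_Q b c u)).mul (tjW_Q b d u)).of_eq (by ring)

theorem D_t0 (a : V) : D a (cx t0) 0 = -a.1 := by
  rw [(tjet_D1 a).eq_of_nhds]
  simp

theorem DD_t0 (a b : V) : D a (D b (cx t0)) 0 = a.1 * b.1 := by
  have h := tjet_step (s := -1) (ξ := a) (tjet_D1 b) fun u hu =>
    ((tjW_m1 a hu).mul (tjW_P a b u)).neg
  rw [D, h.eq_of_nhds]
  simp

theorem jet_t0 : jet t0 0 = tJet := by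
  ext a b c d
  · change D a (Db b (cx t0)) 0 = _
    rw [(tjet_H a b).eq_of_nhds]
    simp [tJet]
  · change D a (D b (Db c (cx t0))) 0 = _
    have h := tjet_step (s := -1) (ξ := a) (tjet_H b c) fun u hu =>
      ((((tjW_m1 a hu).mul (tjW_m1 a hu)).mul (tjW_P a b u)).mul (tjW_Q a c u)).add
        ((tjW_m1 a hu).mul (TjW.const _))
    rw [D, h.eq_of_nhds]
    simp only [tJet, tjm_zero, tjP_zero, tjQ_zero]
    ring
  · change D a (D b (Db c (Db d (cx t0)))) 0 = _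
    have h := tjet_step (s := -1) (ξ := a) (tjet_bbd b c d) fun u hu =>
      (((TjW.const _).mul ((((((tjW_m1 a hu).mul (tjW_m1 a hu)).mul (tjW_m1 a hu)).mul
        (tjW_P a b u)).mul (tjW_Q a c u)).mul (tjW_Q a d u))).add
        (((tjW_m1 a hu).mul (tjW_m1 a hu)).mul
          (((TjW.const _).mul (tjW_Q a d u)).add ((tjW_Q a c u).mul (TjW.const _))))).neg
    rw [D, h.eq_of_nhds]
    simp only [tJet, tjm_zero, tjP_zero, tjQ_zero]
    ring

end Crest.Agent.R245
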