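import Crest.Agent.R245.SCV
import Crest.Agent.R245.TJet

/-!
# The Jacobian of a bounded holomorphic map on a Hartogs domain (task R245/Jac)
-/

set_option autoImplicit false

noncomputable section

namespace Crest.Agent.R245

open scoped ComplexConjugate ContDiff Topology
open Complex Set Filter

/-- Coordinates on `Fin 3 → ℂ`. -/
def e3 : (Fin 3 → ℂ) ≃L[ℂ] T :=
  LinearEquiv.toContinuousLinearEquiv
    { toFun := fun p => ((p 0, p 1), p 2)
      invFun := fun q => ![q.1.1, q.1.2, q.2]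
      map_add' := fun _ _ => rfl
      map_smul' := fun _ _ => rfl
      left_inv := fun p => by
        funext i; fin_cases i <;> rfl
      right_inv := fun _ => rfl }

theorem e3_apply (p : Fin 3 → ℂ) : e3 p = ((p 0, p 1), p 2) := rfl

theorem e3_symm_apply (q : T) : e3.symm q = ![q.1.1, q.1.2, q.2] := rfl

/-- The determinant of three column vectors. -/
def det3 (u v w : Fin 3 → ℂ) : ℂ :=
  u 0 * v 1 * w 2 - u 0 * w 1 * v 2 - v 0 * u 1 * w 2 + v 0 * w 1 * u 2 + w 0 * u 1 * v 2 -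
    w 0 * v 1 * u 2

theorem det3_map (A : (Fin 3 → ℂ) →L[ℂ] (Fin 3 → ℂ)) (u v w : Fin 3 → ℂ) :
    det3 (A u) (A v) (A w) = A.det * det3 u v w := by
  have h : ∀ x, A x = (LinearMap.toMatrix' (A : (Fin 3 → ℂ) →ₗ[ℂ] (Fin 3 → ℂ))).mulVec x :=
    fun x => by rw [LinearMap.toMatrix'_mulVec]; rfl
  rw [h u, h v, h w, ContinuousLinearMap.det, ← LinearMap.det_toMatrix', Matrix.det_fin_three]
  generalize LinearMap.toMatrix' (A : (Fin 3 → ℂ) →ₗ[ℂ] (Fin 3 → ℂ)) = B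
  simp only [det3, Matrix.mulVec, dotProduct, Fin.sum_univ_three]
  ring

theorem det_eq_det3 (A : (Fin 3 → ℂ) →L[ℂ] (Fin 3 → ℂ)) :
    A.det = det3 (A ![1, 0, 0]) (A ![0, 1, 0]) (A ![0, 0, 1]) := by
  rw [det3_map]; simp [det3]

theorem norm_det3_le {u v w : Fin 3 → ℂ} {R : ℝ} (hu : ‖u‖ ≤ R) (hv : ‖v‖ ≤ R) (hw : ‖w‖ ≤ R) :
    ‖det3 u v w‖ ≤ 6 * R ^ 3 := by
  have hR : 0 ≤ R := (norm_nonneg _).trans hu
  have h : ∀ a b c : ℂ, ‖a‖ ≤ R → ‖b‖ ≤ R → ‖c‖ ≤ R → ‖a * b * c‖ ≤ R ^ 3 := fun a b c ha hb hc => by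
    rw [norm_mul, norm_mul, pow_three']; gcongr
  have hu' := fun i => (norm_le_pi_norm u i).trans hu
  have hv' := fun i => (norm_le_pi_norm v i).trans hv
  have hw' := fun i => (norm_le_pi_norm w i).trans hw
  have h1 := h _ _ _ (hu' 0) (hv' 1) (hw' 2)
  have h2 := h _ _ _ (hu' 0) (hw' 1) (hv' 2)
  have h3 := h _ _ _ (hv' 0) (hu' 1) (hw' 2)
  have h4 := h _ _ _ (hv' 0) (hw' 1) (hu' 2)
  have h5 := h _ _ _ (hw' 0) (hu' 1) (hv' 2)
  have h6 := h _ _ _ (hw' 0) (hv' 1) (hu' 2)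
  unfold det3
  refine (norm_sub_le_of_le (norm_add_le_of_le (norm_add_le_of_le (norm_sub_le_of_le
    (norm_sub_le_of_le h1 h2) h3) h4) h5) h6).trans (le_of_eq ?_)
  ring

theorem isOpen_e3 {d : HData} (hU : IsOpen d.U) : IsOpen {p | e3 p ∈ d.U} :=
  hU.preimage e3.continuous

/-- `det = Matrix.det (toMatrix' _)`, `Matrix.det_fin_three`; the entries
`fderiv F (z.1, z.2, 0) (e j) i` are holomorphic by `differentiableOn_fderiv_apply`. -/
theorem differentiableOn_jac {d : HData} (hU : IsOpen d.U) {F : (Fin 3 → ℂ) → (Fin 3 → ℂ)}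
    (hF : DifferentiableOn ℂ F {p | e3 p ∈ d.U}) :
    DifferentiableOn ℂ (fun z : V => (fderiv ℂ F (e3.symm (z, 0))).det) H2 := by
  have h : ∀ (e : Fin 3 → ℂ) (i : Fin 3),
      DifferentiableOn ℂ (fun z : V => fderiv ℂ F (e3.symm (z, 0)) e i) H2 := by
    intro e i
    have h1 := (differentiableOn_fderiv_apply (isOpen_e3 hU) hF e).comp
      (f := fun z : V => e3.symm (z, 0)) (s := H2) (by fun_prop) fun z hz => by
        simpa [HData.U] using hz
    exact differentiableOn_pi.1 h1 i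
  simp only [det_eq_det3, det3]
  exact ((((((h _ _).mul (h _ _)).mul (h _ _)).sub (((h _ _).mul (h _ _)).mul (h _ _))).sub
    (((h _ _).mul (h _ _)).mul (h _ _))).add (((h _ _).mul (h _ _)).mul (h _ _))).add
    (((h _ _).mul (h _ _)).mul (h _ _)) |>.sub (((h _ _).mul (h _ _)).mul (h _ _))

/-- Cauchy estimates (`norm_fderiv_apply_le` with `ρ = 1/2`) along `b0 = (y, 0, 0)`,
`b1 = √y (conj z.2, 1, 0)`, `b2 = (0, 0, e^{-ph/2})` (`yy_nz`): `‖F' b_i‖ ≤ 4 M`; the matrix with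
columns `b_i` is triangular with determinant `y √y e^{-ph/2}`, and
`det F' * det b = det (F' b_i)` has norm `≤ 6 (4M)³`. -/
theorem jac_bound {d : HData} (hU : IsOpen d.U) {F : (Fin 3 → ℂ) → (Fin 3 → ℂ)}
    (hF : DifferentiableOn ℂ F {p | e3 p ∈ d.U}) {M : ℝ} (hM : ∀ p, e3 p ∈ d.U → ‖F p‖ ≤ M)
    {z : V} (hz : z ∈ H2) :
    ‖(fderiv ℂ F (e3.symm (z, 0))).det‖ ^ 2 ≤
      (384 * M ^ 3) ^ 2 * Real.exp (d.ph z + 3 * tt z) := by
  have hy : 0 < yy z := hz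
  have hb : ∀ b : Fin 3 → ℂ, (∀ ζ : ℂ, ‖ζ‖ < 1 / 2 → e3 (e3.symm (z, 0) + ζ • b) ∈ d.U) →
      ‖fderiv ℂ F (e3.symm (z, 0)) b‖ ≤ 4 * M := fun b h =>
    (norm_fderiv_apply_le (isOpen_e3 hU) hF (by norm_num) h fun ζ hζ => hM _ (h ζ hζ)).trans
      (le_of_eq (by ring))
  have hL : ∀ u : V, -1 < yy u → ((z + LL z u, 0) : T) ∈ d.U := fun u hu =>
    ⟨show 0 < yy (z + LL z u) by rw [yy_nz hz]; exact mul_pos hy (by linarith), by simp⟩
  have h0 := hb ![(yy z : ℝ), 0, 0] fun ζ hζ => by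
    have := hL (ζ, 0) (by
      have := (abs_le.1 (Complex.abs_re_le_norm ζ)).1
      simp only [yy, map_zero]; linarith)
    convert this using 1
    simp [e3_apply, e3_symm_apply, LL_apply, Prod.ext_iff, mul_comm]
  have h1 := hb ![((√(yy z) : ℝ) : ℂ) * conj z.2, (√(yy z) : ℝ), 0] fun ζ hζ => by
    have := hL (0, ζ) (by
      simp only [yy, Complex.zero_re, Complex.normSq_eq_norm_sq]; nlinarith [norm_nonneg ζ])
    convert this using 1
    simp [e3_apply, e3_symm_apply, LL_apply, Prod.ext_iff, mul_comm]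
  have h2 := hb ![0, 0, (Real.exp (-d.ph z / 2) : ℝ)] fun ζ hζ => by
    have e : e3 (e3.symm (z, 0) + ζ • ![0, 0, ((Real.exp (-d.ph z / 2) : ℝ) : ℂ)]) =
        (z, ζ * (Real.exp (-d.ph z / 2) : ℝ)) := by
      simp [e3_apply, e3_symm_apply]
    rw [e]
    refine ⟨hz, ?_⟩
    simp only [map_mul, Complex.normSq_ofReal]
    rw [mul_assoc, ← Real.exp_add, ← Real.exp_add, show -d.ph z / 2 + -d.ph z / 2 + d.ph z = 0 by ring,
      Real.exp_zero, mul_one, Complex.normSq_eq_norm_sq]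
    nlinarith [norm_nonneg ζ]
  have h := norm_det3_le h0 h1 h2
  have e : det3 ![((yy z : ℝ) : ℂ), 0, 0] ![((√(yy z) : ℝ) : ℂ) * conj z.2, (√(yy z) : ℝ), 0]
      ![0, 0, (Real.exp (-d.ph z / 2) : ℝ)] =
      ((yy z * √(yy z) * Real.exp (-d.ph z / 2) : ℝ) : ℂ) := by
    simp [det3]
  rw [det3_map, e, norm_mul, Complex.norm_real, Real.norm_of_nonneg (by positivity)] at h
  have h3 : (yy z * √(yy z) * Real.exp (-d.ph z / 2)) ^ 2 * Real.exp (d.ph z + 3 * tt z) = 1 := by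
    have e1 : Real.exp (-d.ph z / 2) ^ 2 * Real.exp (d.ph z) = 1 := by
      rw [sq, ← Real.exp_add, ← Real.exp_add, ← Real.exp_zero]; congr 1; ring
    have e2 : yy z * Real.exp (tt z) = 1 := by
      rw [tt, Real.exp_neg, Real.exp_log hy, mul_inv_cancel₀ hy.ne']
    have e3 : Real.exp (3 * tt z) = Real.exp (tt z) ^ 3 := by
      rw [← Real.exp_nat_mul]; norm_num
    rw [Real.exp_add, e3, mul_pow, mul_pow, Real.sq_sqrt hy.le]
    calc _ = (Real.exp (-d.ph z / 2) ^ 2 * Real.exp (d.ph z)) * (yy z * Real.exp (tt z)) ^ 3 := by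
          ring
      _ = 1 := by rw [e1, e2]; norm_num
  calc _ = (‖(fderiv ℂ F (e3.symm (z, 0))).det‖ * (yy z * √(yy z) * Real.exp (-d.ph z / 2))) ^ 2 *
        Real.exp (d.ph z + 3 * tt z) := by rw [mul_pow, mul_assoc, h3, mul_one]
    _ ≤ (6 * (4 * M) ^ 3) ^ 2 * Real.exp (d.ph z + 3 * tt z) := by gcongr
    _ = _ := by ring

end Crest.Agent.R245
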