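import Crest.Agent.R245.Hart
import Crest.Agent.R245.Curv
import Crest.Agent.R245.Complete
import Crest.Agent.R245.Data78
import Crest.Agent.R245.Data79
import Crest.Agent.R245.GlueDiffeo
import Crest.Agent.R245.GlueKill
import Crest.Agent.R245.Jac

/-!
# Row 245: final assembly
-/

set_option autoImplicit false

noncomputable section

namespace Crest.Agent.R245

open scoped ComplexConjugate ContDiff Topology
open Complex Set Filter Crest.GeometryTopology

theorem Good.den_nonneg {E : Type*} [NormedAddCommGroup E] [NormedSpace ℝ E] [NormedSpace ℂ E]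
    [IsScalarTower ℝ ℂ E] {U : Set E} {Φ : E → ℝ} {a K : ℝ} (h : Good U Φ a K) {p : E}
    (hp : p ∈ U) (X Y : E) : 0 ≤ (jet Φ p).Den X Y := by
  have hg := jet_good (Sm.of_contDiffOn h.isOpen h.smooth hp)
  exact hg.Den_nonneg (fun b => (h.pos p hp).psd hg b) X Y

theorem final78 :
    ∃ U : Set (Fin 3 → ℂ), IsOpen U ∧ IsConnected U ∧ ContractibleSpace U ∧
      ∃ g : Crest.GeometryTopology.HermitianMetricOn 3 U, g.IsKahler ∧ g.IsComplete ∧
        (∃ A B : ℝ, 0 < A ∧ A ≤ B ∧ ∀ p ∈ U, ∀ X Y : (Fin 3 → ℂ),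
          g.riem p X X * g.riem p Y Y - g.riem p X Y ^ 2 ≠ 0 →
            -B ≤ g.sectional p X Y ∧ g.sectional p X Y ≤ -A) ∧
        ∀ F : (Fin 3 → ℂ) → (Fin 3 → ℂ), DifferentiableOn ℂ F U → Bornology.IsBounded (F '' U) →
          ∃ p ∈ U, (fderiv ℂ F p).det = 0 := by
  obtain ⟨C1, hC1, hd⟩ := data78
  obtain ⟨K0, δ0, K, hK0, hδ0, hK, hh⟩ := hart_good C1 hC1
  obtain ⟨d, hadm, hprop, ⟨c0, hc0, hc⟩, hkill⟩ := hd K0 δ0 hK0 hδ0
  obtain ⟨hgood, hup, -⟩ := hh d hadm hprop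
  have hset : {q : Fin 3 → ℂ | 0 + e3 q ∈ d.U} = {q | e3 q ∈ d.U} := by simp
  have hG := hgood.affine e3 0
  rw [hset] at hG
  have hD : Diffeo {q : Fin 3 → ℂ | e3 q ∈ d.U} := (d.diffeo hadm.smph).linear e3
  obtain ⟨g, hk, hg⟩ := exists_metric hG.isOpen hG.smooth hG.pos
  refine ⟨_, hG.isOpen, hD.isConnected, hD.contractibleSpace, g, hk,
    complete_of_good hG hD g (fun p hp X => (hg p hp X X).1), ?_, ?_⟩
  · refine ⟨1 / 100, max (1 / 100) (K / c0 ^ 7), by norm_num, le_max_left _ _, ?_⟩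
    intro p hp X Y hne
    rw [(hg p hp X X).1, (hg p hp Y Y).1, (hg p hp X Y).1] at hne
    have hpos : 0 < (jet (fun q => d.Phi (0 + e3 q)) p).Den X Y :=
      lt_of_le_of_ne (hG.den_nonneg hp X Y) (Ne.symm hne)
    rw [(hg p hp X Y).2]
    have hp' : 0 + e3 p ∈ d.U := by simpa using hp
    have hsm : Sm d.Phi (0 + e3 p) := Sm.of_contDiffOn hgood.isOpen hgood.smooth hp'
    constructor
    · rw [le_div_iff₀ hpos]
      have h1 := hup _ hp' (e3 X) (e3 Y)
      rw [← jet_affine_N e3 0 hsm (hgood.pos _ hp'), ← jet_affine_Den e3 0 hsm, hc] at h1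
      have h2 := mul_le_mul_of_nonneg_right (le_max_right (1 / 100 : ℝ) (K / c0 ^ 7)) hpos.le
      linarith
    · rw [div_le_iff₀ hpos]
      have := hG.curv p hp X Y
      linarith
  · intro F hF hb
    obtain ⟨M, hM⟩ := hb.exists_norm_le
    have hM' : ∀ p, e3 p ∈ d.U → ‖F p‖ ≤ M := fun p hp => hM _ ⟨p, hp, rfl⟩
    obtain ⟨z, hz, h0⟩ := hkill _ _ (differentiableOn_jac hgood.isOpen hF)
      (fun z hz => jac_bound hgood.isOpen hF hM' hz)
    refine ⟨e3.symm (z, 0), ?_, h0⟩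
    show e3 (e3.symm (z, 0)) ∈ d.U
    rw [e3.apply_symm_apply]
    exact ⟨hz, by simp⟩

theorem final79 :
    ∃ m : ℕ, 2 ≤ m ∧ ∃ U : Set (Fin m → ℂ), IsOpen U ∧
      (∃ Φ Ψ : (Fin m → ℂ) → (Fin m → ℂ), ContDiff ℝ ∞ Φ ∧ ContDiffOn ℝ ∞ Ψ U ∧
        Set.range Φ = U ∧ ∀ x, Ψ (Φ x) = x) ∧
      ∃ g : Crest.GeometryTopology.HermitianMetricOn m U, g.IsKahler ∧ g.IsComplete ∧
        (∀ p ∈ U, ∀ X Y : (Fin m → ℂ), g.riem p X X * g.riem p Y Y - g.riem p X Y ^ 2 ≠ 0 →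
          g.sectional p X Y ≤ -1) ∧
        (∀ B : ℝ, ∃ p ∈ U, ∃ X Y : (Fin m → ℂ),
          g.riem p X X * g.riem p Y Y - g.riem p X Y ^ 2 ≠ 0 ∧ g.sectional p X Y < B) ∧
        ∀ f : (Fin m → ℂ) → ℂ, DifferentiableOn ℂ f U → Bornology.IsBounded (f '' U) →
          ∀ p ∈ U, ∀ q ∈ U, f p = f q := by
  obtain ⟨C1, hC1, hd⟩ := data79
  obtain ⟨K0, δ0, K, hK0, hδ0, hK, hh⟩ := hart_good C1 hC1
  obtain ⟨d, hadm, hprop, hstd, hkill, hsmall⟩ := hd K0 δ0 hK0 hδ0
  obtain ⟨hgood, -, hvert⟩ := hh d hadm hprop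
  have hG0 := glue_good hstd hgood
  have hG1 := hG0.smul (by norm_num)
  have hD0 := glue_diffeo hstd hadm.smph hG0.isOpen
  have hset : {q : Fin 3 → ℂ | 0 + e3 q ∈ GU d} = {q | e3 q ∈ GU d} := by simp
  have hG := hG1.affine e3 0
  rw [hset] at hG
  have hD : Diffeo {q : Fin 3 → ℂ | e3 q ∈ GU d} := hD0.linear e3
  obtain ⟨g, hk, hg⟩ := exists_metric hG.isOpen hG.smooth hG.pos
  refine ⟨3, by norm_num, _, hG.isOpen, hD, g, hk,
    complete_of_good hG hD g (fun p hp X => (hg p hp X X).1), ?_, ?_, ?_⟩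
  · intro p hp X Y hne
    rw [(hg p hp X X).1, (hg p hp Y Y).1, (hg p hp X Y).1] at hne
    have hpos := lt_of_le_of_ne (hG.den_nonneg hp X Y) (Ne.symm hne)
    rw [(hg p hp X Y).2, div_le_iff₀ hpos]
    have := hG.curv p hp X Y
    linarith
  · intro B
    obtain ⟨z, hz, hc0, hcz⟩ := hsmall (1 / (|B| + 1)) (by positivity)
    have hq : ((z, 0) : T) ∈ d.U := ⟨hz.1, by simp⟩
    have hO : ((z, 0) : T) ∈ Oc := by
      refine ⟨hz.2.1, ?_⟩
      have h1 : 0 < yy z := hz.1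
      have h2 := normSq_nonneg z.2
      have h3 := hz.2.2
      unfold yy at h1
      rw [abs_lt]; constructor <;> simp only [] <;> linarith
    have hq' : ((z, 0) : T) ∈ GU d := by
      rw [mem_GU_of_Oc (i := 0) (by rwa [hh_zero]), hh_zero]; exact hq
    have hp : e3.symm (z, 0) ∈ {q : Fin 3 → ℂ | e3 q ∈ GU d} := by
      show e3 (e3.symm (z, 0)) ∈ GU d
      rwa [e3.apply_symm_apply]
    have he : (0 : T) + e3 (e3.symm (z, 0)) = (z, 0) := by simp
    have hs0 : Sm (GPhi d) (z, 0) := Sm.of_contDiffOn hG0.isOpen hG0.smooth hq'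
    have hs1 : Sm (fun q => 1 / 100 * GPhi d q) (0 + e3 (e3.symm (z, 0))) := by
      rw [he]; exact Sm.of_contDiffOn hG1.isOpen hG1.smooth hq'
    have hp1 : (jet (fun q => 1 / 100 * GPhi d q) (0 + e3 (e3.symm (z, 0)))).Pos := by
      rw [he]; exact hG1.pos _ hq'
    have hj : jet (fun q => 1 / 100 * GPhi d q) (z, 0) = (1 / 100 : ℝ) • jet d.Phi (z, 0) := by
      rw [jet_const_mul _ hs0, jet_congr (GPhi_eventually hO)]
    have hgd := jet_good (Sm.of_contDiffOn hgood.isOpen hgood.smooth hq)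
    have hN := jet_affine_N e3 0 hs1 hp1 (e3.symm (0, 1)) (e3.symm (0, I))
    have hDen := jet_affine_Den e3 0 hs1 (e3.symm (0, 1)) (e3.symm (0, I))
    rw [he, hj, e3.apply_symm_apply, e3.apply_symm_apply] at hN hDen
    rw [hgd.N_smul (hgood.pos _ hq) (by norm_num)] at hN
    rw [Jet.Den_smul] at hDen
    obtain ⟨hv0, hv1⟩ := hvert _ hq
    refine ⟨_, hp, e3.symm (0, 1), e3.symm (0, I), ?_, ?_⟩
    · rw [(hg _ hp _ _).1, (hg _ hp _ _).1, (hg _ hp _ _).1]
      have : (jet (fun q => 1 / 100 * GPhi d (0 + e3 q)) (e3.symm (z, 0))).Den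
          (e3.symm (0, 1)) (e3.symm (0, I)) ≠ 0 := by
        rw [hDen]; positivity
      exact this
    · rw [(hg _ hp _ _).2, hN, hDen, div_lt_iff₀ (by positivity)]
      simp only [] at hv1
      rw [div_le_iff₀ hc0] at hv1
      rw [lt_div_iff₀ (by positivity)] at hcz
      set De := (jet d.Phi (z, 0)).Den (0, 1) (0, I)
      set Nn := (jet d.Phi (z, 0)).N (0, 1) (0, I)
      have hNn : 0 < -Nn := by
        by_contra hcon
        have : -Nn * d.c z ≤ 0 := mul_nonpos_of_nonpos_of_nonneg (not_lt.mp hcon) hc0.le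
        linarith
      have h1 : De * (|B| + 1) ≤ -Nn := by
        have := mul_le_mul_of_nonneg_right hv1 (by positivity : (0 : ℝ) ≤ |B| + 1)
        have h2 : -Nn * (d.c z * (|B| + 1)) ≤ -Nn * 1 := mul_le_mul_of_nonneg_left hcz.le hNn.le
        nlinarith
      have h3 : -B ≤ |B| := neg_le_abs B
      have h4 : 0 ≤ |B| := abs_nonneg B
      nlinarith
  · intro f hf hb p hp q hq
    obtain ⟨M, hM⟩ := hb.exists_norm_le
    have hf' : DifferentiableOn ℂ (fun x : T => f (e3.symm x)) (GU d) :=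
      hf.comp e3.symm.differentiableOn (fun x hx => by
        show e3 (e3.symm x) ∈ GU d
        rwa [e3.apply_symm_apply])
    have := glue_kill hadm.smph hkill hG0.isOpen hD0.isConnected.isPreconnected hf' (M := M)
      (fun x hx => hM _ ⟨e3.symm x, by
        show e3 (e3.symm x) ∈ GU d
        rwa [e3.apply_symm_apply], rfl⟩) (e3 p) hp (e3 q) hq
    simpa using this

end Crest.Agent.R245
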