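import Crest.Agent.R245.Wirt
import Crest.Agent.R245.Alg

/-!
# Transport of `Good` and `Diffeo`: affine maps, scaling, finite covers (task R245/Transport)
-/

set_option autoImplicit false

noncomputable section

namespace Crest.Agent.R245

open scoped ComplexConjugate ContDiff Topology
open Complex Set Filter

variable {E E' : Type*} [NormedAddCommGroup E] [NormedSpace ℝ E] [NormedSpace ℂ E]
  [IsScalarTower ℝ ℂ E] [FiniteDimensional ℂ E] [NormedAddCommGroup E'] [NormedSpace ℝ E']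
  [NormedSpace ℂ E'] [IsScalarTower ℝ ℂ E'] {U : Set E} {Φ : E → ℝ} {a K : ℝ}

theorem jet_affine_N (L : E' ≃L[ℂ] E) (b : E) {q : E'} (hs : Sm Φ (b + L q))
    (hp : (jet Φ (b + L q)).Pos) (X Y : E') :
    (jet (fun x => Φ (b + L x)) q).N X Y = (jet Φ (b + L q)).N (L X) (L Y) := by
  have e := jet_affine (L : E' →L[ℂ] E) b (q := q) hs
  exact (congrArg (fun J : Jet E' => J.N X Y) e).trans
    ((jet_good hs).N_comap hp (L : E' →ₗ[ℂ] E) L.bijective X Y)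

theorem jet_affine_Den (L : E' ≃L[ℂ] E) (b : E) {q : E'} (hs : Sm Φ (b + L q)) (X Y : E') :
    (jet (fun x => Φ (b + L x)) q).Den X Y = (jet Φ (b + L q)).Den (L X) (L Y) := by
  have e := jet_affine (L : E' →L[ℂ] E) b (q := q) hs
  exact congrArg (fun J : Jet E' => J.Den X Y) e

/-- `jet_affine`, `N_comap`; for `low` use `‖ξ‖ ≤ ‖L⁻¹‖ ‖L ξ‖` and
`1 + ‖b + L q‖² ≤ C (1 + ‖q‖²)`. -/
theorem Good.affine (h : Good U Φ a K) (L : E' ≃L[ℂ] E) (b : E) :
    Good {q | b + L q ∈ U} (fun q => Φ (b + L q)) a K := by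
  have hA : ContDiff ℝ ∞ fun q : E' => b + L q :=
    contDiff_const.add ((L : E' →L[ℂ] E).restrictScalars ℝ).contDiff
  have hs : ∀ q : E', b + L q ∈ U → Sm Φ (b + L q) := fun q hq =>
    Sm.of_contDiffOn h.isOpen h.smooth hq
  have hH : ∀ q : E', b + L q ∈ U → ∀ ξ : E',
      (jet (fun x => Φ (b + L x)) q).H ξ ξ = (jet Φ (b + L q)).H (L ξ) (L ξ) := fun q hq ξ =>
    congrArg (fun J : Jet E' => J.H ξ ξ) (jet_affine (L : E' →L[ℂ] E) b (q := q) (hs q hq))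
  refine ⟨h.isOpen.preimage hA.continuous, h.smooth.comp hA.contDiffOn fun q hq => hq, ?_, ?_, ?_,
    ?_, fun c => (h.closed c).preimage hA.continuous⟩
  · intro q hq ξ hξ
    rw [hH q hq]
    exact h.pos _ hq _ (by simpa using hξ)
  · intro q hq X Y
    rw [jet_affine_N L b (hs q hq) (h.pos _ hq), jet_affine_Den L b (hs q hq)]
    exact h.curv _ hq _ _
  · intro q hq ξ
    have h1 : HasFDerivAt (fun x : E' => b + L x) ((L : E' →L[ℂ] E).restrictScalars ℝ) q :=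
      ((L : E' →L[ℂ] E).restrictScalars ℝ).hasFDerivAt.const_add b
    have h2 := ((hs q hq).differentiableAt.hasFDerivAt.comp q h1).fderiv
    have h3 : fderiv ℝ (fun x => Φ (b + L x)) q ξ = fderiv ℝ Φ (b + L q) (L ξ) :=
      congrArg (fun T : E' →L[ℝ] ℝ => T ξ) h2
    rw [h3, hH q hq]
    exact h.grad _ hq _
  · intro c₀
    obtain ⟨c, hc, hlow⟩ := h.low c₀
    set M : ℝ := ‖(L.symm : E →L[ℂ] E')‖ + 1 with hM
    set N : ℝ := ‖(L : E' →L[ℂ] E)‖ with hN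
    set C : ℝ := 1 + 2 * ‖b‖ ^ 2 + 2 * N ^ 2 with hC
    have hM0 : 0 < M := by positivity
    have hN0 : 0 ≤ N := norm_nonneg _
    have hC0 : 0 < C := by positivity
    refine ⟨c / (M ^ 2 * C), by positivity, fun q hq hle ξ => ?_⟩
    rw [hH q hq]
    have h1 := hlow _ hq hle (L ξ)
    have h0 : 0 ≤ ((jet Φ (b + L q)).H (L ξ) (L ξ)).re :=
      (h.pos _ hq).psd (jet_good (hs q hq)) _
    have h2 : ‖ξ‖ ≤ M * ‖L ξ‖ := by
      have := (L.symm : E →L[ℂ] E').le_opNorm (L ξ)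
      simp only [ContinuousLinearEquiv.coe_coe, ContinuousLinearEquiv.symm_apply_apply] at this
      nlinarith [norm_nonneg (L ξ)]
    have h3 : ‖ξ‖ ^ 2 ≤ M ^ 2 * ‖L ξ‖ ^ 2 := by
      rw [← mul_pow]
      exact pow_le_pow_left₀ (norm_nonneg _) h2 2
    have h4 : ‖b + L q‖ ≤ ‖b‖ + N * ‖q‖ :=
      (norm_add_le _ _).trans (add_le_add le_rfl ((L : E' →L[ℂ] E).le_opNorm q))
    have h5 : 1 + ‖b + L q‖ ^ 2 ≤ C * (1 + ‖q‖ ^ 2) := by
      have h6 : ‖b + L q‖ ^ 2 ≤ (‖b‖ + N * ‖q‖) ^ 2 := pow_le_pow_left₀ (norm_nonneg _) h4 2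
      have h7 : (‖b‖ + N * ‖q‖) ^ 2 ≤ 2 * ‖b‖ ^ 2 + 2 * N ^ 2 * ‖q‖ ^ 2 := by
        nlinarith [sq_nonneg (‖b‖ - N * ‖q‖)]
      rw [hC]
      nlinarith [sq_nonneg ‖b‖, sq_nonneg ‖q‖, sq_nonneg N, mul_nonneg (sq_nonneg ‖b‖) (sq_nonneg ‖q‖)]
    rw [div_mul_eq_mul_div, div_le_iff₀ (by positivity)]
    calc c * ‖ξ‖ ^ 2 ≤ c * (M ^ 2 * ‖L ξ‖ ^ 2) := mul_le_mul_of_nonneg_left h3 hc.le
      _ = M ^ 2 * (c * ‖L ξ‖ ^ 2) := by ring
      _ ≤ M ^ 2 * (((jet Φ (b + L q)).H (L ξ) (L ξ)).re * (C * (1 + ‖q‖ ^ 2))) :=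
          mul_le_mul_of_nonneg_left (h1.trans (mul_le_mul_of_nonneg_left h5 h0)) (by positivity)
      _ = _ := by ring

theorem Good.smul (h : Good U Φ a K) (ha : 0 < a) : Good U (fun q => a * Φ q) 1 (a * K) := by
  have hs : ∀ q ∈ U, Sm Φ q := fun q hq => Sm.of_contDiffOn h.isOpen h.smooth hq
  have hre : ∀ q ∈ U, ∀ ξ : E,
      ((jet (fun q => a * Φ q) q).H ξ ξ).re = a * ((jet Φ q).H ξ ξ).re := by
    intro q hq ξ
    rw [jet_const_mul a (hs q hq), Jet.smul_H, re_ofReal_mul]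
  refine ⟨h.isOpen, contDiffOn_const.mul h.smooth, ?_, ?_, ?_, ?_, ?_⟩
  · intro q hq
    rw [jet_const_mul a (hs q hq)]
    exact (h.pos q hq).smul ha
  · intro q hq X Y
    rw [jet_const_mul a (hs q hq), Jet.Den_smul, (jet_good (hs q hq)).N_smul (h.pos q hq) ha]
    have := mul_le_mul_of_nonneg_left (h.curv q hq X Y) ha.le
    nlinarith
  · intro q hq ξ
    rw [hre q hq, fderiv_const_mul (hs q hq).differentiableAt]
    have := mul_le_mul_of_nonneg_left (h.grad q hq ξ) (sq_nonneg a)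
    simp only [ContinuousLinearMap.smul_apply, smul_eq_mul]
    nlinarith
  · intro L
    obtain ⟨c, hc, hlow⟩ := h.low (L / a)
    refine ⟨a * c, by positivity, fun q hq hle ξ => ?_⟩
    rw [hre q hq]
    have := mul_le_mul_of_nonneg_left
      (hlow q hq (by rw [le_div_iff₀ ha]; linarith) ξ) ha.le
    nlinarith
  · intro L
    have e : {p | p ∈ U ∧ a * Φ p ≤ L} = {p | p ∈ U ∧ Φ p ≤ L / a} := by
      ext p
      simp only [mem_ofPred_eq, le_div_iff₀ ha, mul_comm]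
    rw [e]
    exact h.closed _

/-- A set with a potential that agrees near every point of the whole space with one of finitely many
good models is good. -/
theorem Good.of_cover {ι : Type*} [Finite ι] {Us : ι → Set E} {Φs : ι → E → ℝ}
    (h : ∀ i, Good (Us i) (Φs i) a K)
    (hc : ∀ p : E, ∃ i, ∀ᶠ q in 𝓝 p, (q ∈ U ↔ q ∈ Us i) ∧ (q ∈ U → Φ q = Φs i q)) :
    Good U Φ a K := by
  have key : ∀ p ∈ U, ∃ i, p ∈ Us i ∧ U ∈ 𝓝 p ∧ Φ =ᶠ[𝓝 p] Φs i := by
    intro p hp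
    obtain ⟨i, hi⟩ := hc p
    have hpi : p ∈ Us i := hi.self_of_nhds.1.1 hp
    have hU : ∀ᶠ q in 𝓝 p, q ∈ U := by
      filter_upwards [hi, (h i).isOpen.mem_nhds hpi] with q hq hq' using hq.1.2 hq'
    refine ⟨i, hpi, hU, ?_⟩
    filter_upwards [hi, hU] with q hq hq' using hq.2 hq'
  refine ⟨isOpen_iff_mem_nhds.2 fun p hp => (key p hp).choose_spec.2.1, ?_, ?_, ?_, ?_, ?_, ?_⟩
  · intro p hp
    obtain ⟨i, hpi, -, he⟩ := key p hp
    exact (((h i).smooth.contDiffAt ((h i).isOpen.mem_nhds hpi)).congr_of_eventuallyEq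
      he).contDiffWithinAt
  · intro p hp
    obtain ⟨i, hpi, -, he⟩ := key p hp
    rw [jet_congr he]
    exact (h i).pos p hpi
  · intro p hp
    obtain ⟨i, hpi, -, he⟩ := key p hp
    rw [jet_congr he]
    exact (h i).curv p hpi
  · intro p hp
    obtain ⟨i, hpi, -, he⟩ := key p hp
    rw [jet_congr he, he.fderiv_eq]
    exact (h i).grad p hpi
  · intro L
    choose c hc0 hlow using fun i => (h i).low L
    have : Nonempty ι := ⟨(hc 0).choose⟩
    obtain ⟨i₀, hi₀⟩ := Finite.exists_min c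
    refine ⟨c i₀, hc0 i₀, fun p hp hle ξ => ?_⟩
    obtain ⟨i, hpi, -, he⟩ := key p hp
    rw [jet_congr he]
    exact (mul_le_mul_of_nonneg_right (hi₀ i) (sq_nonneg _)).trans
      (hlow i p hpi (he.self_of_nhds ▸ hle) ξ)
  · intro L
    rw [isClosed_iff_frequently]
    intro p hp
    obtain ⟨i, hi⟩ := hc p
    have h1 : p ∈ {q | q ∈ Us i ∧ Φs i q ≤ L} := by
      refine isClosed_iff_frequently.1 ((h i).closed L) p ?_
      refine (hp.and_eventually hi).mono ?_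
      rintro q ⟨⟨hq, hle⟩, h2, h3⟩
      exact ⟨h2.1 hq, h3 hq ▸ hle⟩
    have h2 := hi.self_of_nhds
    have hpU : p ∈ U := h2.1.2 h1.1
    exact ⟨hpU, (h2.2 hpU).symm ▸ h1.2⟩

theorem Diffeo.linear (h : Diffeo U) (L : E' ≃L[ℂ] E) : Diffeo {q | L q ∈ U} := by
  obtain ⟨F, G, hF, hG, hr, hGF⟩ := h
  have hL : ContDiff ℝ ∞ fun q : E' => L q := ((L : E' →L[ℂ] E).restrictScalars ℝ).contDiff
  have hL' : ContDiff ℝ ∞ fun q : E => L.symm q :=
    ((L.symm : E →L[ℂ] E').restrictScalars ℝ).contDiff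
  refine ⟨fun x => L.symm (F (L x)), fun x => L.symm (G (L x)), hL'.comp (hF.comp hL),
    hL'.comp_contDiffOn (hG.comp hL.contDiffOn fun q hq => hq), ?_, fun x => by simp [hGF]⟩
  ext q
  simp only [mem_range, mem_ofPred_eq]
  constructor
  · rintro ⟨x, rfl⟩
    rw [L.apply_symm_apply, ← hr]
    exact ⟨_, rfl⟩
  · intro hq
    rw [← hr] at hq
    obtain ⟨y, hy⟩ := hq
    exact ⟨L.symm y, by rw [L.apply_symm_apply, hy, L.symm_apply_apply]⟩

end Crest.Agent.R245
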