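import Crest.Agent.R245.HDiffeo
import Crest.Agent.R245.Transport

/-!
# Gluing three copies of a Hartogs domain into the Siegel domain (task R245/GlueDefs)

`hh i p = bb i + LI i p` are affine automorphisms of `H3` preserving `yy p.1 - |p.2|²`; the
cylinders `hh i ⁻¹' Oc` are pairwise disjoint; outside the closed cylinder `Kc ⊆ Oc` the data are
standard.
-/

set_option autoImplicit false

noncomputable section

namespace Crest.Agent.R245

open scoped ComplexConjugate ContDiff Topology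
open Complex Set Filter

/-- `((p0, p1), p2) ↦ ((p0 - s p1 - t p2, p2), p1)`. -/
def swapL (s t : ℂ) : T ≃L[ℂ] T :=
  LinearEquiv.toContinuousLinearEquiv
    { toFun := fun p => ((p.1.1 - s * p.1.2 - t * p.2, p.2), p.1.2)
      invFun := fun q => ((q.1.1 + s * q.2 + t * q.1.2, q.2), q.1.2)
      map_add' := fun p q => by
        ext <;> simp only [Prod.fst_add, Prod.snd_add] <;> ring
      map_smul' := fun c p => by
        ext <;> simp only [Prod.smul_fst, Prod.smul_snd, smul_eq_mul, RingHom.id_apply] <;> ring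
      left_inv := fun p => by
        ext <;> simp only [] <;> ring
      right_inv := fun q => by
        ext <;> simp only [] <;> ring }

theorem swapL_apply (s t : ℂ) (p : T) :
    swapL s t p = ((p.1.1 - s * p.1.2 - t * p.2, p.2), p.1.2) := rfl

theorem swapL_symm_apply (s t : ℂ) (q : T) :
    (swapL s t).symm q = ((q.1.1 + s * q.2 + t * q.1.2, q.2), q.1.2) := rfl

/-- Linear parts of the three charts. -/
def LI : Fin 3 → T ≃L[ℂ] T := ![ContinuousLinearEquiv.refl ℂ T, swapL 0 10, swapL 10 20]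

/-- Translation parts of the three charts. -/
def bb : Fin 3 → T := ![0, ((50, -10), 0), ((250, -20), -10)]

/-- The three charts. -/
def hh (i : Fin 3) (p : T) : T := bb i + LI i p

/-- The inverse charts. -/
def gg (i : Fin 3) (q : T) : T := (LI i).symm (q - bb i)

/-- The open cylinder. -/
def Oc : Set T := {q | ‖q.1.2‖ < 2 ∧ |q.1.1.re| < 2}

/-- The closed cylinder. -/
def Kc : Set T := {q | ‖q.1.2‖ ≤ 1 ∧ |q.1.1.re| ≤ 1}

open Classical in
/-- The chart used at `p`. -/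
def idx (p : T) : Fin 3 := if hh 1 p ∈ Oc then 1 else if hh 2 p ∈ Oc then 2 else 0

/-- The glued domain. -/
def GU (d : HData) : Set T := {p | hh (idx p) p ∈ d.U}

/-- The glued potential. -/
def GPhi (d : HData) (p : T) : ℝ := d.Phi (hh (idx p) p)

theorem hh_zero (p : T) : hh 0 p = p := by
  simp [hh, bb, LI]

theorem gd_hh_one (p : T) : hh 1 p = ((50 + (p.1.1 - 10 * p.2), -10 + p.2), p.1.2) := by
  simp [hh, bb, LI, swapL_apply]

theorem gd_hh_two (p : T) :
    hh 2 p = ((250 + (p.1.1 - 10 * p.1.2 - 20 * p.2), -20 + p.2), -10 + p.1.2) := by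
  simp [hh, bb, LI, swapL_apply]

theorem gd_Oc {q : T} (h : q ∈ Oc) :
    -2 < q.1.2.re ∧ q.1.2.re < 2 ∧ -2 < q.1.1.re ∧ q.1.1.re < 2 := by
  have h1 := abs_lt.1 ((abs_re_le_norm q.1.2).trans_lt h.1)
  have h2 := abs_lt.1 h.2
  exact ⟨h1.1, h1.2, h2.1, h2.2⟩

theorem gg_hh (i : Fin 3) (p : T) : gg i (hh i p) = p := by
  simp [hh, gg]

theorem hh_gg (i : Fin 3) (q : T) : hh i (gg i q) = q := by
  simp [hh, gg]

theorem contDiff_hh (i : Fin 3) : ContDiff ℝ ∞ (hh i) := by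
  exact contDiff_const.add ((LI i : T →L[ℂ] T).restrictScalars ℝ).contDiff

theorem contDiff_gg (i : Fin 3) : ContDiff ℝ ∞ (gg i) := by
  exact (((LI i).symm : T →L[ℂ] T).restrictScalars ℝ).contDiff.comp (contDiff_id.sub contDiff_const)

theorem height_hh (i : Fin 3) (p : T) :
    yy (hh i p).1 - normSq (hh i p).2 = yy p.1 - normSq p.2 := by
  fin_cases i
  · simp only [Fin.zero_eta, hh_zero]
  · simp only [Fin.mk_one, gd_hh_one, yy]
    simp [normSq_apply]
    ring
  · simp only [Fin.reduceFinMk, gd_hh_two, yy]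
    simp [normSq_apply]
    ring

theorem hh_mem_H3 (i : Fin 3) (p : T) : hh i p ∈ H3 ↔ p ∈ H3 := by
  have := height_hh i p
  simp only [H3, mem_ofPred_eq]
  constructor <;> intro h <;> linarith

theorem isOpen_Oc : IsOpen Oc := by
  have h1 : Continuous fun q : T => ‖q.1.2‖ := by fun_prop
  have h2 : Continuous fun q : T => |q.1.1.re| := by fun_prop
  exact (isOpen_lt h1 continuous_const).inter (isOpen_lt h2 continuous_const)

theorem isClosed_Kc : IsClosed Kc := by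
  have h1 : Continuous fun q : T => ‖q.1.2‖ := by fun_prop
  have h2 : Continuous fun q : T => |q.1.1.re| := by fun_prop
  exact (isClosed_le h1 continuous_const).inter (isClosed_le h2 continuous_const)

theorem Kc_subset : Kc ⊆ Oc := by
  rintro q ⟨h1, h2⟩
  exact ⟨by linarith, by linarith⟩

/-- `0, 1`: `Re p0 > 28`; `1, 2`: the discs for `p2`; `0, 2`: `Re q0 < -88`. -/
theorem Oc_disjoint {i j : Fin 3} {p : T} (hi : hh i p ∈ Oc) (hj : hh j p ∈ Oc) : i = j := by
  have h01 : hh 0 p ∈ Oc → hh 1 p ∈ Oc → False := fun h h' => by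
    obtain ⟨a1, a2, a3, a4⟩ := gd_Oc h
    obtain ⟨b1, b2, b3, b4⟩ := gd_Oc h'
    rw [hh_zero] at a1 a2 a3 a4
    rw [gd_hh_one] at b1 b2 b3 b4
    simp at b1 b2 b3 b4
    linarith
  have h02 : hh 0 p ∈ Oc → hh 2 p ∈ Oc → False := fun h h' => by
    obtain ⟨a1, a2, a3, a4⟩ := gd_Oc h
    obtain ⟨b1, b2, b3, b4⟩ := gd_Oc h'
    rw [hh_zero] at a1 a2 a3 a4
    rw [gd_hh_two] at b1 b2 b3 b4
    simp at b1 b2 b3 b4
    linarith
  have h12 : hh 1 p ∈ Oc → hh 2 p ∈ Oc → False := fun h h' => by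
    obtain ⟨a1, a2, a3, a4⟩ := gd_Oc h
    obtain ⟨b1, b2, b3, b4⟩ := gd_Oc h'
    rw [gd_hh_one] at a1 a2 a3 a4
    rw [gd_hh_two] at b1 b2 b3 b4
    simp at a1 a2 b1 b2
    linarith
  fin_cases i <;> fin_cases j
  · rfl
  · exact (h01 hi hj).elim
  · exact (h02 hi hj).elim
  · exact (h01 hj hi).elim
  · rfl
  · exact (h12 hi hj).elim
  · exact (h02 hj hi).elim
  · exact (h12 hj hi).elim
  · rfl

theorem idx_eq {i : Fin 3} {p : T} (hi : hh i p ∈ Oc) : idx p = i := by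
  unfold idx
  split_ifs with h1 h2
  · exact Oc_disjoint h1 hi
  · exact Oc_disjoint h2 hi
  · fin_cases i
    · rfl
    · exact absurd hi h1
    · exact absurd hi h2

theorem idx_cases (p : T) : hh (idx p) p ∈ Oc ∨ (idx p = 0 ∧ ∀ i, hh i p ∉ Oc) := by
  by_cases h : ∃ i, hh i p ∈ Oc
  · obtain ⟨i, hi⟩ := h
    exact Or.inl (by rwa [idx_eq hi])
  · push Not at h
    exact Or.inr ⟨by rw [idx, if_neg (h 1), if_neg (h 2)], h⟩

variable {d : HData}

theorem gd_std (hs : d.Std) {q : T} (hq : q ∉ Kc) (hq' : q.1 ∈ H2) :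
    d.P0 q.1 = tt q.1 ∧ d.c q.1 = 1 ∧ d.ph q.1 = tt q.1 := by
  refine hs q.1 hq' ?_
  by_contra hn
  push Not at hn
  have h1 : 0 < 2 * q.1.1.re - normSq q.1.2 := hq'
  have h2 := normSq_nonneg q.1.2
  exact hq ⟨hn.1, abs_le.2 ⟨by linarith, hn.2⟩⟩

theorem std_mem (hs : d.Std) {q : T} (hq : q ∉ Kc) : q ∈ d.U ↔ q ∈ H3 := by
  constructor
  · rintro ⟨h1, h2⟩
    have hy : 0 < yy q.1 := h1
    rw [(gd_std hs hq h1).2.2, tt, Real.exp_neg, Real.exp_log hy, ← div_eq_mul_inv,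
      div_lt_one hy] at h2
    exact h2
  · intro h
    have h1 := H3_base h
    have hy : 0 < yy q.1 := h1
    refine ⟨h1, ?_⟩
    rw [(gd_std hs hq h1).2.2, tt, Real.exp_neg, Real.exp_log hy, ← div_eq_mul_inv,
      div_lt_one hy]
    exact h

theorem std_Phi (hs : d.Std) {q : T} (hq : q ∉ Kc) (hq' : q ∈ H3) :
    d.Phi q = -Real.log (yy q.1 - normSq q.2) := by
  have h1 := H3_base hq'
  have hy : 0 < yy q.1 := h1
  have h3 : normSq q.2 < yy q.1 := hq'
  obtain ⟨e1, e2, e3⟩ := gd_std hs hq h1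
  have h4 : 0 < 1 - normSq q.2 / yy q.1 := by rwa [sub_pos, div_lt_one hy]
  rw [HData.Phi, FF, e1, e2, e3, tt, Real.exp_neg, Real.exp_log hy, ← div_eq_mul_inv, one_mul,
    ← neg_add, ← Real.log_mul hy.ne' h4.ne']
  congr 2
  field_simp

theorem std_ph (hs : d.Std) {q : T} (hq : q ∉ Kc) (hq' : q.1 ∈ H2) : d.ph q.1 = tt q.1 := by
  exact (gd_std hs hq hq').2.2

/-- Near every point one chart `i` serves: at each nearby `q`, either `idx q = i` or both
`hh (idx q) q` and `hh i q` lie outside `Kc`.  (If `hh i p ∈ Oc` for some `i` use `idx_eq`;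
otherwise take `i = 0` and the neighbourhood where no `hh j q` is in `Kc`.) -/
theorem local_chart (p : T) : ∃ i, ∀ᶠ q in 𝓝 p,
    idx q = i ∨ (hh (idx q) q ∉ Kc ∧ hh i q ∉ Kc) := by
  by_cases h : ∃ i, hh i p ∈ Oc
  · obtain ⟨i, hi⟩ := h
    refine ⟨i, ?_⟩
    filter_upwards [(contDiff_hh i).continuous.continuousAt.preimage_mem_nhds
      (isOpen_Oc.mem_nhds hi)] with q hq
    exact Or.inl (idx_eq hq)
  · push Not at h
    refine ⟨0, ?_⟩
    have : ∀ᶠ q in 𝓝 p, ∀ j, hh j q ∉ Kc := eventually_all.2 fun j =>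
      (contDiff_hh j).continuous.continuousAt.preimage_mem_nhds
        (isClosed_Kc.isOpen_compl.mem_nhds fun hk => h j (Kc_subset hk))
    filter_upwards [this] with q hq
    exact Or.inr ⟨hq _, hq _⟩

theorem local_model (hs : d.Std) (p : T) : ∃ i, ∀ᶠ q in 𝓝 p,
    (q ∈ GU d ↔ hh i q ∈ d.U) ∧ (q ∈ GU d → GPhi d q = d.Phi (hh i q)) := by
  obtain ⟨i, hi⟩ := local_chart p
  refine ⟨i, hi.mono fun q hq => ?_⟩
  rcases hq with hq | ⟨h1, h2⟩
  · subst hq
    exact ⟨Iff.rfl, fun _ => rfl⟩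
  · have e : q ∈ GU d ↔ q ∈ H3 := (std_mem hs h1).trans (hh_mem_H3 _ q)
    refine ⟨e.trans ((std_mem hs h2).trans (hh_mem_H3 _ q)).symm, fun hq => ?_⟩
    rw [GPhi, std_Phi hs h1 ((hh_mem_H3 _ q).2 (e.1 hq)),
      std_Phi hs h2 ((hh_mem_H3 _ q).2 (e.1 hq)), height_hh, height_hh]

/-- `Good.affine` and `Good.of_cover`. -/
theorem glue_good (hs : d.Std) {a K : ℝ} (hg : Good d.U d.Phi a K) :
    Good (GU d) (GPhi d) a K := by
  exact Good.of_cover (fun i => hg.affine (LI i) (bb i)) (local_model hs)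

theorem mem_GU_of_Oc {i : Fin 3} {p : T} (hi : hh i p ∈ Oc) : p ∈ GU d ↔ hh i p ∈ d.U := by
  rw [GU, mem_ofPred_eq, idx_eq hi]

theorem GPhi_eventually {p : T} (hp : p ∈ Oc) : GPhi d =ᶠ[𝓝 p] d.Phi := by
  filter_upwards [isOpen_Oc.mem_nhds hp] with q hq
  rw [GPhi, idx_eq (i := 0) (by rwa [hh_zero]), hh_zero]

end Crest.Agent.R245
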