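import Crest.Agent.R245.TJet

/-!
# Hartogs domains are diffeomorphic to `ℂ³` (task R245/HDiffeo)

`Sg ((a, b), w) = ((exp (Re a) + (|b|² + |w|²)/2 + i Im a, b), w)` maps `T` onto `H3`
(`yy - |w|² = 2 exp (Re a)`), with inverse `((log ((yy p.1 - |p.2|²)/2) + i Im p.1.1, p.1.2), p.2)`.
-/

set_option autoImplicit false

noncomputable section

namespace Crest.Agent.R245

open scoped ComplexConjugate ContDiff Topology
open Complex Set Filter

/-- Fibre scaling from `H3` to the Hartogs domain of `φ`. -/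
def Rm (φ : V → ℝ) (p : T) : T := (p.1, p.2 * (Real.exp ((tt p.1 - φ p.1) / 2) : ℝ))

/-- The inverse fibre scaling. -/
def Rinv (φ : V → ℝ) (p : T) : T := (p.1, p.2 * (Real.exp ((φ p.1 - tt p.1) / 2) : ℝ))

theorem isOpen_H3 : IsOpen H3 := by
  exact isOpen_lt (continuous_normSq.comp continuous_snd) (contDiff_yy.continuous.comp continuous_fst)

theorem H3_base {p : T} (hp : p ∈ H3) : p.1 ∈ H2 := by
  exact (normSq_nonneg _).trans_lt hp

theorem diffeo_H3 : Diffeo H3 := by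
  have hn : ContDiff ℝ ∞ fun z : ℂ => normSq z := by
    simp only [normSq_apply]
    exact (reCLM.contDiff.mul reCLM.contDiff).add (imCLM.contDiff.mul imCLM.contDiff)
  have hmk : ContDiff ℝ ∞ fun q : ℝ × ℝ => (⟨q.1, q.2⟩ : ℂ) := equivRealProdCLM.symm.contDiff
  have hre : ContDiff ℝ ∞ fun p : T => p.1.1.re := reCLM.contDiff.comp contDiff_fst.fst
  have him : ContDiff ℝ ∞ fun p : T => p.1.1.im := imCLM.contDiff.comp contDiff_fst.fst
  refine ⟨fun p => ((⟨Real.exp p.1.1.re + (normSq p.1.2 + normSq p.2) / 2, p.1.1.im⟩, p.1.2), p.2),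
    fun p => ((⟨Real.log ((yy p.1 - normSq p.2) / 2), p.1.1.im⟩, p.1.2), p.2), ?_, ?_, ?_, ?_⟩
  · refine ((hmk.comp (ContDiff.prodMk (hre.exp.add
      (((hn.comp contDiff_fst.snd).add (hn.comp contDiff_snd)).div_const 2)) him)).prodMk
      contDiff_fst.snd).prodMk contDiff_snd
  · refine ((hmk.comp_contDiffOn (ContDiffOn.prodMk (ContDiffOn.log
      (((contDiff_yy.comp contDiff_fst).sub (hn.comp contDiff_snd)).div_const 2).contDiffOn
      fun p hp => ?_) him.contDiffOn)).prodMk contDiff_fst.snd.contDiffOn).prodMk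
      contDiff_snd.contDiffOn
    have : normSq p.2 < yy p.1 := hp
    change (yy p.1 - normSq p.2) / 2 ≠ 0
    linarith
  · ext p
    constructor
    · rintro ⟨q, rfl⟩
      have := Real.exp_pos q.1.1.re
      simp only [H3, yy, mem_ofPred_eq]
      linarith
    · intro hp
      have : normSq p.2 < yy p.1 := hp
      refine ⟨((⟨Real.log ((yy p.1 - normSq p.2) / 2), p.1.1.im⟩, p.1.2), p.2), ?_⟩
      refine Prod.ext (Prod.ext (Complex.ext ?_ rfl) rfl) rfl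
      simp only
      rw [Real.exp_log (by linarith), yy]
      ring
  · intro p
    refine Prod.ext (Prod.ext (Complex.ext ?_ rfl) rfl) rfl
    simp only [yy]
    rw [← Real.log_exp p.1.1.re]
    congr 1
    rw [Real.log_exp]
    ring

theorem diffeo_of_H3 {U : Set T} {R R' : T → T} (hR : ContDiffOn ℝ ∞ R H3)
    (hR' : ContDiffOn ℝ ∞ R' U) (h1 : MapsTo R H3 U) (h2 : MapsTo R' U H3)
    (h3 : ∀ p ∈ H3, R' (R p) = p) (h4 : ∀ p ∈ U, R (R' p) = p) : Diffeo U := by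
  obtain ⟨Φ, Ψ, hΦ, hΨ, hr, hi⟩ := diffeo_H3
  have hm : ∀ x, Φ x ∈ H3 := fun x => hr ▸ mem_range_self x
  refine ⟨R ∘ Φ, Ψ ∘ R', hR.comp_contDiff hΦ hm, hΨ.comp hR' h2, ?_, fun x => ?_⟩
  · refine Subset.antisymm ?_ fun p hp => ?_
    · rintro _ ⟨x, rfl⟩
      exact h1 (hm x)
    · obtain ⟨x, hx⟩ : R' p ∈ range Φ := hr ▸ h2 hp
      exact ⟨x, by rw [Function.comp_apply, hx, h4 p hp]⟩
  · simp only [Function.comp_apply, h3 _ (hm x), hi]

theorem Rinv_Rm (φ : V → ℝ) (p : T) : Rinv φ (Rm φ p) = p := by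
  refine Prod.ext rfl ?_
  simp only [Rinv, Rm]
  rw [mul_assoc, ← ofReal_mul, ← Real.exp_add, show (tt p.1 - φ p.1) / 2 + (φ p.1 - tt p.1) / 2 = 0
    by ring, Real.exp_zero, ofReal_one, mul_one]

theorem Rm_Rinv (φ : V → ℝ) (p : T) : Rm φ (Rinv φ p) = p := by
  refine Prod.ext rfl ?_
  simp only [Rinv, Rm]
  rw [mul_assoc, ← ofReal_mul, ← Real.exp_add, show (φ p.1 - tt p.1) / 2 + (tt p.1 - φ p.1) / 2 = 0
    by ring, Real.exp_zero, ofReal_one, mul_one]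

theorem HDiffeo_key (φ : V → ℝ) {p : T} (hp : p.1 ∈ H2) :
    normSq (Rm φ p).2 * Real.exp (φ p.1) < 1 ↔ p ∈ H3 := by
  have h0 : 0 < yy p.1 := hp
  have e : normSq (Rm φ p).2 * Real.exp (φ p.1) = normSq p.2 / yy p.1 := by
    simp only [Rm]
    rw [normSq_mul, normSq_ofReal, mul_assoc, ← Real.exp_add, ← Real.exp_add,
      show (tt p.1 - φ p.1) / 2 + (tt p.1 - φ p.1) / 2 + φ p.1 = tt p.1 by ring, tt, Real.exp_neg,
      Real.exp_log h0, div_eq_mul_inv]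
  rw [e, div_lt_one h0]
  rfl

theorem Rm_mem (d : HData) {p : T} (hp : p ∈ H3) : Rm d.ph p ∈ d.U := by
  exact ⟨H3_base (p := p) hp, (HDiffeo_key d.ph (H3_base hp)).2 hp⟩

theorem Rinv_mem (d : HData) {p : T} (hp : p ∈ d.U) : Rinv d.ph p ∈ H3 := by
  refine (HDiffeo_key d.ph (p := Rinv d.ph p) hp.1).1 ?_
  rw [Rm_Rinv]
  exact hp.2

theorem contDiffAt_Rm {φ : V → ℝ} (h : ContDiffOn ℝ ∞ φ H2) {p : T} (hp : p.1 ∈ H2) :
    ContDiffAt ℝ ∞ (Rm φ) p := by
  have h1 : ContDiffAt ℝ ∞ (fun q : T => φ q.1) p :=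
    (h.contDiffAt (isOpen_H2.mem_nhds hp)).comp p contDiffAt_fst
  have h2 : ContDiffAt ℝ ∞ (fun q : T => tt q.1) p :=
    (contDiffOn_tt.contDiffAt (isOpen_H2.mem_nhds hp)).comp p contDiffAt_fst
  exact contDiffAt_fst.prodMk (contDiffAt_snd.mul
    (ofRealCLM.contDiff.contDiffAt.comp p ((h2.sub h1).div_const 2).exp))

theorem contDiffAt_Rinv {φ : V → ℝ} (h : ContDiffOn ℝ ∞ φ H2) {p : T} (hp : p.1 ∈ H2) :
    ContDiffAt ℝ ∞ (Rinv φ) p := by
  have h1 : ContDiffAt ℝ ∞ (fun q : T => φ q.1) p :=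
    (h.contDiffAt (isOpen_H2.mem_nhds hp)).comp p contDiffAt_fst
  have h2 : ContDiffAt ℝ ∞ (fun q : T => tt q.1) p :=
    (contDiffOn_tt.contDiffAt (isOpen_H2.mem_nhds hp)).comp p contDiffAt_fst
  exact contDiffAt_fst.prodMk (contDiffAt_snd.mul
    (ofRealCLM.contDiff.contDiffAt.comp p ((h1.sub h2).div_const 2).exp))

theorem HData.diffeo (d : HData) (h : ContDiffOn ℝ ∞ d.ph H2) : Diffeo d.U := by
  exact diffeo_of_H3 (R := Rm d.ph) (R' := Rinv d.ph)
    (fun p hp => (contDiffAt_Rm h (H3_base hp)).contDiffWithinAt)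
    (fun p hp => (contDiffAt_Rinv h hp.1).contDiffWithinAt) (fun p hp => Rm_mem d hp)
    (fun p hp => Rinv_mem d hp) (fun p _ => Rinv_Rm _ p) fun p _ => Rm_Rinv _ p

end Crest.Agent.R245
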