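import Crest.Agent.R245.HartLoc
import Crest.Agent.R245.Transport

/-!
# The Hartogs domain is good (task R245/Hart)

At `p = (z, w) ∈ d.U` use the linear equivalence `Lz = LL z × id` of `T` (`LL_bijective`):
`(d.nz z).Phi = fun q => d.Phi ((z, 0) + Lz q)` (by `rfl`/`simp`), so `jet_affine`,
`jet_affine_N`, `jet_affine_Den` and the chain rule transport `hart_loc` from `(0, w)` to `p`
(`pos` first: from the first conclusion of `hart_loc`).
`low`: `Phi ≤ L` gives `P0 ≤ L` (`c F ≥ 0`), `y ≥ y0`, `c ≥ e^{-C}`, `e^{-ph} ≤ e^C y ≤ 2 e^C ‖p‖`,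
and `‖LL z u‖ ≤ 4 (1 + ‖z‖) ‖u‖`.
`closed`: if `p_k → p` with `Phi p_k ≤ L`, then `yy p.1 ≥ y0 > 0`, so `P0, c, ph` are continuous at
`p.1`; `c F ≤ L - P0` gives `1 - E p_k ≥ exp (-(L - P0)/c)`, which passes to the limit; so `p ∈ U`,
and `Phi` is continuous at `p`.
-/

set_option autoImplicit false

noncomputable section

namespace Crest.Agent.R245

open scoped ComplexConjugate ContDiff Topology
open Complex Set Filter

theorem HData.isOpen_U {d : HData} (h : ContDiffOn ℝ ∞ d.ph H2) : IsOpen d.U := by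
  have h1 : IsOpen (Prod.fst ⁻¹' H2 : Set T) := isOpen_H2.preimage continuous_fst
  have h2 : ContinuousOn (fun p : T => normSq p.2 * Real.exp (d.ph p.1)) (Prod.fst ⁻¹' H2) :=
    (continuous_normSq.comp continuous_snd).continuousOn.mul
      (Real.continuous_exp.comp_continuousOn
        (h.continuousOn.comp continuous_fst.continuousOn fun p hp => hp))
  exact h2.isOpen_inter_preimage h1 (isOpen_Iio (a := (1 : ℝ)))

/-- The normalising linear equivalence of `T`. -/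
def hartL {z : V} (hz : z ∈ H2) : T ≃L[ℂ] T :=
  ((LinearEquiv.ofBijective (LL z : V →ₗ[ℂ] V) (LL_bijective hz)).toContinuousLinearEquiv).prodCongr
    (ContinuousLinearEquiv.refl ℂ ℂ)

theorem hartL_apply {z : V} (hz : z ∈ H2) (X : T) : hartL hz X = (LL z X.1, X.2) := rfl

theorem hartL_base {z : V} (hz : z ∈ H2) (w : ℂ) :
    ((z, 0) : T) + hartL hz (0, w) = (z, w) := by
  simp [hartL_apply]

theorem hartL_Phi (d : HData) {z : V} (hz : z ∈ H2) :
    (d.nz z).Phi = fun q => d.Phi ((z, 0) + hartL hz q) := by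
  funext q
  simp [HData.Phi, HData.nz, nz, FF, hartL_apply]

theorem HData.Adm.c_pos {d : HData} {C1 K0 δ0 : ℝ} (h : d.Adm C1 K0 δ0) {z : V} (hz : z ∈ H2) :
    0 < d.c z := by
  obtain ⟨β, C, hl⟩ := h.loc z hz
  have := hl.c_pos
  rwa [show (d.nz z).c 0 = d.c z from nz_zero _ _] at this

theorem HData.Adm.sm_Phi {d : HData} {C1 K0 δ0 : ℝ} (h : d.Adm C1 K0 δ0) {p : T}
    (hp : p ∈ d.U) : Sm d.Phi p :=
  (Sm.fst (Sm.of_contDiffOn isOpen_H2 h.smP hp.1)).add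
    ((Sm.fst (Sm.of_contDiffOn isOpen_H2 h.smc hp.1)).rmul
      (sm_FF (z := p.1) (w := p.2) (Sm.of_contDiffOn isOpen_H2 h.smph hp.1) hp.2))

theorem HData.Adm.P0_le {d : HData} {C1 K0 δ0 : ℝ} (h : d.Adm C1 K0 δ0) {p : T}
    (hp : p ∈ d.U) : d.P0 p.1 ≤ d.Phi p := by
  have h1 := hp.2
  have h2 : 0 ≤ normSq p.2 * Real.exp (d.ph p.1) := mul_nonneg (normSq_nonneg _) (Real.exp_pos _).le
  have h3 := Real.log_nonpos (x := 1 - normSq p.2 * Real.exp (d.ph p.1)) (by linarith) (by linarith)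
  have h4 : 0 ≤ d.c p.1 * FF d.ph p := mul_nonneg (h.c_pos hp.1).le (by unfold FF; linarith)
  unfold HData.Phi
  linarith

theorem HData.Adm.closed {d : HData} {C1 K0 δ0 : ℝ} (h : d.Adm C1 K0 δ0) (hP : d.Proper) (L : ℝ) :
    IsClosed {p | p ∈ d.U ∧ d.Phi p ≤ L} := by
  obtain ⟨y0, hy0, hy⟩ := hP.height L
  have hA : IsClosed {q : T | y0 ≤ yy q.1} :=
    isClosed_le continuous_const (contDiff_yy.continuous.comp continuous_fst)
  have hsub : ∀ q ∈ {q : T | y0 ≤ yy q.1}, q.1 ∈ H2 := fun q hq => hy0.trans_le hq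
  have cf : ∀ {f : V → ℝ}, ContDiffOn ℝ ∞ f H2 →
      ContinuousOn (fun q : T => f q.1) {q : T | y0 ≤ yy q.1} := fun hf =>
    hf.continuousOn.comp continuous_fst.continuousOn hsub
  have hg : ContinuousOn (fun q : T => 1 - normSq q.2 * Real.exp (d.ph q.1) -
      Real.exp (-((L - d.P0 q.1) / d.c q.1))) {q : T | y0 ≤ yy q.1} :=
    (continuousOn_const.sub ((continuous_normSq.comp continuous_snd).continuousOn.mul
      (Real.continuous_exp.comp_continuousOn (cf h.smph)))).sub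
      (Real.continuous_exp.comp_continuousOn (((continuousOn_const.sub (cf h.smP)).div
        (cf h.smc) fun q hq => (h.c_pos (hsub q hq)).ne').neg))
  have key : ∀ q : T, q ∈ d.U → (d.Phi q ≤ L ↔
      Real.exp (-((L - d.P0 q.1) / d.c q.1)) ≤ 1 - normSq q.2 * Real.exp (d.ph q.1)) := by
    intro q hq
    have h1 : 0 < 1 - normSq q.2 * Real.exp (d.ph q.1) := sub_pos.mpr hq.2
    rw [← Real.le_log_iff_exp_le h1, neg_le, le_div_iff₀ (h.c_pos hq.1)]
    unfold HData.Phi FF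
    constructor <;> intro <;> linarith
  convert hg.preimage_isClosed_of_isClosed hA (isClosed_Ici (a := (0 : ℝ))) using 1
  ext q
  simp only [mem_ofPred_eq, mem_inter_iff, mem_preimage, mem_Ici, sub_nonneg]
  constructor
  · rintro ⟨hq, hle⟩
    exact ⟨hy _ hq.1 ((h.P0_le hq).trans hle), (key q hq).mp hle⟩
  · rintro ⟨hq, hle⟩
    have hU : q ∈ d.U := ⟨hsub q hq, by linarith [Real.exp_pos (-((L - d.P0 q.1) / d.c q.1))]⟩
    exact ⟨hU, (key q hU).mpr hle⟩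

theorem hart_good (C1 : ℝ) (hC1 : 0 ≤ C1) : ∃ K0 δ0 K : ℝ, 1 ≤ K0 ∧ 0 < δ0 ∧ 0 < K ∧
    ∀ d : HData, d.Adm C1 K0 δ0 → d.Proper → Good d.U d.Phi (1 / 100) K ∧
      (∀ p ∈ d.U, ∀ X Y, -(jet d.Phi p).N X Y ≤ K / d.c p.1 ^ 7 * (jet d.Phi p).Den X Y) ∧
      (∀ p ∈ d.U, 0 < (jet d.Phi p).Den (0, 1) (0, I) ∧
        (jet d.Phi p).Den (0, 1) (0, I) / d.c p.1 ≤ -(jet d.Phi p).N (0, 1) (0, I)) := by
  obtain ⟨K0, δ0, K, hK0, hδ0, hK, hloc⟩ := hart_loc C1 hC1
  refine ⟨K0, δ0, K, hK0, hδ0, hK, fun d h hP => ?_⟩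
  -- transported local statement
  have main : ∀ (p : T) (hp : p ∈ d.U),
      (∀ X : T, d.c p.1 * (‖X.1‖ ^ 2 + Real.exp (d.ph p.1) * normSq X.2) ≤
        K * ((jet d.Phi p).H (hartL hp.1 X) (hartL hp.1 X)).re) ∧ (jet d.Phi p).Pos ∧
      (∀ X Y, 1 / 100 * (jet d.Phi p).Den X Y ≤ -(jet d.Phi p).N X Y) ∧
      (∀ X Y, -(jet d.Phi p).N X Y ≤ K / d.c p.1 ^ 7 * (jet d.Phi p).Den X Y) ∧
      (0 < (jet d.Phi p).Den (0, 1) (0, I) ∧
        (jet d.Phi p).Den (0, 1) (0, I) / d.c p.1 ≤ -(jet d.Phi p).N (0, 1) (0, I)) ∧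
      (∀ X, (fderiv ℝ d.Phi p X) ^ 2 ≤ K * ((jet d.Phi p).H X X).re) := by
    rintro ⟨z, w⟩ hp
    have hz : z ∈ H2 := hp.1
    obtain ⟨β, C, hl⟩ := h.loc z hz
    have ec : (d.nz z).c 0 = d.c z := nz_zero _ _
    have eph : (d.nz z).ph 0 = d.ph z := nz_zero _ _
    obtain ⟨l1, l2, l3, l4, l5⟩ := hloc (d.nz z) β C w hl (by rw [eph]; exact hp.2)
    rw [ec] at l1 l3 l4
    rw [eph] at l1
    rw [hartL_Phi d hz] at l1 l2 l3 l4 l5
    have eb := hartL_base hz w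
    have hs : Sm d.Phi ((z, 0) + hartL hz (0, w)) := by rw [eb]; exact h.sm_Phi hp
    have hH : ∀ X : T, (jet (fun q => d.Phi ((z, 0) + hartL hz q)) (0, w)).H X X =
        (jet d.Phi (z, w)).H (hartL hz X) (hartL hz X) := fun X => by
      have := congrArg (fun J : Jet T => J.H X X)
        (jet_affine (hartL hz : T →L[ℂ] T) (z, 0) (q := (0, w)) hs)
      rw [← eb]
      exact this
    simp only [hH] at l1 l5
    have hc := h.c_pos hz
    have hpos : (jet d.Phi (z, w)).Pos := by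
      intro X hX
      obtain ⟨Y, rfl⟩ := (hartL hz).surjective X
      have hY : Y ≠ 0 := fun h0 => hX (by rw [h0, map_zero])
      have h1 : 0 < ‖Y.1‖ ^ 2 + Real.exp (d.ph z) * normSq Y.2 := by
        by_cases h2 : Y.1 = 0
        · have h3 : Y.2 ≠ 0 := fun h3 => hY (Prod.ext h2 h3)
          have h4 := normSq_pos.mpr h3
          positivity
        · have h3 := norm_pos_iff.mpr h2
          have h4 := normSq_nonneg Y.2
          positivity
      exact (mul_pos_iff_of_pos_left hK).mp ((mul_pos hc h1).trans_le (l1 Y))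
    have hN : ∀ X Y : T, (jet (fun q => d.Phi ((z, 0) + hartL hz q)) (0, w)).N X Y =
        (jet d.Phi (z, w)).N (hartL hz X) (hartL hz Y) := fun X Y => by
      rw [jet_affine_N (hartL hz) (z, 0) hs (by rw [eb]; exact hpos), eb]
    have hD : ∀ X Y : T, (jet (fun q => d.Phi ((z, 0) + hartL hz q)) (0, w)).Den X Y =
        (jet d.Phi (z, w)).Den (hartL hz X) (hartL hz Y) := fun X Y => by
      rw [jet_affine_Den (hartL hz) (z, 0) hs, eb]
    simp only [hN, hD] at l2 l3 l4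
    have ev : ∀ t : ℂ, hartL hz (0, t) = (0, t) := fun t => by simp [hartL_apply]
    rw [ev, ev] at l4
    refine ⟨l1, hpos, fun X Y => ?_, fun X Y => ?_, l4, fun X => ?_⟩
    · obtain ⟨X, rfl⟩ := (hartL hz).surjective X
      obtain ⟨Y, rfl⟩ := (hartL hz).surjective Y
      exact l2 X Y
    · obtain ⟨X, rfl⟩ := (hartL hz).surjective X
      obtain ⟨Y, rfl⟩ := (hartL hz).surjective Y
      exact l3 X Y
    · obtain ⟨X, rfl⟩ := (hartL hz).surjective X
      have h1 : HasFDerivAt (fun x : T => ((z, 0) : T) + hartL hz x)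
          ((hartL hz : T →L[ℂ] T).restrictScalars ℝ) (0, w) :=
        ((hartL hz : T →L[ℂ] T).restrictScalars ℝ).hasFDerivAt.const_add _
      have h2 := (hs.differentiableAt.hasFDerivAt.comp (0, w) h1).fderiv
      have h3 : fderiv ℝ (fun x => d.Phi ((z, 0) + hartL hz x)) (0, w) X =
          fderiv ℝ d.Phi ((z, 0) + hartL hz (0, w)) (hartL hz X) :=
        congrArg (fun A : T →L[ℝ] ℝ => A X) h2
      rw [eb] at h3
      rw [← h3]
      exact l5 X
  refine ⟨⟨HData.isOpen_U h.smph, fun p hp => (h.sm_Phi hp).contDiffAt.contDiffWithinAt,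
    fun p hp => (main p hp).2.1, fun p hp => (main p hp).2.2.1,
    fun p hp => (main p hp).2.2.2.2.2, fun L => ?_, h.closed hP⟩,
    fun p hp => (main p hp).2.2.2.1, fun p hp => (main p hp).2.2.2.2.1⟩
  obtain ⟨y0, hy0, hy⟩ := hP.height L
  obtain ⟨C, hC⟩ := hP.cmp y0 hy0
  refine ⟨1 / ((32 + Real.exp C) * Real.exp C * K), by positivity, fun p hp hle ξ => ?_⟩
  obtain ⟨X, rfl⟩ := (hartL hp.1).surjective ξ
  obtain ⟨c1, c2⟩ := hC p.1 (hy _ hp.1 ((h.P0_le hp).trans hle))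
  have l1 := (main p hp).1 X
  set Hh := ((jet d.Phi p).H (hartL hp.1 X) (hartL hp.1 X)).re
  set S := ‖X.1‖ ^ 2 + Real.exp (d.ph p.1) * normSq X.2 with hS
  have hE := Real.exp_pos C
  have hE' := Real.exp_pos (d.ph p.1)
  have n2 := normSq_nonneg X.2
  have hS1 : ‖X.1‖ ^ 2 ≤ S := by rw [hS]; nlinarith
  have hS2 : Real.exp (d.ph p.1) * normSq X.2 ≤ S := by rw [hS]; nlinarith [sq_nonneg ‖X.1‖]
  have hS0 : 0 ≤ S := (sq_nonneg _).trans hS1
  have hz : ‖p.1‖ ≤ ‖p‖ := norm_fst_le p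
  have hp0 : 0 < 1 + ‖p‖ ^ 2 := by positivity
  have a1 : ‖LL p.1 X.1‖ ^ 2 ≤ 32 * (1 + ‖p‖ ^ 2) * S := by
    have h1 := pow_le_pow_left₀ (norm_nonneg _) (norm_LL_le hp.1 X.1) 2
    have h2 : (1 + ‖p.1‖) ^ 2 ≤ 2 * (1 + ‖p‖ ^ 2) := by
      nlinarith [norm_nonneg p.1, sq_nonneg (1 - ‖p‖)]
    calc ‖LL p.1 X.1‖ ^ 2 ≤ 16 * ((1 + ‖p.1‖) ^ 2 * ‖X.1‖ ^ 2) := by linarith
      _ ≤ 16 * (2 * (1 + ‖p‖ ^ 2) * S) :=
          mul_le_mul_of_nonneg_left (mul_le_mul h2 hS1 (sq_nonneg _) (by positivity)) (by norm_num)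
      _ = _ := by ring
  have a2 : normSq X.2 ≤ Real.exp C * (1 + ‖p‖ ^ 2) * S := by
    have hy1 : 0 < yy p.1 := hp.1
    have h1 : 1 ≤ Real.exp C * yy p.1 * Real.exp (d.ph p.1) := by
      rw [← Real.exp_log hy1, ← Real.exp_add, ← Real.exp_add]
      refine Real.one_le_exp ?_
      unfold tt at c2
      linarith
    have h2 : yy p.1 ≤ 1 + ‖p‖ ^ 2 := by
      nlinarith [yy_le p.1, sq_nonneg (1 - ‖p‖)]
    calc normSq X.2 ≤ Real.exp C * yy p.1 * Real.exp (d.ph p.1) * normSq X.2 :=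
          le_mul_of_one_le_left n2 h1
      _ = Real.exp C * (yy p.1 * (Real.exp (d.ph p.1) * normSq X.2)) := by ring
      _ ≤ Real.exp C * ((1 + ‖p‖ ^ 2) * S) :=
          mul_le_mul_of_nonneg_left (mul_le_mul h2 hS2 (by positivity) hp0.le) hE.le
      _ = _ := by ring
  have a3 : ‖hartL hp.1 X‖ ^ 2 ≤ ‖LL p.1 X.1‖ ^ 2 + normSq X.2 := by
    rw [hartL_apply, Prod.norm_def, normSq_eq_norm_sq]
    rcases le_total ‖LL p.1 X.1‖ ‖X.2‖ with h1 | h1
    · rw [max_eq_right h1]; nlinarith [sq_nonneg ‖LL p.1 X.1‖]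
    · rw [max_eq_left h1]; nlinarith [sq_nonneg ‖X.2‖]
  have a4 : S ≤ Real.exp C * (K * Hh) := by
    have h1 : Real.exp C * Real.exp (-C) = 1 := by rw [← Real.exp_add]; simp
    calc S = Real.exp C * (Real.exp (-C) * S) := by rw [← mul_assoc, h1, one_mul]
      _ ≤ Real.exp C * (K * Hh) :=
          mul_le_mul_of_nonneg_left ((mul_le_mul_of_nonneg_right c1 hS0).trans l1) hE.le
  rw [div_mul_eq_mul_div, one_mul, div_le_iff₀ (by positivity)]
  calc ‖hartL hp.1 X‖ ^ 2 ≤ (32 + Real.exp C) * (1 + ‖p‖ ^ 2) * S := by linarith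
    _ ≤ (32 + Real.exp C) * (1 + ‖p‖ ^ 2) * (Real.exp C * (K * Hh)) :=
        mul_le_mul_of_nonneg_left a4 (by positivity)
    _ = _ := by ring

end Crest.Agent.R245
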