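import Crest.Agent.R245.AlgPert

/-!
# Hartogs jets: basic identities and size bounds (task R245/HartAlg0)

`p : HP` is the algebraic data at a point `(0, w)`; `s = |w|² ψ < 1`, `m = 1/(1-s) = 1 + n`,
`x = c n`, `Θ = c n m = x + x²/c = |κ|²`, `ρ² = c ψ m²`, `r = ρ Λ`, `κ = ρ w`, `ℓ = ρ L`.
-/

set_option autoImplicit false

noncomputable section

namespace Crest.Agent.R245

open scoped ComplexConjugate
open Complex

namespace HP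

variable {p : HP} {C1 K0 β C : ℝ}

namespace OK

variable (h : p.OK C1 K0 β C)
include h

theorem c_le_one : p.c ≤ 1 := by
  exact h.c_le.trans h.β_le
theorem β_pos : 0 < β := by
  exact h.c_pos.trans_le h.c_le
theorem m_pos : 0 < p.m := by
  have := h.s_lt
  exact one_div_pos.mpr (by linarith)
theorem m_eq : p.m = 1 + p.n := by
  have h1 : 1 - normSq p.w * p.ψ ≠ 0 := by have := h.s_lt; linarith
  unfold n m
  field_simp
  ring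
theorem n_nonneg : 0 ≤ p.n := by
  exact mul_nonneg (mul_nonneg (normSq_nonneg _) h.ψ_pos.le) h.m_pos.le
theorem x_nonneg : 0 ≤ p.x := by
  exact mul_nonneg h.c_pos.le h.n_nonneg
theorem m_le : p.m ≤ (1 + p.x) / p.c := by
  rw [le_div_iff₀ h.c_pos, h.m_eq]
  have := h.c_le_one
  unfold x
  nlinarith
theorem Θ_eq : p.Θ = p.x + p.x ^ 2 / p.c := by
  have := h.c_pos.ne'
  unfold Θ x
  rw [h.m_eq]
  field_simp
theorem two_n : 1 + 2 * p.n = 1 + 2 * p.x / p.c := by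
  have := h.c_pos.ne'
  unfold x
  field_simp
theorem ρ_pos : 0 < p.ρ := by
  exact mul_pos (Real.sqrt_pos.mpr (mul_pos h.c_pos h.ψ_pos)) h.m_pos
theorem ρ_sq : p.ρ ^ 2 = p.c * p.ψ * p.m ^ 2 := by
  unfold ρ
  rw [mul_pow, Real.sq_sqrt (mul_pos h.c_pos h.ψ_pos).le]
theorem normSq_κ : normSq p.κ = p.Θ := by
  have h1 := h.ρ_sq
  unfold κ
  rw [normSq_mul, normSq_ofReal, ← sq, h1]
  unfold Θ n
  ring
theorem norm_κ_le : ‖p.κ‖ ≤ p.m := by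
  have h1 : ‖p.κ‖ ^ 2 ≤ p.m ^ 2 := by
    rw [← normSq_eq_norm_sq, h.normSq_κ]
    unfold Θ
    have h2 := h.m_eq
    have h3 := h.n_nonneg
    have h4 := h.c_le_one
    have h5 := h.m_pos
    have h6 : p.c * p.n ≤ p.m := by nlinarith
    nlinarith
  exact (sq_le_sq₀ (norm_nonneg _) h.m_pos.le).mp h1
theorem r_add (X Y : T) : p.r (X + Y) = p.r X + p.r Y := by
  simp only [r, Λ, Prod.fst_add, Prod.snd_add, h.f1_add]
  ring
theorem r_smul (t : ℂ) (X : T) : p.r (t • X) = t * p.r X := by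
  simp only [r, Λ, Prod.smul_fst, Prod.smul_snd, h.f1_smul, smul_eq_mul]
  ring
theorem exists_r (a : V) (t : ℂ) : ∃ X : T, X.1 = a ∧ p.r X = t := by
  have h1 : (p.ρ : ℂ) ≠ 0 := ofReal_ne_zero.mpr h.ρ_pos.ne'
  refine ⟨(a, t / p.ρ - p.w * p.f1 a), rfl, ?_⟩
  simp only [r, Λ]
  field_simp
  ring
theorem r_vert (t : ℂ) : p.r (0, t) = p.ρ * t := by
  have h0 : p.f1 0 = 0 := by simpa using h.f1_smul 0 0
  simp only [r, Λ, h0]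
  ring
theorem G_good : p.G.Good := by
  exact h.g0.add (h.gp.smul _)

theorem ρ_sq_c : (p.ρ : ℂ) ^ 2 = p.c * p.ψ * p.m ^ 2 := by
  exact_mod_cast h.ρ_sq

/-- Use `(ρ : ℂ) ^ 2 = c ψ m²` and `conj (ρ : ℂ) = ρ`. -/
theorem J_H (X Y : T) : p.J.H X Y = p.G.H X.1 Y.1 + p.r X * conj (p.r Y) := by
  have h1 := h.ρ_sq_c
  simp only [J, G, FJ, r, x, Jet.add_H, Jet.smul_H, Jet.comap_H, map_mul, conj_ofReal,
    ofReal_mul]
  linear_combination (-(p.Λ X * conj (p.Λ Y))) * h1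

theorem J_A (X Y Z : T) : p.J.A X Y Z = p.G.A X.1 Y.1 Z.1 +
    conj p.κ * (p.r Y * p.Jp.H X.1 Z.1 + p.r X * p.Jp.H Y.1 Z.1) + p.ℓ X Y * conj (p.r Z) := by
  have h1 := h.ρ_sq_c
  simp only [J, G, FJ, r, x, κ, ℓ, Jet.add_A, Jet.smul_A, Jet.comap_A, map_mul, conj_ofReal,
    ofReal_mul]
  linear_combination (-(conj p.w * (p.Λ Y * p.Jp.H X.1 Z.1 + p.Λ X * p.Jp.H Y.1 Z.1) +
    p.L X Y * conj (p.Λ Z))) * h1

theorem J_Q (X Y Z U : T) : p.J.Q X Y Z U = p.G.Q X.1 Y.1 Z.1 U.1 +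
    p.κ * (p.Jp.A X.1 Y.1 Z.1 * conj (p.r U) + p.Jp.A X.1 Y.1 U.1 * conj (p.r Z)) +
    conj p.κ * (conj (p.Jp.A Z.1 U.1 X.1) * p.r Y + conj (p.Jp.A Z.1 U.1 Y.1) * p.r X) +
    p.Θ * (p.Jp.H X.1 Z.1 * p.Jp.H Y.1 U.1 + p.Jp.H X.1 U.1 * p.Jp.H Y.1 Z.1) +
    p.ℓ X Y * conj (p.ℓ Z U) +
    (1 + 2 * p.n) *
      (p.Jp.H X.1 Z.1 * p.r Y * conj (p.r U) + p.Jp.H X.1 U.1 * p.r Y * conj (p.r Z) +
        p.Jp.H Y.1 Z.1 * p.r X * conj (p.r U) + p.Jp.H Y.1 U.1 * p.r X * conj (p.r Z)) +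
    2 / p.c * p.r X * p.r Y * conj (p.r Z) * conj (p.r U) := by
  have h1 := h.ρ_sq_c
  have hc : (p.c : ℂ) ≠ 0 := ofReal_ne_zero.mpr h.c_pos.ne'
  have h4 : 2 / (p.c : ℂ) * (p.ρ : ℂ) ^ 4 = 2 * p.c * p.ψ ^ 2 * p.m ^ 4 := by
    rw [show (p.ρ : ℂ) ^ 4 = ((p.ρ : ℂ) ^ 2) ^ 2 by ring, h1]
    field_simp
  simp only [J, G, FJ, r, x, κ, ℓ, Θ, Jet.add_Q, Jet.smul_Q, Jet.comap_Q, map_mul, conj_ofReal,
    ofReal_mul]
  linear_combination (-(p.w * (p.Jp.A X.1 Y.1 Z.1 * conj (p.Λ U) +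
      p.Jp.A X.1 Y.1 U.1 * conj (p.Λ Z)) +
    conj p.w * (conj (p.Jp.A Z.1 U.1 X.1) * p.Λ Y + conj (p.Jp.A Z.1 U.1 Y.1) * p.Λ X) +
    p.L X Y * conj (p.L Z U) +
    (1 + 2 * p.n) *
      (p.Jp.H X.1 Z.1 * p.Λ Y * conj (p.Λ U) + p.Jp.H X.1 U.1 * p.Λ Y * conj (p.Λ Z) +
        p.Jp.H Y.1 Z.1 * p.Λ X * conj (p.Λ U) + p.Jp.H Y.1 U.1 * p.Λ X * conj (p.Λ Z)))) * h1 -
    (p.Λ X * p.Λ Y * conj (p.Λ Z) * conj (p.Λ U)) * h4

/-- From `b0`, `tJet_low`. -/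
theorem J0_cmp (a : V) : (1 - 1 / 100000) * β * (tJet.H a a).re ≤ (p.J0.H a a).re ∧
    (p.J0.H a a).re ≤ (1 + 1 / 100000) * β * (tJet.H a a).re := by
  have h1 := abs_le.mp ((abs_re_le_norm _).trans (h.b0.H a a))
  simp only [Jet.sub_H, Jet.smul_H, sub_re, re_ofReal_mul] at h1
  have h2 := tJet_low a
  have h3 := h.β_pos
  have h4 : β * (‖a‖ * ‖a‖) ≤ β * (tJet.H a a).re :=
    mul_le_mul_of_nonneg_left (by nlinarith) h3.le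
  constructor <;> nlinarith [h1.1, h1.2]

theorem J0_low (a : V) : β / 2 * ‖a‖ ^ 2 ≤ (p.J0.H a a).re := by
  have h1 := (h.J0_cmp a).1
  have h2 := tJet_low a
  have h3 := h.β_pos
  have h4 : β * ‖a‖ ^ 2 ≤ β * (tJet.H a a).re := mul_le_mul_of_nonneg_left h2 h3.le
  have h5 : 0 ≤ β * ‖a‖ ^ 2 := by positivity
  nlinarith

theorem Jp_le (a : V) : (p.Jp.H a a).re ≤ (1 + 2 * C) * (p.J0.H a a).re := by
  have h1 := abs_le.mp ((abs_re_le_norm _).trans (h.bp.H a a))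
  simp only [Jet.sub_H, sub_re] at h1
  have h2 := h.J0_low a
  have h3 := mul_le_mul_of_nonneg_left h2 h.C_nonneg
  nlinarith [h1.2]

theorem J0_pos : p.J0.Pos := by
  intro a ha
  have h1 := h.β_pos
  have h2 : 0 < ‖a‖ := norm_pos_iff.mpr ha
  exact lt_of_lt_of_le (by positivity) (h.J0_low a)

theorem Jp_pos : p.Jp.Pos := by
  intro a ha
  exact (h.J0_pos a ha).trans_le (h.psh a)

theorem G_low (a : V) : β / 2 * (1 + p.x) * ‖a‖ ^ 2 ≤ (p.G.H a a).re := by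
  simp only [G, Jet.add_H, Jet.smul_H, add_re, re_ofReal_mul]
  have h1 := h.J0_low a
  have h2 := mul_le_mul_of_nonneg_left (h1.trans (h.psh a)) h.x_nonneg
  nlinarith

theorem G_pos : p.G.Pos := by
  intro a ha
  have h1 := h.β_pos
  have h2 : 0 < ‖a‖ := norm_pos_iff.mpr ha
  have h3 := h.x_nonneg
  exact lt_of_lt_of_le (by positivity) (h.G_low a)

theorem J0_bd : p.J0.Bd (fun a => ‖a‖) (17 * β) := by
  have h1 : p.J0 = (p.J0 - β • tJet) + β • tJet := by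
    ext <;> simp
  have h2 := h.β_pos
  rw [h1]
  exact (h.b0.add (tJet_bd.smul h2.le)).mono (fun a => norm_nonneg a) (by linarith)

theorem Jp_bd : p.Jp.Bd (fun a => ‖a‖) ((17 + C) * β) := by
  have h1 : p.Jp = (p.Jp - p.J0) + p.J0 := by
    ext <;> simp
  rw [h1]
  exact (h.bp.add h.J0_bd).mono (fun a => norm_nonneg a) (by linarith)

theorem G_bd : p.G.Bd (fun a => ‖a‖) ((1 + p.x) * ((17 + C) * β)) := by
  have h1 := h.β_pos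
  have h2 := h.C_nonneg
  have h3 : 0 ≤ C * β := by positivity
  exact (h.J0_bd.add (h.Jp_bd.smul h.x_nonneg)).mono (fun a => norm_nonneg a) (by linarith)

theorem H_low (X : T) : β / 2 * (1 + p.x) * ‖X.1‖ ^ 2 + ‖p.r X‖ ^ 2 ≤ (p.J.H X X).re := by
  rw [h.J_H, add_re, mul_conj, ofReal_re, normSq_eq_norm_sq]
  have := h.G_low X.1
  linarith

theorem μ_nonneg (X : T) : 0 ≤ p.μ X := by
  unfold μ
  positivity

theorem norm_le_μ (X : T) : ‖X.1‖ ≤ p.μ X := by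
  have h1 : 1 ≤ √(1 + p.x) := Real.one_le_sqrt.mpr (by linarith [h.x_nonneg])
  have h2 := mul_le_mul_of_nonneg_right h1 (norm_nonneg X.1)
  have h3 := norm_nonneg (p.r X)
  unfold μ
  linarith

theorem r_le_μ (X : T) : ‖p.r X‖ ≤ p.μ X := by
  have h1 : 0 ≤ √(1 + p.x) * ‖X.1‖ := by positivity
  unfold μ
  linarith

theorem norm_mul_le_μ (X Y : T) : (1 + p.x) * (‖X.1‖ * ‖Y.1‖) ≤ p.μ X * p.μ Y := by
  have h0 : √(1 + p.x) * √(1 + p.x) = 1 + p.x := Real.mul_self_sqrt (by linarith [h.x_nonneg])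
  have h1 : ∀ Z : T, √(1 + p.x) * ‖Z.1‖ ≤ p.μ Z := fun Z => by
    have := norm_nonneg (p.r Z)
    unfold μ
    linarith
  calc (1 + p.x) * (‖X.1‖ * ‖Y.1‖) = (√(1 + p.x) * ‖X.1‖) * (√(1 + p.x) * ‖Y.1‖) := by
        rw [mul_mul_mul_comm, h0]
    _ ≤ p.μ X * p.μ Y := mul_le_mul (h1 X) (h1 Y) (by positivity) (h.μ_nonneg X)

theorem μ_low (X : T) : p.c / 4 * p.μ X ^ 2 ≤ (p.J.H X X).re := by
  refine le_trans ?_ (h.H_low X)
  have h0 : √(1 + p.x) ^ 2 = 1 + p.x := Real.sq_sqrt (by linarith [h.x_nonneg])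
  have h1 : p.μ X ^ 2 ≤ 2 * ((1 + p.x) * ‖X.1‖ ^ 2) + 2 * ‖p.r X‖ ^ 2 := by
    unfold μ
    rw [← h0, Real.sqrt_sq (Real.sqrt_nonneg _)]
    nlinarith [sq_nonneg (√(1 + p.x) * ‖X.1‖ - ‖p.r X‖)]
  have h2 := h.c_pos
  have h3 := h.c_le
  have h4 := h.c_le_one
  have h5 : 0 ≤ (1 + p.x) * ‖X.1‖ ^ 2 := by have := h.x_nonneg; positivity
  have h6 : 0 ≤ ‖p.r X‖ ^ 2 := by positivity
  have h7 := mul_le_mul_of_nonneg_left h1 h2.le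
  have h8 := mul_le_mul_of_nonneg_right h3 h5
  have h9 := mul_le_mul_of_nonneg_right h4 h6
  nlinarith

theorem J_pos : p.J.Pos := by
  intro X hX
  refine lt_of_lt_of_le ?_ (h.H_low X)
  have h1 := h.β_pos
  have h2 := h.x_nonneg
  by_cases h3 : X.1 = 0
  · have h4 : X.2 ≠ 0 := fun h4 => hX (Prod.ext h3 h4)
    have h5 : p.r X = p.ρ * X.2 := by
      rw [← h.r_vert X.2, ← h3]
    have h6 : 0 < ‖p.r X‖ := by
      rw [h5]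
      exact norm_pos_iff.mpr (mul_ne_zero (ofReal_ne_zero.mpr h.ρ_pos.ne') h4)
    positivity
  · have h4 : 0 < ‖X.1‖ := norm_pos_iff.mpr h3
    positivity

theorem Λ_le (X : T) : p.c * p.ψ * normSq (p.Λ X) ≤ ‖p.r X‖ ^ 2 := by
  rw [← normSq_eq_norm_sq]
  unfold r
  rw [normSq_mul, normSq_ofReal, ← sq, h.ρ_sq]
  have h1 : 1 ≤ p.m ^ 2 := one_le_pow₀ (by linarith [h.m_eq, h.n_nonneg])
  have h2 : 0 ≤ p.c * p.ψ * normSq (p.Λ X) :=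
    mul_nonneg (mul_pos h.c_pos h.ψ_pos).le (normSq_nonneg _)
  nlinarith

/-- `X.2 = Λ X - w f1 X.1` and `ψ |w|² < 1`. -/
theorem fibre_le (X : T) :
    p.ψ * normSq X.2 ≤ 2 * (p.ψ * normSq (p.Λ X)) + 2 * (2 + C) ^ 2 * ‖X.1‖ ^ 2 := by
  have h1 : ‖X.2‖ ≤ ‖p.Λ X‖ + ‖p.w‖ * ‖p.f1 X.1‖ := by
    have : X.2 = p.Λ X - p.w * p.f1 X.1 := by unfold Λ; ring
    calc ‖X.2‖ = ‖p.Λ X - p.w * p.f1 X.1‖ := congrArg _ this
      _ ≤ ‖p.Λ X‖ + ‖p.w * p.f1 X.1‖ := norm_sub_le _ _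
      _ = _ := by rw [norm_mul]
  have h2 : ‖X.2‖ ^ 2 ≤ 2 * ‖p.Λ X‖ ^ 2 + 2 * (‖p.w‖ ^ 2 * ‖p.f1 X.1‖ ^ 2) := by
    have := pow_le_pow_left₀ (norm_nonneg _) h1 2
    nlinarith [sq_nonneg (‖p.Λ X‖ - ‖p.w‖ * ‖p.f1 X.1‖)]
  have h3 : ‖p.f1 X.1‖ ^ 2 ≤ ((2 + C) * ‖X.1‖) ^ 2 := pow_le_pow_left₀ (norm_nonneg _) (h.b1 _) 2
  have h4 := h.s_lt
  have h5 := h.ψ_pos
  simp only [normSq_eq_norm_sq] at h4 ⊢
  have h6 : ‖p.w‖ ^ 2 * p.ψ * ‖p.f1 X.1‖ ^ 2 ≤ 1 * ((2 + C) * ‖X.1‖) ^ 2 :=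
    mul_le_mul h4.le h3 (by positivity) zero_le_one
  have h7 := mul_le_mul_of_nonneg_left h2 h5.le
  nlinarith

theorem F0_nonneg : 0 ≤ p.F0 := by
  have h1 := h.s_lt
  have h2 : 0 ≤ normSq p.w * p.ψ := mul_nonneg (normSq_nonneg _) h.ψ_pos.le
  unfold F0
  have := Real.log_nonpos (x := 1 - normSq p.w * p.ψ) (by linarith) (by linarith)
  linarith

theorem F0_eq : p.F0 = Real.log p.m := by
  unfold F0 m
  rw [one_div, Real.log_inv]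

/-- `F0 = log m ≤ m ≤ (1 + x) / c`. -/
theorem F0_le : p.F0 ≤ (1 + p.x) / p.c := by
  rw [h.F0_eq]
  have := Real.log_le_sub_one_of_pos h.m_pos
  linarith [h.m_le]

/-- `log m = 2 log √m ≤ 2 √m`. -/
theorem F0_sq_le : p.F0 ^ 2 ≤ 4 * (1 + p.x) / p.c := by
  have h1 : p.F0 ≤ 2 * √p.m := by
    rw [h.F0_eq]
    have h2 := Real.log_le_sub_one_of_pos (Real.sqrt_pos.mpr h.m_pos)
    rw [Real.log_sqrt h.m_pos.le] at h2
    linarith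
  have h2 := pow_le_pow_left₀ h.F0_nonneg h1 2
  rw [mul_pow, Real.sq_sqrt h.m_pos.le] at h2
  have h3 := h.m_le
  rw [mul_div_assoc]
  linarith

/-- `c F1 X = conj κ * r X / m`. -/
theorem F1_le (X : T) : p.c * ‖p.F1 X‖ ≤ ‖p.r X‖ := by
  have hc := h.c_pos
  have hψ := h.ψ_pos
  have hm := h.m_pos
  have h1 : √(p.c * p.ψ) * ‖p.w‖ ≤ 1 := by
    have h2 : (√(p.c * p.ψ) * ‖p.w‖) ^ 2 ≤ 1 ^ 2 := by
      rw [mul_pow, Real.sq_sqrt (by positivity), ← normSq_eq_norm_sq]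
      have h3 := h.s_lt
      have h4 := h.c_le_one
      have h5 : 0 ≤ normSq p.w * p.ψ := mul_nonneg (normSq_nonneg _) hψ.le
      nlinarith
    exact (sq_le_sq₀ (by positivity) zero_le_one).mp h2
  have h2 : √(p.c * p.ψ) * √(p.c * p.ψ) = p.c * p.ψ := Real.mul_self_sqrt (by positivity)
  unfold F1 r ρ
  simp only [norm_mul, norm_conj, norm_real, Real.norm_of_nonneg hm.le,
    Real.norm_of_nonneg hψ.le, Real.norm_of_nonneg (Real.sqrt_nonneg _)]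
  have h3 : 0 ≤ √(p.c * p.ψ) * p.m * ‖p.Λ X‖ := by positivity
  calc p.c * (p.m * p.ψ * ‖p.w‖ * ‖p.Λ X‖)
      = (√(p.c * p.ψ) * ‖p.w‖) * (√(p.c * p.ψ) * p.m * ‖p.Λ X‖) := by
        linear_combination (-(p.m * ‖p.w‖ * ‖p.Λ X‖)) * h2
    _ ≤ 1 * (√(p.c * p.ψ) * p.m * ‖p.Λ X‖) := mul_le_mul_of_nonneg_right h1 h3
    _ = _ := one_mul _

end OK

end HP

end Crest.Agent.R245
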