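import Crest.Agent.R245.HartAlg0

/-!
# Size of the Hartogs jets in the norm `μ` (task R245/HartBd)

Use `‖κ‖ ≤ m ≤ (1+x)/c`, `Θ ≤ (1+x)²/c`, `1 + 2n ≤ 2(1+x)/c`, `n = x/c`, `‖X.1‖ ≤ μ X`,
`‖r X‖ ≤ μ X`, `(1+x)‖X.1‖‖Y.1‖ ≤ μ X μ Y`, `β ≤ 1`, `C ≤ C1`, and the formulas
`ℓ X Y = 2 conj κ/(c m) r X r Y + f1 Y.1 r X + f1 X.1 r Y + κ (f2 - f1 f1)`,
`F2 X Y = (conj κ/(c m))² r X r Y + conj κ/(c m) (f1 Y.1 r X + f1 X.1 r Y) + n (f2 - f1 f1)`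
(from `m ψ conj w Λ X = conj κ r X/(c m)`, `ρ² = c ψ m²`), `c • FJ = J - J0.comap fst`
with `J_H`, `J_A`, `J_Q`.
-/

set_option autoImplicit false

noncomputable section

namespace Crest.Agent.R245

open scoped ComplexConjugate
open Complex

theorem hb_mul {a b : ℂ} {r s : ℝ} (ha : ‖a‖ ≤ r) (hb : ‖b‖ ≤ s) : ‖a * b‖ ≤ r * s := by
  rw [norm_mul]
  exact mul_le_mul ha hb (norm_nonneg _) ((norm_nonneg _).trans ha)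

theorem hb_add {a b : ℂ} {r s : ℝ} (ha : ‖a‖ ≤ r) (hb : ‖b‖ ≤ s) : ‖a + b‖ ≤ r + s :=
  (norm_add_le _ _).trans (add_le_add ha hb)

theorem hb_sub {a b : ℂ} {r s : ℝ} (ha : ‖a‖ ≤ r) (hb : ‖b‖ ≤ s) : ‖a - b‖ ≤ r + s :=
  (norm_sub_le _ _).trans (add_le_add ha hb)

theorem hb_conj {a : ℂ} {r : ℝ} (ha : ‖a‖ ≤ r) : ‖conj a‖ ≤ r := by
  rwa [Complex.norm_conj]

namespace HP

variable {p : HP} {C1 K0 β C : ℝ}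

namespace OK

variable (h : p.OK C1 K0 β C)
include h

theorem hb_t : 1 ≤ p.c⁻¹ := (one_le_inv₀ h.c_pos).mpr h.c_le_one

theorem hb_κ : ‖p.κ‖ ≤ p.c⁻¹ * (1 + p.x) := by
  have := h.norm_κ_le.trans h.m_le
  rwa [div_eq_inv_mul] at this

theorem hb_n : p.n = p.c⁻¹ * p.x := by
  have := h.c_pos.ne'
  unfold x
  field_simp

/-- The coefficient `conj κ / (c m)`. -/
theorem hb_q : ‖conj p.κ / ((p.c : ℂ) * p.m)‖ ≤ p.c⁻¹ := by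
  have hc := h.c_pos
  have hm := h.m_pos
  rw [norm_div, Complex.norm_conj, norm_mul, Complex.norm_real, Complex.norm_real,
    Real.norm_of_nonneg hc.le, Real.norm_of_nonneg hm.le, div_le_iff₀ (mul_pos hc hm)]
  have : p.c⁻¹ * (p.c * p.m) = p.m := by field_simp
  rw [this]
  exact h.norm_κ_le

theorem hb_F1 (X : T) : (p.m : ℂ) * p.ψ * conj p.w * p.Λ X =
    conj p.κ / ((p.c : ℂ) * p.m) * p.r X := by
  have hc : (p.c : ℂ) ≠ 0 := by exact_mod_cast h.c_pos.ne'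
  have hm : (p.m : ℂ) ≠ 0 := by exact_mod_cast h.m_pos.ne'
  have hρ : (p.ρ : ℂ) ^ 2 = p.c * p.ψ * p.m ^ 2 := by exact_mod_cast h.ρ_sq
  unfold κ r
  rw [map_mul, conj_ofReal]
  field_simp
  linear_combination (-(conj p.w * p.Λ X)) * hρ

theorem hb_f1 (X : T) : ‖p.f1 X.1‖ ≤ (2 + C) * p.μ X :=
  (h.b1 _).trans (mul_le_mul_of_nonneg_left (h.norm_le_μ X) (by linarith [h.C_nonneg]))

theorem hb_f2 {z : ℂ} {k : ℝ} (hk : 0 ≤ k) (hz : ‖z‖ ≤ k * (1 + p.x)) (X Y : T) :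
    ‖z * (p.f2 X.1 Y.1 - p.f1 X.1 * p.f1 Y.1)‖ ≤ k * ((2 + C) * (3 + C)) * (p.μ X * p.μ Y) := by
  have hC := h.C_nonneg
  refine (hb_mul hz (hb_sub (h.b2 X.1 Y.1) (hb_mul (h.b1 X.1) (h.b1 Y.1)))).trans ?_
  have h1 := h.norm_mul_le_μ X Y
  calc k * (1 + p.x) * ((2 + C) * (‖X.1‖ * ‖Y.1‖) + (2 + C) * ‖X.1‖ * ((2 + C) * ‖Y.1‖))
      = k * ((2 + C) * (3 + C)) * ((1 + p.x) * (‖X.1‖ * ‖Y.1‖)) := by ring
    _ ≤ _ := mul_le_mul_of_nonneg_left h1 (by positivity)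

end OK

theorem OK.ℓ_le (h : p.OK C1 K0 β C) (X Y : T) :
    ‖p.ℓ X Y‖ ≤ (4 + C) ^ 2 / p.c * (p.μ X * p.μ Y) := by
  have hC := h.C_nonneg
  have ht := h.hb_t
  have e : p.ℓ X Y = 2 * (conj p.κ / ((p.c : ℂ) * p.m) * p.r X * p.r Y) + p.f1 Y.1 * p.r X +
      p.f1 X.1 * p.r Y + p.κ * (p.f2 X.1 Y.1 - p.f1 X.1 * p.f1 Y.1) := by
    rw [← h.hb_F1 X]
    unfold ℓ L r κ
    ring
  have h2 : ‖(2 : ℂ)‖ ≤ 2 := by simp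
  rw [e]
  refine (hb_add (hb_add (hb_add (hb_mul h2 (hb_mul (hb_mul h.hb_q (h.r_le_μ X)) (h.r_le_μ Y)))
    (hb_mul (h.hb_f1 Y) (h.r_le_μ X))) (hb_mul (h.hb_f1 X) (h.r_le_μ Y)))
    (h.hb_f2 (by linarith) h.hb_κ X Y)).trans ?_
  have hμ : 0 ≤ p.μ X * p.μ Y := mul_nonneg (h.μ_nonneg X) (h.μ_nonneg Y)
  rw [div_eq_mul_inv]
  calc _ = (2 * p.c⁻¹ + 2 * (2 + C) + p.c⁻¹ * ((2 + C) * (3 + C))) * (p.μ X * p.μ Y) := by ring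
    _ ≤ _ := by
      refine mul_le_mul_of_nonneg_right ?_ hμ
      nlinarith [mul_nonneg hC (sub_nonneg.mpr ht)]

theorem OK.F2_le (h : p.OK C1 K0 β C) (X Y : T) :
    ‖p.F2 X Y‖ ≤ (4 + C) ^ 2 / p.c ^ 2 * (p.μ X * p.μ Y) := by
  have hC := h.C_nonneg
  have ht := h.hb_t
  have hx := h.x_nonneg
  have e : p.F2 X Y = (conj p.κ / ((p.c : ℂ) * p.m) * p.r X) *
      (conj p.κ / ((p.c : ℂ) * p.m) * p.r Y) +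
      p.f1 Y.1 * (conj p.κ / ((p.c : ℂ) * p.m) * p.r X) +
      p.f1 X.1 * (conj p.κ / ((p.c : ℂ) * p.m) * p.r Y) +
      p.n * (p.f2 X.1 Y.1 - p.f1 X.1 * p.f1 Y.1) := by
    rw [← h.hb_F1 X, ← h.hb_F1 Y]
    unfold F2
    ring
  have hn : ‖(p.n : ℂ)‖ ≤ p.c⁻¹ * (1 + p.x) := by
    rw [Complex.norm_real, Real.norm_of_nonneg h.n_nonneg, h.hb_n]
    nlinarith
  rw [e]
  refine (hb_add (hb_add (hb_add (hb_mul (hb_mul h.hb_q (h.r_le_μ X))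
    (hb_mul h.hb_q (h.r_le_μ Y)))
    (hb_mul (h.hb_f1 Y) (hb_mul h.hb_q (h.r_le_μ X))))
    (hb_mul (h.hb_f1 X) (hb_mul h.hb_q (h.r_le_μ Y))))
    (h.hb_f2 (by linarith) hn X Y)).trans ?_
  have hμ : 0 ≤ p.μ X * p.μ Y := mul_nonneg (h.μ_nonneg X) (h.μ_nonneg Y)
  rw [div_eq_mul_inv, ← inv_pow]
  calc _ = (p.c⁻¹ ^ 2 + p.c⁻¹ * (2 * (2 + C) + (2 + C) * (3 + C))) * (p.μ X * p.μ Y) := by ring
    _ ≤ _ := by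
      refine mul_le_mul_of_nonneg_right ?_ hμ
      have h1 : p.c⁻¹ ≤ p.c⁻¹ ^ 2 := by nlinarith
      have h2 : p.c⁻¹ * (2 * (2 + C) + (2 + C) * (3 + C)) ≤
          p.c⁻¹ ^ 2 * (2 * (2 + C) + (2 + C) * (3 + C)) :=
        mul_le_mul_of_nonneg_right h1 (by positivity)
      have h3 : 0 ≤ p.c⁻¹ ^ 2 * (5 + C) := by positivity
      nlinarith

namespace OK

variable (h : p.OK C1 K0 β C)
include h

theorem hb_D : (17 + C) * β ≤ 17 + C1 := by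
  have := h.C_le
  have h1 := h.C_nonneg
  have h2 := h.β_le
  nlinarith

theorem hb_H {z : ℂ} {k : ℝ} (hk : 0 ≤ k) (hz : ‖z‖ ≤ k * (1 + p.x)) (X Y : T) :
    ‖z * p.Jp.H X.1 Y.1‖ ≤ k * (17 + C1) * (p.μ X * p.μ Y) := by
  have hx := h.x_nonneg
  have hD : 0 ≤ 17 + C1 := by linarith [h.C_nonneg, h.C_le]
  have h0 : ‖p.Jp.H X.1 Y.1‖ ≤ (17 + C1) * (‖X.1‖ * ‖Y.1‖) :=
    (h.Jp_bd.H X.1 Y.1).trans (mul_le_mul_of_nonneg_right h.hb_D (by positivity))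
  refine (hb_mul hz h0).trans ?_
  calc k * (1 + p.x) * ((17 + C1) * (‖X.1‖ * ‖Y.1‖))
      = k * (17 + C1) * ((1 + p.x) * (‖X.1‖ * ‖Y.1‖)) := by ring
    _ ≤ _ := mul_le_mul_of_nonneg_left (h.norm_mul_le_μ X Y) (by positivity)

theorem hb_3 (X Y Z : T) : (1 + p.x) * (‖X.1‖ * ‖Y.1‖ * ‖Z.1‖) ≤ p.μ X * p.μ Y * p.μ Z := by
  rw [← mul_assoc]
  exact mul_le_mul (h.norm_mul_le_μ X Y) (h.norm_le_μ Z) (norm_nonneg _)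
    (mul_nonneg (h.μ_nonneg X) (h.μ_nonneg Y))

theorem hb_4 (X Y Z U : T) :
    (1 + p.x) * (‖X.1‖ * ‖Y.1‖ * ‖Z.1‖ * ‖U.1‖) ≤ p.μ X * p.μ Y * p.μ Z * p.μ U := by
  rw [← mul_assoc]
  exact mul_le_mul (h.hb_3 X Y Z) (h.norm_le_μ U) (norm_nonneg _)
    (mul_nonneg (mul_nonneg (h.μ_nonneg X) (h.μ_nonneg Y)) (h.μ_nonneg Z))

theorem hb_A {z : ℂ} {k : ℝ} (hk : 0 ≤ k) (hz : ‖z‖ ≤ k * (1 + p.x)) (X Y Z : T) :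
    ‖z * p.Jp.A X.1 Y.1 Z.1‖ ≤ k * (17 + C1) * (p.μ X * p.μ Y * p.μ Z) := by
  have hx := h.x_nonneg
  have hD : 0 ≤ 17 + C1 := by linarith [h.C_nonneg, h.C_le]
  have h0 : ‖p.Jp.A X.1 Y.1 Z.1‖ ≤ (17 + C1) * (‖X.1‖ * ‖Y.1‖ * ‖Z.1‖) :=
    (h.Jp_bd.A X.1 Y.1 Z.1).trans (mul_le_mul_of_nonneg_right h.hb_D (by positivity))
  refine (hb_mul hz h0).trans ?_
  calc k * (1 + p.x) * ((17 + C1) * (‖X.1‖ * ‖Y.1‖ * ‖Z.1‖))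
      = k * (17 + C1) * ((1 + p.x) * (‖X.1‖ * ‖Y.1‖ * ‖Z.1‖)) := by ring
    _ ≤ _ := mul_le_mul_of_nonneg_left (h.hb_3 X Y Z) (by positivity)

theorem hb_G {g a b : ℝ} (ha : 0 ≤ a) (hg : g ≤ (1 + p.x) * ((17 + C) * β) * a)
    (hb : (1 + p.x) * a ≤ b) : g ≤ (17 + C1) * b := by
  have hx := h.x_nonneg
  have hD : 0 ≤ 17 + C1 := by linarith [h.C_nonneg, h.C_le]
  calc g ≤ (17 + C) * β * ((1 + p.x) * a) := by linarith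
    _ ≤ (17 + C1) * ((1 + p.x) * a) := mul_le_mul_of_nonneg_right h.hb_D (by positivity)
    _ ≤ _ := mul_le_mul_of_nonneg_left hb hD

theorem hb_0 {g a b : ℝ} (ha : 0 ≤ a) (hg : g ≤ 17 * β * a)
    (hb : (1 + p.x) * a ≤ b) : g ≤ (17 + C1) * b := by
  have hx := h.x_nonneg
  have hC1 : 0 ≤ C1 := by linarith [h.C_nonneg, h.C_le]
  have h1 : a ≤ b := by nlinarith
  have h2 : β * a ≤ a := by nlinarith [h.β_le]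
  nlinarith

theorem hb_ℓ (X Y : T) : ‖p.ℓ X Y‖ ≤ p.c⁻¹ * (17 + C1) ^ 2 * (p.μ X * p.μ Y) := by
  have hC := h.C_nonneg
  have hC1 := h.C_le
  have ht := h.hb_t
  refine (h.ℓ_le X Y).trans (mul_le_mul_of_nonneg_right ?_
    (mul_nonneg (h.μ_nonneg X) (h.μ_nonneg Y)))
  rw [div_eq_inv_mul]
  refine mul_le_mul_of_nonneg_left ?_ (by linarith)
  nlinarith

theorem hb_JH (X Y : T) : ‖p.J.H X Y‖ ≤ 2 * (17 + C1) * (p.μ X * p.μ Y) := by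
  have hC1 : 0 ≤ C1 := by linarith [h.C_nonneg, h.C_le]
  have hμ : 0 ≤ p.μ X * p.μ Y := mul_nonneg (h.μ_nonneg X) (h.μ_nonneg Y)
  rw [h.J_H]
  refine (hb_add (h.hb_G (by positivity) (h.G_bd.H X.1 Y.1) (h.norm_mul_le_μ X Y))
    (hb_mul (h.r_le_μ X) (hb_conj (h.r_le_μ Y)))).trans ?_
  nlinarith

theorem hb_JA (X Y Z : T) :
    ‖p.J.A X Y Z‖ ≤ p.c⁻¹ * (2 * (17 + C1) ^ 2) * (p.μ X * p.μ Y * p.μ Z) := by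
  have hC1 : 0 ≤ C1 := by linarith [h.C_nonneg, h.C_le]
  have ht := h.hb_t
  have hμ : 0 ≤ p.μ X * p.μ Y * p.μ Z :=
    mul_nonneg (mul_nonneg (h.μ_nonneg X) (h.μ_nonneg Y)) (h.μ_nonneg Z)
  have e : p.J.A X Y Z = p.G.A X.1 Y.1 Z.1 + conj p.κ * p.Jp.H X.1 Z.1 * p.r Y +
      conj p.κ * p.Jp.H Y.1 Z.1 * p.r X + p.ℓ X Y * conj (p.r Z) := by
    rw [h.J_A]; ring
  have hκ := hb_conj h.hb_κ
  rw [e]
  refine (hb_add (hb_add (hb_add (h.hb_G (by positivity) (h.G_bd.A X.1 Y.1 Z.1) (h.hb_3 X Y Z))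
    (hb_mul (h.hb_H (by linarith) hκ X Z) (h.r_le_μ Y)))
    (hb_mul (h.hb_H (by linarith) hκ Y Z) (h.r_le_μ X)))
    (hb_mul (h.hb_ℓ X Y) (hb_conj (h.r_le_μ Z)))).trans ?_
  calc _ = ((17 + C1) + p.c⁻¹ * (2 * (17 + C1) + (17 + C1) ^ 2)) * (p.μ X * p.μ Y * p.μ Z) := by
        ring
    _ ≤ _ := by
      refine mul_le_mul_of_nonneg_right ?_ hμ
      have h1 : 17 + C1 ≤ p.c⁻¹ * (17 + C1) := by nlinarith
      have h2 : p.c⁻¹ * (3 * (17 + C1)) ≤ p.c⁻¹ * (17 + C1) ^ 2 :=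
        mul_le_mul_of_nonneg_left (by nlinarith) (by linarith)
      nlinarith

theorem hb_JQ (X Y Z U : T) :
    ‖p.J.Q X Y Z U‖ ≤ p.c⁻¹ ^ 2 * (18 * (17 + C1) ^ 4) * (p.μ X * p.μ Y * p.μ Z * p.μ U) := by
  have hC1 : 0 ≤ C1 := by linarith [h.C_nonneg, h.C_le]
  have ht := h.hb_t
  have hx := h.x_nonneg
  have hμ : 0 ≤ p.μ X * p.μ Y * p.μ Z * p.μ U :=
    mul_nonneg (mul_nonneg (mul_nonneg (h.μ_nonneg X) (h.μ_nonneg Y)) (h.μ_nonneg Z))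
      (h.μ_nonneg U)
  have hΘ : (p.Θ : ℂ) = p.κ * conj p.κ := by rw [Complex.mul_conj, h.normSq_κ]
  have e : p.J.Q X Y Z U = p.G.Q X.1 Y.1 Z.1 U.1 +
      p.κ * p.Jp.A X.1 Y.1 Z.1 * conj (p.r U) + p.κ * p.Jp.A X.1 Y.1 U.1 * conj (p.r Z) +
      conj (p.κ * p.Jp.A Z.1 U.1 X.1) * p.r Y + conj (p.κ * p.Jp.A Z.1 U.1 Y.1) * p.r X +
      (p.κ * p.Jp.H X.1 Z.1) * (conj p.κ * p.Jp.H Y.1 U.1) +
      (p.κ * p.Jp.H X.1 U.1) * (conj p.κ * p.Jp.H Y.1 Z.1) +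
      p.ℓ X Y * conj (p.ℓ Z U) +
      (1 + 2 * p.n) * p.Jp.H X.1 Z.1 * p.r Y * conj (p.r U) +
      (1 + 2 * p.n) * p.Jp.H X.1 U.1 * p.r Y * conj (p.r Z) +
      (1 + 2 * p.n) * p.Jp.H Y.1 Z.1 * p.r X * conj (p.r U) +
      (1 + 2 * p.n) * p.Jp.H Y.1 U.1 * p.r X * conj (p.r Z) +
      2 / p.c * p.r X * p.r Y * conj (p.r Z) * conj (p.r U) := by
    rw [h.J_Q, hΘ, map_mul, map_mul]; ring
  have hκ := h.hb_κ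
  have hκ' := hb_conj h.hb_κ
  have hn : ‖(1 + 2 * p.n : ℂ)‖ ≤ 2 * p.c⁻¹ * (1 + p.x) := by
    have : (1 + 2 * p.n : ℂ) = ((1 + 2 * p.n : ℝ) : ℂ) := by push_cast; rfl
    rw [this, Complex.norm_real, Real.norm_of_nonneg (by linarith [h.n_nonneg]), h.hb_n]
    nlinarith
  have h2 : ‖(2 / p.c : ℂ)‖ ≤ 2 * p.c⁻¹ := by
    rw [norm_div, Complex.norm_real, Real.norm_of_nonneg h.c_pos.le, div_eq_mul_inv]
    simp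
  have t0 : 0 ≤ p.c⁻¹ := by linarith
  have t2 : 0 ≤ 2 * p.c⁻¹ := by linarith
  have rX := h.r_le_μ X
  have rY := h.r_le_μ Y
  have rZ := hb_conj (h.r_le_μ Z)
  have rU := hb_conj (h.r_le_μ U)
  rw [e]
  refine (hb_add (hb_add (hb_add (hb_add (hb_add (hb_add (hb_add (hb_add (hb_add (hb_add (hb_add
    (hb_add (h.hb_G (by positivity) (h.G_bd.Q X.1 Y.1 Z.1 U.1) (h.hb_4 X Y Z U))
    (hb_mul (h.hb_A t0 hκ X Y Z) rU)) (hb_mul (h.hb_A t0 hκ X Y U) rZ))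
    (hb_mul (hb_conj (h.hb_A t0 hκ Z U X)) rY)) (hb_mul (hb_conj (h.hb_A t0 hκ Z U Y)) rX))
    (hb_mul (h.hb_H t0 hκ X Z) (h.hb_H t0 hκ' Y U)))
    (hb_mul (h.hb_H t0 hκ X U) (h.hb_H t0 hκ' Y Z)))
    (hb_mul (h.hb_ℓ X Y) (hb_conj (h.hb_ℓ Z U))))
    (hb_mul (hb_mul (h.hb_H t2 hn X Z) rY) rU))
    (hb_mul (hb_mul (h.hb_H t2 hn X U) rY) rZ))
    (hb_mul (hb_mul (h.hb_H t2 hn Y Z) rX) rU))
    (hb_mul (hb_mul (h.hb_H t2 hn Y U) rX) rZ))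
    (hb_mul (hb_mul (hb_mul (hb_mul h2 rX) rY) rZ) rU)).trans ?_
  calc _ = ((17 + C1) + 12 * (p.c⁻¹ * (17 + C1)) + 2 * (p.c⁻¹ ^ 2 * (17 + C1) ^ 2) +
        p.c⁻¹ ^ 2 * (17 + C1) ^ 4 + 2 * p.c⁻¹) * (p.μ X * p.μ Y * p.μ Z * p.μ U) := by
        ring
    _ ≤ _ := by
      refine mul_le_mul_of_nonneg_right ?_ hμ
      generalize p.c⁻¹ = t at ht t0 ⊢
      have hD : 1 ≤ 17 + C1 := by linarith
      generalize 17 + C1 = D at hD ⊢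
      have d1 : D ≤ D ^ 4 := by simpa using pow_le_pow_right₀ hD (show 1 ≤ 4 by norm_num)
      have d2 : D ^ 2 ≤ D ^ 4 := pow_le_pow_right₀ hD (by norm_num)
      have s1 : t ≤ t ^ 2 := by nlinarith
      have e1 : D ≤ t ^ 2 * D ^ 4 := by nlinarith
      have e2 : t * D ≤ t ^ 2 * D ^ 4 := mul_le_mul s1 d1 (by linarith) (by positivity)
      have e3 : t ^ 2 * D ^ 2 ≤ t ^ 2 * D ^ 4 := mul_le_mul_of_nonneg_left d2 (by positivity)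
      have e4 : t ≤ t ^ 2 * D ^ 4 := by nlinarith
      nlinarith

theorem hb_FH (X Y : T) : ‖p.FJ.H X Y‖ ≤ p.c⁻¹ * (3 * (17 + C1)) * (p.μ X * p.μ Y) := by
  have hc : (p.c : ℂ) ≠ 0 := by exact_mod_cast h.c_pos.ne'
  have e : p.FJ.H X Y = ((p.c⁻¹ : ℝ) : ℂ) * (p.J.H X Y - p.J0.H X.1 Y.1) := by
    simp only [J, Jet.add_H, Jet.smul_H, Jet.comap_H]
    push_cast
    field_simp
    ring
  have h1 : ‖((p.c⁻¹ : ℝ) : ℂ)‖ ≤ p.c⁻¹ := by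
    rw [Complex.norm_real, Real.norm_of_nonneg (by linarith [h.hb_t])]
  rw [e]
  refine (hb_mul h1 (hb_sub (h.hb_JH X Y)
    (h.hb_0 (by positivity) (h.J0_bd.H X.1 Y.1) (h.norm_mul_le_μ X Y)))).trans (le_of_eq ?_)
  ring

theorem hb_FA (X Y Z : T) :
    ‖p.FJ.A X Y Z‖ ≤ p.c⁻¹ ^ 2 * (3 * (17 + C1) ^ 2) * (p.μ X * p.μ Y * p.μ Z) := by
  have hc : (p.c : ℂ) ≠ 0 := by exact_mod_cast h.c_pos.ne'
  have hC1 : 0 ≤ C1 := by linarith [h.C_nonneg, h.C_le]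
  have ht := h.hb_t
  have hμ : 0 ≤ p.μ X * p.μ Y * p.μ Z :=
    mul_nonneg (mul_nonneg (h.μ_nonneg X) (h.μ_nonneg Y)) (h.μ_nonneg Z)
  have e : p.FJ.A X Y Z = ((p.c⁻¹ : ℝ) : ℂ) * (p.J.A X Y Z - p.J0.A X.1 Y.1 Z.1) := by
    simp only [J, Jet.add_A, Jet.smul_A, Jet.comap_A]
    push_cast
    field_simp
    ring
  have h1 : ‖((p.c⁻¹ : ℝ) : ℂ)‖ ≤ p.c⁻¹ := by
    rw [Complex.norm_real, Real.norm_of_nonneg (by linarith [h.hb_t])]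
  rw [e]
  refine (hb_mul h1 (hb_sub (h.hb_JA X Y Z)
    (h.hb_0 (by positivity) (h.J0_bd.A X.1 Y.1 Z.1) (h.hb_3 X Y Z)))).trans ?_
  calc _ = (p.c⁻¹ ^ 2 * (2 * (17 + C1) ^ 2) + p.c⁻¹ * (17 + C1)) * (p.μ X * p.μ Y * p.μ Z) := by
        ring
    _ ≤ _ := by
      refine mul_le_mul_of_nonneg_right ?_ hμ
      have s1 : p.c⁻¹ ≤ p.c⁻¹ ^ 2 := by nlinarith
      have e2 : p.c⁻¹ * (17 + C1) ≤ p.c⁻¹ ^ 2 * (17 + C1) ^ 2 :=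
        mul_le_mul s1 (by nlinarith) (by linarith) (by positivity)
      nlinarith

end OK

end HP

theorem hart_bd (C1 : ℝ) (hC1 : 0 ≤ C1) : ∃ K : ℝ, 1 ≤ K ∧ ∀ (p : HP) (K0 β C : ℝ),
    p.OK C1 K0 β C → p.J.Bd p.μ (K / p.c ^ 2) ∧
      (∀ X Y : T, |p.F0| * (‖X.1‖ * ‖Y.1‖) ≤ K / p.c ^ 2 * (p.μ X * p.μ Y)) ∧
      (∀ X, ‖p.F1 X‖ ≤ K / p.c ^ 2 * p.μ X) ∧
      (∀ X Y, ‖p.F2 X Y‖ ≤ K / p.c ^ 2 * (p.μ X * p.μ Y)) ∧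
      (∀ X Y, ‖p.FJ.H X Y‖ ≤ K / p.c ^ 2 * (p.μ X * p.μ Y)) ∧
      (∀ X Y Z, ‖p.FJ.A X Y Z‖ ≤ K / p.c ^ 2 * (p.μ X * p.μ Y * p.μ Z)) := by
  have hD : 1 ≤ 17 + C1 := by linarith
  have d0 : 1 ≤ (17 + C1) ^ 4 := one_le_pow₀ hD
  have d1 : 17 + C1 ≤ (17 + C1) ^ 4 := by
    simpa using pow_le_pow_right₀ hD (show 1 ≤ 4 by norm_num)
  have d2 : (17 + C1) ^ 2 ≤ (17 + C1) ^ 4 := pow_le_pow_right₀ hD (by norm_num)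
  refine ⟨18 * (17 + C1) ^ 4, by linarith, fun p K0 β C h => ?_⟩
  have ht := h.hb_t
  have s1 : p.c⁻¹ ≤ p.c⁻¹ ^ 2 := by nlinarith
  have hK : 18 * (17 + C1) ^ 4 / p.c ^ 2 = p.c⁻¹ ^ 2 * (18 * (17 + C1) ^ 4) := by
    rw [div_eq_inv_mul, inv_pow]
  have k2 : ∀ k : ℝ, k ≤ 18 * (17 + C1) ^ 4 →
      p.c⁻¹ ^ 2 * k ≤ p.c⁻¹ ^ 2 * (18 * (17 + C1) ^ 4) := fun k hk =>
    mul_le_mul_of_nonneg_left hk (by positivity)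
  have k1 : ∀ k : ℝ, 0 ≤ k → k ≤ 18 * (17 + C1) ^ 4 →
      p.c⁻¹ * k ≤ p.c⁻¹ ^ 2 * (18 * (17 + C1) ^ 4) := fun k h0 hk =>
    (mul_le_mul_of_nonneg_right s1 h0).trans (k2 k hk)
  have k0 : ∀ k : ℝ, 0 ≤ k → k ≤ 18 * (17 + C1) ^ 4 →
      k ≤ p.c⁻¹ ^ 2 * (18 * (17 + C1) ^ 4) := fun k h0 hk =>
    (le_mul_of_one_le_left h0 ht).trans (k1 k h0 hk)
  have m2 : ∀ X Y, 0 ≤ p.μ X * p.μ Y := fun X Y => mul_nonneg (h.μ_nonneg X) (h.μ_nonneg Y)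
  have m3 : ∀ X Y Z, 0 ≤ p.μ X * p.μ Y * p.μ Z := fun X Y Z => mul_nonneg (m2 X Y) (h.μ_nonneg Z)
  rw [hK]
  refine ⟨⟨fun X Y => (h.hb_JH X Y).trans ?_, fun X Y Z => (h.hb_JA X Y Z).trans ?_,
    fun X Y Z U => h.hb_JQ X Y Z U⟩, fun X Y => ?_, fun X => ?_,
    fun X Y => (h.F2_le X Y).trans ?_, fun X Y => (h.hb_FH X Y).trans ?_,
    fun X Y Z => (h.hb_FA X Y Z).trans ?_⟩
  · exact mul_le_mul_of_nonneg_right (k0 _ (by linarith) (by linarith)) (m2 X Y)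
  · exact mul_le_mul_of_nonneg_right (k1 _ (by positivity) (by nlinarith)) (m3 X Y Z)
  · rw [abs_of_nonneg h.F0_nonneg]
    calc p.F0 * (‖X.1‖ * ‖Y.1‖) ≤ (1 + p.x) / p.c * (‖X.1‖ * ‖Y.1‖) :=
          mul_le_mul_of_nonneg_right h.F0_le (by positivity)
      _ = p.c⁻¹ * ((1 + p.x) * (‖X.1‖ * ‖Y.1‖)) := by ring
      _ ≤ p.c⁻¹ * 1 * (p.μ X * p.μ Y) := by
          rw [mul_one]
          exact mul_le_mul_of_nonneg_left (h.norm_mul_le_μ X Y) (by linarith)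
      _ ≤ _ := mul_le_mul_of_nonneg_right (k1 _ (by norm_num) (by linarith)) (m2 X Y)
  · have h1 := (h.F1_le X).trans (h.r_le_μ X)
    have h2 : ‖p.F1 X‖ ≤ p.c⁻¹ * 1 * p.μ X := by
      rw [mul_one, inv_mul_eq_div, le_div_iff₀ h.c_pos, mul_comm]
      exact h1
    exact h2.trans (mul_le_mul_of_nonneg_right (k1 _ (by norm_num) (by linarith)) (h.μ_nonneg X))
  · refine mul_le_mul_of_nonneg_right ?_ (m2 X Y)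
    rw [div_eq_inv_mul, ← inv_pow]
    refine k2 _ ?_
    have := h.C_nonneg
    have := h.C_le
    nlinarith
  · exact mul_le_mul_of_nonneg_right (k1 _ (by positivity) (by linarith)) (m2 X Y)
  · exact mul_le_mul_of_nonneg_right (k2 _ (by nlinarith)) (m3 X Y Z)

end Crest.Agent.R245
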