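import Crest.Agent.R245.HartAlg0

/-!
# The exact curvature formula for the Hartogs jet
-/

set_option autoImplicit false

noncomputable section

namespace Crest.Agent.R245

open scoped ComplexConjugate
open Complex

namespace HP

variable (p : HP)

/-- `G⁻¹ P`. -/
def π (a : V) : V := Classical.epsilon fun v => ∀ θ, p.G.H v θ = p.Jp.H a θ

/-- The form `P G⁻¹ P`. -/
def P' (a b : V) : ℂ := p.G.H (p.π a) (p.π b)

/-- Covariant derivative of `P` for the connection of `G`. -/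
def nab (a b c : V) : ℂ := p.Jp.A a b c - p.Jp.H (p.G.gam a b) c

def uu (X Y : T) : V := p.r Y • X.1 - p.r X • Y.1

def vv (X Y : T) : V := conj (p.r Y) • X.1 - conj (p.r X) • Y.1

def τ (X Y : T) : ℝ := (p.r X * conj (p.r Y)).im

def cross (X Y : T) : ℝ :=
  2 * (p.κ * (p.nab (p.vv X Y) Y.1 X.1 - p.nab (p.vv X Y) X.1 Y.1)).re

variable {p} {C1 K0 β C : ℝ}

namespace OK

variable (h : p.OK C1 K0 β C)
include h

theorem π_spec (a θ : V) : p.G.H (p.π a) θ = p.Jp.H a θ := by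
  have := h.G_good.exists_rep h.G_pos (fun θ => p.Jp.H a θ) (fun b b' => h.gp.H_add2 a b b')
    (fun t b => h.gp.H_smul2 t a b)
  exact Classical.epsilon_spec this θ

theorem π_spec' (a θ : V) : p.G.H θ (p.π a) = p.Jp.H θ a := by
  rw [← h.G_good.H_conj, h.π_spec, h.gp.H_conj]

theorem π_lin (s t : ℂ) (a b : V) : p.π (s • a - t • b) = s • p.π a - t • p.π b := by
  apply h.G_good.eq_of_H h.G_pos
  intro θ
  rw [h.π_spec, h.G_good.H_sub, h.G_good.H_smul, h.G_good.H_smul, h.π_spec, h.π_spec, h.gp.H_sub,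
    h.gp.H_smul, h.gp.H_smul]

theorem P'_conj (a b : V) : conj (p.P' a b) = p.P' b a := h.G_good.H_conj _ _

theorem P'_im (a : V) : (p.P' a a).im = 0 := h.G_good.H_im _

theorem P'_lin (s t : ℂ) (a b : V) : p.P' (s • a - t • b) (s • a - t • b) =
    s * conj s * p.P' a a - s * conj t * p.P' a b - t * conj s * p.P' b a
      + t * conj t * p.P' b b := by
  unfold P'
  rw [h.π_lin]
  simp only [h.G_good.H_sub, h.G_good.H_sub2, h.G_good.H_smul, h.G_good.H_smul2]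
  ring

theorem gam_lin (s t : ℂ) (a b c : V) :
    p.G.gam (s • a - t • b) c = s • p.G.gam a c - t • p.G.gam b c := by
  have h1 : s • a - t • b = s • a + (-t) • b := by rw [neg_smul, sub_eq_add_neg]
  rw [h1, h.G_good.gam_add h.G_pos, h.G_good.gam_smul h.G_pos, h.G_good.gam_smul h.G_pos,
    neg_smul, sub_eq_add_neg]

theorem nab_lin (s t : ℂ) (a b c d : V) :
    p.nab (s • a - t • b) c d = s * p.nab a c d - t * p.nab b c d := by
  unfold nab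
  rw [h.gam_lin]
  simp only [h.gp.H_sub, h.gp.H_smul, h.gp.A_sub, h.gp.A_smul]
  ring

theorem nab_symm (a b c : V) : p.nab a b c = p.nab b a c := by
  unfold nab
  rw [h.gp.A_symm a b, h.G_good.gam_symm a b]

theorem gam_J (X Y : T) :
    (p.J.gam X Y).1 = p.G.gam X.1 Y.1 + conj p.κ • (p.r Y • p.π X.1 + p.r X • p.π Y.1) ∧
      p.r (p.J.gam X Y) = p.ℓ X Y := by
  obtain ⟨Z, hZ1, hZ2⟩ := h.exists_r
    (p.G.gam X.1 Y.1 + conj p.κ • (p.r Y • p.π X.1 + p.r X • p.π Y.1)) (p.ℓ X Y)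
  have : p.J.gam X Y = Z := by
    apply h.gJ.gam_eq h.J_pos
    intro θ
    rw [h.J_H, h.J_A, hZ1, hZ2]
    simp only [h.G_good.H_add, h.G_good.H_smul, h.π_spec, h.G_good.gam_spec h.G_pos]
  rw [this]
  exact ⟨hZ1, hZ2⟩

theorem S_J (X Y Z U : T) : p.J.S X Y Z U = p.G.S X.1 Y.1 Z.1 U.1 +
    p.κ * (p.nab X.1 Y.1 Z.1 * conj (p.r U) + p.nab X.1 Y.1 U.1 * conj (p.r Z)) +
    conj p.κ * (conj (p.nab Z.1 U.1 X.1) * p.r Y + conj (p.nab Z.1 U.1 Y.1) * p.r X) +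
    p.Θ * (p.Jp.H X.1 Z.1 * p.Jp.H Y.1 U.1 + p.Jp.H X.1 U.1 * p.Jp.H Y.1 Z.1) -
    p.Θ * (p.P' X.1 Z.1 * p.r Y * conj (p.r U) + p.P' X.1 U.1 * p.r Y * conj (p.r Z) +
        p.P' Y.1 Z.1 * p.r X * conj (p.r U) + p.P' Y.1 U.1 * p.r X * conj (p.r Z)) +
    (1 + 2 * p.n) *
      (p.Jp.H X.1 Z.1 * p.r Y * conj (p.r U) + p.Jp.H X.1 U.1 * p.r Y * conj (p.r Z) +
        p.Jp.H Y.1 Z.1 * p.r X * conj (p.r U) + p.Jp.H Y.1 U.1 * p.r X * conj (p.r Z)) +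
    2 / p.c * p.r X * p.r Y * conj (p.r Z) * conj (p.r U) := by
  have hκ : conj p.κ * p.κ = (p.Θ : ℂ) := by
    rw [← h.normSq_κ, normSq_eq_conj_mul_self]
  unfold Jet.S
  rw [h.J_Q, h.J_H, (h.gam_J X Y).1, (h.gam_J X Y).2, (h.gam_J Z U).1, (h.gam_J Z U).2]
  unfold nab P'
  simp only [h.G_good.H_add, h.G_good.H_smul, h.G_good.H_add2, h.G_good.H_smul2, conj_conj,
    map_sub, h.gp.H_conj]
  rw [h.π_spec' Z.1 (p.G.gam X.1 Y.1), h.π_spec' U.1 (p.G.gam X.1 Y.1),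
    h.π_spec X.1 (p.G.gam Z.1 U.1), h.π_spec Y.1 (p.G.gam Z.1 U.1), ← hκ]
  ring

theorem H_lin {J : Jet V} (hJ : J.Good) (s t : ℂ) (a b : V) : J.H (s • a - t • b) (s • a - t • b) =
    s * conj s * J.H a a - s * conj t * J.H a b - t * conj s * J.H b a
      + t * conj t * J.H b b := by
  simp only [hJ.H_sub, hJ.H_sub2, hJ.H_smul, hJ.H_smul2]
  ring

/-- The exact formula. -/
theorem N_exact (X Y : T) : -p.J.N X Y = -p.G.N X.1 Y.1 +
    p.Θ * (p.Jp.Den X.1 Y.1 - (p.Jp.H X.1 Y.1).im ^ 2) +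
    4 / p.c * (p.τ X Y + p.x * (p.Jp.H X.1 Y.1).im) ^ 2 +
    4 * (p.τ X Y + p.x * (p.Jp.H X.1 Y.1).im) * (p.Jp.H X.1 Y.1).im +
    p.Θ * (p.P' (p.uu X Y) (p.uu X Y)).re +
    (1 + 2 * p.x / p.c) * (p.Jp.H (p.vv X Y) (p.vv X Y)).re -
    2 * p.Θ * (p.P' (p.vv X Y) (p.vv X Y)).re + p.cross X Y := by
  have hn : (1 + 2 * (p.n : ℂ)) = ((1 + 2 * p.x / p.c : ℝ) : ℂ) := by
    rw [← h.two_n]; push_cast; ring
  have h2c : (2 / (p.c : ℂ)) = ((2 / p.c : ℝ) : ℂ) := by push_cast; ring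
  unfold Jet.N cross τ Jet.Den
  rw [h.S_J, h.S_J, hn, h2c]
  unfold uu vv
  rw [h.P'_lin, h.P'_lin, h.H_lin h.gp, h.nab_lin, h.nab_lin, h.nab_symm Y.1 X.1,
    ← h.P'_conj X.1 Y.1, ← h.gp.H_conj X.1 Y.1, h.Θ_eq]
  have e1 := h.P'_im X.1
  have e2 := h.P'_im Y.1
  have e3 := h.gp.H_im X.1
  have e4 := h.gp.H_im Y.1
  generalize p.P' X.1 X.1 = a11 at *
  generalize p.P' Y.1 Y.1 = a22 at *
  generalize p.P' X.1 Y.1 = a12 at *
  generalize p.Jp.H X.1 X.1 = b11 at *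
  generalize p.Jp.H Y.1 Y.1 = b22 at *
  generalize p.Jp.H X.1 Y.1 = b12 at *
  generalize p.nab X.1 Y.1 X.1 = n1
  generalize p.nab X.1 Y.1 Y.1 = n2
  generalize p.nab X.1 X.1 Y.1 = n3
  generalize p.nab Y.1 Y.1 X.1 = n4
  generalize p.r X = r1
  generalize p.r Y = r2
  generalize p.κ = κ
  generalize p.G.S Y.1 Y.1 X.1 X.1 = s1
  generalize p.G.S X.1 Y.1 X.1 Y.1 = s2
  simp only [add_re, sub_re, mul_re, mul_im, add_im, sub_im, conj_re, conj_im, ofReal_re, ofReal_im,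
    e1, e2, e3, e4, div_eq_mul_inv]
  ring

theorem Den_exact_v (X Y : T) : p.J.Den X Y = p.G.Den X.1 Y.1 - (p.G.H X.1 Y.1).im ^ 2 +
    (p.G.H (p.vv X Y) (p.vv X Y)).re + ((p.G.H X.1 Y.1).im - p.τ X Y) ^ 2 := by
  unfold Jet.Den τ vv
  rw [h.J_H, h.J_H, h.J_H, h.H_lin h.G_good, ← h.G_good.H_conj X.1 Y.1]
  have e3 := h.G_good.H_im X.1
  have e4 := h.G_good.H_im Y.1
  simp only [add_re, sub_re, mul_re, mul_im, conj_re, conj_im, e3, e4]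
  ring

theorem Den_exact_u (X Y : T) : p.J.Den X Y = p.G.Den X.1 Y.1 - (p.G.H X.1 Y.1).im ^ 2 +
    (p.G.H (p.uu X Y) (p.uu X Y)).re + ((p.G.H X.1 Y.1).im + p.τ X Y) ^ 2 := by
  unfold Jet.Den τ uu
  rw [h.J_H, h.J_H, h.J_H, h.H_lin h.G_good, ← h.G_good.H_conj X.1 Y.1]
  have e3 := h.G_good.H_im X.1
  have e4 := h.G_good.H_im Y.1
  simp only [add_re, sub_re, mul_re, mul_im, conj_re, conj_im, e3, e4]
  ring

theorem Pv_sub_Pu (X Y : T) : (p.Jp.H (p.vv X Y) (p.vv X Y)).re =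
    (p.Jp.H (p.uu X Y) (p.uu X Y)).re + 4 * p.τ X Y * (p.Jp.H X.1 Y.1).im := by
  unfold τ uu vv
  rw [h.H_lin h.gp, h.H_lin h.gp, ← h.gp.H_conj X.1 Y.1]
  have e3 := h.gp.H_im X.1
  have e4 := h.gp.H_im Y.1
  simp only [add_re, sub_re, mul_re, mul_im, conj_re, conj_im, e3, e4]
  ring

end OK

end HP

end Crest.Agent.R245
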