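import Crest.Agent.R245.Wirt

/-!
# Exact jets of the fibre potential and of `t0` (task R245/HartJet)

Recipe.  Work on an open set `O ∋ (z, w)` of `T` on which `φ ∘ fst` is smooth and
`E q = |q.2|² e^{φ q.1} < 1` (or with `∀ᶠ q in 𝓝 (z, w)`).  As complex functions of `q` put
`ψ = exp φ`, `m = (1 - q.2 conj q.2 ψ)⁻¹`, `φ_a = D a (cx φ) q.1`, `Λ_X = X.2 + q.2 φ_{X.1}`.
Rules: `W s X (fun q => g q.1) q = W s X.1 g q.1` (`W_fst`), `D X q.2 = X.2`, `Db X q.2 = 0`,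
`D X (conj q.2) = 0`, `Db X (conj q.2) = conj X.2`, `W ψ = ψ W φ`, `W m = m² W E`,
`D X E = conj w ψ Λ_X`, `Db X E = w ψ conj Λ_X`, `conj φ_a = Db a φ`.  Then, at every nearby point,
* `Db Z F = m w ψ conj Λ_Z`,  `D X F = m conj w ψ Λ_X`,
* `D Y (Db Z F) = n P(Y,Z) + m² ψ Λ_Y conj Λ_Z`  (`n = |w|² ψ m = m - 1`),
* `D X (D Y (Db Z F)) = FJ.A X Y Z` using `D X (m² ψ) = 2 m³ conj w ψ² Λ_X + m² ψ φ_X`,
  `D X Λ_Y = X.2 φ_Y + w φ_{XY}`, `D X (conj Λ_Z) = conj w P(X,Z)`, `D X n = m² conj w ψ Λ_X`,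
* `Q X Y Z U = Db Z (D X (D Y (Db U F)))` (`W_comm`), one more product rule; here
  `Db Z (A a b u) = Q a b z u`, `Db Z P(a,u) = conj (A z u a)`, `Db Z φ_a = P(a,z)`,
  `Db Z φ_{ab} = A a b z`, `Db Z (conj Λ_U) = conj (Z.2 φ_U + w φ_{ZU})`.
Each step ends with `field_simp; ring` (or substitute `X.2 = Λ_X - w φ_X`, `n = m - 1` and use
`linear_combination (..) * (hm : m * (1 - w conj w ψ) = 1)`).
State the steps for a general point so that they can be differentiated again (`W_congr`).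
-/

set_option autoImplicit false
set_option linter.unusedSectionVars false

noncomputable section

namespace Crest.Agent.R245

open scoped ComplexConjugate ContDiff Topology
open Complex Set Filter

theorem W_fst {g : V → ℂ} {q : T} (hg : DifferentiableAt ℝ g q.1) (s : ℝ) (X : T) :
    W s X (fun x : T => g x.1) q = W s X.1 g q.1 := by
  have h := W_affine (s := s) (f := g) (ContinuousLinearMap.fst ℂ V ℂ) 0 (q := q) (a := X)
    (by simpa using hg)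
  simpa using h

theorem Sm.fst {F : Type*} [NormedAddCommGroup F] [NormedSpace ℝ F] {g : V → F} {q : T}
    (hg : Sm g q.1) : Sm (fun x : T => g x.1) q :=
  Sm.comp (f := fun x : T => x.1) hg (Sm.of_contDiff contDiff_fst)

theorem jet_fst {g : V → ℝ} {q : T} (hg : Sm g q.1) :
    jet (fun x : T => g x.1) q = (jet g q.1).comap Prod.fst := by
  have h := jet_affine (Φ := g) (ContinuousLinearMap.fst ℂ V ℂ) 0 (q := q) (by simpa using hg)
  simpa using h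

/-! ### A small calculus of smooth germs with a known Wirtinger derivative -/

/-- `f` is smooth near `q` and its derivative `W s X` at `q` is `v`. -/
structure HW (s : ℝ) (X : T) (f : T → ℂ) (q : T) (v : ℂ) : Prop where
  sm : Sm f q
  eq : W s X f q = v

namespace HW

variable {s : ℝ} {X q : T} {f g : T → ℂ} {u v : ℂ}

theorem const (c : ℂ) : HW s X (fun _ => c) q 0 := ⟨Sm.const c, W_const c⟩

theorem add (hf : HW s X f q u) (hg : HW s X g q v) : HW s X (fun x => f x + g x) q (u + v) :=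
  ⟨hf.sm.add hg.sm, by rw [W_add hf.sm.differentiableAt hg.sm.differentiableAt, hf.eq, hg.eq]⟩

theorem sub (hf : HW s X f q u) (hg : HW s X g q v) : HW s X (fun x => f x - g x) q (u - v) :=
  ⟨hf.sm.sub hg.sm, by rw [W_sub hf.sm.differentiableAt hg.sm.differentiableAt, hf.eq, hg.eq]⟩

theorem mul (hf : HW s X f q u) (hg : HW s X g q v) :
    HW s X (fun x => f x * g x) q (u * g q + f q * v) :=
  ⟨hf.sm.mul hg.sm, by rw [W_mul hf.sm.differentiableAt hg.sm.differentiableAt, hf.eq, hg.eq]⟩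

theorem val (hf : HW s X f q u) (h : u = v) : HW s X f q v := h ▸ hf

theorem congr (hf : HW s X f q u) (h : f =ᶠ[𝓝 q] g) : HW s X g q u :=
  ⟨hf.sm.congr h, by rw [← W_congr h, hf.eq]⟩

theorem sq (hf : HW s X f q u) : HW s X (fun x => f x ^ 2) q (2 * f q * u) :=
  ((hf.mul hf).val (by ring)).congr (Eventually.of_forall fun x => by simp [pow_two])

theorem conjD (hf : HW (-1) X f q u) : HW 1 X (fun x => conj (f x)) q (conj u) :=
  ⟨hf.sm.conj, by rw [W_conj, hf.eq]⟩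

theorem conjDb (hf : HW 1 X f q u) : HW (-1) X (fun x => conj (f x)) q (conj u) :=
  ⟨hf.sm.conj, by rw [W_conj, neg_neg, hf.eq]⟩

theorem fst {g : V → ℂ} (hg : Sm g q.1) : HW s X (fun x => g x.1) q (W s X.1 g q.1) :=
  ⟨hg.fst, W_fst hg.differentiableAt s X⟩

theorem inv (hf : HW s X f q u) (h0 : f q ≠ 0) :
    HW s X (fun x => (f x)⁻¹) q (-((f q)⁻¹) ^ 2 * u) :=
  ⟨hf.sm.inv h0, by
    rw [W_comp_hol (G := fun y => y⁻¹) (hasDerivAt_inv h0) hf.sm.differentiableAt, hf.eq, inv_pow]⟩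

theorem snd_D : HW (-1) X (fun x => x.2) q X.2 :=
  ⟨Sm.of_contDiff contDiff_snd, D_hol (ContinuousLinearMap.snd ℂ V ℂ).hasFDerivAt⟩

theorem snd_Db : HW 1 X (fun x => x.2) q 0 :=
  ⟨Sm.of_contDiff contDiff_snd, Db_hol (ContinuousLinearMap.snd ℂ V ℂ).hasFDerivAt⟩

end HW

/-- Points of the Hartogs domain near which `φ` is smooth. -/
structure HGd (φ : V → ℝ) (q : T) : Prop where
  sm : Sm φ q.1
  lt : normSq q.2 * Real.exp (φ q.1) < 1

namespace HGd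

variable {φ : V → ℝ} {q : T}

theorem sm_E (hφ : Sm φ q.1) : Sm (fun x : T => normSq x.2 * Real.exp (φ x.1)) q := by
  refine Sm.rmul (Sm.of_contDiff ?_) hφ.fst.exp
  simp only [normSq_apply]
  have h1 : ContDiff ℝ ∞ fun x : T => x.2.re := Complex.reCLM.contDiff.comp contDiff_snd
  have h2 : ContDiff ℝ ∞ fun x : T => x.2.im := Complex.imCLM.contDiff.comp contDiff_snd
  exact (h1.mul h1).add (h2.mul h2)

theorem ev (h : HGd φ q) : ∀ᶠ x in 𝓝 q, HGd φ x := by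
  have h1 : ∀ᶠ x : T in 𝓝 q, Sm φ x.1 := continuousAt_fst.eventually h.sm.eventually
  have h2 := (sm_E h.sm).continuousAt.eventually_lt_const h.lt
  filter_upwards [h1, h2] with x a b using ⟨a, b⟩

theorem smF (h : HGd φ q) : Sm (FF φ) q :=
  (((Sm.const (1 : ℝ)).sub (sm_E h.sm)).log (sub_pos.2 h.lt).ne').neg

variable (P0 : V → ℝ) (c : ℝ)

/-- The algebraic data as a function of the point. -/
abbrev pp (P0 φ : V → ℝ) (c : ℝ) (q : T) : HP := hpOf P0 φ c q.1 q.2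

theorem ne (h : HGd φ q) :
    1 - (pp P0 φ c q).w * conj (pp P0 φ c q).w * ((pp P0 φ c q).ψ : ℂ) ≠ 0 := by
  rw [mul_conj]
  exact_mod_cast (sub_pos.2 h.lt).ne'

theorem m_eq (q : T) : ((pp P0 φ c q).m : ℂ) =
    (1 - (pp P0 φ c q).w * conj (pp P0 φ c q).w * ((pp P0 φ c q).ψ : ℂ))⁻¹ := by
  rw [mul_conj, HP.m]
  push_cast
  rw [one_div]

theorem hm (h : HGd φ q) : ((pp P0 φ c q).m : ℂ) *
    (1 - (pp P0 φ c q).w * conj (pp P0 φ c q).w * ((pp P0 φ c q).ψ : ℂ)) = 1 := by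
  rw [m_eq, inv_mul_cancel₀ (h.ne P0 c)]

theorem n_eq (h : HGd φ q) : ((pp P0 φ c q).n : ℂ) = (pp P0 φ c q).m - 1 := by
  have h1 := h.hm P0 c
  rw [mul_conj] at h1
  rw [HP.n]
  push_cast
  linear_combination -h1

variable (h : HGd φ q) (X : T)
include h

theorem w_D : HW (-1) X (fun x => (pp P0 φ c x).w) q
    ((pp P0 φ c q).Λ X - (pp P0 φ c q).w * (pp P0 φ c q).f1 X.1) :=
  HW.snd_D.val (by simp [HP.Λ])

theorem w_Db : HW 1 X (fun x => (pp P0 φ c x).w) q 0 := HW.snd_Db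

theorem wb_D : HW (-1) X (fun x => conj (pp P0 φ c x).w) q 0 :=
  (h.w_Db P0 c X).conjDb.val (map_zero _)

theorem wb_Db : HW 1 X (fun x => conj (pp P0 φ c x).w) q
    (conj ((pp P0 φ c q).Λ X) - conj (pp P0 φ c q).w * conj ((pp P0 φ c q).f1 X.1)) :=
  (h.w_D P0 c X).conjD.val (by simp)

theorem ψ_W (s : ℝ) : HW s X (fun x => ((pp P0 φ c x).ψ : ℂ)) q
    ((pp P0 φ c q).ψ * W s X.1 (cx φ) q.1) := by
  refine (HW.fst (g := cx fun z => Real.exp (φ z)) h.sm.exp.cx).val ?_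
  exact W_comp_real (Real.hasDerivAt_exp _) h.sm.differentiableAt

theorem ψ_D : HW (-1) X (fun x => ((pp P0 φ c x).ψ : ℂ)) q
    ((pp P0 φ c q).ψ * (pp P0 φ c q).f1 X.1) := h.ψ_W P0 c X (-1)

theorem ψ_Db : HW 1 X (fun x => ((pp P0 φ c x).ψ : ℂ)) q
    ((pp P0 φ c q).ψ * conj ((pp P0 φ c q).f1 X.1)) :=
  (h.ψ_W P0 c X 1).val (congrArg _ (conj_D_cx φ).symm)

theorem E_D : HW (-1) X
    (fun x => (pp P0 φ c x).w * conj (pp P0 φ c x).w * ((pp P0 φ c x).ψ : ℂ)) q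
    ((pp P0 φ c q).ψ * conj (pp P0 φ c q).w * (pp P0 φ c q).Λ X) :=
  (((h.w_D P0 c X).mul (h.wb_D P0 c X)).mul (h.ψ_D P0 c X)).val (by ring)

theorem m_D : HW (-1) X (fun x => ((pp P0 φ c x).m : ℂ)) q
    ((pp P0 φ c q).m ^ 2 * (pp P0 φ c q).ψ * conj (pp P0 φ c q).w * (pp P0 φ c q).Λ X) := by
  refine ((((HW.const 1).sub (h.E_D P0 c X)).inv (h.ne P0 c)).congr
    (Eventually.of_forall fun x => (m_eq P0 c x).symm)).val ?_
  rw [← m_eq]
  ring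

theorem m_Db : HW 1 X (fun x => ((pp P0 φ c x).m : ℂ)) q
    ((pp P0 φ c q).m ^ 2 * (pp P0 φ c q).ψ * (pp P0 φ c q).w * conj ((pp P0 φ c q).Λ X)) :=
  ((h.m_D P0 c X).conjD.congr (Eventually.of_forall fun x => conj_ofReal _)).val (by simp)

theorem n_Db : HW 1 X (fun x => ((pp P0 φ c x).n : ℂ)) q
    ((pp P0 φ c q).m ^ 2 * (pp P0 φ c q).ψ * (pp P0 φ c q).w * conj ((pp P0 φ c q).Λ X)) :=
  (((h.m_Db P0 c X).sub (HW.const 1)).congr
    (h.ev.mono fun _ hx => (hx.n_eq P0 c).symm)).val (sub_zero _)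

theorem f1_D (a : V) : HW (-1) X (fun x => (pp P0 φ c x).f1 a) q ((pp P0 φ c q).f2 X.1 a) :=
  HW.fst (g := D a (cx φ)) (h.sm.cx.W _ _)

theorem f1_Db (a : V) : HW 1 X (fun x => (pp P0 φ c x).f1 a) q ((pp P0 φ c q).Jp.H a X.1) :=
  (HW.fst (g := D a (cx φ)) (h.sm.cx.W _ _)).val (W_comm h.sm.cx)

theorem f2_Db (a b : V) :
    HW 1 X (fun x => (pp P0 φ c x).f2 a b) q ((pp P0 φ c q).Jp.A a b X.1) :=
  (HW.fst (g := D a (D b (cx φ))) ((h.sm.cx.W _ _).W _ _)).val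
    ((W_comm (h.sm.cx.W _ _)).trans (W_congr (W_comm_ev h.sm.cx)))

theorem H_Db (a b : V) :
    HW 1 X (fun x => (pp P0 φ c x).Jp.H a b) q (conj ((pp P0 φ c q).Jp.A X.1 b a)) := by
  have h1 : HW (-1) X (fun x => (pp P0 φ c x).Jp.H b a) q ((pp P0 φ c q).Jp.A X.1 b a) :=
    HW.fst (g := D b (Db a (cx φ))) ((h.sm.cx.W _ _).W _ _)
  exact h1.conjD.congr (h.ev.mono fun x hx => (jet_good hx.sm).H_conj _ _)

theorem A_Db (a b e : V) :
    HW 1 X (fun x => (pp P0 φ c x).Jp.A a b e) q ((pp P0 φ c q).Jp.Q a b X.1 e) :=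
  (HW.fst (g := D a (D b (Db e (cx φ)))) (((h.sm.cx.W _ _).W _ _).W _ _)).val
    ((W_comm ((h.sm.cx.W _ _).W _ _)).trans (W_congr (W_comm_ev (h.sm.cx.W _ _))))

theorem Λ_D (Y : T) : HW (-1) X (fun x => (pp P0 φ c x).Λ Y) q
    (((pp P0 φ c q).Λ X - (pp P0 φ c q).w * (pp P0 φ c q).f1 X.1) * (pp P0 φ c q).f1 Y.1 +
      (pp P0 φ c q).w * (pp P0 φ c q).f2 X.1 Y.1) :=
  ((HW.const Y.2).add ((h.w_D P0 c X).mul (h.f1_D P0 c X Y.1))).val (zero_add _)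

theorem Λ_Db (Y : T) : HW 1 X (fun x => (pp P0 φ c x).Λ Y) q
    ((pp P0 φ c q).w * (pp P0 φ c q).Jp.H Y.1 X.1) :=
  ((HW.const Y.2).add ((h.w_Db P0 c X).mul (h.f1_Db P0 c X Y.1))).val (by ring)

theorem Λb_Db (Y : T) : HW 1 X (fun x => conj ((pp P0 φ c x).Λ Y)) q
    ((conj ((pp P0 φ c q).Λ X) - conj (pp P0 φ c q).w * conj ((pp P0 φ c q).f1 X.1)) *
        conj ((pp P0 φ c q).f1 Y.1) +
      conj (pp P0 φ c q).w * conj ((pp P0 φ c q).f2 X.1 Y.1)) :=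
  (h.Λ_D P0 c X Y).conjD.val (by simp)

theorem F_D : D X (cx (FF φ)) q = (pp P0 φ c q).F1 X := by
  have h0 : 1 - normSq q.2 * Real.exp (φ q.1) ≠ 0 := (sub_pos.2 h.lt).ne'
  have h1 : HasDerivAt (fun y : ℝ => -Real.log (1 - y)) ((pp P0 φ c q).m)
      (normSq q.2 * Real.exp (φ q.1)) := by
    have := (((hasDerivAt_id' (normSq q.2 * Real.exp (φ q.1))).const_sub 1).log h0).neg
    refine this.congr_deriv ?_
    simp only [HP.m, pp, hpOf]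
    ring
  have h2 := W_comp_real (s := -1) (ξ := X) (u := fun x : T => normSq x.2 * Real.exp (φ x.1)) h1
    (sm_E h.sm).differentiableAt
  have h3 : cx (fun x : T => normSq x.2 * Real.exp (φ x.1)) =
      fun x => (pp P0 φ c x).w * conj (pp P0 φ c x).w * ((pp P0 φ c x).ψ : ℂ) := by
    funext x
    rw [mul_conj]
    simp [cx, hpOf]
  rw [h3, (h.E_D P0 c X).eq] at h2
  refine Eq.trans h2 ?_
  rw [HP.F1]
  ring

theorem F1_D (Y : T) : HW (-1) X (fun x => (pp P0 φ c x).F1 Y) q ((pp P0 φ c q).F2 X Y) := by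
  refine ((((h.m_D P0 c X).mul (h.ψ_D P0 c X)).mul (h.wb_D P0 c X)).mul (h.Λ_D P0 c X Y)).val ?_
  have hm := h.hm P0 c
  rw [HP.F2, h.n_eq P0 c]
  linear_combination (-((pp P0 φ c q).f2 X.1 Y.1 - (pp P0 φ c q).f1 X.1 * (pp P0 φ c q).f1 Y.1)) * hm

theorem F1_Db (Y : T) : HW 1 X (fun x => (pp P0 φ c x).F1 Y) q ((pp P0 φ c q).FJ.H Y X) := by
  refine ((((h.m_Db P0 c X).mul (h.ψ_Db P0 c X)).mul (h.wb_Db P0 c X)).mul (h.Λ_Db P0 c X Y)).val ?_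
  have hm := h.hm P0 c
  simp only [HP.FJ, h.n_eq P0 c]
  grind

theorem F2_Db (Y Z : T) :
    HW 1 X (fun x => (pp P0 φ c x).F2 Y Z) q ((pp P0 φ c q).FJ.A Y Z X) := by
  have a1 := ((h.m_Db P0 c X).mul (h.ψ_Db P0 c X)).mul (h.wb_Db P0 c X)
  refine ((((a1.sq.mul (h.Λ_Db P0 c X Y)).mul (h.Λ_Db P0 c X Z)).add
    (a1.mul (((h.f1_Db P0 c X Z.1).mul (h.Λ_Db P0 c X Y)).add
      ((h.f1_Db P0 c X Y.1).mul (h.Λ_Db P0 c X Z))))).add
    ((h.n_Db P0 c X).mul ((h.f2_Db P0 c X Y.1 Z.1).sub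
      ((h.f1_Db P0 c X Y.1).mul (h.f1_Db P0 c X Z.1))))).val ?_
  have hm := h.hm P0 c
  simp only [HP.FJ, HP.L, h.n_eq P0 c]
  grind

theorem FA_Db (Y Z U : T) :
    HW 1 X (fun x => (pp P0 φ c x).FJ.A Y Z U) q ((pp P0 φ c q).FJ.Q Y Z X U) := by
  have a1 := (h.m_Db P0 c X).sq.mul (h.ψ_Db P0 c X)
  have aL : HW 1 X (fun x => (pp P0 φ c x).L Y Z) q _ :=
    ((((((((HW.const 2).mul (h.m_Db P0 c X)).mul (h.ψ_Db P0 c X)).mul (h.wb_Db P0 c X)).mul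
      (h.Λ_Db P0 c X Y)).mul (h.Λ_Db P0 c X Z)).add
      ((h.f1_Db P0 c X Z.1).mul (h.Λ_Db P0 c X Y))).add
      ((h.f1_Db P0 c X Y.1).mul (h.Λ_Db P0 c X Z))).add
      ((h.w_Db P0 c X).mul ((h.f2_Db P0 c X Y.1 Z.1).sub
        ((h.f1_Db P0 c X Y.1).mul (h.f1_Db P0 c X Z.1))))
  refine ((((h.n_Db P0 c X).mul (h.A_Db P0 c X Y.1 Z.1 U.1)).add
    ((a1.mul (h.wb_Db P0 c X)).mul (((h.Λ_Db P0 c X Z).mul (h.H_Db P0 c X Y.1 U.1)).add
      ((h.Λ_Db P0 c X Y).mul (h.H_Db P0 c X Z.1 U.1))))).add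
    ((a1.mul aL).mul (h.Λb_Db P0 c X U))).val ?_
  have hm := h.hm P0 c
  simp only [HP.FJ, HP.L, h.n_eq P0 c, map_add, map_mul, map_sub, conj_ofReal, conj_conj, map_ofNat]
  grind

theorem F_DD (Y : T) : D X (D Y (cx (FF φ))) q = (pp P0 φ c q).F2 X Y :=
  (W_congr (h.ev.mono fun _ hx => hx.F_D P0 c Y)).trans (h.F1_D P0 c X Y).eq

theorem F_H (Y : T) : (jet (FF φ) q).H X Y = (pp P0 φ c q).FJ.H X Y :=
  (W_comm h.smF.cx).trans
    ((W_congr (h.ev.mono fun _ hx => hx.F_D P0 c X)).trans (h.F1_Db P0 c Y X).eq)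

theorem F_A (Y Z : T) : (jet (FF φ) q).A X Y Z = (pp P0 φ c q).FJ.A X Y Z :=
  (W_congr (W_comm_ev h.smF.cx)).trans ((W_comm (h.smF.cx.W _ _)).trans
    ((W_congr (h.ev.mono fun _ hx => hx.F_DD P0 c X Y)).trans (h.F2_Db P0 c Z X Y).eq))

theorem F_Q (Y Z U : T) : (jet (FF φ) q).Q X Y Z U = (pp P0 φ c q).FJ.Q X Y Z U :=
  (W_congr (W_comm_ev (h.smF.cx.W _ _))).trans ((W_comm ((h.smF.cx.W _ _).W _ _)).trans
    ((W_congr (h.ev.mono fun _ hx => hx.F_A P0 c X Y U)).trans (h.FA_Db P0 c Z X Y U).eq))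

end HGd

variable {φ : V → ℝ} {z : V} {w : ℂ}

theorem sm_FF (hφ : Sm φ z) (hw : normSq w * Real.exp (φ z) < 1) : Sm (FF φ) (z, w) :=
  HGd.smF (q := (z, w)) ⟨hφ, hw⟩

theorem FF_eq (P0 : V → ℝ) (c : ℝ) : FF φ (z, w) = (hpOf P0 φ c z w).F0 := rfl

theorem D_FF (hφ : Sm φ z) (hw : normSq w * Real.exp (φ z) < 1) (P0 : V → ℝ) (c : ℝ) (X : T) :
    D X (cx (FF φ)) (z, w) = (hpOf P0 φ c z w).F1 X :=
  HGd.F_D P0 c (q := (z, w)) ⟨hφ, hw⟩ X

theorem DD_FF (hφ : Sm φ z) (hw : normSq w * Real.exp (φ z) < 1) (P0 : V → ℝ) (c : ℝ) (X Y : T) :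
    D X (D Y (cx (FF φ))) (z, w) = (hpOf P0 φ c z w).F2 X Y :=
  HGd.F_DD P0 c (q := (z, w)) ⟨hφ, hw⟩ X Y

theorem jet_FF (hφ : Sm φ z) (hw : normSq w * Real.exp (φ z) < 1) (P0 : V → ℝ) (c : ℝ) :
    jet (FF φ) (z, w) = (hpOf P0 φ c z w).FJ := by
  have h : HGd φ (z, w) := ⟨hφ, hw⟩
  ext
  · exact h.F_H P0 c _ _
  · exact h.F_A P0 c _ _ _
  · exact h.F_Q P0 c _ _ _ _

end Crest.Agent.R245
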