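import Mathlib

/-!
# Scalar inequalities behind the curvature bound
-/

set_option autoImplicit false

namespace Crest.Agent.R245

theorem abs_le_of_sq_le_four {a u v : ℝ} (hu : 0 ≤ u) (hv : 0 ≤ v) (h : a ^ 2 ≤ 4 * u * v) :
    -(u + v) ≤ a := by
  have h1 : a ^ 2 ≤ (u + v) ^ 2 := by nlinarith [sq_nonneg (u - v)]
  exact (abs_le_of_sq_le_sq' h1 (by positivity)).1

/-- No wells. -/
theorem scalarA {x t Sg Δ p2 τ Pu Pv P'u P'v : ℝ} (hx : 0 ≤ x) (ht : 1 ≤ t) (hΔ : 0 ≤ Δ)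
    (hPu : 0 ≤ Pu) (hPv : 0 ≤ Pv) (hP'u0 : 0 ≤ P'u) (hP'v0 : 0 ≤ P'v)
    (huv : Pv = Pu + 4 * τ * p2) (hP'u : Pu ≤ (1 + x) * P'u) (hP'v : (1 + x) * P'v ≤ Pv)
    (hS : (1 + x) * (9 / 10 * Δ + 12 / 5 * p2 ^ 2) ≤ Sg) :
    (1 + x) ^ 2 * Δ + (1 + x) * Pu + ((1 + x) * p2 + τ) ^ 2 ≤
      40 * (Sg + (x + x ^ 2 * t) * Δ + 4 * t * (τ + x * p2) ^ 2 + 4 * (τ + x * p2) * p2 +
        (x + x ^ 2 * t) * P'u + (1 + 2 * x * t) * Pv - 2 * (x + x ^ 2 * t) * P'v) := by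
  have hΘ : x * (1 + x) ≤ x + x ^ 2 * t := by nlinarith [mul_nonneg (sq_nonneg x) (sub_nonneg.2 ht)]
  have h1 : x * (1 + x) * Δ ≤ (x + x ^ 2 * t) * Δ := mul_le_mul_of_nonneg_right hΘ hΔ
  have h2 : x * Pu ≤ (x + x ^ 2 * t) * P'u := by
    have := mul_le_mul_of_nonneg_right hΘ hP'u0
    have := mul_le_mul_of_nonneg_left hP'u hx
    nlinarith
  have h3 : (x + x ^ 2 * t) * P'v ≤ x * t * Pv := by
    have h4 : x + x ^ 2 * t ≤ x * t * (1 + x) := by nlinarith [mul_nonneg hx (sub_nonneg.2 ht)]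
    have := mul_le_mul_of_nonneg_right h4 hP'v0
    have := mul_le_mul_of_nonneg_left hP'v (mul_nonneg hx (by linarith : (0 : ℝ) ≤ t))
    nlinarith
  have h5 : 4 * (τ + x * p2) ^ 2 ≤ 4 * t * (τ + x * p2) ^ 2 := by
    nlinarith [mul_nonneg (sq_nonneg (τ + x * p2)) (sub_nonneg.2 ht)]
  set la := τ + x * p2 with hla
  have hτ : τ = la - x * p2 := by rw [hla]; ring
  have h6 : (1 + x) * p2 + τ = la + p2 := by rw [hla]; ring
  rw [h6]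
  have h7 : Pv = Pu + 4 * la * p2 - 4 * x * p2 ^ 2 := by rw [huv, hτ]; ring
  have h8 : 0 ≤ x * p2 ^ 2 := by positivity
  have h9 : 0 ≤ x * Δ := by positivity
  have h10 : 0 ≤ x * x * Δ := by positivity
  have h11 : 0 ≤ x * Pu := by positivity
  nlinarith [sq_nonneg (la + p2), sq_nonneg (159 * la + 99 * p2), sq_nonneg p2]

/-- Wells, small `x`. -/
theorem scalarB {x t k K1 Q Sg Δ p2 τ Pv P'u P'v cr qG g2 Gv : ℝ} (hx : 0 ≤ x) (ht : 1 ≤ t)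
    (hk : 2 * x ≤ k) (hk1 : k ≤ 1) (hK : 480 * K1 ^ 2 * x ≤ 1) (hQ : 0 ≤ Q) (hΔ : 0 ≤ Δ)
    (hPv : 0 ≤ Pv) (hP'u0 : 0 ≤ P'u) (hP'v0 : 0 ≤ P'v) (hP'v : (x + k) * P'v ≤ Pv)
    (hS : 9 / 10 * Q ≤ Sg) (hp2 : 40 * p2 ^ 2 ≤ 3 * t * Q)
    (hcr : cr ^ 2 ≤ 32 * (x + x ^ 2 * t) * K1 ^ 2 * Pv * Q) (hqG : qG ≤ 4 * Q)
    (hg2 : g2 ^ 2 ≤ qG) (hxp : x ^ 2 * p2 ^ 2 ≤ qG) (hGv : Gv ≤ (1 + x) * Pv) :
    qG - g2 ^ 2 + Gv + (g2 - τ) ^ 2 ≤
      40 * (Sg + (x + x ^ 2 * t) * Δ + 4 * t * (τ + x * p2) ^ 2 + 4 * (τ + x * p2) * p2 +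
        (x + x ^ 2 * t) * P'u + (1 + 2 * x * t) * Pv - 2 * (x + x ^ 2 * t) * P'v + cr) := by
  have ht0 : 0 < t := by linarith
  have hΘ0 : 0 ≤ x + x ^ 2 * t := by positivity
  set la := τ + x * p2 with hla
  have h6 : g2 - τ = g2 + x * p2 - la := by rw [hla]; ring
  rw [h6]
  have h1 : 0 ≤ (x + x ^ 2 * t) * Δ := mul_nonneg hΘ0 hΔ
  have h2 : 0 ≤ (x + x ^ 2 * t) * P'u := mul_nonneg hΘ0 hP'u0
  set Z := (1 + x * t) * Pv / 3 with hZ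
  have hZ0 : 0 ≤ Z := by positivity
  have h3 : Z ≤ (1 + 2 * x * t) * Pv - 2 * (x + x ^ 2 * t) * P'v := by
    have h4 : 3 * x * P'v ≤ Pv := by
      have := mul_le_mul_of_nonneg_right hk hP'v0
      linarith
    have h5 := mul_le_mul_of_nonneg_left h4 (by positivity : 0 ≤ 1 + x * t)
    have h7 : 0 ≤ x * t * Pv := by positivity
    rw [hZ]; linarith
  have h4 : -(Z / 2 + Q / 10) ≤ cr := by
    apply abs_le_of_sq_le_four (by positivity) (by positivity)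
    have h5 : 32 * (x + x ^ 2 * t) * K1 ^ 2 * Pv * Q = (480 * K1 ^ 2 * x) * (Z * Q / 5) := by
      rw [hZ]; ring
    have h7 := mul_le_mul_of_nonneg_right hK (by positivity : 0 ≤ Z * Q / 5)
    linarith
  have h5 : -(3 * t * la ^ 2 + Q / 10) ≤ 4 * la * p2 := by
    apply abs_le_of_sq_le_four (by positivity) (by positivity)
    have := mul_le_mul_of_nonneg_left hp2 (sq_nonneg la)
    linarith
  have h7 : la ^ 2 ≤ t * la ^ 2 := by linarith [mul_nonneg (sq_nonneg la) (sub_nonneg.2 ht)]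
  have h8 : Pv / 3 ≤ Z := by
    have : 0 ≤ x * t * Pv := by positivity
    rw [hZ]; linarith
  have h9 : (g2 + x * p2 - la) ^ 2 ≤ 3 * g2 ^ 2 + 3 * (x ^ 2 * p2 ^ 2) + 3 * la ^ 2 := by
    linarith [sq_nonneg (g2 - x * p2), sq_nonneg (g2 + la), sq_nonneg (x * p2 + la)]
  have h10 : Gv ≤ 3 / 2 * Pv := by
    have := mul_le_mul_of_nonneg_right (by linarith : x ≤ 1 / 2) hPv
    linarith
  linarith [sq_nonneg la, sq_nonneg g2]

/-- Wells, `x` not small. -/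
theorem scalarC {x x1 t b k K1 K2 Q Sg qP p2 τ Pu Pv P'u P'v cr qG g0 Gu : ℝ} (hx1 : 0 < x1)
    (hx : x1 ≤ x) (hk : 2 * x1 ≤ k) (hk1 : k ≤ 1) (hb : 0 < b) (hkt : 1 ≤ k * t)
    (ht1 : 64 ≤ x1 ^ 4 * t) (ht2 : 80 * K2 ≤ x1 ^ 4 * (b * t))
    (ht3 : 81920 * K1 ^ 2 ≤ x1 ^ 6 * (b * t)) (hK2 : 0 ≤ K2) (hΔ : p2 ^ 2 ≤ qP)
    (hPu : 0 ≤ Pu) (hPv : 0 ≤ Pv) (hP'u0 : 0 ≤ P'u) (hP'v0 : 0 ≤ P'v)
    (huv : Pv = Pu + 4 * τ * p2) (hP'u : Pu ≤ (1 + x) * P'u) (hP'v : (x + k) * P'v ≤ Pv)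
    (hS : -(K2 * ((1 + x) ^ 2 * qP)) ≤ b * Sg) (hQ0 : 0 ≤ Q) (hQ : b * Q ≤ 2 * qP)
    (hcr : (1 + x) ^ 2 * cr ^ 2 ≤ 32 * (x + x ^ 2 * t) * K1 ^ 2 * Pv * Q)
    (hqG : qG ≤ (1 + x) ^ 2 * qP) (hg0 : g0 ^ 2 ≤ qP) (hGu : Gu ≤ (1 + x) * Pu) :
    qG - (g0 + x * p2) ^ 2 + Gu + (g0 + x * p2 + τ) ^ 2 ≤
      40 * (Sg + (x + x ^ 2 * t) * (qP - p2 ^ 2) + 4 * t * (τ + x * p2) ^ 2 +
        4 * (τ + x * p2) * p2 + (x + x ^ 2 * t) * P'u + (1 + 2 * x * t) * Pv -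
        2 * (x + x ^ 2 * t) * P'v + cr) := by
  have hx0 : 0 < x := lt_of_lt_of_le hx1 hx
  have hk0 : 0 < k := by linarith
  have hx1' : x1 ≤ 1 / 2 := by linarith
  have ht : 1 ≤ t := by
    by_contra hc
    have : k * t < 1 := by
      rcases le_or_gt t 0 with h | h
      · nlinarith
      · nlinarith
    linarith
  have ht0 : 0 < t := by linarith
  set la := τ + x * p2 with hla
  have h6 : g0 + x * p2 + τ = g0 + la := by rw [hla]; ring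
  rw [h6]
  set Δ := qP - p2 ^ 2 with hΔd
  have hΔ0 : 0 ≤ Δ := by rw [hΔd]; linarith
  have hqP0 : 0 ≤ qP := le_trans (sq_nonneg _) hΔ
  set Z := (1 + x) ^ 2 * Δ + la ^ 2 + (1 + x) * Pu + Pv with hZ
  have z1 : 0 ≤ (1 + x) ^ 2 * Δ := by positivity
  have z2 : 0 ≤ la ^ 2 := sq_nonneg _
  have z3 : 0 ≤ (1 + x) * Pu := by positivity
  have hZ0 : 0 ≤ Z := by rw [hZ]; positivity
  have hxx : x1 * (1 + x) ≤ 2 * x := by
    have := mul_le_mul_of_nonneg_right hx1' hx0.le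
    linarith
  have hx1sq : x1 ^ 2 ≤ 1 := by
    have := mul_le_mul_of_nonneg_right hx1' hx1.le
    linarith
  have hxx2 : x1 ^ 2 * (1 + x) ^ 2 ≤ 4 * x ^ 2 := by
    have := mul_self_le_mul_self (by positivity) hxx
    linarith
  set W := x1 ^ 2 * t * Z / 16 with hW
  have hW0 : 0 ≤ W := by positivity
  -- main terms
  have m1 : x1 ^ 2 / 4 * t * ((1 + x) ^ 2 * Δ) ≤ (x + x ^ 2 * t) * Δ := by
    have := mul_le_mul_of_nonneg_right hxx2 (by positivity : 0 ≤ t * Δ / 4)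
    have : 0 ≤ x * Δ := by positivity
    linarith
  have m2 : x1 ^ 2 / 4 * t * la ^ 2 ≤ 4 * t * la ^ 2 := by
    have : x1 ^ 2 / 4 ≤ 4 := by linarith
    have := mul_le_mul_of_nonneg_right this (by positivity : 0 ≤ t * la ^ 2)
    linarith
  have m3 : x1 ^ 2 / 4 * t * ((1 + x) * Pu) ≤ (x + x ^ 2 * t) * P'u := by
    have a1 := mul_le_mul_of_nonneg_left hP'u (by positivity : 0 ≤ x1 ^ 2 / 4 * t * (1 + x))
    have a2 := mul_le_mul_of_nonneg_right hxx2 (by positivity : 0 ≤ t * P'u / 4)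
    have : 0 ≤ x * P'u := by positivity
    linarith
  have m4 : x1 ^ 2 / 4 * t * Pv ≤ (1 + 2 * x * t) * Pv - 2 * (x + x ^ 2 * t) * P'v := by
    have a0 : 0 < x + k := by linarith
    have a1 : (x + k) * (x1 ^ 2 / 4 * t) ≤ (1 + 2 * x * t) * (x + k) - 2 * (x + x ^ 2 * t) := by
      have b1 : x * 1 ≤ x * (k * t) := mul_le_mul_of_nonneg_left hkt hx0.le
      have b2 : (x + k) * x1 ≤ 2 * x := by
        have := mul_le_mul_of_nonneg_right hk1 hx1.le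
        linarith
      have b3 : (x + k) * x1 * (x1 * t) ≤ 2 * x * (x1 * t) :=
        mul_le_mul_of_nonneg_right b2 (by positivity)
      have b4 : 2 * x1 * (x * t) ≤ k * (x * t) := mul_le_mul_of_nonneg_right hk (by positivity)
      have b5 : 0 ≤ x * (k * t) := by positivity
      linarith
    have a2 := mul_le_mul_of_nonneg_right a1 hPv
    have a3 := mul_le_mul_of_nonneg_left hP'v (by positivity : 0 ≤ 2 * (x + x ^ 2 * t))
    have a4 : (x + k) * (x1 ^ 2 / 4 * t * Pv) ≤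
        (x + k) * ((1 + 2 * x * t) * Pv - 2 * (x + x ^ 2 * t) * P'v) := by linarith
    exact le_of_mul_le_mul_left a4 a0
  have main : 4 * W ≤ (x + x ^ 2 * t) * Δ + 4 * t * la ^ 2 + (x + x ^ 2 * t) * P'u +
      ((1 + 2 * x * t) * Pv - 2 * (x + x ^ 2 * t) * P'v) := by
    have : 4 * W = x1 ^ 2 / 4 * t * ((1 + x) ^ 2 * Δ) + x1 ^ 2 / 4 * t * la ^ 2 +
        x1 ^ 2 / 4 * t * ((1 + x) * Pu) + x1 ^ 2 / 4 * t * Pv := by rw [hW, hZ]; ring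
    linarith
  -- `p2`
  have p1 : x ^ 2 * p2 ^ 2 ≤ Z := by
    have a1 : -(τ * p2) ≤ Pu / 4 := by linarith
    have a2 : x * p2 ^ 2 = la * p2 - τ * p2 := by rw [hla]; ring
    have a3 : x * (x * p2 ^ 2) ≤ x * (la * p2 + Pu / 4) :=
      mul_le_mul_of_nonneg_left (by linarith) hx0.le
    have a4 : 0 ≤ x * Pu := by positivity
    rw [hZ]; linarith [sq_nonneg (la - x * p2)]
  set R := (1 + x) ^ 2 * qP with hR
  have hR0 : 0 ≤ R := by positivity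
  have p2' : x1 ^ 2 * R ≤ 5 * Z := by
    have a1 : R = (1 + x) ^ 2 * Δ + (1 + x) ^ 2 * p2 ^ 2 := by rw [hR, hΔd]; ring
    have a2 := mul_le_mul_of_nonneg_right hxx2 (sq_nonneg p2)
    have a3 : x1 ^ 2 * ((1 + x) ^ 2 * Δ) ≤ 1 * ((1 + x) ^ 2 * Δ) :=
      mul_le_mul_of_nonneg_right hx1sq z1
    have a4 : (1 + x) ^ 2 * Δ ≤ Z := by rw [hZ]; linarith
    rw [a1]; linarith
  have hqR : qP ≤ R := by
    have a1 : 0 ≤ x * qP := by positivity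
    have a2 : 0 ≤ x ^ 2 * qP := by positivity
    rw [hR]; linarith
  have p3 : x1 ^ 2 * p2 ^ 2 ≤ Z := by
    have : x1 ^ 2 ≤ x ^ 2 := pow_le_pow_left₀ hx1.le hx 2
    linarith [mul_le_mul_of_nonneg_right this (sq_nonneg p2)]
  have hx12 : 0 < x1 ^ 2 := by positivity
  have hlaZ : la ^ 2 ≤ Z := by rw [hZ]; linarith
  have hZW : 4 * Z ≤ x1 ^ 2 * W := by
    have := mul_le_mul_of_nonneg_right ht1 hZ0
    rw [hW]; linarith
  -- negative terms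
  have n1 : -W ≤ Sg := by
    have a1 : x1 ^ 2 * (K2 * R) ≤ x1 ^ 2 * (b * W) := by
      have b1 := mul_le_mul_of_nonneg_left p2' hK2
      have b2 := mul_le_mul_of_nonneg_right ht2 hZ0
      rw [hW]; linarith
    have a2 := le_of_mul_le_mul_left a1 hx12
    have a3 : b * (-W) ≤ b * Sg := by linarith
    exact le_of_mul_le_mul_left a3 hb
  have n2 : -W ≤ 4 * la * p2 := by
    have a1 : x1 ^ 2 * la ^ 2 ≤ 1 * la ^ 2 := mul_le_mul_of_nonneg_right hx1sq z2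
    have a2 : x1 ^ 2 * (2 * la ^ 2 + 2 * p2 ^ 2) ≤ x1 ^ 2 * W := by linarith
    have a3 := le_of_mul_le_mul_left a2 hx12
    linarith [sq_nonneg (la + p2)]
  have n3 : -W ≤ cr := by
    have a1 : x + x ^ 2 * t ≤ t * (1 + x) ^ 2 := by
      have : 1 * x ≤ t * x := mul_le_mul_of_nonneg_right ht hx0.le
      linarith
    have hPZ : Pv ≤ Z := by rw [hZ]; linarith
    have a2 : 32 * (x + x ^ 2 * t) * K1 ^ 2 * Pv * Q ≤ (1 + x) ^ 2 * (32 * t * K1 ^ 2 * Z * Q) := by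
      have b1 : (x + x ^ 2 * t) * Pv ≤ t * (1 + x) ^ 2 * Z :=
        mul_le_mul a1 hPZ hPv (by positivity)
      have b2 := mul_le_mul_of_nonneg_right b1 (by positivity : 0 ≤ 32 * K1 ^ 2 * Q)
      linarith
    have a3 : cr ^ 2 ≤ 32 * t * K1 ^ 2 * Z * Q :=
      le_of_mul_le_mul_left (hcr.trans a2) (by positivity)
    have a4 : x1 ^ 2 * (b * Q) ≤ 10 * Z := by
      have := mul_le_mul_of_nonneg_left (hQ.trans (by linarith : 2 * qP ≤ 2 * R)) hx12.le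
      linarith
    have a5 : x1 ^ 2 * b * cr ^ 2 ≤ x1 ^ 2 * b * W ^ 2 := by
      have b1 := mul_le_mul_of_nonneg_left a3 (by positivity : 0 ≤ x1 ^ 2 * b)
      have b2 := mul_le_mul_of_nonneg_left a4 (by positivity : 0 ≤ 32 * t * K1 ^ 2 * Z)
      have b3 := mul_le_mul_of_nonneg_right ht3 (by positivity : 0 ≤ t * Z ^ 2 / 256)
      have b4 : x1 ^ 2 * b * W ^ 2 = x1 ^ 6 * (b * t) * (t * Z ^ 2 / 256) := by rw [hW]; ring
      linarith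
    have a6 := le_of_mul_le_mul_left a5 (by positivity)
    exact (abs_le_of_sq_le_sq' a6 hW0).1
  -- the denominator
  have d1 : qG - (g0 + x * p2) ^ 2 + Gu + (g0 + la) ^ 2 ≤ 3 * R + 3 * Z := by
    have a1 : (1 + x) * Pu ≤ Z := by rw [hZ]; linarith
    linarith [sq_nonneg (g0 + x * p2), sq_nonneg (g0 - la)]
  have d2 : 3 * R + 3 * Z ≤ 40 * W := by
    have a1 : x1 ^ 2 * Z ≤ 1 * Z := mul_le_mul_of_nonneg_right hx1sq hZ0
    have a2 : x1 ^ 2 * (3 * R + 3 * Z) ≤ x1 ^ 2 * (40 * W) := by linarith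
    exact le_of_mul_le_mul_left a2 hx12
  linarith

end Crest.Agent.R245
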