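import Crest.Agent.R245.HartExact
import Crest.Agent.R245.HartScalar

/-!
# The curvature of the Hartogs jet
-/

set_option autoImplicit false

noncomputable section

namespace Crest.Agent.R245

open scoped ComplexConjugate
open Complex

theorem Den_le_smul {J K : Jet V} (hJ : J.Good) (hK : K.Good) (psd : ∀ a, 0 ≤ (J.H a a).re)
    {s : ℝ} (hle : ∀ a, (J.H a a).re ≤ s * (K.H a a).re) (X Y : V) :
    J.Den X Y ≤ s ^ 2 * K.Den X Y := by
  rw [← Jet.Den_smul]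
  exact hJ.Den_mono (hK.smul s) psd (fun a => by simpa using hle a) X Y

theorem smul_Den_le {J K : Jet V} (hJ : J.Good) (hK : K.Good) (psd : ∀ a, 0 ≤ (J.H a a).re)
    {s : ℝ} (hs : 0 ≤ s) (hle : ∀ a, s * (J.H a a).re ≤ (K.H a a).re) (X Y : V) :
    s ^ 2 * J.Den X Y ≤ K.Den X Y := by
  rw [← Jet.Den_smul]
  exact (hJ.smul s).Den_mono hK (fun a => by simpa using mul_nonneg hs (psd a))
    (fun a => by simpa using hle a) X Y

theorem tJet_psd (a : V) : 0 ≤ (tJet.H a a).re := tJet_pos.psd tJet_good a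

theorem tJet_low' (a : V) : 1 * ‖a‖ ^ 2 ≤ (tJet.H a a).re := by
  rw [one_mul]; exact tJet_low a

namespace HP

variable {p : HP} {C1 K0 β C : ℝ}

theorem G_re (a b : V) : (p.G.H a b).re = (p.J0.H a b).re + p.x * (p.Jp.H a b).re := by
  simp [HP.G]

theorem G_im (a b : V) : (p.G.H a b).im = (p.J0.H a b).im + p.x * (p.Jp.H a b).im := by
  simp [HP.G]

namespace OK

variable (h : p.OK C1 K0 β C)
include h

theorem J0_psd (a : V) : 0 ≤ (p.J0.H a a).re := h.J0_pos.psd h.g0 a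
theorem Jp_psd (a : V) : 0 ≤ (p.Jp.H a a).re := h.Jp_pos.psd h.gp a
theorem G_psd (a : V) : 0 ≤ (p.G.H a a).re := h.G_pos.psd h.G_good a

theorem G_le (a : V) : (p.G.H a a).re ≤ (1 + p.x) * (p.Jp.H a a).re := by
  rw [G_re]; linarith [h.psh a]

theorem le_G (a : V) : (p.x + 1 / (1 + 2 * C)) * (p.Jp.H a a).re ≤ (p.G.H a a).re := by
  have hC := h.C_nonneg
  have h1 : 1 / (1 + 2 * C) * (p.Jp.H a a).re ≤ (p.J0.H a a).re := by
    rw [one_div, inv_mul_le_iff₀ (by positivity)]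
    exact h.Jp_le a
  rw [G_re]; linarith

theorem P'_nonneg (a : V) : 0 ≤ (p.P' a a).re := h.G_psd _

theorem Pu_le (a : V) : (p.Jp.H a a).re ≤ (1 + p.x) * (p.P' a a).re := by
  have h1 := h.G_good.cauchy_schwarz h.G_psd (p.π a) a
  rw [h.π_spec, normSq_apply, h.gp.H_im] at h1
  have h2 := h.G_le a
  have h3 := h.P'_nonneg a
  have h4 := h.Jp_psd a
  have hx := h.x_nonneg
  unfold P' at h3 ⊢
  rcases h4.eq_or_lt with h5 | h5
  · rw [← h5]; positivity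
  · have h6 := mul_le_mul_of_nonneg_left h2 h3
    exact le_of_mul_le_mul_left (by linarith) h5

theorem P'v_le (a : V) : (p.x + 1 / (1 + 2 * C)) * (p.P' a a).re ≤ (p.Jp.H a a).re := by
  have h0 : p.P' a a = p.Jp.H a (p.π a) := h.π_spec _ _
  have h1 := h.gp.cauchy_schwarz h.Jp_psd a (p.π a)
  rw [← h0, normSq_apply, h.P'_im] at h1
  have h2 : (p.x + 1 / (1 + 2 * C)) * (p.Jp.H (p.π a) (p.π a)).re ≤ (p.P' a a).re := h.le_G _
  have h3 := h.P'_nonneg a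
  have h4 := h.Jp_psd a
  have hx := h.x_nonneg
  have hC := h.C_nonneg
  have hk : 0 ≤ p.x + 1 / (1 + 2 * C) := by positivity
  rcases h3.eq_or_lt with h5 | h5
  · rw [← h5, mul_zero]; exact h4
  · have h6 := mul_le_mul_of_nonneg_left h2 h4
    have h7 := mul_le_mul_of_nonneg_left h1 hk
    exact le_of_mul_le_mul_left (by linarith) h5

theorem nab_eq (a b c : V) : ((1 + p.x : ℝ) : ℂ) * p.nab a b c =
    (p.Jp - p.J0).A a b c - (p.Jp - p.J0).H (p.G.gam a b) c := by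
  have h1 := h.G_good.gam_spec h.G_pos a b c
  have h2 : ∀ u v, p.G.H u v = p.J0.H u v + p.x * p.Jp.H u v := fun _ _ => rfl
  have h3 : p.G.A a b c = p.J0.A a b c + p.x * p.Jp.A a b c := rfl
  rw [h2, h3] at h1
  unfold nab
  simp only [Jet.sub_A, Jet.sub_H]
  push_cast
  linear_combination -h1

theorem gam_G_le (a b : V) : ‖p.G.gam a b‖ ≤ 2 * (17 + C) * (‖a‖ * ‖b‖) := by
  have hx := h.x_nonneg
  have hβ := h.β_pos
  have hC := h.C_nonneg
  have := Jet.gam_bound h.G_good h.G_pos (ν := fun a => ‖a‖) (fun a => norm_nonneg a)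
    (κ := β / 2 * (1 + p.x)) (by positivity) (M := (1 + p.x) * ((17 + C) * β)) (by positivity)
    h.G_low h.G_bd.A a b
  have e : (1 + p.x) * ((17 + C) * β) / (β / 2 * (1 + p.x)) = 2 * (17 + C) := by
    field_simp
  rwa [e] at this

theorem nab_le (a b c : V) :
    ‖p.nab a b c‖ ≤ C * (35 + 2 * C) * β * ‖a‖ / (1 + p.x) * (‖b‖ * ‖c‖) := by
  have hx := h.x_nonneg
  have hβ := h.β_pos
  have hC := h.C_nonneg
  have h1 := congrArg norm (h.nab_eq a b c)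
  rw [norm_mul, Complex.norm_real, Real.norm_of_nonneg (by positivity)] at h1
  have h2 := h.bp.A a b c
  have h3 := h.bp.H (p.G.gam a b) c
  have h4 := h.gam_G_le a b
  have h5 := norm_sub_le ((p.Jp - p.J0).A a b c) ((p.Jp - p.J0).H (p.G.gam a b) c)
  have h6 : C * β * (‖p.G.gam a b‖ * ‖c‖) ≤ C * β * (2 * (17 + C) * (‖a‖ * ‖b‖) * ‖c‖) := by
    gcongr
  rw [div_mul_eq_mul_div, le_div_iff₀ (by positivity)]
  linarith

theorem cross_sq (X Y : T) : (1 + p.x) ^ 2 * p.cross X Y ^ 2 ≤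
    32 * p.Θ * (C * (35 + 2 * C)) ^ 2 * (p.Jp.H (p.vv X Y) (p.vv X Y)).re *
      (β * tJet.Den X.1 Y.1) := by
  have hx := h.x_nonneg
  have hβ := h.β_pos
  have hC := h.C_nonneg
  set v := p.vv X Y
  have h1 := Jet.antisymm_bound tJet_good tJet_pos (ν := fun a => ‖a‖) (fun a => norm_nonneg a)
    (κ := 1) one_pos tJet_low' (M := C * (35 + 2 * C) * β * ‖v‖ / (1 + p.x))
    (fun a b => p.nab v a b)
    (fun t a a' b => by
      have e : a + (t : ℂ) • a' = (1 : ℂ) • a - (-t : ℂ) • a' := by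
        rw [one_smul, neg_smul, sub_neg_eq_add]
      rw [h.nab_symm v, e, h.nab_lin, h.nab_symm v a, h.nab_symm v a']; ring)
    (fun t a b b' => by
      unfold nab
      rw [h.gp.A_add3, h.gp.A_smul3, h.gp.H_add2, h.gp.H_smul2, conj_ofReal]; ring)
    (fun a b => h.nab_le v a b) X.1 Y.1
  have hq : 0 ≤ tJet.Den X.1 Y.1 := tJet_good.Den_nonneg tJet_psd _ _
  have hΘ : 0 ≤ p.Θ := by rw [← h.normSq_κ]; exact normSq_nonneg _
  set D := p.nab v X.1 Y.1 - p.nab v Y.1 X.1 with hD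
  have h2 : p.cross X Y ^ 2 ≤ 4 * (p.Θ * ‖D‖ ^ 2) := by
    have e : p.cross X Y = -(2 * (p.κ * D).re) := by
      unfold cross; rw [hD]; simp only [mul_sub, sub_re]; ring
    have h3 : (p.κ * D).re ^ 2 ≤ ‖p.κ * D‖ ^ 2 := by
      rw [← sq_abs]; exact pow_le_pow_left₀ (abs_nonneg _) (abs_re_le_norm _) 2
    rw [norm_mul, mul_pow, ← normSq_eq_norm_sq p.κ, h.normSq_κ] at h3
    rw [e]; linarith
  have h4 : β * ‖v‖ ^ 2 ≤ 2 * (p.Jp.H v v).re := by linarith [h.J0_low v, h.psh v]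
  have h5 : (1 + p.x) ^ 2 * ‖D‖ ^ 2 ≤
      4 * (C * (35 + 2 * C)) ^ 2 * (β * ‖v‖ ^ 2) * (β * tJet.Den X.1 Y.1) := by
    have := mul_le_mul_of_nonneg_left h1 (by positivity : 0 ≤ (1 + p.x) ^ 2)
    have e : (1 + p.x) ^ 2 * (4 * (C * (35 + 2 * C) * β * ‖v‖ / (1 + p.x)) ^ 2 * tJet.Den X.1 Y.1)
        = 4 * (C * (35 + 2 * C)) ^ 2 * (β * ‖v‖ ^ 2) * (β * tJet.Den X.1 Y.1) := by
      field_simp
    rw [e] at this; linarith
  have h6 : 4 * (C * (35 + 2 * C)) ^ 2 * (β * ‖v‖ ^ 2) * (β * tJet.Den X.1 Y.1) ≤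
      4 * (C * (35 + 2 * C)) ^ 2 * (2 * (p.Jp.H v v).re) * (β * tJet.Den X.1 Y.1) := by gcongr
  have h7 := mul_le_mul_of_nonneg_left (h5.trans h6) hΘ
  have h8 := mul_le_mul_of_nonneg_left h2 (by positivity : 0 ≤ (1 + p.x) ^ 2)
  linarith

theorem G_scaled : (1 / ((1 + p.x) * β)) • p.G - tJet =
    (1 / β) • (p.J0 - β • tJet) + (p.x / ((1 + p.x) * β)) • (p.Jp - p.J0) := by
  have hx := h.x_nonneg
  have hβ := h.β_pos
  have h1 : (1 + (p.x : ℂ)) ≠ 0 := by exact_mod_cast (by positivity : (1 + p.x) ≠ 0)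
  have h2 : (β : ℂ) ≠ 0 := by exact_mod_cast hβ.ne'
  ext <;> simp only [HP.G, Jet.sub_H, Jet.add_H, Jet.smul_H, Jet.sub_A, Jet.add_A, Jet.smul_A,
    Jet.sub_Q, Jet.add_Q, Jet.smul_Q] <;> push_cast <;> field_simp <;> ring

theorem S_near (hxC : p.x * C ≤ 1 / 200000) (a b : V) :
    (1 + p.x) * β * (23 / 25 * tJet.Den a b + 3 * (tJet.H a b).im ^ 2) ≤ -p.G.N a b := by
  have hx := h.x_nonneg
  have hβ := h.β_pos
  have hC := h.C_nonneg
  have hs : 0 < 1 / ((1 + p.x) * β) := by positivity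
  have hb : ((1 / ((1 + p.x) * β)) • p.G - tJet).Bd (fun a => ‖a‖) (3 / 200000) := by
    rw [h.G_scaled]
    refine ((h.b0.smul (by positivity)).add (h.bp.smul (by positivity))).mono
      (fun a => norm_nonneg a) ?_
    have e1 : 1 / β * (β / 100000) = 1 / 100000 := by field_simp
    have e2 : p.x / ((1 + p.x) * β) * (C * β) = p.x * C / (1 + p.x) := by field_simp
    have e3 : p.x * C / (1 + p.x) ≤ p.x * C := div_le_self (by positivity) (by linarith)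
    rw [e1, e2]; linarith
  have h1 := Jet.pert_N tJet_good (h.G_good.smul _) tJet_pos (ν := fun a => ‖a‖)
    (fun a => norm_nonneg a) (κ := 1) one_pos le_rfl (M := 16) (by norm_num) (by norm_num)
    (by norm_num) tJet_low' tJet_bd.A hb a b
  rw [h.G_good.N_smul h.G_pos hs] at h1
  have h2 := (abs_le.1 h1).2
  have h3 := tJet_N a b
  have hq : 0 ≤ tJet.Den a b := tJet_good.Den_nonneg tJet_psd _ _
  have h4 : 23 / 25 * tJet.Den a b + 3 * (tJet.H a b).im ^ 2 ≤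
      1 / ((1 + p.x) * β) * -p.G.N a b := by linarith
  rw [one_div, le_inv_mul_iff₀ (by positivity)] at h4
  exact h4

theorem G_Den_le (a b : V) : p.G.Den a b ≤ (1 + p.x) ^ 2 * p.Jp.Den a b :=
  Den_le_smul h.G_good h.gp h.G_psd h.G_le a b

theorem S_far (a b : V) :
    -(32 * (17 + C) ^ 2 * ((1 + p.x) ^ 2 * p.Jp.Den a b)) ≤ β * -p.G.N a b := by
  have hx := h.x_nonneg
  have hβ := h.β_pos
  have hC := h.C_nonneg
  have hs : 0 < 1 / ((1 + p.x) * β) := by positivity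
  have hb : ((1 / ((1 + p.x) * β)) • p.G).Bd (fun a => ‖a‖) (17 + C) := by
    refine (h.G_bd.smul hs.le).mono (fun a => norm_nonneg a) (le_of_eq ?_)
    field_simp
  have h1 := Jet.N_bound (h.G_good.smul _) (h.G_pos.smul hs) (ν := fun a => ‖a‖)
    (fun a => norm_nonneg a) (κ := 1 / 2) (by norm_num) (by norm_num) (M := 17 + C) (by linarith)
    (fun a => by
      have := mul_le_mul_of_nonneg_left (h.G_low a) hs.le
      have e : 1 / ((1 + p.x) * β) * (β / 2 * (1 + p.x) * ‖a‖ ^ 2) = 1 / 2 * ‖a‖ ^ 2 := by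
        field_simp
      rw [e] at this
      rwa [Jet.smul_H, re_ofReal_mul]) hb a b
  rw [h.G_good.N_smul h.G_pos hs, Jet.Den_smul] at h1
  have h2 := (abs_le.1 h1).2
  have hq : 0 ≤ p.G.Den a b := h.G_good.Den_nonneg h.G_psd _ _
  have h3 : β * p.G.N a b ≤ 32 * (17 + C) ^ 2 * (p.G.Den a b / (1 + p.x)) := by
    have := mul_le_mul_of_nonneg_left h2 (by positivity : 0 ≤ (1 + p.x) * β * β)
    have e1 : (1 + p.x) * β * β * (1 / ((1 + p.x) * β) * p.G.N a b) = β * p.G.N a b := by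
      field_simp
    have e2 : (1 + p.x) * β * β * (4 * (17 + C) ^ 2 / (1 / 2) ^ 3 *
        ((1 / ((1 + p.x) * β)) ^ 2 * p.G.Den a b)) =
        32 * (17 + C) ^ 2 * (p.G.Den a b / (1 + p.x)) := by
      field_simp; ring
    rwa [e1, e2] at this
  have h4 : p.G.Den a b / (1 + p.x) ≤ (1 + p.x) ^ 2 * p.Jp.Den a b :=
    (div_le_self hq (by linarith)).trans (h.G_Den_le a b)
  have h5 := mul_le_mul_of_nonneg_left h4 (by positivity : 0 ≤ 32 * (17 + C) ^ 2)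
  linarith

theorem q0_le (a b : V) : β * (β * tJet.Den a b) ≤ 2 * p.Jp.Den a b := by
  have hβ := h.β_pos
  have h1 := smul_Den_le tJet_good h.gp tJet_psd (s := (1 - 1 / 100000) * β) (by positivity)
    (fun a => (h.J0_cmp a).1.trans (h.psh a)) a b
  have hq : 0 ≤ β ^ 2 * tJet.Den a b :=
    mul_nonneg (by positivity) (tJet_good.Den_nonneg tJet_psd _ _)
  linarith

theorem J0_Den_le (a b : V) : p.J0.Den a b ≤ (1 + 1 / 100000) ^ 2 * (β * (β * tJet.Den a b)) := by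
  have h1 := Den_le_smul h.g0 tJet_good h.J0_psd (fun a => (h.J0_cmp a).2) a b
  linarith

theorem J0_im_sq (a b : V) : (p.J0.H a b).im ^ 2 ≤
    2 * (β * (β * (tJet.H a b).im ^ 2)) + 2 / 10000000000 * (β * (β * tJet.Den a b)) := by
  have hg : (p.J0 - β • tJet).Good := h.g0.sub (tJet_good.smul β)
  have h1 := Jet.antisymm_bound tJet_good tJet_pos (ν := fun a => ‖a‖) (fun a => norm_nonneg a)
    (κ := 1) one_pos tJet_low' (M := β / 100000) (p.J0 - β • tJet).H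
    (fun t a a' b => by rw [hg.H_add, hg.H_smul])
    (fun t a b b' => by rw [hg.H_add2, hg.H_smul2, conj_ofReal]) h.b0.H a b
  rw [← hg.H_conj a b, sub_conj, norm_mul, norm_I, Complex.norm_real, Real.norm_eq_abs, mul_one,
    sq_abs] at h1
  have e : ((p.J0 - β • tJet).H a b).im = (p.J0.H a b).im - β * (tJet.H a b).im := by simp
  rw [e] at h1
  nlinarith [sq_nonneg ((p.J0.H a b).im - 2 * β * (tJet.H a b).im)]

theorem Jp_eq (hC : C = 0) : p.Jp = p.J0 := by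
  have h1 := h.bp
  rw [hC, zero_mul] at h1
  ext a b c d
  · have := h1.H a b
    rw [zero_mul, norm_le_zero_iff, Jet.sub_H, sub_eq_zero] at this; exact this
  · have := h1.A a b c
    rw [zero_mul, norm_le_zero_iff, Jet.sub_A, sub_eq_zero] at this; exact this
  · have := h1.Q a b c d
    rw [zero_mul, norm_le_zero_iff, Jet.sub_Q, sub_eq_zero] at this; exact this

theorem one_le_t : 1 ≤ 1 / p.c := by
  rw [le_div_iff₀ h.c_pos, one_mul]; exact h.c_le_one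

theorem N_exact' (X Y : T) : -p.J.N X Y = -p.G.N X.1 Y.1 +
    (p.x + p.x ^ 2 * (1 / p.c)) * (p.Jp.Den X.1 Y.1 - (p.Jp.H X.1 Y.1).im ^ 2) +
    4 * (1 / p.c) * (p.τ X Y + p.x * (p.Jp.H X.1 Y.1).im) ^ 2 +
    4 * (p.τ X Y + p.x * (p.Jp.H X.1 Y.1).im) * (p.Jp.H X.1 Y.1).im +
    (p.x + p.x ^ 2 * (1 / p.c)) * (p.P' (p.uu X Y) (p.uu X Y)).re +
    (1 + 2 * p.x * (1 / p.c)) * (p.Jp.H (p.vv X Y) (p.vv X Y)).re -
    2 * (p.x + p.x ^ 2 * (1 / p.c)) * (p.P' (p.vv X Y) (p.vv X Y)).re + p.cross X Y := by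
  rw [h.N_exact, h.Θ_eq]; ring

theorem Θ_eq' : p.Θ = p.x + p.x ^ 2 * (1 / p.c) := by
  rw [h.Θ_eq]; ring

theorem caseA (hC : C = 0) (X Y : T) : p.J.Den X Y ≤ 40 * -p.J.N X Y := by
  have hx := h.x_nonneg
  have hβ := h.β_pos
  have hβ1 := h.β_le
  have hJ := h.Jp_eq hC
  have hcr : p.cross X Y = 0 := by
    have h1 := h.cross_sq X Y
    rw [hC] at h1
    have h2 : (1 + p.x) ^ 2 * p.cross X Y ^ 2 ≤ 0 := by simpa using h1
    have h3 : p.cross X Y ^ 2 ≤ 0 := by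
      by_contra hc
      have : 0 < (1 + p.x) ^ 2 * p.cross X Y ^ 2 := mul_pos (by positivity) (not_le.1 hc)
      linarith
    exact pow_eq_zero_iff (two_ne_zero) |>.1 (le_antisymm h3 (sq_nonneg _))
  have hre : ∀ a b, (p.G.H a b).re = (1 + p.x) * (p.Jp.H a b).re := fun a b => by
    rw [G_re, hJ]; ring
  have him : ∀ a b, (p.G.H a b).im = (1 + p.x) * (p.Jp.H a b).im := fun a b => by
    rw [G_im, hJ]; ring
  have hDen : p.G.Den X.1 Y.1 = (1 + p.x) ^ 2 * p.Jp.Den X.1 Y.1 := by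
    unfold Jet.Den; rw [hre, hre, hre]; ring
  have hP'v := h.P'v_le (p.vv X Y)
  rw [hC] at hP'v
  have hS := h.S_near (by rw [hC]; norm_num) X.1 Y.1
  have h1 := h.J0_Den_le X.1 Y.1
  have h2 := h.J0_im_sq X.1 Y.1
  rw [← hJ] at h1 h2
  have hq : 0 ≤ tJet.Den X.1 Y.1 := tJet_good.Den_nonneg tJet_psd _ _
  have hΔ := h.gp.im_sq_le_Den h.Jp_psd X.1 Y.1
  have key := scalarA (Sg := -p.G.N X.1 Y.1)
    (Δ := p.Jp.Den X.1 Y.1 - (p.Jp.H X.1 Y.1).im ^ 2) hx h.one_le_t (by linarith)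
    (h.Jp_psd (p.uu X Y)) (h.Jp_psd (p.vv X Y)) (h.P'_nonneg _) (h.P'_nonneg _) (h.Pv_sub_Pu X Y)
    (h.Pu_le _) (by simpa [add_comm] using hP'v) (by
      refine le_trans ?_ hS
      rw [mul_assoc]
      refine mul_le_mul_of_nonneg_left ?_ (by positivity)
      have a0 : 0 ≤ β * (23 / 25 * tJet.Den X.1 Y.1 + 3 * (tJet.H X.1 Y.1).im ^ 2) := by positivity
      have a1 := mul_le_mul_of_nonneg_right hβ1 a0
      have a2 : 0 ≤ β * (β * tJet.Den X.1 Y.1) := by positivity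
      linarith)
  rw [h.N_exact', h.Den_exact_u, hcr, hDen, hre, him]
  linarith

theorem caseB (hK : 27 * (1 + 2 * C) ^ 2 * p.c ≤ β) (h1 : 2 * p.x ≤ 1 / (1 + 2 * C))
    (h2 : p.x * C ≤ 1 / 200000) (h3 : 480 * (C * (35 + 2 * C)) ^ 2 * p.x ≤ 1) (X Y : T) :
    p.J.Den X Y ≤ 40 * -p.J.N X Y := by
  have hx := h.x_nonneg
  have hβ := h.β_pos
  have hβ1 := h.β_le
  have hC := h.C_nonneg
  have hc := h.c_pos
  have hq : 0 ≤ tJet.Den X.1 Y.1 := tJet_good.Den_nonneg tJet_psd _ _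
  have hΔ := h.gp.im_sq_le_Den h.Jp_psd X.1 Y.1
  set Q := β * tJet.Den X.1 Y.1 with hQ
  have hQ0 : 0 ≤ Q := by positivity
  have hβQ : β * Q ≤ Q := by linarith [mul_le_mul_of_nonneg_right hβ1 hQ0]
  have hJ0 : p.J0.Den X.1 Y.1 ≤ 3 / 2 * Q := by
    have := h.J0_Den_le X.1 Y.1
    have a2 : 0 ≤ β * Q := by positivity
    linarith
  have hJ00 : 0 ≤ p.J0.Den X.1 Y.1 := h.g0.Den_nonneg h.J0_psd _ _
  have hx1 : p.x * (1 + 2 * C) ≤ 1 / 2 := by
    rw [le_div_iff₀ (by positivity)] at h1; linarith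
  have key := scalarB (Sg := -p.G.N X.1 Y.1) (Q := Q) (K1 := C * (35 + 2 * C))
    (Δ := p.Jp.Den X.1 Y.1 - (p.Jp.H X.1 Y.1).im ^ 2) (p2 := (p.Jp.H X.1 Y.1).im) (τ := p.τ X Y)
    (cr := p.cross X Y) (qG := p.G.Den X.1 Y.1) (g2 := (p.G.H X.1 Y.1).im)
    (Gv := (p.G.H (p.vv X Y) (p.vv X Y)).re)
    hx h.one_le_t h1 (by rw [div_le_one (by positivity)]; linarith) h3 hQ0 (by linarith)
    (h.Jp_psd (p.vv X Y)) (h.P'_nonneg (p.uu X Y)) (h.P'_nonneg _) (h.P'v_le _)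
    (by
      refine le_trans ?_ (h.S_near h2 X.1 Y.1)
      have a0 : 0 ≤ β * (23 / 25 * tJet.Den X.1 Y.1 + 3 * (tJet.H X.1 Y.1).im ^ 2) := by positivity
      have a1 := mul_le_mul_of_nonneg_right (by linarith : 1 ≤ 1 + p.x) a0
      have a2 : 0 ≤ β * (tJet.H X.1 Y.1).im ^ 2 := by positivity
      linarith)
    (by
      have a1 := Den_le_smul h.gp h.g0 h.Jp_psd h.Jp_le X.1 Y.1
      have a2 := mul_le_mul_of_nonneg_left hJ0 (by positivity : 0 ≤ (1 + 2 * C) ^ 2)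
      have a3 : 27 * (1 + 2 * C) ^ 2 ≤ 1 / p.c := by
        rw [le_div_iff₀ hc]; linarith
      have a4 := mul_le_mul_of_nonneg_right a3 hQ0
      have a5 : 0 ≤ (1 + 2 * C) ^ 2 * Q := by positivity
      linarith)
    (by
      have a1 := h.cross_sq X Y
      rw [h.Θ_eq'] at a1
      have a2 := mul_le_mul_of_nonneg_right (by nlinarith : 1 ≤ (1 + p.x) ^ 2)
        (sq_nonneg (p.cross X Y))
      linarith)
    (by
      have a1 := Den_le_smul h.G_good h.g0 h.G_psd (s := 3 / 2) (fun a => by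
        rw [G_re]
        have b1 := mul_le_mul_of_nonneg_left (h.Jp_le a) hx
        have b2 := mul_le_mul_of_nonneg_right hx1 (h.J0_psd a)
        linarith) X.1 Y.1
      linarith)
    (h.G_good.im_sq_le_Den h.G_psd _ _)
    (by
      have a1 := smul_Den_le h.gp h.G_good h.Jp_psd hx (fun a => by
        rw [G_re]; linarith [h.J0_psd a]) X.1 Y.1
      have a2 := mul_le_mul_of_nonneg_left hΔ (sq_nonneg p.x)
      linarith)
    (h.G_le _)
  rw [h.N_exact', h.Den_exact_v]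
  linarith

theorem caseC {x1 : ℝ} (hx1 : 0 < x1) (hx : x1 ≤ p.x) (h1 : 2 * x1 ≤ 1 / (1 + 2 * C))
    (k1 : (1 + 2 * C) * p.c ≤ β) (k2 : 64 * p.c ≤ x1 ^ 4 * β)
    (k3 : 80 * (32 * (17 + C) ^ 2) * p.c ≤ x1 ^ 4 * β)
    (k4 : 81920 * (C * (35 + 2 * C)) ^ 2 * p.c ≤ x1 ^ 6 * β) (X Y : T) :
    p.J.Den X Y ≤ 40 * -p.J.N X Y := by
  have hβ := h.β_pos
  have hβ1 := h.β_le
  have hC := h.C_nonneg
  have hc := h.c_pos
  have hq : 0 ≤ tJet.Den X.1 Y.1 := tJet_good.Den_nonneg tJet_psd _ _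
  have key := scalarC (Sg := -p.G.N X.1 Y.1) (Q := β * tJet.Den X.1 Y.1) (K1 := C * (35 + 2 * C))
    (K2 := 32 * (17 + C) ^ 2) (t := 1 / p.c) (b := β)
    (qP := p.Jp.Den X.1 Y.1) (p2 := (p.Jp.H X.1 Y.1).im) (τ := p.τ X Y)
    (cr := p.cross X Y) (qG := p.G.Den X.1 Y.1) (g0 := (p.J0.H X.1 Y.1).im)
    (Gu := (p.G.H (p.uu X Y) (p.uu X Y)).re)
    hx1 hx h1 (by rw [div_le_one (by positivity)]; linarith) hβ
    (by rw [div_mul_div_comm, le_div_iff₀ (by positivity)]; linarith)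
    (by
      rw [mul_one_div, le_div_iff₀ hc]
      have := mul_le_mul_of_nonneg_left hβ1 (by positivity : 0 ≤ x1 ^ 4)
      linarith)
    (by rw [mul_one_div, ← mul_div_assoc, le_div_iff₀ hc]; exact k3)
    (by rw [mul_one_div, ← mul_div_assoc, le_div_iff₀ hc]; exact k4)
    (by positivity) (h.gp.im_sq_le_Den h.Jp_psd X.1 Y.1)
    (h.Jp_psd (p.uu X Y)) (h.Jp_psd (p.vv X Y)) (h.P'_nonneg _) (h.P'_nonneg _) (h.Pv_sub_Pu X Y)
    (h.Pu_le _) (h.P'v_le _) (h.S_far _ _) (by positivity) (h.q0_le _ _)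
    (by rw [← h.Θ_eq']; exact h.cross_sq X Y) (h.G_Den_le _ _)
    ((h.g0.im_sq_le_Den h.J0_psd _ _).trans (h.g0.Den_mono h.gp h.J0_psd h.psh _ _))
    (h.G_le _)
  rw [h.N_exact', h.Den_exact_u, G_im]
  linarith

end OK

end HP

theorem hart_low (C1 : ℝ) (hC1 : 0 ≤ C1) : ∃ K0 : ℝ, 1 ≤ K0 ∧ ∀ (p : HP) (β C : ℝ),
    p.OK C1 K0 β C → ∀ X Y, p.J.Den X Y ≤ 40 * -p.J.N X Y := by
  set K1 := C1 * (35 + 2 * C1) with hK1
  have hK10 : 0 ≤ K1 := by positivity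
  set x1 := 1 / (1000000 * (1 + C1) + 480 * K1 ^ 2) with hx1
  have hx10 : 0 < x1 := by positivity
  have hx1e : x1 * (1000000 * (1 + C1) + 480 * K1 ^ 2) = 1 := by rw [hx1]; field_simp
  clear_value x1
  refine ⟨1 + 27 * (1 + 2 * C1) ^ 2 + (1 + 2 * C1) + 64 / x1 ^ 4 +
    80 * (32 * (17 + C1) ^ 2) / x1 ^ 4 + 81920 * K1 ^ 2 / x1 ^ 6, ?_, ?_⟩
  · have : 0 ≤ 27 * (1 + 2 * C1) ^ 2 + (1 + 2 * C1) + 64 / x1 ^ 4 +
      80 * (32 * (17 + C1) ^ 2) / x1 ^ 4 + 81920 * K1 ^ 2 / x1 ^ 6 := by positivity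
    linarith
  intro p β C h X Y
  rcases h.alt with hC | hK
  · exact h.caseA hC X Y
  have hC := h.C_nonneg
  have hCC := h.C_le
  have hc := h.c_pos
  have hx := h.x_nonneg
  have hKK : (C * (35 + 2 * C)) ^ 2 ≤ K1 ^ 2 := by rw [hK1]; gcongr
  have t1 : 0 ≤ 27 * (1 + 2 * C1) ^ 2 * p.c := by positivity
  have t2 : 0 ≤ (1 + 2 * C1) * p.c := by positivity
  have t3 : 0 ≤ 64 / x1 ^ 4 * p.c := by positivity
  have t4 : 0 ≤ 80 * (32 * (17 + C1) ^ 2) / x1 ^ 4 * p.c := by positivity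
  have t5 : 0 ≤ 81920 * K1 ^ 2 / x1 ^ 6 * p.c := by positivity
  have u1 : 0 ≤ x1 * C1 := by positivity
  have u2 : 0 ≤ x1 * K1 ^ 2 := by positivity
  have u3 : x1 * C ≤ x1 * C1 := by gcongr
  have hk : 2 * x1 ≤ 1 / (1 + 2 * C) := by
    rw [le_div_iff₀ (by positivity)]; linarith
  rcases le_total p.x x1 with hxx | hxx
  · refine h.caseB ?_ (by linarith) ?_ ?_ X Y
    · have : 27 * (1 + 2 * C) ^ 2 * p.c ≤ 27 * (1 + 2 * C1) ^ 2 * p.c := by gcongr
      linarith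
    · have : p.x * C ≤ x1 * C := by gcongr
      linarith
    · have : 480 * (C * (35 + 2 * C)) ^ 2 * p.x ≤ 480 * K1 ^ 2 * x1 := by gcongr
      linarith
  · refine h.caseC hx10 hxx hk ?_ ?_ ?_ ?_ X Y
    · have : (1 + 2 * C) * p.c ≤ (1 + 2 * C1) * p.c := by gcongr
      linarith
    · have : 64 / x1 ^ 4 * p.c ≤ β := by linarith
      rw [div_mul_eq_mul_div, div_le_iff₀ (by positivity)] at this
      linarith
    · have a1 : 80 * (32 * (17 + C1) ^ 2) / x1 ^ 4 * p.c ≤ β := by linarith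
      rw [div_mul_eq_mul_div, div_le_iff₀ (by positivity)] at a1
      have : 80 * (32 * (17 + C) ^ 2) * p.c ≤ 80 * (32 * (17 + C1) ^ 2) * p.c := by gcongr
      linarith
    · have a1 : 81920 * K1 ^ 2 / x1 ^ 6 * p.c ≤ β := by linarith
      rw [div_mul_eq_mul_div, div_le_iff₀ (by positivity)] at a1
      have : 81920 * (C * (35 + 2 * C)) ^ 2 * p.c ≤ 81920 * K1 ^ 2 * p.c := by gcongr
      linarith

theorem hart_vert {p : HP} {C1 K0 β C : ℝ} (h : p.OK C1 K0 β C) :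
    0 < p.J.Den (0, 1) (0, I) ∧ -p.J.N (0, 1) (0, I) = 4 / p.c * p.J.Den (0, 1) (0, I) := by
  have hu : p.uu (0, 1) (0, I) = 0 := by simp [HP.uu]
  have hv : p.vv (0, 1) (0, I) = 0 := by simp [HP.vv]
  have hP' : p.P' 0 0 = 0 := by unfold HP.P'; rw [h.π_spec, h.gp.H_zero]
  have hτ : p.τ (0, 1) (0, I) = -p.ρ ^ 2 := by
    unfold HP.τ; rw [h.r_vert, h.r_vert]; simp; ring
  have hcr : p.cross (0, 1) (0, I) = 0 := by simp [HP.cross]
  have hD : p.J.Den (0, 1) (0, I) = p.τ (0, 1) (0, I) ^ 2 := by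
    rw [h.Den_exact_u, hu]
    simp [Jet.Den, h.G_good.H_zero]
  have hρ := h.ρ_pos
  refine ⟨by rw [hD, hτ, neg_sq]; positivity, ?_⟩
  rw [h.N_exact, hu, hv, hP', hcr, hD]
  simp [Jet.Den, h.gp.H_zero, h.G_good.N_zero h.G_pos]

end Crest.Agent.R245
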