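import Crest.Agent.R245.Wirt

/-!
# The jet of a product `g F` with `g p = 0` (task R245/Leibniz)

Expand `D a (D b (Db c (Db d (g F))))` by `W_mul` (16 terms, under `W_congr`); the term without a
derivative on `g` vanishes.  The words in `F` that occur are `F`, `D F`, `Db F = conj (D F)`,
`D D F`, `D Db F = H`, `Db Db F = conj (D D F)`, `D D Db F = A`, `D a (Db c (Db d F)) = conj (A c d a)`.
-/

set_option autoImplicit false

noncomputable section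

namespace Crest.Agent.R245

open scoped ComplexConjugate ContDiff Topology
open Complex Set Filter

variable {E : Type*} [NormedAddCommGroup E] [NormedSpace ℝ E] [NormedSpace ℂ E]
  [IsScalarTower ℝ ℂ E]

section Aux

variable {f g : E → ℂ} {p : E}

theorem lz_mul_ev (s : ℝ) (a : E) (hf : Sm f p) (hg : Sm g p) :
    W s a (fun q => f q * g q) =ᶠ[𝓝 p] fun q => W s a f q * g q + f q * W s a g q := by
  filter_upwards [hf.eventually, hg.eventually] with q h1 h2 using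
    W_mul h1.differentiableAt h2.differentiableAt

theorem lz_two (s1 s2 : ℝ) (a b : E) (hf : Sm f p) (hg : Sm g p) :
    ‖W s1 a (W s2 b fun q => f q * g q) p‖ ≤
      ‖W s1 a (W s2 b f) p * g p‖ + ‖W s2 b f p * W s1 a g p‖ +
        (‖W s1 a f p * W s2 b g p‖ + ‖f p * W s1 a (W s2 b g) p‖) := by
  rw [(wirt_W_add_ev ((hf.W _ _).mul hg) (hf.mul (hg.W _ _)) (lz_mul_ev s2 b hf hg)).self_of_nhds]
  beta_reduce
  rw [W_mul (hf.W _ _).differentiableAt hg.differentiableAt,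
    W_mul hf.differentiableAt (hg.W _ _).differentiableAt]
  exact norm_add_le_of_le (norm_add_le _ _) (norm_add_le _ _)

theorem lz_three (s1 s2 s3 : ℝ) (a b c : E) (hf : Sm f p) (hg : Sm g p) :
    ‖W s1 a (W s2 b (W s3 c fun q => f q * g q)) p‖ ≤
      ‖W s1 a (W s2 b fun q => W s3 c f q * g q) p‖ +
        ‖W s1 a (W s2 b fun q => f q * W s3 c g q) p‖ := by
  have h1 := (hf.W s3 c).mul hg
  have h2 := hf.mul (hg.W s3 c)
  rw [(wirt_W_add_ev (h1.W _ _) (h2.W _ _)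
    (wirt_W_add_ev h1 h2 (lz_mul_ev s3 c hf hg))).self_of_nhds]
  exact norm_add_le _ _

theorem lz_four (s1 s2 s3 s4 : ℝ) (a b c d : E) (hf : Sm f p) (hg : Sm g p) :
    ‖W s1 a (W s2 b (W s3 c (W s4 d fun q => f q * g q))) p‖ ≤
      ‖W s1 a (W s2 b (W s3 c fun q => W s4 d f q * g q)) p‖ +
        ‖W s1 a (W s2 b (W s3 c fun q => f q * W s4 d g q)) p‖ := by
  have h1 := (hf.W s4 d).mul hg
  have h2 := hf.mul (hg.W s4 d)
  rw [(wirt_W_add_ev ((h1.W _ _).W _ _) ((h2.W _ _).W _ _) (wirt_W_add_ev (h1.W _ _) (h2.W _ _)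
    (wirt_W_add_ev h1 h2 (lz_mul_ev s4 d hf hg)))).self_of_nhds]
  exact norm_add_le _ _

theorem lz_term {x y : ℂ} {η M u v w : ℝ} (hx : ‖x‖ ≤ η * u) (hy : ‖y‖ ≤ M * v) (e : u * v = w) :
    ‖x * y‖ ≤ η * M * w := by
  rw [norm_mul, ← e]
  calc ‖x‖ * ‖y‖ ≤ η * u * (M * v) :=
        mul_le_mul hx hy (norm_nonneg _) ((norm_nonneg _).trans hx)
    _ = _ := by ring

end Aux

theorem leibniz_bd {g F : E → ℝ} {p : E} (sg : Sm g p) (sF : Sm F p) (g0 : g p = 0)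
    {ν μ : E → ℝ} {η M : ℝ} (hν : ∀ a, 0 ≤ ν a) (hμ : ∀ a, ν a ≤ μ a) (hη : 0 ≤ η) (hM : 0 ≤ M)
    (g1 : ∀ s : ℝ, |s| ≤ 1 → ∀ a, ‖W s a (cx g) p‖ ≤ η * ν a)
    (g2 : ∀ s1 s2 : ℝ, |s1| ≤ 1 → |s2| ≤ 1 → ∀ a b,
      ‖W s1 a (W s2 b (cx g)) p‖ ≤ η * (ν a * ν b))
    (g3 : ∀ s1 s2 s3 : ℝ, |s1| ≤ 1 → |s2| ≤ 1 → |s3| ≤ 1 → ∀ a b c,
      ‖W s1 a (W s2 b (W s3 c (cx g))) p‖ ≤ η * (ν a * ν b * ν c))
    (g4 : ∀ s1 s2 s3 s4 : ℝ, |s1| ≤ 1 → |s2| ≤ 1 → |s3| ≤ 1 → |s4| ≤ 1 → ∀ a b c d,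
      ‖W s1 a (W s2 b (W s3 c (W s4 d (cx g)))) p‖ ≤ η * (ν a * ν b * ν c * ν d))
    (F0 : ∀ a b, |F p| * (ν a * ν b) ≤ M * (μ a * μ b))
    (F1 : ∀ a, ‖D a (cx F) p‖ ≤ M * μ a)
    (F2 : ∀ a b, ‖D a (D b (cx F)) p‖ ≤ M * (μ a * μ b))
    (FH : ∀ a b, ‖(jet F p).H a b‖ ≤ M * (μ a * μ b))
    (FA : ∀ a b c, ‖(jet F p).A a b c‖ ≤ M * (μ a * μ b * μ c)) :
    (jet (fun q => g q * F q) p).Bd μ (15 * η * M) := by
  have cg := sg.cx
  have cF := sF.cx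
  have e0 : cx (fun q => g q * F q) = fun q => cx g q * cx F q := funext fun q => ofReal_mul _ _
  have hμ0 : ∀ a, 0 ≤ μ a := fun a => (hν a).trans (hμ a)
  have hK : 0 ≤ η * M := mul_nonneg hη hM
  have m1 : |(-1 : ℝ)| ≤ 1 := by simp
  have p1 : |(1 : ℝ)| ≤ 1 := by simp
  have z0 : ∀ y : ℂ, ‖cx g p * y‖ = 0 := fun y => by simp [cx, g0]
  have nF : ‖cx F p‖ = |F p| := by simp [cx]
  have G1 : ∀ s : ℝ, |s| ≤ 1 → ∀ a, ‖W s a (cx g) p‖ ≤ η * μ a := fun s h a =>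
    (g1 s h a).trans (mul_le_mul_of_nonneg_left (hμ a) hη)
  have n2 : ∀ a b, ν a * ν b ≤ μ a * μ b := fun a b => mul_le_mul (hμ a) (hμ b) (hν b) (hμ0 a)
  have n3 : ∀ a b c, ν a * ν b * ν c ≤ μ a * μ b * μ c := fun a b c =>
    mul_le_mul (n2 a b) (hμ c) (hν c) (mul_nonneg (hμ0 a) (hμ0 b))
  have G2 : ∀ s1 s2 : ℝ, |s1| ≤ 1 → |s2| ≤ 1 → ∀ a b,
      ‖W s1 a (W s2 b (cx g)) p‖ ≤ η * (μ a * μ b) := fun s1 s2 h1 h2 a b =>
    (g2 s1 s2 h1 h2 a b).trans (mul_le_mul_of_nonneg_left (n2 a b) hη)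
  have G3 : ∀ s1 s2 s3 : ℝ, |s1| ≤ 1 → |s2| ≤ 1 → |s3| ≤ 1 → ∀ a b c,
      ‖W s1 a (W s2 b (W s3 c (cx g))) p‖ ≤ η * (μ a * μ b * μ c) := fun s1 s2 s3 h1 h2 h3 a b c =>
    (g3 s1 s2 s3 h1 h2 h3 a b c).trans (mul_le_mul_of_nonneg_left (n3 a b c) hη)
  -- terms without a derivative on `F`
  have top : ∀ (x : ℂ) (a b : E) (u v : ℝ), 0 ≤ u → u ≤ v → ‖x‖ ≤ η * (ν a * ν b * u) →
      ‖x * cx F p‖ ≤ η * M * (μ a * μ b * v) := by
    intro x a b u v hu huv hx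
    rw [norm_mul, nF]
    calc ‖x‖ * |F p| ≤ η * (ν a * ν b * u) * |F p| := mul_le_mul_of_nonneg_right hx (abs_nonneg _)
      _ = η * (|F p| * (ν a * ν b) * u) := by ring
      _ ≤ η * (M * (μ a * μ b) * v) := mul_le_mul_of_nonneg_left
          (mul_le_mul (F0 a b) huv hu (mul_nonneg hM (mul_nonneg (hμ0 a) (hμ0 b)))) hη
      _ = _ := by ring
  have B1 : ∀ a, ‖Db a (cx F) p‖ ≤ M * μ a := fun a => by
    rw [← conj_D_cx, RCLike.norm_conj]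
    exact F1 a
  have B2 : ∀ a b, ‖Db a (Db b (cx F)) p‖ ≤ M * (μ a * μ b) := fun a b => by
    have e := congrFun (wirt_conj_D a (D b (cx F))) p
    rw [wirt_conj_D, wirt_conj_cx] at e
    rw [← e, RCLike.norm_conj]
    exact F2 a b
  have FH' : ∀ a b, ‖D a (Db b (cx F)) p‖ ≤ M * (μ a * μ b) := FH
  have FA' : ∀ a b c, ‖D a (D b (Db c (cx F))) p‖ ≤ M * (μ a * μ b * μ c) := FA
  have B3 : ∀ a c d, ‖D a (Db c (Db d (cx F))) p‖ ≤ M * (μ c * μ d * μ a) := fun a c d => by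
    have e := congrFun (wirt_conj_D c (D d (Db a (cx F)))) p
    rw [wirt_conj_D, wirt_conj_Db, wirt_conj_cx] at e
    have e1 : D a (Db c (Db d (cx F))) p = Db c (Db d (D a (cx F))) p :=
      (W_comm (cF.W _ _)).trans (W_congr (W_comm_ev cF))
    rw [e1, ← e, RCLike.norm_conj]
    exact FA' c d a
  refine ⟨fun a b => ?_, fun a b c => ?_, fun a b c d => ?_⟩
  · show ‖D a (Db b (cx fun q => g q * F q)) p‖ ≤ _
    rw [e0]
    have h0 := lz_two (-1) 1 a b cg cF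
    rw [z0] at h0
    have hw : 0 ≤ η * M * (μ a * μ b) := mul_nonneg hK (mul_nonneg (hμ0 a) (hμ0 b))
    have t1 := top _ a b 1 1 zero_le_one le_rfl (by rw [mul_one]; exact g2 _ _ m1 p1 a b)
    rw [mul_one] at t1
    have t2 := lz_term (G1 _ p1 b) (F1 a) (mul_comm _ _)
    have t3 := lz_term (G1 _ m1 a) (B1 b) rfl
    linarith
  · show ‖D a (D b (Db c (cx fun q => g q * F q))) p‖ ≤ _
    rw [e0]
    have h0 := lz_three (-1) (-1) 1 a b c cg cF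
    have h1 := lz_two (-1) (-1) a b (cg.W 1 c) cF
    have h2 := lz_two (-1) (-1) a b cg (cF.W 1 c)
    rw [z0] at h2
    have hw : 0 ≤ η * M * (μ a * μ b * μ c) :=
      mul_nonneg hK (mul_nonneg (mul_nonneg (hμ0 a) (hμ0 b)) (hμ0 c))
    have t1 := top _ a b _ _ (hν c) (hμ c) (g3 _ _ _ m1 m1 p1 a b c)
    have t2 := lz_term (w := μ a * μ b * μ c) (G2 _ _ m1 p1 b c) (F1 a) (by ring)
    have t3 := lz_term (w := μ a * μ b * μ c) (G2 _ _ m1 p1 a c) (F1 b) (by ring)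
    have t4 := lz_term (w := μ a * μ b * μ c) (G1 _ p1 c) (F2 a b) (by ring)
    have t5 := lz_term (w := μ a * μ b * μ c) (G2 _ _ m1 m1 a b) (B1 c) (by ring)
    have t6 := lz_term (w := μ a * μ b * μ c) (G1 _ m1 b) (FH' a c) (by ring)
    have t7 := lz_term (w := μ a * μ b * μ c) (G1 _ m1 a) (FH' b c) (by ring)
    linarith
  · show ‖D a (D b (Db c (Db d (cx fun q => g q * F q)))) p‖ ≤ _
    rw [e0]
    have h0 := lz_four (-1) (-1) 1 1 a b c d cg cF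
    have h1 := lz_three (-1) (-1) 1 a b c (cg.W 1 d) cF
    have h2 := lz_three (-1) (-1) 1 a b c cg (cF.W 1 d)
    have h3 := lz_two (-1) (-1) a b ((cg.W 1 d).W 1 c) cF
    have h4 := lz_two (-1) (-1) a b (cg.W 1 d) (cF.W 1 c)
    have h5 := lz_two (-1) (-1) a b (cg.W 1 c) (cF.W 1 d)
    have h6 := lz_two (-1) (-1) a b cg ((cF.W 1 d).W 1 c)
    rw [z0] at h6
    have t1 := top _ a b _ _ (mul_nonneg (hν c) (hν d)) (n2 c d)
      (by rw [← mul_assoc (ν a * ν b)]; exact g4 _ _ _ _ m1 m1 p1 p1 a b c d)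
    rw [← mul_assoc (μ a * μ b)] at t1
    have t2 := lz_term (w := μ a * μ b * μ c * μ d) (G3 _ _ _ m1 p1 p1 b c d) (F1 a) (by ring)
    have t3 := lz_term (w := μ a * μ b * μ c * μ d) (G3 _ _ _ m1 p1 p1 a c d) (F1 b) (by ring)
    have t4 := lz_term (w := μ a * μ b * μ c * μ d) (G2 _ _ p1 p1 c d) (F2 a b) (by ring)
    have t5 := lz_term (w := μ a * μ b * μ c * μ d) (G3 _ _ _ m1 m1 p1 a b d) (B1 c) (by ring)
    have t6 := lz_term (w := μ a * μ b * μ c * μ d) (G2 _ _ m1 p1 b d) (FH' a c) (by ring)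
    have t7 := lz_term (w := μ a * μ b * μ c * μ d) (G2 _ _ m1 p1 a d) (FH' b c) (by ring)
    have t8 := lz_term (w := μ a * μ b * μ c * μ d) (G1 _ p1 d) (FA' a b c) (by ring)
    have t9 := lz_term (w := μ a * μ b * μ c * μ d) (G3 _ _ _ m1 m1 p1 a b c) (B1 d) (by ring)
    have t10 := lz_term (w := μ a * μ b * μ c * μ d) (G2 _ _ m1 p1 b c) (FH' a d) (by ring)
    have t11 := lz_term (w := μ a * μ b * μ c * μ d) (G2 _ _ m1 p1 a c) (FH' b d) (by ring)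
    have t12 := lz_term (w := μ a * μ b * μ c * μ d) (G1 _ p1 c) (FA' a b d) (by ring)
    have t13 := lz_term (w := μ a * μ b * μ c * μ d) (G2 _ _ m1 m1 a b) (B2 c d) (by ring)
    have t14 := lz_term (w := μ a * μ b * μ c * μ d) (G1 _ m1 b) (B3 a c d) (by ring)
    have t15 := lz_term (w := μ a * μ b * μ c * μ d) (G1 _ m1 a) (B3 b c d) (by ring)
    linarith

end Crest.Agent.R245
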