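import Crest.Agent.R245.WirtBd
import Crest.Agent.R245.HartBd
import Crest.Agent.R245.HartLow
import Crest.Agent.R245.HartJet
import Crest.Agent.R245.TJet
import Crest.Agent.R245.Leibniz

/-!
# The Hartogs potential at a normalised point (task R245/HartLoc)

With `c0 = d.c 0`, `p = hpOf d.P0 d.ph c0 0 w`:
`Phi = (P0 ∘ fst + c0 F) + (c ∘ fst - c0) F`, the first summand has jet `p.J` (`jet_fst`, `jet_FF`,
`jet_add`, `jet_const_mul`), the second has jet bounded by `ε = 15 δ0 c0^10 K/c0²` in `p.μ`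
(`leibniz_bd` with `ν X = ‖X.1‖`, `W_fst`, `JB.W1`–`JB.W4`, `hart_bd`).  Apply `pert_H`, `pert_pos`,
`pert_Den`, `pert_N`, `N_bound` with `κ = c0/4`, `M = K/c0²`:
`20 ε M²/κ⁴ = 76800 δ0 K³ ≤ 1/1000` and `ε/κ ≤ 60 δ0 K ≤ 1/1000` for `δ0 = 1/(10^8 K³)`.
Gradient: `fderiv Phi X = 2 Re (D X P0 + c0 F1 X + F0 * D X c)`, `‖D a P0‖ ≤ 2 β ‖a‖`,
`F1_le`, `F0_sq_le`, `H_low`.
-/

set_option autoImplicit false

noncomputable section

namespace Crest.Agent.R245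

open scoped ComplexConjugate ContDiff Topology
open Complex Set Filter

namespace HData

variable {d : HData} {C1 K0 δ0 β C : ℝ} {w : ℂ}

theorem loc_W_lin {p : V} {f g k : V → ℂ} (hf : Sm f p) (hg : Sm g p) (t : ℂ)
    (e : k =ᶠ[𝓝 p] fun q => t * g q + f q) (s : ℝ) (a : V) :
    W s a k =ᶠ[𝓝 p] fun q => t * W s a g q + W s a f q := by
  have h1 := wirt_W_add_ev (s := s) (ξ := a) ((Sm.const t).mul hg) hf e
  have h2 := wirt_W_const_mul_ev (s := s) (ξ := a) (c := t) hg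
    (EventuallyEq.refl (𝓝 p) fun q => t * g q)
  filter_upwards [h1, h2] with q hq1 hq2
  rw [hq1, hq2]

theorem loc_W_fst {g : V → ℂ} {k : T → ℂ} {q : T} (hg : Sm g q.1)
    (e : k =ᶠ[𝓝 q] fun x => g x.1) (s : ℝ) (X : T) :
    W s X k =ᶠ[𝓝 q] fun x => W s X.1 g x.1 := by
  have h1 : ∀ᶠ x in 𝓝 q, Sm g x.1 := continuous_fst.continuousAt.eventually hg.eventually
  filter_upwards [W_congr_ev (s := s) (ξ := X) e, h1] with x hx1 hx2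
  rw [hx1, W_fst hx2.differentiableAt]

theorem LocAdm.small (h : d.LocAdm C1 K0 δ0 β C) (hδ : δ0 ≤ 1 / 100000) :
    δ0 * d.c 0 ^ 10 ≤ β / 100000 := by
  have h1 := h.c_pos
  have h2 : d.c 0 ^ 10 ≤ d.c 0 :=
    pow_le_of_le_one h1.le (h.c_le.trans h.β_le) (by norm_num)
  have h3 := mul_le_mul_of_nonneg_right hδ (pow_pos h1 10).le
  linarith [h.c_le]

theorem LocAdm.smP' (h : d.LocAdm C1 K0 δ0 β C) : Sm (fun u => d.P0 u - β * t0 u) 0 :=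
  h.smP.sub ((Sm.const β).rmul sm_t0)

theorem LocAdm.ev_P (h : d.LocAdm C1 K0 δ0 β C) (a : V) :
    D a (cx d.P0) =ᶠ[𝓝 0] fun q => (β : ℂ) * D a (cx t0) q +
      D a (cx fun u => d.P0 u - β * t0 u) q :=
  loc_W_lin h.smP'.cx sm_t0.cx β (Eventually.of_forall fun u => by simp [cx]) _ a

theorem LocAdm.ev_ph (h : d.LocAdm C1 K0 δ0 β C) (a : V) :
    D a (cx d.ph) =ᶠ[𝓝 0] fun q => (1 : ℂ) * D a (cx d.P0) q +
      D a (cx fun u => d.ph u - d.P0 u) q :=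
  loc_W_lin (h.smph.sub h.smP).cx h.smP.cx 1 (Eventually.of_forall fun u => by simp [cx]) _ a

theorem LocAdm.D_P (h : d.LocAdm C1 K0 δ0 β C) (hδ : δ0 ≤ 1 / 100000) (a : V) :
    ‖D a (cx d.P0) 0‖ ≤ 2 * β * ‖a‖ := by
  have hβ : 0 < β := h.c_pos.trans_le h.c_le
  rw [(h.ev_P a).self_of_nhds]
  beta_reduce
  rw [D_t0]
  have h1 := JB.W1 h.jP h.smP' (s := -1) (by simp) a
  have h2 := mul_le_mul_of_nonneg_right (h.small hδ) (norm_nonneg a)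
  have h3 : ‖(β : ℂ) * -a.1‖ ≤ β * ‖a‖ := by
    rw [norm_mul, norm_neg, norm_real, Real.norm_of_nonneg hβ.le]
    exact mul_le_mul_of_nonneg_left (norm_fst_le a) hβ.le
  have h4 : 0 ≤ β * ‖a‖ := by positivity
  refine (norm_add_le _ _).trans ?_
  linarith

theorem LocAdm.DD_P (h : d.LocAdm C1 K0 δ0 β C) (hδ : δ0 ≤ 1 / 100000) (a b : V) :
    ‖D a (D b (cx d.P0)) 0‖ ≤ 2 * β * (‖a‖ * ‖b‖) := by
  have hβ : 0 < β := h.c_pos.trans_le h.c_le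
  have e := (loc_W_lin (h.smP'.cx.W (-1) b) (sm_t0.cx.W (-1) b) β (h.ev_P b) (-1) a).self_of_nhds
  have e' : D a (D b (cx d.P0)) 0 = (β : ℂ) * D a (D b (cx t0)) 0 +
      D a (D b (cx fun u => d.P0 u - β * t0 u)) 0 := e
  rw [e', DD_t0]
  have h1 := JB.W2 h.jP h.smP' (s1 := -1) (s2 := -1) (by simp) (by simp) a b
  have h2 := mul_le_mul_of_nonneg_right (h.small hδ) (mul_nonneg (norm_nonneg a) (norm_nonneg b))
  have h3 : ‖(β : ℂ) * (a.1 * b.1)‖ ≤ β * (‖a‖ * ‖b‖) := by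
    rw [norm_mul, norm_mul, norm_real, Real.norm_of_nonneg hβ.le]
    exact mul_le_mul_of_nonneg_left
      (mul_le_mul (norm_fst_le a) (norm_fst_le b) (norm_nonneg _) (norm_nonneg _)) hβ.le
  have h4 : 0 ≤ β * (‖a‖ * ‖b‖) := by positivity
  refine (norm_add_le _ _).trans ?_
  linarith

theorem LocAdm.jet_main (h : d.LocAdm C1 K0 δ0 β C) (hw : normSq w * Real.exp (d.ph 0) < 1) :
    jet (fun q : T => d.P0 q.1 + d.c 0 * FF d.ph q) (0, w) = (hpOf d.P0 d.ph (d.c 0) 0 w).J := by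
  have h1 : Sm (fun q : T => d.P0 q.1) ((0 : V), w) := Sm.fst (q := ((0 : V), w)) h.smP
  have h2 : Sm (FF d.ph) ((0 : V), w) := sm_FF h.smph hw
  rw [jet_add h1 ((Sm.const _).rmul h2), jet_fst (q := ((0 : V), w)) h.smP, jet_const_mul _ h2,
    jet_FF h.smph hw d.P0 (d.c 0)]
  rfl

/-- `jet_t0`, `D_t0`, `DD_t0`, `JB.jet_bd`, `JB.W1`, `JB.W2`, `jet_good`;
`ph = β t0 + (P0 - β t0) + (ph - P0)`. -/
theorem LocAdm.ok (h : d.LocAdm C1 K0 δ0 β C) (hδ : δ0 ≤ 1 / 100000)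
    (hw : normSq w * Real.exp (d.ph 0) < 1) : (hpOf d.P0 d.ph (d.c 0) 0 w).OK C1 K0 β C := by
  have hβ : 0 < β := h.c_pos.trans_le h.c_le
  have hβ1 := h.β_le
  have hC := h.C_nonneg
  have e1 : jet (fun u => d.P0 u - β * t0 u) 0 = jet d.P0 0 - β • tJet := by
    rw [jet_sub h.smP ((Sm.const β).rmul sm_t0), jet_const_mul β sm_t0, jet_t0]
  have e2 : jet (fun u => d.ph u - d.P0 u) 0 = jet d.ph 0 - jet d.P0 0 := jet_sub h.smph h.smP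
  refine ⟨jet_good h.smP, jet_good h.smph, ?_, fun a b => W_add_vec, fun t a => D_smul t,
    h.c_pos, h.c_le, h.β_le, Real.exp_pos _, hw, h.C_nonneg, h.C_le, h.alt, ?_, ?_, ?_, ?_, ?_⟩
  · rw [← h.jet_main hw]
    exact jet_good ((Sm.fst (q := ((0 : V), w)) h.smP).add ((Sm.const _).rmul (sm_FF h.smph hw)))
  · have := (JB.jet_bd h.jP h.smP').mono (fun a => norm_nonneg a) (h.small hδ)
    rwa [e1] at this
  · have := JB.jet_bd h.jph (h.smph.sub h.smP)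
    rwa [e2] at this
  · intro a
    have := h.psh a
    rw [e2, Jet.sub_H, sub_re, sub_nonneg] at this
    exact this
  · intro a
    show ‖D a (cx d.ph) 0‖ ≤ _
    rw [(h.ev_ph a).self_of_nhds]
    beta_reduce
    rw [one_mul]
    have h1 := JB.W1 h.jph (h.smph.sub h.smP) (s := -1) (by simp) a
    have h2 := h.D_P hδ a
    have h3 := mul_le_mul_of_nonneg_right hβ1 (norm_nonneg a)
    have h4 := mul_le_mul_of_nonneg_left h3 hC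
    refine (norm_add_le _ _).trans ?_
    nlinarith
  · intro a b
    have e := (loc_W_lin ((h.smph.sub h.smP).cx.W (-1) b) (h.smP.cx.W (-1) b) 1 (h.ev_ph b)
      (-1) a).self_of_nhds
    have e' : D a (D b (cx d.ph)) 0 = 1 * D a (D b (cx d.P0)) 0 +
        D a (D b (cx fun u => d.ph u - d.P0 u)) 0 := e
    show ‖D a (D b (cx d.ph)) 0‖ ≤ _
    rw [e', one_mul]
    have h1 := JB.W2 h.jph (h.smph.sub h.smP) (s1 := -1) (s2 := -1) (by simp) (by simp) a b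
    have h2 := h.DD_P hδ a b
    have h3 := mul_le_mul_of_nonneg_right hβ1 (mul_nonneg (norm_nonneg a) (norm_nonneg b))
    have h4 := mul_le_mul_of_nonneg_left h3 hC
    refine (norm_add_le _ _).trans ?_
    nlinarith

theorem LocAdm.sm_Phi (h : d.LocAdm C1 K0 δ0 β C) (hw : normSq w * Real.exp (d.ph 0) < 1) :
    Sm d.Phi (0, w) := by
  exact (Sm.fst (q := ((0 : V), w)) h.smP).add
    ((Sm.fst (q := ((0 : V), w)) h.smc).rmul (sm_FF h.smph hw))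

/-- The perturbation coming from the variation of `c`. -/
theorem LocAdm.pert_bd (h : d.LocAdm C1 K0 δ0 β C) (hδ0 : 0 ≤ δ0) (hδ : δ0 ≤ 1 / 100000)
    (hw : normSq w * Real.exp (d.ph 0) < 1) {M : ℝ} (hM : 0 ≤ M)
    (F0 : ∀ X Y : T, |(hpOf d.P0 d.ph (d.c 0) 0 w).F0| * (‖X.1‖ * ‖Y.1‖) ≤
      M * ((hpOf d.P0 d.ph (d.c 0) 0 w).μ X * (hpOf d.P0 d.ph (d.c 0) 0 w).μ Y))
    (F1 : ∀ X, ‖(hpOf d.P0 d.ph (d.c 0) 0 w).F1 X‖ ≤ M * (hpOf d.P0 d.ph (d.c 0) 0 w).μ X)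
    (F2 : ∀ X Y, ‖(hpOf d.P0 d.ph (d.c 0) 0 w).F2 X Y‖ ≤
      M * ((hpOf d.P0 d.ph (d.c 0) 0 w).μ X * (hpOf d.P0 d.ph (d.c 0) 0 w).μ Y))
    (FH : ∀ X Y, ‖(hpOf d.P0 d.ph (d.c 0) 0 w).FJ.H X Y‖ ≤
      M * ((hpOf d.P0 d.ph (d.c 0) 0 w).μ X * (hpOf d.P0 d.ph (d.c 0) 0 w).μ Y))
    (FA : ∀ X Y Z, ‖(hpOf d.P0 d.ph (d.c 0) 0 w).FJ.A X Y Z‖ ≤
      M * ((hpOf d.P0 d.ph (d.c 0) 0 w).μ X * (hpOf d.P0 d.ph (d.c 0) 0 w).μ Y *
        (hpOf d.P0 d.ph (d.c 0) 0 w).μ Z)) :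
    (jet d.Phi (0, w) - (hpOf d.P0 d.ph (d.c 0) 0 w).J).Bd (hpOf d.P0 d.ph (d.c 0) 0 w).μ
      (15 * (δ0 * d.c 0 ^ 10) * M) := by
  have ok := h.ok hδ hw
  have sF : Sm (FF d.ph) ((0 : V), w) := sm_FF h.smph hw
  have sc : Sm (fun u => d.c u + -d.c 0) 0 := h.smc.add (Sm.const _)
  have jc : JB (fun u => d.c u + -d.c 0) (δ0 * d.c 0 ^ 10) := h.jc.add_const h.smc _
  have sg : Sm (fun q : T => d.c q.1 + -d.c 0) ((0 : V), w) := Sm.fst (q := ((0 : V), w)) sc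
  have e : jet d.Phi (0, w) - (hpOf d.P0 d.ph (d.c 0) 0 w).J =
      jet (fun q : T => (d.c q.1 + -d.c 0) * FF d.ph q) (0, w) := by
    rw [← h.jet_main hw, ← jet_sub (h.sm_Phi hw)
      ((Sm.fst (q := ((0 : V), w)) h.smP).add ((Sm.const _).rmul sF))]
    congr 1
    funext q
    simp only [Phi]
    ring
  rw [e]
  have e0 : cx (fun q : T => d.c q.1 + -d.c 0) =ᶠ[𝓝 ((0 : V), w)]
      fun x => cx (fun u => d.c u + -d.c 0) x.1 := EventuallyEq.refl _ _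
  have s0 : Sm (cx fun u => d.c u + -d.c 0) (((0 : V), w) : T).1 := sc.cx
  refine leibniz_bd (ν := fun X : T => ‖X.1‖) sg sF (by simp) (fun a => norm_nonneg _)
    ok.norm_le_μ (mul_nonneg hδ0 (pow_pos h.c_pos 10).le) hM ?_ ?_ ?_ ?_ F0 ?_ ?_ ?_ ?_
  · intro s hs a
    rw [(loc_W_fst s0 e0 s a).self_of_nhds]
    exact JB.W1 jc sc hs _
  · intro s1 s2 h1 h2 a b
    rw [(loc_W_fst (s0.W _ _) (loc_W_fst s0 e0 s2 b) s1 a).self_of_nhds]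
    exact JB.W2 jc sc h1 h2 _ _
  · intro s1 s2 s3 h1 h2 h3 a b c
    rw [(loc_W_fst ((s0.W _ _).W _ _) (loc_W_fst (s0.W _ _) (loc_W_fst s0 e0 s3 c) s2 b)
      s1 a).self_of_nhds]
    exact JB.W3 jc sc h1 h2 h3 _ _ _
  · intro s1 s2 s3 s4 h1 h2 h3 h4 a b c d'
    rw [(loc_W_fst (((s0.W _ _).W _ _).W _ _) (loc_W_fst ((s0.W _ _).W _ _)
      (loc_W_fst (s0.W _ _) (loc_W_fst s0 e0 s4 d') s3 c) s2 b) s1 a).self_of_nhds]
    exact JB.W4 jc sc h1 h2 h3 h4 _ _ _ _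
  · intro a
    rw [D_FF h.smph hw d.P0 (d.c 0)]
    exact F1 a
  · intro a b
    rw [DD_FF h.smph hw d.P0 (d.c 0)]
    exact F2 a b
  · intro a b
    rw [jet_FF h.smph hw d.P0 (d.c 0)]
    exact FH a b
  · intro a b c
    rw [jet_FF h.smph hw d.P0 (d.c 0)]
    exact FA a b c

theorem LocAdm.grad_le (h : d.LocAdm C1 K0 δ0 β C) (hδ0 : 0 ≤ δ0) (hδ : δ0 ≤ 1 / 100000)
    (hw : normSq w * Real.exp (d.ph 0) < 1) (X : T) :
    (fderiv ℝ d.Phi (0, w) X) ^ 2 ≤ 204 * ((hpOf d.P0 d.ph (d.c 0) 0 w).J.H X X).re := by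
  have ok := h.ok hδ hw
  set p := hpOf d.P0 d.ph (d.c 0) 0 w with hp
  have sF : Sm (FF d.ph) ((0 : V), w) := sm_FF h.smph hw
  have sP : Sm (cx d.P0) (((0 : V), w) : T).1 := h.smP.cx
  have sc : Sm (cx d.c) (((0 : V), w) : T).1 := h.smc.cx
  have e1 : cx d.Phi = fun q : T => cx d.P0 q.1 + cx d.c q.1 * cx (FF d.ph) q := by
    funext q
    simp [cx, Phi]
  have e2 : D X (cx d.Phi) (0, w) =
      D X.1 (cx d.P0) 0 + (D X.1 (cx d.c) 0 * p.F0 + (d.c 0 : ℂ) * p.F1 X) := by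
    rw [e1, ← D_FF h.smph hw d.P0 (d.c 0) X]
    show W (-1) X _ _ = _
    rw [W_add sP.fst.differentiableAt (sc.fst.mul sF.cx).differentiableAt,
      W_mul sc.fst.differentiableAt sF.cx.differentiableAt, W_fst sP.differentiableAt,
      W_fst sc.differentiableAt]
    rfl
  have hc := h.c_pos
  have hcβ := h.c_le
  have hβ1 := h.β_le
  have hx := ok.x_nonneg
  have hF0 := ok.F0_nonneg
  have b1 := h.D_P hδ X.1
  have b2 : ‖D X.1 (cx d.c) 0 * p.F0‖ ≤ d.c 0 * ‖X.1‖ * p.F0 := by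
    rw [norm_mul, norm_real, Real.norm_of_nonneg hF0]
    refine mul_le_mul_of_nonneg_right ((JB.W1 h.jc h.smc (s := -1) (by simp) X.1).trans ?_) hF0
    refine mul_le_mul_of_nonneg_right ?_ (norm_nonneg _)
    have h2 : d.c 0 ^ 10 ≤ d.c 0 := pow_le_of_le_one hc.le (hcβ.trans hβ1) (by norm_num)
    have h3 := mul_le_mul_of_nonneg_right hδ (pow_pos hc 10).le
    linarith [pow_pos hc 10]
  have b3 : ‖(d.c 0 : ℂ) * p.F1 X‖ ≤ ‖p.r X‖ := by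
    rw [norm_mul, norm_real, Real.norm_of_nonneg hc.le]
    exact ok.F1_le X
  have b4 : |fderiv ℝ d.Phi (0, w) X| ≤
      2 * (2 * β * ‖X.1‖ + d.c 0 * ‖X.1‖ * p.F0 + ‖p.r X‖) := by
    rw [fderiv_real_eq (h.sm_Phi hw).differentiableAt, abs_mul, abs_two, e2]
    refine mul_le_mul_of_nonneg_left ((abs_re_le_norm _).trans ?_) zero_le_two
    refine (norm_add_le _ _).trans ?_
    have := norm_add_le (D X.1 (cx d.c) 0 * p.F0) ((d.c 0 : ℂ) * p.F1 X)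
    linarith
  have b5 := pow_le_pow_left₀ (abs_nonneg _) b4 2
  rw [sq_abs] at b5
  have hl := ok.H_low X
  have hn : 0 ≤ ‖X.1‖ ^ 2 := by positivity
  have hr : 0 ≤ ‖p.r X‖ ^ 2 := by positivity
  have hβ : 0 < β := hc.trans_le hcβ
  have c1 : (2 * β * ‖X.1‖) ^ 2 ≤ 4 * (β * (1 + p.x) * ‖X.1‖ ^ 2) := by
    have : β * β ≤ β * (1 + p.x) := mul_le_mul_of_nonneg_left (by linarith) hβ.le
    nlinarith [mul_le_mul_of_nonneg_right this hn]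
  have c2 : (d.c 0 * ‖X.1‖ * p.F0) ^ 2 ≤ 4 * (β * (1 + p.x) * ‖X.1‖ ^ 2) := by
    have h1 : p.F0 ^ 2 ≤ 4 * (1 + p.x) / d.c 0 := ok.F0_sq_le
    rw [le_div_iff₀ hc] at h1
    calc (d.c 0 * ‖X.1‖ * p.F0) ^ 2 = d.c 0 * (p.F0 ^ 2 * d.c 0) * ‖X.1‖ ^ 2 := by ring
      _ ≤ β * (4 * (1 + p.x)) * ‖X.1‖ ^ 2 :=
          mul_le_mul_of_nonneg_right (mul_le_mul hcβ h1 (by positivity) hβ.le) hn
      _ = _ := by ring
  have c3 : 0 ≤ β * (1 + p.x) * ‖X.1‖ ^ 2 := by positivity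
  nlinarith [sq_nonneg (2 * β * ‖X.1‖ - d.c 0 * ‖X.1‖ * p.F0), sq_nonneg (2 * β * ‖X.1‖ - ‖p.r X‖),
    sq_nonneg (d.c 0 * ‖X.1‖ * p.F0 - ‖p.r X‖)]

end HData

theorem HP.OK.loc_low {p : HP} {C1 K0 β C : ℝ} (h : p.OK C1 K0 β C) (X : T) :
    p.c * (‖X.1‖ ^ 2 + p.ψ * normSq X.2) ≤ (4 + 4 * (2 + C1) ^ 2) * (p.J.H X X).re := by
  have h1 := mul_le_mul_of_nonneg_left (h.fibre_le X) h.c_pos.le
  have h2 := h.Λ_le X
  have h3 := h.H_low X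
  have hc := h.c_pos
  have hβ := h.β_pos
  have hx := h.x_nonneg
  have hn : 0 ≤ ‖X.1‖ ^ 2 := by positivity
  have hr : 0 ≤ ‖p.r X‖ ^ 2 := by positivity
  have h4 : p.c * ‖X.1‖ ^ 2 ≤ β * (1 + p.x) * ‖X.1‖ ^ 2 :=
    mul_le_mul_of_nonneg_right (by nlinarith [h.c_le]) hn
  have h5 : p.c * ‖X.1‖ ^ 2 ≤ 2 * (p.J.H X X).re := by linarith
  have h6 : (2 + C) ^ 2 ≤ (2 + C1) ^ 2 :=
    pow_le_pow_left₀ (by linarith [h.C_nonneg]) (by linarith [h.C_le]) 2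
  have h7 : (2 + C) ^ 2 * (p.c * ‖X.1‖ ^ 2) ≤ (2 + C1) ^ 2 * (2 * (p.J.H X X).re) :=
    mul_le_mul h6 h5 (by positivity) (by positivity)
  have h8 : 0 ≤ β / 2 * (1 + p.x) * ‖X.1‖ ^ 2 := by positivity
  nlinarith

theorem hart_loc (C1 : ℝ) (hC1 : 0 ≤ C1) : ∃ K0 δ0 K : ℝ, 1 ≤ K0 ∧ 0 < δ0 ∧ 0 < K ∧
    ∀ (d : HData) (β C : ℝ) (w : ℂ), d.LocAdm C1 K0 δ0 β C →
      normSq w * Real.exp (d.ph 0) < 1 →
      (∀ X : T, d.c 0 * (‖X.1‖ ^ 2 + Real.exp (d.ph 0) * normSq X.2) ≤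
        K * ((jet d.Phi (0, w)).H X X).re) ∧
      (∀ X Y, 1 / 100 * (jet d.Phi (0, w)).Den X Y ≤ -(jet d.Phi (0, w)).N X Y) ∧
      (∀ X Y, -(jet d.Phi (0, w)).N X Y ≤ K / d.c 0 ^ 7 * (jet d.Phi (0, w)).Den X Y) ∧
      (0 < (jet d.Phi (0, w)).Den (0, 1) (0, I) ∧
        (jet d.Phi (0, w)).Den (0, 1) (0, I) / d.c 0 ≤ -(jet d.Phi (0, w)).N (0, 1) (0, I)) ∧
      (∀ X, (fderiv ℝ d.Phi (0, w) X) ^ 2 ≤ K * ((jet d.Phi (0, w)).H X X).re) := by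
  obtain ⟨K1, hK1, hbd⟩ := hart_bd C1 hC1
  obtain ⟨K0, hK0, hlow⟩ := hart_low C1 hC1
  have hK13 : 1 ≤ K1 ^ 3 := one_le_pow₀ hK1
  have hK12 : 1 ≤ K1 ^ 2 := one_le_pow₀ hK1
  refine ⟨K0, 1 / (10 ^ 8 * K1 ^ 3), 514 * K1 ^ 2 + 408 + 2 * (4 + 4 * (2 + C1) ^ 2), hK0,
    by positivity, by positivity, ?_⟩
  intro d β C w h hw
  set δ0 : ℝ := 1 / (10 ^ 8 * K1 ^ 3) with hδ0
  have hδp : 0 < δ0 := by positivity
  have hδK : δ0 * K1 ^ 3 = 1 / 10 ^ 8 := by rw [hδ0]; field_simp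
  have hδ : δ0 ≤ 1 / 100000 := by nlinarith
  have ok := h.ok hδ hw
  obtain ⟨bJ, F0, F1, F2, FH, FA⟩ := hbd _ _ _ _ ok
  have hc := h.c_pos
  have hc1 : d.c 0 ≤ 1 := h.c_le.trans h.β_le
  have hpc : (hpOf d.P0 d.ph (d.c 0) 0 w).c = d.c 0 := rfl
  rw [hpc] at bJ F0 F1 F2 FH FA
  have hM : 1 ≤ K1 / d.c 0 ^ 2 := by
    rw [le_div_iff₀ (by positivity)]
    have : d.c 0 ^ 2 ≤ 1 := pow_le_one₀ hc.le hc1
    linarith
  have hd := h.pert_bd hδp.le hδ hw (by linarith) F0 F1 F2 FH FA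
  have hgrad := h.grad_le hδp.le hδ hw
  have hll := ok.loc_low
  have hN := hlow _ _ _ ok
  have hV := hart_vert ok
  have g1 : (jet d.Phi (0, w)).Good := jet_good (h.sm_Phi hw)
  have hμ : ∀ X, d.c 0 / 4 * (hpOf d.P0 d.ph (d.c 0) 0 w).μ X ^ 2 ≤
      ((hpOf d.P0 d.ph (d.c 0) 0 w).J.H X X).re := ok.μ_low
  have hψ : (hpOf d.P0 d.ph (d.c 0) 0 w).ψ = Real.exp (d.ph 0) := rfl
  rw [hpc, hψ] at hll
  rw [hpc] at hV
  set p := hpOf d.P0 d.ph (d.c 0) 0 w with hp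
  set J1 := jet d.Phi (0, w) with hJ1
  set c := d.c 0 with hc0
  set ε := 15 * (δ0 * c ^ 10) * (K1 / c ^ 2) with hε
  have hκ : 0 < c / 4 := by positivity
  have hε0 : 0 ≤ ε := by positivity
  have hεκ : ε / (c / 4) ≤ 1 / 1000 := by
    have e : ε / (c / 4) = 60 * (δ0 * K1) * c ^ 7 := by rw [hε]; field_simp; ring
    have h1 : c ^ 7 ≤ 1 := pow_le_one₀ hc.le hc1
    have h2 : δ0 * K1 ≤ δ0 * K1 ^ 3 :=
      mul_le_mul_of_nonneg_left (le_self_pow₀ hK1 (by norm_num)) hδp.le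
    have h3 : 0 ≤ δ0 * K1 := by positivity
    rw [e]
    nlinarith
  have hεκ0 : 0 ≤ ε / (c / 4) := by positivity
  have hεκ' : ε ≤ c / 4 / 2 := by
    rw [div_le_iff₀ hκ] at hεκ
    linarith
  have psd : ∀ X, 0 ≤ (p.J.H X X).re := ok.J_pos.psd ok.gJ
  have pH : ∀ X, (p.J.H X X).re ≤ 2 * (J1.H X X).re := fun X => by
    have h1 := (Jet.pert_H ok.μ_nonneg hκ hε0 hμ hd X).1
    nlinarith [psd X, mul_le_mul_of_nonneg_right hεκ (psd X)]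
  have psd1 : ∀ X, 0 ≤ (J1.H X X).re := fun X => by linarith [psd X, pH X]
  have D0 : ∀ X Y, 0 ≤ p.J.Den X Y := ok.gJ.Den_nonneg psd
  have pD : ∀ X Y, p.J.Den X Y ≤ 2 * J1.Den X Y ∧ J1.Den X Y ≤ 2 * p.J.Den X Y := fun X Y => by
    obtain ⟨h1, h2⟩ := Jet.pert_Den ok.gJ g1 ok.μ_nonneg hκ hε0 (by linarith) hμ hd X Y
    have h3 : 1 / 2 ≤ (1 - ε / (c / 4)) ^ 2 := by nlinarith
    have h4 : (1 + ε / (c / 4)) ^ 2 ≤ 2 := by nlinarith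
    constructor
    · nlinarith [mul_le_mul_of_nonneg_right h3 (D0 X Y)]
    · nlinarith [mul_le_mul_of_nonneg_right h4 (D0 X Y)]
  have pN : ∀ X Y, |J1.N X Y - p.J.N X Y| ≤ 1 / 1000 * p.J.Den X Y := fun X Y => by
    refine (Jet.pert_N ok.gJ g1 ok.J_pos ok.μ_nonneg hκ (by linarith) hM hε0 hεκ' hμ bJ.A hd
      X Y).trans (mul_le_mul_of_nonneg_right ?_ (D0 X Y))
    have e : 20 * ε * (K1 / c ^ 2) ^ 2 / (c / 4) ^ 4 = 76800 * (δ0 * K1 ^ 3) := by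
      rw [hε]; field_simp; ring
    rw [e, hδK]
    norm_num
  have nB : ∀ X Y, |p.J.N X Y| ≤ 256 * (K1 ^ 2 / c ^ 7) * p.J.Den X Y := fun X Y => by
    refine (Jet.N_bound ok.gJ ok.J_pos ok.μ_nonneg hκ (by linarith) hM hμ bJ X Y).trans
      (le_of_eq ?_)
    congr 1
    field_simp
    ring
  have hC2 : 0 ≤ 4 + 4 * (2 + C1) ^ 2 := by positivity
  refine ⟨fun X => ?_, fun X Y => ?_, fun X Y => ?_, ⟨?_, ?_⟩, fun X => ?_⟩
  · have h1 := mul_le_mul_of_nonneg_left (pH X) hC2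
    have h2 : 0 ≤ (514 * K1 ^ 2 + 408) * (J1.H X X).re := mul_nonneg (by positivity) (psd1 X)
    nlinarith [hll X]
  · have h1 := (abs_le.mp (pN X Y)).2
    have h2 := hN X Y
    have h3 := (pD X Y).2
    have h4 := D0 X Y
    linarith
  · have h1 := (abs_le.mp (pN X Y)).1
    have h2 := (abs_le.mp (nB X Y)).1
    have h3 := (pD X Y).1
    have h4 := D0 X Y
    have h5 : 1 ≤ K1 ^ 2 / c ^ 7 := by
      rw [le_div_iff₀ (by positivity)]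
      have : c ^ 7 ≤ 1 := pow_le_one₀ hc.le hc1
      linarith
    have h6 : 514 * (K1 ^ 2 / c ^ 7) ≤
        (514 * K1 ^ 2 + 408 + 2 * (4 + 4 * (2 + C1) ^ 2)) / c ^ 7 := by
      rw [← mul_div_assoc]
      exact div_le_div_of_nonneg_right (by linarith) (by positivity)
    have h7 : 0 ≤ J1.Den X Y := by linarith
    have h8 := mul_le_mul_of_nonneg_right h6 h7
    have h9 := mul_le_mul_of_nonneg_right h5 h4
    have h10 := mul_le_mul_of_nonneg_left h3 (zero_le_one.trans h5)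
    nlinarith
  · have := (pD (0, 1) (0, I)).1
    linarith [hV.1]
  · have h1 := (abs_le.mp (pN (0, 1) (0, I))).2
    have h2 := hV.2
    have h3 := (pD (0, 1) (0, I)).2
    have h4 := hV.1
    have h5 : p.J.Den (0, 1) (0, I) ≤ p.J.Den (0, 1) (0, I) / c := by
      rw [le_div_iff₀ hc]
      nlinarith
    have h6 : J1.Den (0, 1) (0, I) / c ≤ 2 * (p.J.Den (0, 1) (0, I) / c) := by
      rw [← mul_div_assoc]
      exact div_le_div_of_nonneg_right h3 hc.le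
    have h7 : 4 / c * p.J.Den (0, 1) (0, I) = 4 * (p.J.Den (0, 1) (0, I) / c) := by ring
    linarith
  · have h1 := hgrad X
    have h2 := pH X
    have h3 : 0 ≤ (514 * K1 ^ 2 + 2 * (4 + 4 * (2 + C1) ^ 2)) * (J1.H X X).re :=
      mul_nonneg (by positivity) (psd1 X)
    nlinarith

end Crest.Agent.R245
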