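import Crest.Agent.R245.Omega
import Crest.Agent.R245.SCV

/-!
# The non-existence lemma (tasks R245/NonEx)

Notation: `δ = δ j`, `δ' = δ (j+1) = lam δ`, `α' = al (j+1)`, `φ = φbg + Om`.
-/

set_option autoImplicit false

noncomputable section

namespace Crest.Agent.R245

open scoped ComplexConjugate ContDiff Topology
open Complex Set Filter Metric

theorem ne_yy_disc (z : V) (ζ : ℂ) : yy (z + ζ • ((conj z.2, 1) : V)) = yy z - ‖ζ‖ ^ 2 := by
  rw [Complex.sq_norm]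
  simp only [yy, Prod.fst_add, Prod.snd_add, Prod.smul_mk, smul_eq_mul, mul_one, normSq_apply,
    add_re, add_im, mul_re, conj_re, conj_im]
  ring

theorem ne_yy_vert (z : V) (ζ : ℂ) (d : ℝ) :
    yy (z + ζ • (((d : ℂ), 0) : V)) = yy z + 2 * d * ζ.re := by
  simp only [yy, Prod.fst_add, Prod.snd_add, Prod.smul_mk, smul_eq_mul, mul_zero, add_zero,
    add_re, mul_re, ofReal_re, ofReal_im]
  ring

theorem ne_norm_le {ζ : ℂ} {c : ℝ} (hc : 0 ≤ c) (h : ‖ζ‖ ^ 2 ≤ c ^ 2) : ‖ζ‖ ≤ c :=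
  (sq_le_sq₀ (norm_nonneg _) hc).1 h

theorem ne_exp_neg_le {x : ℝ} (h0 : 0 ≤ x) (h1 : x ≤ 1) : Real.exp (-x) ≤ 1 - x / 2 := by
  have h2 := Real.add_one_le_exp x
  rw [Real.exp_neg, inv_le_comm₀ (Real.exp_pos x) (by linarith)]
  refine le_trans ?_ h2
  rw [inv_le_comm₀ (by linarith) (by linarith), inv_le_iff_one_le_mul₀ (by linarith)]
  nlinarith

namespace WP

variable {P : WP} {Dp CB : ℝ}

theorem OK.ne_scales (h : P.OK Dp CB) (j : ℕ) : ∃ s s' : ℝ, √(P.δ j) = s ∧ √(P.δ (j + 1)) = s' ∧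
    P.δ j = s ^ 2 ∧ P.δ (j + 1) = s' ^ 2 ∧ 0 < s' ∧ 1000 * s' ≤ s ∧ s ≤ 1 / 200 ∧
    s' = s * √P.lam := by
  have h1 := h.sqrt_δ_add j 1
  have h2 := h.sqrt_lam_le
  have h3 := Real.sqrt_nonneg (P.δ j)
  rw [pow_one] at h1
  exact ⟨_, _, rfl, rfl, (Real.sq_sqrt (h.δ_pos j).le).symm, (Real.sq_sqrt (h.δ_pos _).le).symm,
    Real.sqrt_pos.2 (h.δ_pos _), by rw [h1]; nlinarith, h.sqrt_δ_le j, h1⟩

theorem OK.ne_max (h : P.OK Dp CB) {v : V → ℝ} (hv : DiscHol v R1) {j : ℕ} {p : V}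
    (hp : p ∈ P.slab j) (a : ℂ) (ha : ‖p.2 - a‖ ≤ 2 * √(P.δ j))
    (hY : yy p + ‖p.2 - a‖ ^ 2 ≤ 100 * P.δ j) : ∃ q : V, v p ≤ v q ∧ yy q = 50 * P.δ (j + 1) ∧
      ‖q.2 - a‖ ^ 2 ≤ yy p + ‖p.2 - a‖ ^ 2 ∧ q.1 - p.1 = conj a * (q.2 - p.2) := by
  obtain ⟨s, s', e1, e2, e3, e4, hs', hss, hs, -⟩ := h.ne_scales j
  obtain ⟨hp1, hp2, hp3⟩ := hp
  rw [e1] at ha hp3
  rw [e3] at hY hp1 hp2
  rw [e4]
  have hs0 : 0 < s := by linarith
  have hsq : 100 * s' ^ 2 ≤ s ^ 2 / 2 := by nlinarith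
  have hs'2 : 0 < s' ^ 2 := by positivity
  set z0 : V := (p.1 - conj a * (p.2 - a), a) with hz0
  have hpz : p = z0 + (p.2 - a) • ((conj z0.2, 1) : V) := by
    ext
    · simp only [hz0, Prod.fst_add, Prod.smul_mk, smul_eq_mul]; ring
    · simp only [hz0, Prod.snd_add, Prod.smul_mk, smul_eq_mul]; ring
  set Y := yy p + ‖p.2 - a‖ ^ 2 with hYdef
  have hY0 : yy z0 = Y := by
    have := ne_yy_disc z0 (p.2 - a)
    rw [← hpz] at this
    linarith
  have hYp : yy p ≤ Y := le_add_of_nonneg_right (sq_nonneg _)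
  have hY1 : 0 < Y - 50 * s' ^ 2 := by linarith
  have hY2 : 0 < Y := by linarith
  obtain ⟨f, hf, hfv⟩ := hv z0 (conj z0.2, 1) (√Y) (Real.sqrt_pos.2 hY2) fun ζ hζ => by
    have a1 : ‖ζ‖ ^ 2 < Y := (Real.lt_sqrt (norm_nonneg _)).1 hζ
    have a2 : ‖ζ‖ ≤ 10 * s := ne_norm_le (by positivity) (by nlinarith)
    refine ⟨by rw [ne_yy_disc, hY0]; linarith, by rw [ne_yy_disc, hY0]; nlinarith, ?_⟩
    have a3 : (z0 + ζ • ((conj z0.2, 1) : V)).2 = p.2 - (p.2 - a) + ζ := by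
      simp only [hz0, Prod.snd_add, Prod.smul_mk, smul_eq_mul]; ring
    rw [a3]
    have a4 := norm_add_le (p.2 - (p.2 - a)) ζ
    have a5 := norm_sub_le p.2 (p.2 - a)
    linarith
  have hr : √(Y - 50 * s' ^ 2) < √Y := Real.sqrt_lt_sqrt hY1.le (by linarith)
  have hζ : ‖p.2 - a‖ ≤ √(Y - 50 * s' ^ 2) := Real.le_sqrt_of_sq_le (by linarith)
  obtain ⟨ζ', h1, h2⟩ := exists_sphere_ge (Real.sqrt_pos.2 hY1) hr hf hζ
  have h3 : ‖ζ'‖ ^ 2 = Y - 50 * s' ^ 2 := by rw [h1, Real.sq_sqrt hY1.le]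
  rw [hfv _ (hζ.trans_lt hr), hfv _ (h1 ▸ hr), ← hpz] at h2
  refine ⟨_, h2, by rw [ne_yy_disc, hY0, h3]; ring, ?_, ?_⟩
  · have a3 : (z0 + ζ' • ((conj z0.2, 1) : V)).2 - a = ζ' := by
      simp only [hz0, Prod.snd_add, Prod.smul_mk, smul_eq_mul]; ring
    rw [a3]
    linarith
  · simp only [hz0, Prod.fst_add, Prod.snd_add, Prod.smul_mk, smul_eq_mul]
    ring

/-- Step 1 (maximum principle).  If some lattice point `a` of scale `δ` has
`yy p + |p.2 - a|² < 4 δ`, put `a* = a`; otherwise `a* = p.2` and `Wd δ p = 0`.  On the disc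
`ζ ↦ z0 + ζ • (conj a*, 1)`, `z0 = (p.1 - conj a* (p.2 - a*), a*)`, one has `yy = Y - |ζ|²` with
`Y = yy p + |p.2 - a*|² ≤ 100 δ`; it lies in `R1` for `|ζ| < √Y`, and `ell a*` is constant on it.
Apply `exists_sphere_ge` with radius `√(Y - 50 δ')`.  In the first case
`Wd δ q = Wd δ p` by `Wd_eq_single`; in the second `Wd δ q ≤ 30`. -/
theorem OK.step_max (h : P.OK Dp CB) {v : V → ℝ} (hv : DiscHol v R1) {j : ℕ} {p : V}
    (hp : p ∈ P.slab j) : ∃ q : V, v p ≤ v q ∧ yy q = 50 * P.δ (j + 1) ∧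
      ‖q.2 - p.2‖ ≤ 10 * √(P.δ j) ∧ ‖q.1 - p.1 - conj p.2 * (q.2 - p.2)‖ ≤ 8 * P.δ j ∧
      Wd P.B (P.δ j) q ≤ Wd P.B (P.δ j) p + 30 := by
  have hd := h.δ_pos j
  have hd' := h.δ_pos (j + 1)
  have hs0 := Real.sqrt_nonneg (P.δ j)
  have hsq := Real.sq_sqrt hd.le
  have hpH : p ∈ H2 := (h.slab_subset j hp).1
  have hp0 : 0 < yy p := hpH
  by_cases hc : ∀ k ∈ latS (P.δ j), 4 * P.δ j ≤ yy p + normSq (p.2 - lat (P.δ j) k)
  · obtain ⟨q, h1, h2, h3, h4⟩ := h.ne_max hv hp p.2 (by simp) (by simpa using hp.2.1)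
    have hqH : q ∈ H2 := by change 0 < yy q; rw [h2]; positivity
    refine ⟨q, h1, h2, ne_norm_le (by positivity) ?_, ?_, ?_⟩
    · have := hp.2.1
      rw [sub_self, norm_zero] at h3
      nlinarith
    · rw [h4, sub_self, norm_zero]
      positivity
    · rw [Wd_zero_of_forall h.well hd hc, zero_add]
      exact Wd_le h.well hd hqH
  · push Not at hc
    obtain ⟨k, hk, hc⟩ := hc
    rw [← Complex.sq_norm] at hc
    set a := lat (P.δ j) k with ha
    have ha1 : ‖p.2 - a‖ ≤ 2 * √(P.δ j) := ne_norm_le (by positivity) (by nlinarith)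
    obtain ⟨q, h1, h2, h3, h4⟩ := h.ne_max hv hp a ha1 (by linarith)
    have hqH : q ∈ H2 := by change 0 < yy q; rw [h2]; positivity
    have ha2 : ‖q.2 - a‖ ≤ 2 * √(P.δ j) := ne_norm_le (by positivity) (by nlinarith)
    have ha3 : ‖q.2 - p.2‖ ≤ 4 * √(P.δ j) := by
      have := norm_sub_le (q.2 - a) (p.2 - a)
      rw [sub_sub_sub_cancel_right] at this
      linarith
    refine ⟨q, h1, h2, by linarith, ?_, ?_⟩
    · have e : q.1 - p.1 - conj p.2 * (q.2 - p.2) = -(conj (p.2 - a) * (q.2 - p.2)) := by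
        rw [h4, map_sub]; ring
      rw [e, norm_neg, norm_mul, Complex.norm_conj]
      calc ‖p.2 - a‖ * ‖q.2 - p.2‖ ≤ 2 * √(P.δ j) * (4 * √(P.δ j)) := by gcongr
        _ = 8 * P.δ j := by nlinarith
    · have e : ell a q = ell a p := by
        unfold ell
        linear_combination h4
      rw [Wd_eq_single h.well hd hqH hk (by linarith), Wd_eq_single h.well hd hpH hk (by linarith),
        ← ha, e]
      linarith

/-- Step 2 (Harnack twice).  `q` has height `50 δ'`.  First disc: `ζ ↦ q + ζ • (conj q.2, 1)`,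
radius `7 √δ'`, from `ζ = 0` to `ζ = a - q.2` with `a` the lattice point of scale `δ'` given by
`lat_near` (`σ = 3/5`, factor `4`).  Second disc: `ζ ↦ q' + ζ • (δ', 0)` of radius
`v0/2 - 1/4`, where `q' = q + (a - q.2) • (conj q.2, 1)` has height `v0 δ'`, `34 ≤ v0 ≤ 50`, from
`ζ = 0` to the point `c` with `ell a c / δ' = 1/2 + k π i`, `|Im ζ| ≤ π/2` (`σ = 249/250`, factor
`499`).  All points `z` of both discs are in the set described in `hB`. -/
theorem OK.step_harnack (h : P.OK Dp CB) {v : V → ℝ} (hv : DiscHol v R1) {j : ℕ} {q : V}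
    (hq : yy q = 50 * P.δ (j + 1)) (hq2 : ‖q.2‖ ≤ 1 / 3 - 5 * √(P.δ j)) {Bm : ℝ}
    (hB : ∀ z ∈ P.slab (j + 1), ‖z.2 - q.2‖ ≤ 7 * √(P.δ (j + 1)) →
      ‖z.1 - q.1 - conj q.2 * (z.2 - q.2)‖ ≤ 25 * P.δ (j + 1) → v z ≤ Bm) :
    ∃ c ∈ P.slab (j + 1), ‖c.2 - q.2‖ ≤ 7 * √(P.δ (j + 1)) ∧
      ‖c.1 - q.1 - conj q.2 * (c.2 - q.2)‖ ≤ 25 * P.δ (j + 1) ∧
      Wd P.B (P.δ (j + 1)) c ≤ -Dp ∧ Bm - v c ≤ 2000 * (Bm - v q) := by
  have hd' := h.δ_pos (j + 1)
  have hsub := h.slab_subset (j + 1)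
  obtain ⟨k, hk⟩ := lat_near hd' q.2
  have hlat := mem_latS hd' k
  have hsingle := fun (z : V) (hz : z ∈ H2) => Wd_eq_single h.well hd' hz (k := k)
  have hre := re_ell_div hd' (lat (P.δ (j + 1)) k)
  set a := lat (P.δ (j + 1)) k with ha
  obtain ⟨s, s', e1, e2, e3, e4, hs', hss, hs, -⟩ := h.ne_scales j
  have hslab : ∀ z : V, z ∈ P.slab (j + 1) ↔
      P.δ (j + 1) / 2 ≤ yy z ∧ yy z ≤ 100 * P.δ (j + 1) ∧ ‖z.2‖ ≤ 1 / 3 - 15 * s' := fun z => by
    rw [← e2]; rfl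
  rw [e1] at hq2
  rw [e2] at hB hk hsingle ⊢
  set d := P.δ (j + 1) with hd
  -- first disc
  have m1 : ∀ ζ : ℂ, ‖ζ‖ < 7 * s' → q + ζ • ((conj q.2, 1) : V) ∈ P.slab (j + 1) ∧
      v (q + ζ • ((conj q.2, 1) : V)) ≤ Bm := by
    intro ζ hζ
    have a1 : ‖ζ‖ ^ 2 ≤ 49 * d := by
      rw [e4]
      nlinarith [norm_nonneg ζ]
    have a2 : (q + ζ • ((conj q.2, 1) : V)).2 = q.2 + ζ := by simp
    have a3 : (q + ζ • ((conj q.2, 1) : V)).1 = q.1 + ζ * conj q.2 := by simp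
    have a4 : q + ζ • ((conj q.2, 1) : V) ∈ P.slab (j + 1) := by
      rw [hslab, ne_yy_disc, hq, a2]
      have := norm_add_le q.2 ζ
      exact ⟨by linarith, by nlinarith [sq_nonneg ‖ζ‖], by linarith⟩
    refine ⟨a4, hB _ a4 (by rw [a2, add_sub_cancel_left]; exact hζ.le) ?_⟩
    rw [a2, a3, show q.1 + ζ * conj q.2 - q.1 - conj q.2 * (q.2 + ζ - q.2) = 0 by ring, norm_zero]
    positivity
  obtain ⟨f, hf, hfv⟩ := hv q (conj q.2, 1) (7 * s') (by positivity)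
    fun ζ hζ => hsub (m1 ζ hζ).1
  have h1 := harnack (by positivity) hf (B := Bm) (σ := 3 / 5)
    (fun ζ hζ => by rw [hfv ζ hζ]; exact (m1 ζ hζ).2) (by norm_num) (by norm_num)
    (ζ := a - q.2) (by linarith)
  have h0 : v q ≤ Bm := by simpa using (m1 0 (by rw [norm_zero]; positivity)).2
  rw [hfv _ (by linarith), hfv 0 (by rw [norm_zero]; positivity), zero_smul, add_zero] at h1
  set q' : V := q + (a - q.2) • ((conj q.2, 1) : V) with hq'
  have b2 : q'.2 = a := by simp [hq']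
  have b1 : q'.1 = q.1 + (a - q.2) * conj q.2 := by simp [hq']
  have b3 : yy q' = 50 * d - ‖a - q.2‖ ^ 2 := by rw [hq', ne_yy_disc, hq]
  have b4 : ‖a - q.2‖ ^ 2 ≤ 16 * d := by
    rw [e4]
    nlinarith [norm_nonneg (a - q.2)]
  have b5 : ‖a‖ ≤ 1 / 3 - 15 * s' := by
    have := norm_add_le q.2 (a - q.2)
    rw [add_sub_cancel] at this
    linarith
  obtain ⟨x, hx⟩ : ∃ x : ℝ, yy q' = (2 * x + 1) * d := ⟨(yy q' / d - 1) / 2, by field_simp; ring⟩
  have hx1 : 33 / 2 ≤ x := by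
    by_contra hc
    nlinarith
  have hx2 : x ≤ 49 / 2 := by
    by_contra hc
    nlinarith [sq_nonneg ‖a - q.2‖]
  -- second disc
  have m2 : ∀ ζ : ℂ, ‖ζ‖ < x + 1 / 4 → q' + ζ • (((d : ℂ), 0) : V) ∈ P.slab (j + 1) ∧
      ‖(q' + ζ • (((d : ℂ), 0) : V)).2 - q.2‖ ≤ 7 * s' ∧
      ‖(q' + ζ • (((d : ℂ), 0) : V)).1 - q.1 -
        conj q.2 * ((q' + ζ • (((d : ℂ), 0) : V)).2 - q.2)‖ ≤ 25 * d := by
    intro ζ hζ
    have a1 := abs_le.1 (Complex.abs_re_le_norm ζ)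
    have a2 : (q' + ζ • (((d : ℂ), 0) : V)).2 = a := by simp [b2]
    have a3 : (q' + ζ • (((d : ℂ), 0) : V)).1 = q.1 + (a - q.2) * conj q.2 + ζ * d := by
      simp [b1]
    refine ⟨?_, by rw [a2]; linarith, ?_⟩
    · rw [hslab, ne_yy_vert, hx, a2]
      exact ⟨by nlinarith [a1.1], by nlinarith [a1.2], b5⟩
    · rw [a2, a3, show q.1 + (a - q.2) * conj q.2 + ζ * d - q.1 - conj q.2 * (a - q.2) = ζ * d by
        ring, norm_mul, Complex.norm_real, Real.norm_of_nonneg hd'.le]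
      gcongr
      linarith
  obtain ⟨g, hg, hgv⟩ := hv q' ((d : ℂ), 0) (x + 1 / 4) (by linarith)
    fun ζ hζ => hsub (m2 ζ hζ).1
  set μ : ℂ := ell a q' / d with hμ
  have hμre : μ.re = x + 1 / 2 := by
    rw [hμ, hre, b2, sub_self, map_zero, hx]
    field_simp
    ring
  set n : ℤ := round (μ.im / Real.pi) with hn
  set ζc : ℂ := 1 / 2 + n * Real.pi * I - μ with hζc
  have c1 : ζc.re = -x := by
    simp [hζc, hμre]
  have c2 : |ζc.im| ≤ 2 := by
    have e : ζc.im = -(Real.pi * (μ.im / Real.pi - n)) := by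
      simp [hζc]
      field_simp
      ring
    rw [e, abs_neg, abs_mul, abs_of_pos Real.pi_pos]
    have := abs_sub_round (μ.im / Real.pi)
    have := Real.pi_le_four
    have := Real.pi_pos
    nlinarith [abs_nonneg (μ.im / Real.pi - n)]
  have c3 : ‖ζc‖ ≤ 249 / 250 * (x + 1 / 4) := by
    refine ne_norm_le (by positivity) ?_
    rw [Complex.sq_norm, normSq_apply, c1]
    have := abs_le.1 c2
    nlinarith [this.1, this.2]
  have c4 : ‖ζc‖ < x + 1 / 4 := by linarith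
  have h2 := harnack (by linarith) hg (B := Bm) (σ := 249 / 250)
    (fun ζ hζ => by rw [hgv ζ hζ]; exact hB _ (m2 ζ hζ).1 (m2 ζ hζ).2.1 (m2 ζ hζ).2.2)
    (by norm_num) (by norm_num) c3
  rw [hgv _ c4, hgv 0 (by rw [norm_zero]; linarith), zero_smul, add_zero] at h2
  refine ⟨_, (m2 _ c4).1, (m2 _ c4).2.1, (m2 _ c4).2.2, ?_, ?_⟩
  · have a2 : (q' + ζc • (((d : ℂ), 0) : V)).2 = a := by simp [b2]
    have hdc : (d : ℂ) ≠ 0 := by exact_mod_cast hd'.ne'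
    have a4 : ell a (q' + ζc • (((d : ℂ), 0) : V)) / d = 1 / 2 + n * Real.pi * I := by
      have : ell a (q' + ζc • (((d : ℂ), 0) : V)) = ell a q' + ζc * d := by
        simp only [ell, Prod.fst_add, Prod.snd_add, Prod.smul_mk, smul_eq_mul]
        ring
      rw [this, add_div, ← hμ, mul_div_cancel_right₀ _ hdc, hζc]
      ring
    rw [hsingle _ (hsub (m2 _ c4).1).1 (hlat.2 (by linarith))
      (by rw [a2, sub_self, norm_zero]; positivity), a4]
    exact h.well.deep n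
  · rw [show ((1 : ℝ) + 3 / 5) / (1 - 3 / 5) = 4 by norm_num] at h1
    rw [show ((1 : ℝ) + 249 / 250) / (1 - 249 / 250) = 499 by norm_num] at h2
    linarith

/-- Step 3 (cost).  By `Om_eq_sum` (`m = j + 2` at `z`, `m = j + 1` at `p`).  Levels `i < j`:
`Wd_lip` from `p` to `z` with `ρ = 11 √δ` (total `≤ α'`); level `j`: `Wd_lip` from `q` to `z` with
`ρ = 7 √δ'` (`≤ α'`) and the hypothesis (`≤ 30 al j ≤ 60 α'`). -/
theorem OK.step_cost (h : P.OK Dp CB) {j : ℕ} {p q z : V} (hp : p ∈ P.slab j)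
    (hq : yy q = 50 * P.δ (j + 1)) (hq2 : ‖q.2 - p.2‖ ≤ 10 * √(P.δ j))
    (hq1 : ‖q.1 - p.1 - conj p.2 * (q.2 - p.2)‖ ≤ 8 * P.δ j)
    (hW : Wd P.B (P.δ j) q ≤ Wd P.B (P.δ j) p + 30) (hz : z ∈ P.slab (j + 1))
    (hz2 : ‖z.2 - q.2‖ ≤ 7 * √(P.δ (j + 1)))
    (hz1 : ‖z.1 - q.1 - conj q.2 * (z.2 - q.2)‖ ≤ 25 * P.δ (j + 1)) :
    P.Om z ≤ P.Om p + P.A * P.al (j + 1) * (62 + Wd P.B (P.δ (j + 1)) z) := by
  have hpH : p ∈ H2 := (h.slab_subset j hp).1
  have hzH : z ∈ H2 := (h.slab_subset _ hz).1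
  have hd := h.δ_pos j
  have hd' := h.δ_pos (j + 1)
  have hqH : q ∈ H2 := by change 0 < yy q; rw [hq]; positivity
  have hlam := h.lam_le'
  have hθ := h.sqrt_lam_le
  have hθ0 := Real.sqrt_nonneg P.lam
  have hCθ := h.lam_le
  have hCB := h.well.one_le
  have hα := h.al_pos (j + 1)
  have e1 : P.Om p = P.A * ∑ i ∈ Finset.range (j + 1), P.al i * Wd P.B (P.δ i) p :=
    h.Om_eq_sum (by rw [h.δ_succ]; have := hp.1; nlinarith)
  have e2 : P.Om z = P.A * ∑ i ∈ Finset.range (j + 2), P.al i * Wd P.B (P.δ i) z :=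
    h.Om_eq_sum (by rw [h.δ_succ (j + 1)]; have := hz.1; nlinarith)
  obtain ⟨s, s', f1, f2, f3, f4, hs', hss, hs, f5⟩ := h.ne_scales j
  have hs0 : 0 < s := by linarith
  rw [f1] at hq2
  rw [f2] at hz2
  have g2 : ‖z.2 - p.2‖ ≤ 11 * s := by
    have := norm_add_le (z.2 - q.2) (q.2 - p.2)
    rw [sub_add_sub_cancel] at this
    linarith
  have g1 : ‖z.1 - p.1 - conj p.2 * (z.2 - p.2)‖ ≤ (11 * s) ^ 2 := by
    have e : z.1 - p.1 - conj p.2 * (z.2 - p.2) = (z.1 - q.1 - conj q.2 * (z.2 - q.2)) +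
        (q.1 - p.1 - conj p.2 * (q.2 - p.2)) + conj (q.2 - p.2) * (z.2 - q.2) := by
      rw [map_sub]; ring
    have a1 : ‖conj (q.2 - p.2) * (z.2 - q.2)‖ ≤ 10 * s * (7 * s') := by
      rw [norm_mul, Complex.norm_conj]
      gcongr
    rw [e]
    refine (norm_add₃_le).trans ?_
    rw [f3] at hq1
    rw [f4] at hz1
    nlinarith
  have low : ∀ i ∈ Finset.range j, P.al i * Wd P.B (P.δ i) z ≤
      P.al i * Wd P.B (P.δ i) p + P.al (j + 1) / 2 * (1 / 2) ^ (j - 1 - i) := by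
    intro i hi
    obtain ⟨m, rfl⟩ := Nat.exists_eq_add_of_lt (Finset.mem_range.1 hi)
    have a1 : s = √(P.δ i) * √P.lam ^ (m + 1) := by rw [← f1, add_assoc, h.sqrt_δ_add]
    have a2 : 0 < √(P.δ i) := Real.sqrt_pos.2 (h.δ_pos i)
    have a3 : √P.lam ^ m ≤ (1 / 4) ^ m := pow_le_pow_left₀ hθ0 (by linarith) m
    have a4 : (1 / 4 : ℝ) ^ m ≤ 1 := pow_le_one₀ (by norm_num) (by norm_num)
    have a5 : 0 ≤ √P.lam ^ m := by positivity
    have a6 : 11 * s ≤ √(P.δ i) := by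
      rw [a1, pow_succ]
      have : √P.lam ^ m * √P.lam ≤ 1 * (1 / 1000) := by gcongr; linarith
      nlinarith
    have a7 := (abs_le.1 (Wd_lip h.well (h.δ_pos i) hpH hzH a6 g2 g1)).2
    have a8 : 8 * CB * (11 * s) / √(P.δ i) = 88 * (CB * √P.lam) * √P.lam ^ m := by
      rw [a1]
      field_simp
      ring
    have a9 : 88 * (CB * √P.lam) * √P.lam ^ m ≤ 1 / 8 * (1 / 4) ^ m := by
      gcongr
      linarith
    have a10 : P.al i ≤ 2 ^ (m + 2) * P.al (i + m + 1 + 1) := h.al_le_pow i (m + 2)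
    have a11 : P.al i * (Wd P.B (P.δ i) z - Wd P.B (P.δ i) p) ≤
        2 ^ (m + 2) * P.al (i + m + 1 + 1) * (1 / 8 * (1 / 4) ^ m) :=
      (mul_le_mul_of_nonneg_left (a7.trans (a8.le.trans a9)) (h.al_pos i).le).trans
        (mul_le_mul_of_nonneg_right a10 (by positivity))
    have a12 : (2 : ℝ) ^ (m + 2) * P.al (i + m + 1 + 1) * (1 / 8 * (1 / 4) ^ m) =
        P.al (i + m + 1 + 1) / 2 * (1 / 2) ^ m := by
      have : (1 / 2 : ℝ) ^ m = 2 ^ m * (1 / 4) ^ m := by rw [← mul_pow]; norm_num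
      rw [this]
      ring
    rw [show i + m + 1 - 1 - i = m by omega]
    linarith
  have low' : ∑ i ∈ Finset.range j, P.al i * Wd P.B (P.δ i) z ≤
      ∑ i ∈ Finset.range j, P.al i * Wd P.B (P.δ i) p + P.al (j + 1) := by
    refine (Finset.sum_le_sum low).trans ?_
    rw [Finset.sum_add_distrib, ← Finset.mul_sum,
      Finset.sum_range_reflect (fun m => (1 / 2 : ℝ) ^ m) j]
    have := sum_geometric_two_le j
    nlinarith
  have mid : P.al j * Wd P.B (P.δ j) z ≤ P.al j * Wd P.B (P.δ j) p + 61 * P.al (j + 1) := by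
    have a7 := (abs_le.1 (Wd_lip h.well hd hqH hzH (ρ := 7 * s') (by rw [f1]; linarith) hz2
      (by rw [f4] at hz1; nlinarith))).2
    have a8 : 8 * CB * (7 * s') / √(P.δ j) = 56 * (CB * √P.lam) := by
      rw [f1, f5]
      field_simp
      ring
    have a9 : Wd P.B (P.δ j) z - Wd P.B (P.δ j) p ≤ 61 / 2 := by linarith
    have a10 := mul_le_mul_of_nonneg_left a9 (h.al_pos j).le
    have a11 := h.al_two j
    linarith
  rw [e1, e2, Finset.sum_range_succ, Finset.sum_range_succ, Finset.sum_range_succ, mul_assoc,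
    ← mul_add]
  exact mul_le_mul_of_nonneg_left (by linarith) h.A_pos.le

/-- Claim `S j s`: `v ≤ s e^{b φ}` on `slab j`.  `S (j+1) s → S j (s exp (-100 b A α'))` for `s ≥ 0`:
with `Bm = s exp (b φ p + 93 b A α')`, `x = b A α' (Dp + 30) ≤ 1`: `v c ≤ Bm e^{-x} ≤ Bm (1 - x/2)`,
so `v p ≤ v q ≤ Bm (1 - x/4000) ≤ Bm exp (-x/4000)`, and `x/4000 ≥ 250 b A α'`.
`S j C` holds for all `j` (`C ≥ 0` may be assumed), and `∑ al = ∞`. -/
theorem OK.nonex (h : P.OK Dp CB) (hD : 1000000 ≤ Dp) {φbg v : V → ℝ} {Cb b C : ℝ} {j1 : ℕ}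
    (hb : 0 < b) (hCb : 2 * Cb ≤ P.A)
    (hbg : ∀ j, j1 ≤ j → ∀ p ∈ P.slab j, ∀ q ∈ P.slab (j + 1), ‖q.2 - p.2‖ ≤ 11 * √(P.δ j) →
      φbg q - φbg p ≤ Cb * P.al (j + 1))
    (hsm : ∀ j, j1 ≤ j → b * P.al j * P.A * (Dp + 30) ≤ 1) (hns : ¬ Summable P.al)
    (hv0 : ∀ z ∈ R1, 0 ≤ v z) (hv : DiscHol v R1)
    (hvb : ∀ z ∈ R1, v z ≤ C * Real.exp (b * (φbg z + P.Om z))) : ∀ z ∈ P.slab j1, v z = 0 := by
  have hA := h.A_pos
  have step : ∀ j, j1 ≤ j → ∀ s : ℝ, 0 ≤ s →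
      (∀ z ∈ P.slab (j + 1), v z ≤ s * Real.exp (b * (φbg z + P.Om z))) → ∀ p ∈ P.slab j,
        v p ≤ s * Real.exp (-(100 * b * P.A) * P.al (j + 1)) *
          Real.exp (b * (φbg p + P.Om p)) := by
    intro j hj s hs0 hS p hp
    obtain ⟨q, hq0, hq, hq2, hq1, hW⟩ := h.step_max hv hp
    have hα := h.al_pos (j + 1)
    set t : ℝ := b * P.A * P.al (j + 1) with ht
    have ht0 : 0 < t := by positivity
    have hbd : ∀ z ∈ P.slab (j + 1), ‖z.2 - q.2‖ ≤ 7 * √(P.δ (j + 1)) →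
        ‖z.1 - q.1 - conj q.2 * (z.2 - q.2)‖ ≤ 25 * P.δ (j + 1) → ∀ w : ℝ,
        Wd P.B (P.δ (j + 1)) z ≤ w →
        v z ≤ s * Real.exp (b * (φbg p + P.Om p) + t * (63 + w)) := by
      intro z hz hz2 hz1 w hw
      have a1 := h.step_cost hp hq hq2 hq1 hW hz hz2 hz1
      have a2 : ‖z.2 - p.2‖ ≤ 11 * √(P.δ j) := by
        obtain ⟨s, s', f1, f2, -, -, hs', hss, -, -⟩ := h.ne_scales j
        have := norm_add_le (z.2 - q.2) (q.2 - p.2)
        rw [sub_add_sub_cancel] at this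
        rw [f1] at hq2 ⊢
        rw [f2] at hz2
        linarith
      have a3 := hbg j hj p hp z hz a2
      have a4 : Cb * P.al (j + 1) ≤ P.A * P.al (j + 1) := by
        have : Cb ≤ P.A := by linarith
        gcongr
      have a5 : P.A * P.al (j + 1) * (62 + Wd P.B (P.δ (j + 1)) z) ≤
          P.A * P.al (j + 1) * (62 + w) := by gcongr
      have a6 : φbg z + P.Om z ≤ φbg p + P.Om p + P.A * P.al (j + 1) * (63 + w) := by linarith
      refine (hS z hz).trans (mul_le_mul_of_nonneg_left (Real.exp_le_exp.2 ?_) hs0)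
      have := mul_le_mul_of_nonneg_left a6 hb.le
      rw [ht]
      linarith
    have hq3 : ‖q.2‖ ≤ 1 / 3 - 5 * √(P.δ j) := by
      have := norm_add_le p.2 (q.2 - p.2)
      rw [add_sub_cancel] at this
      have := hp.2.2
      linarith
    set Bm : ℝ := s * Real.exp (b * (φbg p + P.Om p) + t * (63 + 30)) with hBm
    have hBm0 : 0 ≤ Bm := by positivity
    obtain ⟨c, hc, hc2, hc1, hcW, hcB⟩ := h.step_harnack hv hq hq3 (Bm := Bm)
      fun z hz hz2 hz1 => hbd z hz hz2 hz1 30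
        (Wd_le h.well (h.δ_pos _) (h.slab_subset _ hz).1)
    set x : ℝ := t * (Dp + 30) with hx
    have hx0 : 0 ≤ x := by positivity
    have hx1 : x ≤ 1 := by
      have := hsm (j + 1) (by omega)
      rw [hx, ht]
      linarith
    have b1 : v c ≤ Bm * Real.exp (-x) := by
      refine (hbd c hc hc2 hc1 _ hcW).trans (le_of_eq ?_)
      rw [hBm, mul_assoc s, ← Real.exp_add, hx]
      congr 2
      ring
    have b2 := mul_le_mul_of_nonneg_left (ne_exp_neg_le hx0 hx1) hBm0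
    have b3 : v q ≤ Bm * (-(x / 4000) + 1) := by linarith
    have b4 := mul_le_mul_of_nonneg_left (Real.add_one_le_exp (-(x / 4000))) hBm0
    refine hq0.trans (b3.trans (b4.trans ?_))
    rw [hBm, mul_assoc s, mul_assoc s, ← Real.exp_add, ← Real.exp_add]
    refine mul_le_mul_of_nonneg_left (Real.exp_le_exp.2 ?_) hs0
    have b5 : t * 1000000 ≤ x := by
      rw [hx]
      gcongr
      linarith
    have b6 : -(100 * b * P.A) * P.al (j + 1) = -(100 * t) := by rw [ht]; ring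
    rw [b6]
    linarith
  have iter : ∀ n j, j1 ≤ j → ∀ p ∈ P.slab j, v p ≤ max C 0 *
      Real.exp (-(100 * b * P.A) * ∑ i ∈ Finset.range n, P.al (i + (j + 1))) *
        Real.exp (b * (φbg p + P.Om p)) := by
    intro n
    induction n with
    | zero =>
      intro j _ p hp
      rw [Finset.sum_range_zero, mul_zero, Real.exp_zero, mul_one]
      exact (hvb p (h.slab_subset j hp)).trans
        (mul_le_mul_of_nonneg_right (le_max_left _ _) (Real.exp_pos _).le)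
    | succ n ih =>
      intro j hj p hp
      refine (step j hj _ (by positivity) (ih (j + 1) (by omega)) p hp).trans (le_of_eq ?_)
      rw [Finset.sum_range_succ', mul_add (-(100 * b * P.A)), Real.exp_add, zero_add,
        mul_assoc (max C 0)]
      simp only [add_assoc, add_comm 1]
  intro z hz
  refine le_antisymm ?_ (hv0 z (h.slab_subset j1 hz))
  have h1 : Tendsto (fun n => ∑ i ∈ Finset.range n, P.al (i + (j1 + 1))) atTop atTop :=
    (not_summable_iff_tendsto_nat_atTop_of_nonneg fun i => (h.al_pos _).le).1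
      fun hs => hns ((summable_nat_add_iff (j1 + 1)).1 hs)
  have h2 := Real.tendsto_exp_atBot.comp
    (h1.const_mul_atTop_of_neg (r := -(100 * b * P.A)) (by
      have : 0 < 100 * b * P.A := by positivity
      linarith))
  have h3 := (h2.const_mul (max C 0)).mul_const (Real.exp (b * (φbg z + P.Om z)))
  rw [mul_zero, zero_mul] at h3
  exact ge_of_tendsto' h3 fun n => iter n j1 le_rfl z hz

end WP

end Crest.Agent.R245
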