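import Crest.Agent.R245.Base

/-!
# The sum of all wells (task R245/Omega)

On `{4 δ m ≤ yy}` only the scales `j < m` contribute (`Wd_zero_of_le`, `tsum_eq_sum`), so `Om` is
locally a finite sum on `H2`.  Note `lam ≤ 10⁻⁶` because `1 ≤ CB`.
-/

set_option autoImplicit false

noncomputable section

namespace Crest.Agent.R245

open scoped ComplexConjugate ContDiff Topology
open Complex Set Filter

namespace WP

variable {P : WP} {Dp CB : ℝ}

namespace OK

variable (h : P.OK Dp CB)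
include h

theorem sqrt_lam_le : √P.lam ≤ 1 / 1000 := by
  have h1 := h.lam_le
  have h2 := h.well.one_le
  have h3 := Real.sqrt_nonneg P.lam
  nlinarith

theorem lam_le' : P.lam ≤ 1 / 1000000 := by
  have h1 := h.sqrt_lam_le
  have h2 := Real.sq_sqrt h.lam_pos.le
  have h3 := Real.sqrt_nonneg P.lam
  nlinarith

theorem δ_pos (j : ℕ) : 0 < P.δ j := by
  exact mul_pos h.d0_pos (pow_pos h.lam_pos j)

theorem δ_succ (j : ℕ) : P.δ (j + 1) = P.δ j * P.lam := by
  simp only [δ, pow_succ, mul_assoc]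

theorem δ_anti {i j : ℕ} (hij : i ≤ j) : P.δ j ≤ P.δ i := by
  exact mul_le_mul_of_nonneg_left
    (pow_le_pow_of_le_one h.lam_pos.le (h.lam_le'.trans (by norm_num)) hij) h.d0_pos.le

theorem sqrt_δ_le (j : ℕ) : √(P.δ j) ≤ 1 / 200 := by
  have h1 := h.δ_anti (Nat.zero_le j)
  have h2 : P.δ 0 = P.d0 := by simp [δ]
  have h3 := h.d0_le
  exact Real.sqrt_le_iff.2 ⟨by norm_num, by linarith⟩

theorem sqrt_δ_add (j k : ℕ) : √(P.δ (j + k)) = √(P.δ j) * √P.lam ^ k := by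
  induction k with
  | zero => simp
  | succ k ih =>
    rw [← add_assoc, h.δ_succ, Real.sqrt_mul (h.δ_pos _).le, ih, pow_succ, mul_assoc]

theorem exists_δ_lt {y : ℝ} (hy : 0 < y) : ∃ m, 4 * P.δ m < y := by
  have hd := h.d0_pos
  obtain ⟨m, hm⟩ := exists_pow_lt_of_lt_one (show 0 < y / (4 * P.d0) by positivity)
    (h.lam_le'.trans_lt (by norm_num : (1 / 1000000 : ℝ) < 1))
  refine ⟨m, ?_⟩
  rw [lt_div_iff₀ (by positivity)] at hm
  simp only [δ]
  linarith

theorem al_le_pow (j k : ℕ) : P.al j ≤ 2 ^ k * P.al (j + k) := by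
  induction k with
  | zero => simp
  | succ k ih =>
    have h1 := mul_le_mul_of_nonneg_left (h.al_two (j + k)) (show (0 : ℝ) ≤ 2 ^ k by positivity)
    rw [← add_assoc, pow_succ]
    linarith

theorem Om_eq_sum {m : ℕ} {z : V} (hz : 4 * P.δ m ≤ yy z) :
    P.Om z = P.A * ∑ j ∈ Finset.range m, P.al j * Wd P.B (P.δ j) z := by
  rw [Om, tsum_eq_sum]
  intro j hj
  have h1 := h.δ_anti (show m ≤ j by simpa using hj)
  rw [Wd_zero_of_le h.well (h.δ_pos j) (by linarith), mul_zero]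

theorem Om_ev {m : ℕ} {z : V} (hz : 4 * P.δ m < yy z) :
    P.Om =ᶠ[𝓝 z] fun w => P.A * ∑ j ∈ Finset.range m, P.al j * Wd P.B (P.δ j) w := by
  filter_upwards [contDiff_yy.continuous.continuousAt.eventually (lt_mem_nhds hz)] with w hw
  exact h.Om_eq_sum hw.le

theorem contDiff_part (m : ℕ) :
    ContDiff ℝ ∞ fun w => P.A * ∑ j ∈ Finset.range m, P.al j * Wd P.B (P.δ j) w :=
  contDiff_const.mul (ContDiff.sum fun j _ => contDiff_const.mul (contDiff_Wd h.well _))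

theorem contDiffOn_Om : ContDiffOn ℝ ∞ P.Om H2 := by
  intro z hz
  obtain ⟨m, hm⟩ := h.exists_δ_lt hz
  exact ((h.contDiff_part m).contDiffAt.congr_of_eventuallyEq (h.Om_ev hm)).contDiffWithinAt

theorem Om_psh {z : V} (hz : z ∈ H2) (ξ : V) : 0 ≤ ((jet P.Om z).H ξ ξ).re := by
  obtain ⟨m, hm⟩ := h.exists_δ_lt hz
  have hs : ∀ j, Sm (Wd P.B (P.δ j)) z := fun j => Sm.of_contDiff (contDiff_Wd h.well _)
  have key : ∀ m : ℕ,
      0 ≤ ((jet (fun w => ∑ j ∈ Finset.range m, P.al j * Wd P.B (P.δ j) w) z).H ξ ξ).re := by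
    intro m
    induction m with
    | zero =>
      have e := jet_const_mul 0 (hs 0)
      simp only [zero_mul] at e
      simp [e]
    | succ m ih =>
      simp only [Finset.sum_range_succ]
      rw [jet_add (Sm.sum fun j _ => (Sm.const _).rmul (hs j)) ((Sm.const _).rmul (hs m)),
        jet_const_mul _ (hs m), Jet.add_H, Jet.smul_H, add_re, re_ofReal_mul]
      exact add_nonneg ih (mul_nonneg (h.al_pos m).le (Wd_psh h.well _ z ξ))
  rw [jet_congr (h.Om_ev hm), jet_const_mul _ (Sm.sum fun j _ => (Sm.const _).rmul (hs j)),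
    Jet.smul_H, re_ofReal_mul]
  exact mul_nonneg h.A_pos.le (key m)

theorem Om_psh_nz {z : V} (hz : z ∈ H2) (ξ : V) : 0 ≤ ((jet (nz P.Om z) 0).H ξ ξ).re := by
  rw [jet_nz (Sm.of_contDiffOn isOpen_H2 h.contDiffOn_Om hz), Jet.comap_H]
  exact h.Om_psh hz _

theorem Om_lower {y0 : ℝ} (hy0 : 0 < y0) : ∃ C : ℝ, ∀ z, y0 ≤ yy z → -C ≤ P.Om z := by
  obtain ⟨m, hm⟩ := h.exists_δ_lt hy0
  refine ⟨P.A * (m * CB), fun z hz => ?_⟩
  have hz' : z ∈ H2 := hy0.trans_le hz
  rw [h.Om_eq_sum (m := m) (by linarith), ← mul_neg]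
  refine mul_le_mul_of_nonneg_left ?_ h.A_pos.le
  calc -((m : ℝ) * CB) = ∑ j ∈ Finset.range m, -CB := by simp
    _ ≤ _ := by
      refine Finset.sum_le_sum fun j _ => ?_
      have h1 := (abs_le.1 (abs_Wd_le h.well (h.δ_pos j) hz')).1
      have h2 := h.al_pos j
      have h3 := h.al_le j
      have h4 := h.well.one_le
      nlinarith

theorem Om_zero {z : V} (hz : z ∈ H2) (h' : 11 / 20 ≤ ‖z.2‖ ∨ 4 * P.d0 ≤ yy z) : P.Om z = 0 := by
  have : ∀ j, P.al j * Wd P.B (P.δ j) z = 0 := by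
    intro j
    rcases h' with h' | h'
    · rw [Wd_zero_of_far h.well (h.δ_pos j) hz (by linarith [h.sqrt_δ_le j]), mul_zero]
    · have h1 := h.δ_anti (Nat.zero_le j)
      have h2 : P.δ 0 = P.d0 := by simp [δ]
      rw [Wd_zero_of_le h.well (h.δ_pos j) (by linarith), mul_zero]
  simp [Om, this]

/-- If `yy z > 4 d0` or `‖z.2‖ > 3/5` then `Om` vanishes near `z`.  Otherwise take `m` maximal with
`yy z ≤ 4 δ m`; near `z` only `j ≤ m` contribute, and by `Wd_JB`, `al_le_pow`,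
`√(y / δ j) ≤ 2 √lam ^ (m - j)` the sum is at most
`A * 2048 CB * 4 al (m+1) * ∑ (2 √lam)^k ≤ 20000 A CB al (m+1)`. -/
theorem Om_JB {z : V} (hz : z ∈ H2) : JB (nz P.Om z) 0 ∨ ∃ m, P.δ (m + 1) ≤ yy z ∧
    yy z ≤ 4 * P.d0 ∧ ‖z.2‖ ≤ 3 / 5 ∧ JB (nz P.Om z) (20000 * P.A * CB * P.al (m + 1)) := by
  by_cases hc : 3 / 5 < ‖z.2‖ ∨ 4 * P.d0 < yy z
  · left
    have h1 : ∀ᶠ w in 𝓝 z, 3 / 5 < ‖w.2‖ ∨ 4 * P.d0 < yy w := by
      rcases hc with hc | hc
      · have : ContinuousAt (fun w : V => ‖w.2‖) z := by fun_prop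
        exact (this.eventually (lt_mem_nhds hc)).mono fun w hw => Or.inl hw
      · exact (contDiff_yy.continuous.continuousAt.eventually (lt_mem_nhds hc)).mono
          fun w hw => Or.inr hw
    have h2 : (fun _ => (0 : ℝ)) =ᶠ[𝓝 z] P.Om := by
      filter_upwards [h1, isOpen_H2.mem_nhds hz] with w hw hw'
      exact (h.Om_zero hw' (hw.imp (fun a => by linarith) fun a => a.le)).symm
    exact (JB.const (0 : ℝ)).congr (nz_congr h2)
  right
  rw [not_or, not_lt, not_lt] at hc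
  obtain ⟨hc1, hc2⟩ := hc
  have hex := h.exists_δ_lt hz
  have hn := Nat.find_spec hex
  have hn0 : Nat.find hex ≠ 0 := by
    intro h0
    rw [h0] at hn
    have h2 : P.δ 0 = P.d0 := by simp [δ]
    linarith
  obtain ⟨m, hm⟩ := Nat.exists_eq_succ_of_ne_zero hn0
  have hm' : yy z ≤ 4 * P.δ m := not_lt.1 (Nat.find_min hex (by omega))
  rw [hm] at hn
  refine ⟨m, by linarith [h.δ_pos (m + 1), show 4 * P.δ (m + 1) < yy z from hn], hc2, hc1, ?_⟩
  have hs : ∀ j, Sm (nz (Wd P.B (P.δ j)) z) 0 := fun j =>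
    sm_nz (contDiff_Wd h.well _).contDiffOn hz
  have hCB : 0 ≤ CB := zero_le_one.trans h.well.one_le
  have ha := h.al_pos (m + 1)
  have h1 : ∀ j ∈ Finset.range (m + 1), JB (fun u => P.al j * nz (Wd P.B (P.δ j)) z u)
      (8192 * CB * P.al (m + 1) * (1 / 2) ^ (m + 1 - 1 - j)) := by
    intro j hj
    obtain ⟨k, rfl⟩ := Nat.exists_eq_add_of_le (Nat.lt_succ_iff.1 (Finset.mem_range.1 hj))
    have h2 := h.δ_anti (Nat.le_add_right j k)
    refine ((Wd_JB h.well (h.δ_pos j) hz (by linarith)).const_mul (hs j) _).mono ?_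
    rw [abs_of_pos (h.al_pos j), show j + k + 1 - 1 - j = k by omega]
    have h3 : √(yy z / P.δ j) ≤ 2 * √P.lam ^ k := by
      have hd : 0 < √(P.δ j) := Real.sqrt_pos.2 (h.δ_pos j)
      rw [Real.sqrt_div hz.le, div_le_iff₀ hd]
      calc √(yy z) ≤ √(4 * P.δ (j + k)) := Real.sqrt_le_sqrt hm'
        _ = 2 * √(P.δ (j + k)) := by
          rw [Real.sqrt_mul (by norm_num), show (4 : ℝ) = 2 ^ 2 by norm_num,
            Real.sqrt_sq (by norm_num)]
        _ = _ := by rw [h.sqrt_δ_add]; ring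
    have h4 := h.al_le_pow j (k + 1)
    rw [← add_assoc] at h4
    have h5 : (2 * √P.lam) ^ k ≤ (1 / 2) ^ k :=
      pow_le_pow_left₀ (by positivity) (by linarith [h.sqrt_lam_le]) k
    calc P.al j * (2048 * CB * √(yy z / P.δ j))
        ≤ (2 ^ (k + 1) * P.al (j + k + 1)) * (2048 * CB * (2 * √P.lam ^ k)) := by gcongr
      _ = 8192 * CB * P.al (j + k + 1) * (2 * √P.lam) ^ k := by rw [mul_pow, pow_succ]; ring
      _ ≤ _ := by gcongr
  have h2 := (JB.sum h1 fun j _ => (Sm.const _).rmul (hs j)).const_mul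
    (Sm.sum fun j _ => (Sm.const _).rmul (hs j)) P.A
  refine (h2.mono ?_).congr (nz_congr (h.Om_ev hn)).symm
  rw [abs_of_pos h.A_pos, ← Finset.mul_sum,
    Finset.sum_range_reflect (fun k => (1 / 2 : ℝ) ^ k) (m + 1)]
  have h3 := sum_geometric_two_le (m + 1)
  have h4 : 0 ≤ P.A * CB * P.al (m + 1) := by have := h.A_pos; positivity
  nlinarith

theorem slab_subset (j : ℕ) : P.slab j ⊆ R1 := by
  rintro z ⟨h1, h2, h3⟩
  have h4 := h.δ_pos j
  have h5 := h.δ_anti (Nat.zero_le j)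
  have h6 : P.δ 0 = P.d0 := by simp [δ]
  have h7 := h.d0_le
  have h8 := Real.sqrt_nonneg (P.δ j)
  exact ⟨by linarith, by linarith, by linarith⟩

/-- The point `(25 δ j, 0)` is an interior point of the slab. -/
theorem slab_nhds (j : ℕ) : ∃ z ∈ R1, P.slab j ∈ 𝓝 z := by
  have h4 := h.δ_pos j
  have hy : yy (((25 * P.δ j : ℝ) : ℂ), 0) = 50 * P.δ j := by
    simp only [yy, ofReal_re, map_zero]
    ring
  have hn : P.slab j ∈ 𝓝 ((((25 * P.δ j : ℝ) : ℂ), 0) : V) := by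
    have c1 : ContinuousAt yy (((25 * P.δ j : ℝ) : ℂ), 0) := contDiff_yy.continuous.continuousAt
    have c2 : ContinuousAt (fun w : V => ‖w.2‖) (((25 * P.δ j : ℝ) : ℂ), 0) := by fun_prop
    have e1 := c1.eventually (lt_mem_nhds (show P.δ j / 2 < _ by rw [hy]; linarith))
    have e2 := c1.eventually (gt_mem_nhds (show _ < 100 * P.δ j by rw [hy]; linarith))
    have e3 := c2.eventually (gt_mem_nhds (show _ < 1 / 3 - 15 * √(P.δ j) by
      simp only [norm_zero]; linarith [h.sqrt_δ_le j]))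
    filter_upwards [e1, e2, e3] with w a b c using ⟨a.le, b.le, c.le⟩
  exact ⟨_, h.slab_subset j (mem_of_mem_nhds hn), hn⟩

end OK

end WP

end Crest.Agent.R245
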